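import Mathlib

/-! Working definitions: matrices and scalar functions. -/

open scoped ContDiff Topology Matrix
open Filter Set

noncomputable section

namespace Vale.Agent.P231

/-- The radial density of the model. -/
def mdl (D : ℝ) (m k : ℕ) (u : ℝ) : ℝ :=
  (2 * D / Real.pi * Real.sin (Real.pi * u / (2 * D))) ^ m * Real.cos (Real.pi * u / (2 * D)) ^ k

section Matrices

variable {ι α β : Type} [Fintype ι] [DecidableEq ι] [Fintype α] [DecidableEq α] [Fintype β]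
  [DecidableEq β]

/-- The pairing of the fields vanishing at `s` with the fields vanishing at `t`. -/
def Wm (C A : ℝ → Matrix ι ι ℝ) (s t : ℝ) : Matrix ι ι ℝ := A t * (C s)ᵀ - C t * (A s)ᵀ

/-- Scalar product at time `s` of two Jacobi fields. -/
def Gm (C A : ℝ → Matrix ι ι ℝ) (s : ℝ) (y w y' w' : ι → ℝ) : ℝ :=
  (C s *ᵥ y + A s *ᵥ w) ⬝ᵥ (C s *ᵥ y' + A s *ᵥ w')

/-- Normal Jacobi fields in matrix form, in arbitrary orthonormal frames. -/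
structure Jac (D : ℝ) (C A : ℝ → Matrix ι ι ℝ) : Prop where
  pos : 0 < D
  C0 : C 0 = 1
  A0 : A 0 = 0
  smooth : ∀ y w y' w', ContDiff ℝ ∞ fun s => Gm C A s y w y' w'
  lag : ∀ s, Wm C A s s = 0
  deriv : ∀ s y w, C s *ᵥ y + A s *ᵥ w = 0 → ∀ y' w',
    HasDerivAt (fun t => Gm C A t y w y' w') (w ⬝ᵥ y' - y ⬝ᵥ w') s
  per : ∀ s y w y' w', Gm C A (s + 2 * D) y w y' w' = Gm C A s y w y' w'
  nc : ∀ s t, s < t → t < s + D → (Wm C A s t).det ≠ 0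
  asym : ∀ w w', Tendsto (fun t => Gm C A t 0 w 0 w' / t ^ 2) (𝓝[≠] 0) (𝓝 (w ⬝ᵥ w'))

/-- The second block of coordinates is the kernel of `B`. -/
def Adapted (B : Matrix (α ⊕ β) (α ⊕ β) ℝ) : Prop :=
  ∀ w : α ⊕ β → ℝ, B *ᵥ w = 0 ↔ ∀ a, w (Sum.inl a) = 0

/-- Gram matrix of the fields vanishing at `0`. -/
def gm (A : ℝ → Matrix ι ι ℝ) (t : ℝ) : Matrix ι ι ℝ := (A t)ᵀ * A t

/-- The fields vanishing at `t` form the graph of this matrix. -/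
def Sl (C A : ℝ → Matrix ι ι ℝ) (t : ℝ) : Matrix ι ι ℝ := -((A t)⁻¹ * C t)

/-- The data seen from the base point `0`. -/
structure SData (D : ℝ) (g S : ℝ → Matrix (α ⊕ β) (α ⊕ β) ℝ) (P S₁ : ℝ → Matrix α α ℝ) :
    Prop where
  pos : 0 < D
  pd : ∀ t ∈ Ioo 0 (2 * D), t ≠ D → (g t).PosDef
  cont : Continuous g
  symm : ∀ t ∈ Ioo 0 (2 * D), t ≠ D → (S t)ᵀ = S t
  deriv : ∀ t ∈ Ioo 0 (2 * D), t ≠ D → ∀ i j, HasDerivAt (fun σ => S σ i j) ((g t)⁻¹ i j) t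
  P_eq : ∀ t, t ≠ D → P t = (g t)⁻¹.toBlocks₁₁
  S_eq : ∀ t, t ≠ D → S₁ t = (S t).toBlocks₁₁
  P_pd : ∀ t ∈ Ioo 0 (2 * D), (P t).PosDef
  P_cont : ContinuousOn P (Ioo 0 (2 * D))
  S_cont : ContinuousOn S₁ (Ioo 0 (2 * D))
  asym0 : Tendsto (fun t => (t ^ 2)⁻¹ • g t) (𝓝[>] 0) (𝓝 1)
  asym2 : Tendsto (fun t => ((2 * D - t) ^ 2)⁻¹ • g t) (𝓝[<] (2 * D)) (𝓝 1)
  asymD : ∃ c : ℝ, 0 < c ∧ Tendsto
    (fun t => (g t).toBlocks₂₂.det / (t - D) ^ (2 * Fintype.card β)) (𝓝[≠] D) (𝓝 c)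

end Matrices

/-- A positive function on `(0, l)` with simple zeros at both ends. -/
structure Good (φ : ℝ → ℝ) (l c₀ c₁ : ℝ) : Prop where
  lpos : 0 < l
  pos0 : 0 < c₀
  pos1 : 0 < c₁
  cont : ContinuousOn φ (Ioo 0 l)
  pos : ∀ t ∈ Ioo 0 l, 0 < φ t
  left : Tendsto (fun t => φ t / t) (𝓝[>] 0) (𝓝 c₀)
  right : Tendsto (fun t => φ t / (l - t)) (𝓝[<] l) (𝓝 c₁)

/-- Integral of `φ⁻²`. -/
def iv (φ : ℝ → ℝ) (s t : ℝ) : ℝ := ∫ σ in s..t, (φ σ ^ 2)⁻¹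

/-- The scalar density. -/
def sth (φ : ℝ → ℝ) (s t : ℝ) : ℝ := φ s * φ t * iv φ s t

/-- The logarithmic integral of the scalar density over the circle of length `l`. -/
def sI (φ : ℝ → ℝ) (l u : ℝ) : ℝ :=
  (∫ s in (0 : ℝ)..(l - u), Real.log (sth φ s (s + u))) +
    ∫ s in (0 : ℝ)..u, Real.log (sth φ s (s + (l - u)))

/-- A bi-Lipschitz parametrisation of the projective line with speed `κ`. -/
structure Circ (χ κ : ℝ → ℝ) (l : ℝ) : Prop where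
  lpos : 0 < l
  meas : Measurable κ
  per : Function.Periodic κ l
  bdd : ∃ k₁ k₂ : ℝ, 0 < k₁ ∧ ∀ t, k₁ ≤ κ t ∧ κ t ≤ k₂
  cont : ContinuousOn κ (Ioo 0 l)
  eq : ∀ t, χ t = ∫ s in (0 : ℝ)..t, κ s
  total : χ l = Real.pi

/-- Logarithmic integral of the sine of the increments. -/
def Psi (χ : ℝ → ℝ) (l u : ℝ) : ℝ := ∫ s in (0 : ℝ)..l, Real.log (Real.sin (χ (s + u) - χ s))

/-- The roots of the two partial determinants. -/
structure Roots {α β : Type} [Fintype α] [DecidableEq α] [Fintype β] [DecidableEq β] (D : ℝ)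
    (g : ℝ → Matrix (α ⊕ β) (α ⊕ β) ℝ) (P : ℝ → Matrix α α ℝ) (φ₁ φ₂ : ℝ → ℝ) (c : ℝ) : Prop where
  good2 : Good φ₂ (2 * D) 1 1
  good1 : Good φ₁ D 1 c
  good1' : Good (fun σ => φ₁ (σ + D)) D c 1
  det2 : ∀ t ∈ Ioo 0 (2 * D), ((φ₂ t ^ 2)⁻¹) ^ Fintype.card α = (P t).det
  det1 : ∀ t ∈ Ioo 0 (2 * D), t ≠ D → (φ₁ t ^ 2) ^ Fintype.card β = (g t).toBlocks₂₂.det
  det : ∀ t ∈ Ioo 0 (2 * D), t ≠ D →
    (g t).det = (φ₂ t ^ Fintype.card α * φ₁ t ^ Fintype.card β) ^ 2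

end Vale.Agent.P231
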