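import Vale.Agent.P234.Hess
import Vale.Agent.P231.AbsM

/-! Working definitions. -/

open scoped ContDiff Topology Matrix
open Filter Set

noncomputable section

namespace Vale.Agent.P231

open Vale.Agent.P234

variable {M : Type*} [MetricSpace M] {T : M → Type*} [∀ x, NormedAddCommGroup (T x)]
  [∀ x, InnerProductSpace ℝ (T x)]

/-- Abstract Blaschke structure of diameter `D`. -/
structure Bl (e : ∀ x, T x → M) (r D : ℝ) : Prop extends Geo e r where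
  dpos : 0 < D
  le : ∀ x y : M, dist x y ≤ D
  min : ∀ x (v : T x), ‖v‖ ≤ D → dist x (e x v) = ‖v‖

/-- Smooth maps into `M`, read in normal coordinates at the image point. -/
def Sm (e : ∀ x, T x → M) {Z : Type*} [NormedAddCommGroup Z] [NormedSpace ℝ Z] (f : Z → M)
    (z₀ : Z) : Prop := ContDiffAt ℝ ∞ (fun z => lg e (f z₀) (f z)) z₀

/-- The geodesic line through two points. -/
def ln (e : ∀ x, T x → M) (x y : M) (s : ℝ) : M := e x (s • lg e x y)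

/-- A unit speed geodesic with its velocity field. -/
structure Line (e : ∀ x, T x → M) (γ : ℝ → M) (ρ : ∀ s, T (γ s)) : Prop where
  norm : ∀ s, ‖ρ s‖ = 1
  flow : ∀ s t, γ (s + t) = e (γ s) (t • ρ s)

/-- Jacobian of the exponential map. -/
def jac [∀ x, FiniteDimensional ℝ (T x)] (e : ∀ x, T x → M) (x : M) (a : T x) : ℝ :=
  (Lmap e x a (e x a)).toLinearMap.normDet

/-- Dimension of the kernel of the differential of the exponential map. -/
def kap (e : ∀ x, T x → M) (x : M) (a : T x) : ℕ :=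
  Module.finrank ℝ (LinearMap.ker (Lmap e x a (e x a)).toLinearMap)

/-- The Jacobian as a function of two points. -/
def th [∀ x, FiniteDimensional ℝ (T x)] (e : ∀ x, T x → M) (x y : M) : ℝ := jac e x (lg e x y)

/-- The polar density as a function of two points. -/
def dens [∀ x, FiniteDimensional ℝ (T x)] (e : ∀ x, T x → M) (m : ℕ) (D : ℝ) (x y : M) : ℝ :=
  if dist x y < D then dist x y ^ m * th e x y else 0

/-- The family of geodesics near `γ`, parametrised by the positions at times `0` and `τ`. -/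
def Gam (e : ∀ x, T x → M) (γ : ℝ → M) (τ : ℝ) (z : T (γ 0) × T (γ τ)) (s : ℝ) : M :=
  ln e (e (γ 0) z.1) (e (γ τ) z.2) (s / τ)

/-- Value at time `s` of a Jacobi field. -/
def Ym (e : ∀ x, T x → M) (γ : ℝ → M) (τ s : ℝ) : T (γ 0) × T (γ τ) →L[ℝ] T (γ s) :=
  fderiv ℝ (fun z => lg e (γ s) (Gam e γ τ z s)) 0

/-- Parameters of the geodesic that starts from `γ s` at time `s` with velocity `w`. -/
def par (e : ∀ x, T x → M) (γ : ℝ → M) (τ s : ℝ) (w : T (γ s)) : T (γ 0) × T (γ τ) :=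
  (lg e (γ 0) (e (γ s) ((0 - s) • w)), lg e (γ τ) (e (γ s) ((τ - s) • w)))

/-- The Jacobi fields that vanish at time `s`. -/
def io (e : ∀ x, T x → M) (γ : ℝ → M) (ρ : ∀ s, T (γ s)) (τ s : ℝ) :
    T (γ s) →L[ℝ] T (γ 0) × T (γ τ) := fderiv ℝ (par e γ τ s) (ρ s)

/-- Speed of the geodesics of the family. -/
def spd (e : ∀ x, T x → M) (γ : ℝ → M) (τ : ℝ) (z : T (γ 0) × T (γ τ)) : ℝ :=
  dist (e (γ 0) z.1) (e (γ τ) z.2) / τ

/-- Variation of the speed. -/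
def sg (e : ∀ x, T x → M) (γ : ℝ → M) (τ : ℝ) : T (γ 0) × T (γ τ) →L[ℝ] ℝ :=
  fderiv ℝ (spd e γ τ) 0

/-- Momentum at time `s` in normal coordinates at `γ s`, computed with the step `u`. -/
def mom (e : ∀ x, T x → M) (γ : ℝ → M) (τ s u : ℝ) (z : T (γ 0) × T (γ τ)) : T (γ s) →L[ℝ] ℝ :=
  (-u⁻¹) • fderiv ℝ (fun a : T (γ s) => cost (e (γ s) a) (Gam e γ τ z (s + u)))
    (lg e (γ s) (Gam e γ τ z s))

/-- The symplectic form computed at time `s`. -/
def om (e : ∀ x, T x → M) (γ : ℝ → M) (τ s : ℝ) (j j' : T (γ 0) × T (γ τ)) : ℝ :=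
  fderiv ℝ (mom e γ τ s τ) 0 j (Ym e γ τ s j') - fderiv ℝ (mom e γ τ s τ) 0 j' (Ym e γ τ s j)

/-- The space of Jacobi fields along a geodesic. -/
structure JData {J : Type*} [NormedAddCommGroup J] [NormedSpace ℝ J] (e : ∀ x, T x → M) (D : ℝ)
    (γ : ℝ → M) (ρ : ∀ s, T (γ s)) (Y : ∀ s, J →L[ℝ] T (γ s)) (ι : ∀ s, T (γ s) →L[ℝ] J)
    (Ω : J →ₗ[ℝ] J →ₗ[ℝ] ℝ) (σ : J →L[ℝ] ℝ) : Prop where
  skew : ∀ j j', Ω j j' = -Ω j' j
  pair : ∀ s w j, Ω (ι s w) j = inner ℝ w (Y s j)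
  ker : ∀ s j, Y s j = 0 → ∃ w, ι s w = j
  surj : ∀ s w, inner ℝ w (ρ s) = 0 → ∃ j, σ j = 0 ∧ Y s j = w
  expd : ∀ s t w, Y t (ι s w) = (t - s) • Lmap e (γ s) ((t - s) • ρ s) (γ t) w
  radial : ∀ s t, Lmap e (γ s) ((t - s) • ρ s) (γ t) (ρ s) = ρ t
  smooth : ∀ j j', ContDiff ℝ ∞ fun s => inner ℝ (Y s j) (Y s j')
  deriv : ∀ s w j, HasDerivAt (fun t => inner ℝ (Y t (ι s w)) (Y t j)) (inner ℝ w (Y s j)) s
  rad : ∀ s t j, inner ℝ (Y t j) (ρ t) = inner ℝ (Y s j) (ρ s) + (t - s) * σ j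
  sig : ∀ s w, σ (ι s w) = inner ℝ w (ρ s)
  per : ∀ s j j', σ j = 0 → σ j' = 0 →
    inner ℝ (Y (s + 2 * D) j) (Y (s + 2 * D) j') = inner ℝ (Y s j) (Y s j')

end Vale.Agent.P231
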