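import Mathlib

/-! The compact rank one symmetric spaces as explicit metric spaces. -/

open scoped Quaternion

noncomputable section

namespace Vale.Agent.P231

/-- After scaling, `M` is isometric to the quotient of `S` by the relation `δ = 0`, with the
distance `δ`. -/
def ModelledOn (M : Type*) [MetricSpace M] (S : Type*) (δ : S → S → ℝ) : Prop :=
  ∃ c : ℝ, 0 < c ∧ ∃ Φ : S → M, Function.Surjective Φ ∧ ∀ z w, dist (Φ z) (Φ w) = c * δ z w

/-- The unit sphere of `K ^ (n + 1)`. -/
def USph (K : Type) [NormedRing K] (n : ℕ) : Type := {z : Fin (n + 1) → K // ∑ i, ‖z i‖ ^ 2 = 1}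

/-- The distance of the round sphere. -/
def sphDist {n : ℕ} (z w : USph ℝ n) : ℝ := Real.arccos (∑ i, z.1 i * w.1 i)

/-- The distance of the projective space over `K`, between the lines through two unit vectors. -/
def projDist {K : Type} [NormedRing K] [Star K] {n : ℕ} (z w : USph K n) : ℝ :=
  Real.arccos ‖∑ i, star (z.1 i) * w.1 i‖

/-- The octonions, as pairs of quaternions. -/
abbrev Oct : Type := ℍ[ℝ] × ℍ[ℝ]

/-- Cayley-Dickson product. -/
def omul (x y : Oct) : Oct := (x.1 * y.1 - star y.2 * x.2, y.2 * x.1 + x.2 * star y.1)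

/-- Conjugation. -/
def oconj (x : Oct) : Oct := (star x.1, -x.2)

/-- Euclidean scalar product. -/
def odot (x y : Oct) : ℝ := inner ℝ x.1 y.1 + inner ℝ x.2 y.2

/-- The Cayley plane: Hermitian octonionic `3 × 3` matrices of trace one and rank one, given by
the diagonal entries and the entries at the positions `(i + 1, i + 2)`. -/
def CayleyPlane : Type :=
  {p : (Fin 3 → ℝ) × (Fin 3 → Oct) // ∑ i, p.1 i = 1 ∧ ∀ i,
    odot (p.2 i) (p.2 i) = p.1 (i + 1) * p.1 (i + 2) ∧
      omul (p.2 (i + 1)) (p.2 (i + 2)) = p.1 i • oconj (p.2 i)}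

/-- The distance of the Cayley plane: the squared cosine is the trace of the Jordan product. -/
def cayDist (p q : CayleyPlane) : ℝ :=
  Real.arccos √(∑ i, p.1.1 i * q.1.1 i + 2 * ∑ i, odot (p.1.2 i) (q.1.2 i))

/-- After scaling, `M` is isometric to a compact rank one symmetric space. -/
def IsCROSS (M : Type*) [MetricSpace M] : Prop :=
  (∃ n, 1 ≤ n ∧ ModelledOn M (USph ℝ n) sphDist) ∨
    (∃ n, 1 ≤ n ∧ ModelledOn M (USph ℝ n) projDist) ∨
    (∃ n, 1 ≤ n ∧ ModelledOn M (USph ℂ n) projDist) ∨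
    (∃ n, 1 ≤ n ∧ ModelledOn M (USph ℍ[ℝ] n) projDist) ∨ ModelledOn M CayleyPlane cayDist

end Vale.Agent.P231
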