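import Vale.Agent.P231.Abs
import Vale.Agent.P231.StmtB

/-! Working definitions for the classification. -/

open scoped ContDiff Topology
open Filter Set

noncomputable section

namespace Vale.Agent.P231

open Vale.Agent.P234

section Alg

variable {V : Type*} [NormedAddCommGroup V] [InnerProductSpace ℝ V]

/-- `P v v` is `‖v‖ ^ 2` times the orthogonal projection on a subspace containing `v`. -/
structure Pre (P : V →L[ℝ] V →L[ℝ] V →L[ℝ] V) : Prop where
  symm : ∀ u v, P u v = P v u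
  adj : ∀ u v x y, inner ℝ (P u v x) y = inner ℝ x (P u v y)
  idem : ∀ v x, P v v (P v v x) = ‖v‖ ^ 2 • P v v x
  self : ∀ v, P v v v = ‖v‖ ^ 2 • v

/-- The subspaces form a partition. -/
structure Spr (P : V →L[ℝ] V →L[ℝ] V →L[ℝ] V) : Prop extends Pre P where
  part : ∀ v w, ‖v‖ = 1 → ‖w‖ = 1 → P v v w = w → P w w = P v v

/-- The squared cosine of the distance in the model. -/
def Fq (P : V →L[ℝ] V →L[ℝ] V →L[ℝ] V) (C : ℝ) (S : V) (C' : ℝ) (S' : V) : ℝ :=
  C ^ 2 * C' ^ 2 + 2 * C * C' * inner ℝ S S' + inner ℝ (P S S S') S'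

/-- Vector part of the model point. -/
def Sv (κ : ℝ) (a : V) : V := (Real.sin (κ * ‖a‖) / ‖a‖) • a

/-- The squared cosine of the distance in normal coordinates. -/
def Fn (κ : ℝ) (P : V →L[ℝ] V →L[ℝ] V →L[ℝ] V) (a b : V) : ℝ :=
  Fq P (Real.cos (κ * ‖a‖)) (Sv κ a) (Real.cos (κ * ‖b‖)) (Sv κ b)

/-- The model metric in polar coordinates, multiplied by `t ^ 2`; `q` is the squared norm of the
projection of `ξ`. -/
def Gq (κ t : ℝ) (v ξ : V) (q : ℝ) : ℝ :=
  t ^ 2 * inner ℝ ξ v ^ 2 + (Real.sin (κ * t) / κ) ^ 2 * (‖ξ‖ ^ 2 - q) +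
    (Real.sin (κ * t) * Real.cos (κ * t) / κ) ^ 2 * (q - inner ℝ ξ v ^ 2)

variable (V) in
/-- The closed upper hemisphere. -/
def Hemi : Type _ := {p : ℝ × V // 0 ≤ p.1 ∧ p.1 ^ 2 + ‖p.2‖ ^ 2 = 1}

/-- The model distance on the hemisphere. -/
def hemiDist (P : V →L[ℝ] V →L[ℝ] V →L[ℝ] V) (p q : Hemi V) : ℝ :=
  Real.arccos √(Fq P p.1.1 p.1.2 q.1.1 q.1.2)

variable {A W : Type*} [NormedAddCommGroup A] [InnerProductSpace ℝ A] [NormedAddCommGroup W]
  [InnerProductSpace ℝ W]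

/-- Conjugation with respect to the unit `o`. -/
def cj (o x : A) : A := (2 * inner ℝ x o) • o - x

/-- A composition algebra with unit `o`. -/
structure Comp (o : A) (m : A →L[ℝ] A →L[ℝ] A) : Prop where
  unit : ‖o‖ = 1
  left : ∀ x, m o x = x
  right : ∀ x, m x o = x
  norm : ∀ x y, ‖m x y‖ = ‖x‖ * ‖y‖

/-- A closed Clifford system. -/
structure Cl (o : A) (R : A →L[ℝ] W →L[ℝ] W) : Prop where
  unit : ‖o‖ = 1
  one : ∀ w, R o w = w
  norm : ∀ u w, ‖R u w‖ = ‖u‖ * ‖w‖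
  clos : ∀ w u u', ∃ z, R u' (R u w) = R z w

/-- An isometric embedding of an associative algebra in a composition algebra. -/
structure Emb {K : Type} [NormedRing K] [Star K] [NormedSpace ℝ K] (o : A)
    (m : A →L[ℝ] A →L[ℝ] A) (f : K →ₗ[ℝ] A) : Prop where
  one : f 1 = o
  mul : ∀ x y, f (x * y) = m (f x) (f y)
  norm : ∀ x, ‖f x‖ = ‖x‖
  star : ∀ x, f (star x) = cj o (f x)

/-- An isometric embedding of the octonions in a composition algebra. -/
structure EmbO (o : A) (m : A →L[ℝ] A →L[ℝ] A) (f : Oct →ₗ[ℝ] A) : Prop where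
  mul : ∀ x y, f (omul x y) = m (f x) (f y)
  dot : ∀ x y, inner ℝ (f x) (f y) = odot x y
  star : ∀ x, f (oconj x) = cj o (f x)

/-- Orthogonal projection that fixes `v`, with trace `c`. -/
structure Prj (π : V →L[ℝ] V) (v : V) (c : ℝ) : Prop where
  adj : ∀ x y, inner ℝ (π x) y = inner ℝ x (π y)
  idem : ∀ x, π (π x) = π x
  self : π v = v
  tr : LinearMap.trace ℝ V π.toLinearMap = c

end Alg

variable {M : Type*} [MetricSpace M] {T : M → Type*} [∀ x, NormedAddCommGroup (T x)]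
  [∀ x, InnerProductSpace ℝ (T x)]

/-- The metric in normal coordinates at `x` is the model metric. -/
def RigP (e : ∀ x, T x → M) (D : ℝ) (x : M) (P : T x →L[ℝ] T x →L[ℝ] T x →L[ℝ] T x) : Prop :=
  ∀ v : T x, ‖v‖ = 1 → ∀ t ∈ Ioo 0 D, ∀ ξ : T x,
    t ^ 2 * ‖Lmap e x (t • v) (e x (t • v)) ξ‖ ^ 2 =
      Gq (Real.pi / (2 * D)) t v ξ (inner ℝ (P v v ξ) ξ)

end Vale.Agent.P231
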