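import Vale.Agent.P231.AbsB

/-! Block identities. Throughout `‖u‖ = 1`, `π = P u u`, `π w = 0`, `B = P u w`. Expand
`self` and `idem` at `v = u + t • w`, where `P v v = π + 2 t B + t² P w w` and
`‖v‖² = 1 + t² ‖w‖²` (since `⟪u, w⟫ = ⟪π u, w⟫ = 0`), and compare the coefficients of the powers
of `t` (evaluate at several values of `t` and take linear combinations). -/

open scoped ContDiff Topology
open Filter Set

noncomputable section

namespace Vale.Agent.P231

variable {V : Type*} [NormedAddCommGroup V] [InnerProductSpace ℝ V]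
  {P : V →L[ℝ] V →L[ℝ] V →L[ℝ] V}

variable {u w x y : V}

theorem algA_poly {W : Type*} [AddCommGroup W] [Module ℝ W] {c1 c2 c3 : W}
    (h : ∀ t : ℝ, t • c1 + t ^ 2 • c2 + t ^ 3 • c3 = 0) : c1 = 0 ∧ c2 = 0 := by
  have h1 := h 1
  have h2 := h (-1)
  have h3 := h 2
  have h4 := h (-2)
  constructor
  · linear_combination (norm := module) (2 / 3 : ℝ) • h1 - (2 / 3 : ℝ) • h2 -
      (1 / 12 : ℝ) • h3 + (1 / 12 : ℝ) • h4
  · linear_combination (norm := module) (1 / 2 : ℝ) • h1 + (1 / 2 : ℝ) • h2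

theorem algA_exp (hP : Pre P) (a b : V) (t : ℝ) (z : V) :
    P (a + t • b) (a + t • b) z = P a a z + (2 * t) • P a b z + t ^ 2 • P b b z := by
  simp only [map_add, map_smul, add_apply, smul_apply,
    hP.symm b a]
  module

theorem algA_nsq (a b : V) (t : ℝ) :
    ‖a + t • b‖ ^ 2 = ‖a‖ ^ 2 + 2 * t * inner ℝ a b + t ^ 2 * ‖b‖ ^ 2 := by
  rw [norm_add_sq_real, inner_smul_right, norm_smul, mul_pow, Real.norm_eq_abs, sq_abs]
  ring

theorem algA_self (hP : Pre P) (a b : V) :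
    (2 : ℝ) • P a b a + P a a b = (2 * inner ℝ a b) • a + ‖a‖ ^ 2 • b := by
  have key : ∀ t : ℝ,
      t • (((2 : ℝ) • P a b a + P a a b) - ((2 * inner ℝ a b) • a + ‖a‖ ^ 2 • b)) +
      t ^ 2 • (((2 : ℝ) • P a b b + P b b a) - ((2 * inner ℝ a b) • b + ‖b‖ ^ 2 • a)) +
      t ^ 3 • (0 : V) = 0 := by
    intro t
    have h := hP.self (a + t • b)
    rw [algA_exp hP, algA_nsq] at h
    simp only [map_add, map_smul] at h
    have ha := hP.self a
    have hb := hP.self b
    linear_combination (norm := module) h - ha - t ^ 3 • hb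
  exact sub_eq_zero.1 (algA_poly key).1

theorem algA_idem (hP : Pre P) (a b z : V) :
    (P a a (P a b z) + P a b (P a a z) = inner ℝ a b • P a a z + ‖a‖ ^ 2 • P a b z) ∧
    (P a a (P b b z) + P b b (P a a z) + (4 : ℝ) • P a b (P a b z) =
      ‖a‖ ^ 2 • P b b z + ‖b‖ ^ 2 • P a a z + (4 * inner ℝ a b) • P a b z) := by
  have key : ∀ t : ℝ,
      t • ((2 : ℝ) • ((P a a (P a b z) + P a b (P a a z)) -
        (inner ℝ a b • P a a z + ‖a‖ ^ 2 • P a b z))) +
      t ^ 2 • ((P a a (P b b z) + P b b (P a a z) + (4 : ℝ) • P a b (P a b z)) -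
        (‖a‖ ^ 2 • P b b z + ‖b‖ ^ 2 • P a a z + (4 * inner ℝ a b) • P a b z)) +
      t ^ 3 • ((2 : ℝ) • ((P b b (P a b z) + P a b (P b b z)) -
        (inner ℝ a b • P b b z + ‖b‖ ^ 2 • P a b z))) = 0 := by
    intro t
    have h := hP.idem (a + t • b) z
    rw [algA_exp hP a b t z, algA_exp hP, algA_nsq] at h
    simp only [map_add, map_smul] at h
    have ha := hP.idem a z
    have hb := hP.idem b z
    linear_combination (norm := module) h - ha - t ^ 4 • hb
  obtain ⟨h1, h2⟩ := algA_poly key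
  refine ⟨?_, sub_eq_zero.1 h2⟩
  linear_combination (norm := module) (1 / 2 : ℝ) • h1

theorem algA_uu (hP : Pre P) (hu : ‖u‖ = 1) : P u u u = u := by
  rw [hP.self, hu, one_pow, one_smul]

theorem algA_pp (hP : Pre P) (hu : ‖u‖ = 1) (z : V) : P u u (P u u z) = P u u z := by
  rw [hP.idem, hu, one_pow, one_smul]

theorem algA_scale (a : V) (c : ℝ) : P (c • a) (c • a) = c ^ 2 • P a a := by
  simp only [map_smul, smul_apply, smul_smul, sq]

theorem algA_unit {a : V} (ha : a ≠ 0) : ‖(‖a‖⁻¹ : ℝ) • a‖ = 1 := by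
  rw [norm_smul, norm_inv, norm_norm, inv_mul_cancel₀ (norm_ne_zero_iff.2 ha)]

theorem Pre.perp (hP : Pre P) (hu : ‖u‖ = 1) (hw : P u u w = 0) (hx : P u u x = x) :
    inner ℝ x w = 0 := by
  rw [← hx, hP.adj, hw, inner_zero_right]

/-- `‖P v v x‖² = ‖v‖² ⟪P v v x, x⟫`. -/
theorem Pre.norm_sq (hP : Pre P) (v x : V) :
    ‖P v v x‖ ^ 2 = ‖v‖ ^ 2 * inner ℝ (P v v x) x := by
  rw [← real_inner_self_eq_norm_sq, hP.adj, hP.idem, inner_smul_right, real_inner_comm]

/-- Order `t` of `idem`. -/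
theorem Pre.off (hP : Pre P) (hu : ‖u‖ = 1) (hw : P u u w = 0) (z : V) :
    P u u (P u w z) + P u w (P u u z) = P u w z := by
  have h := (algA_idem hP u w z).1
  rw [hP.perp hu hw (algA_uu hP hu), hu] at h
  simpa using h

/-- Order `t` of `self`. -/
theorem Pre.B_u (hP : Pre P) (hu : ‖u‖ = 1) (hw : P u u w = 0) : (2 : ℝ) • P u w u = w := by
  have h := algA_self hP u w
  rw [hP.perp hu hw (algA_uu hP hu), hu, hw] at h
  simpa using h

/-- Order `t²` of `self` paired with `u` gives `⟪P w w u, u⟫ = 0`; use `norm_sq`. -/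
theorem Pre.Pw_u (hP : Pre P) (hu : ‖u‖ = 1) (hw : P u u w = 0) : P w w u = 0 := by
  have h := algA_self hP w u
  have h0 : inner ℝ w u = 0 := by
    rw [real_inner_comm]
    exact hP.perp hu hw (algA_uu hP hu)
  have h1 : inner ℝ ((2 : ℝ) • P w u w) u = ‖w‖ ^ 2 := by
    rw [inner_smul_left, hP.adj, hP.symm w u, ← real_inner_self_eq_norm_sq]
    have h2 : inner ℝ w ((2 : ℝ) • P u w u) = inner ℝ w w := by rw [hP.B_u hu hw]
    rw [inner_smul_right] at h2
    simpa using h2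
  have h3 := congrArg (fun z => inner ℝ z u) h
  simp only [inner_add_left, h1, h0] at h3
  rw [inner_smul_left, inner_smul_left, real_inner_self_eq_norm_sq, hu, h0] at h3
  have h4 : inner ℝ (P w w u) u = 0 := by
    simp only [conj_trivial] at h3
    linarith
  have h5 := hP.norm_sq w u
  rw [h4, mul_zero] at h5
  exact norm_eq_zero.1 (pow_eq_zero_iff two_ne_zero |>.1 h5)

/-- Scaled form of `part`. -/
theorem Spr.part' (hP : Spr P) {v z : V} (hv : v ≠ 0) (hz : P v v z = ‖v‖ ^ 2 • z) :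
    ‖v‖ ^ 2 • P z z = ‖z‖ ^ 2 • P v v := by
  by_cases hz0 : z = 0
  · subst hz0
    simp
  have hv' : ‖v‖ ≠ 0 := norm_ne_zero_iff.2 hv
  have hz' : ‖z‖ ≠ 0 := norm_ne_zero_iff.2 hz0
  have h := hP.part _ _ (algA_unit hv) (algA_unit hz0) (by
    rw [algA_scale, smul_apply, map_smul, hz, smul_smul, smul_smul]
    congr 1
    field_simp)
  rw [algA_scale, algA_scale] at h
  have h2 := congrArg (fun L => (‖v‖ ^ 2 * ‖z‖ ^ 2) • L) h
  simp only [smul_smul] at h2
  have e1 : ‖v‖ ^ 2 * ‖z‖ ^ 2 * ‖z‖⁻¹ ^ 2 = ‖v‖ ^ 2 := by field_simp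
  have e2 : ‖v‖ ^ 2 * ‖z‖ ^ 2 * ‖v‖⁻¹ ^ 2 = ‖z‖ ^ 2 := by field_simp
  rwa [e1, e2] at h2

/-- Polarisation of `P x x = ‖x‖² π` on the range of `π`. -/
theorem Spr.P_in (hP : Spr P) (hu : ‖u‖ = 1) (hx : P u u x = x) (hy : P u u y = y) :
    P x y = inner ℝ x y • P u u := by
  have hu0 : u ≠ 0 := by
    intro h
    rw [h, norm_zero] at hu
    exact zero_ne_one hu
  have key : ∀ z, P u u z = z → P z z = ‖z‖ ^ 2 • P u u := by
    intro z hz
    have h := hP.part' hu0 (z := z) (by rw [hz, hu, one_pow, one_smul])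
    rwa [hu, one_pow, one_smul] at h
  have h1 := key x hx
  have h2 := key y hy
  have h3 := key (x + (1 : ℝ) • y) (by rw [map_add, map_smul, hx, hy])
  ext z
  have h1' := congrArg (fun L : V →L[ℝ] V => L z) h1
  have h2' := congrArg (fun L : V →L[ℝ] V => L z) h2
  have h3' := congrArg (fun L : V →L[ℝ] V => L z) h3
  simp only [smul_apply] at h1' h2' h3' ⊢
  rw [algA_exp hP.toPre, algA_nsq] at h3'
  linear_combination (norm := module) (1 / 2 : ℝ) • h3' - (1 / 2 : ℝ) • h1' - (1 / 2 : ℝ) • h2'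

/-- `Pw_u` with `x / ‖x‖` in place of `u`. -/
theorem Spr.Pw_in (hP : Spr P) (hu : ‖u‖ = 1) (hw : P u u w = 0) (hx : P u u x = x) :
    P w w x = 0 := by
  by_cases hx0 : x = 0
  · rw [hx0, map_zero]
  have hx' : ‖x‖ ≠ 0 := norm_ne_zero_iff.2 hx0
  have h1 : P ((‖x‖⁻¹ : ℝ) • x) ((‖x‖⁻¹ : ℝ) • x) w = 0 := by
    rw [algA_scale, hP.P_in hu hx hx, smul_apply,
      smul_apply, hw, smul_zero, smul_zero]
  have h2 := hP.toPre.Pw_u (algA_unit hx0) h1
  rw [map_smul] at h2
  exact (smul_eq_zero.1 h2).resolve_left (inv_ne_zero hx')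

theorem Pre.B_in (hP : Pre P) (hu : ‖u‖ = 1) (hw : P u u w = 0) (hx : P u u x = x) :
    P u u (P u w x) = 0 := by
  have h := hP.off hu hw x
  rw [hx] at h
  linear_combination (norm := module) h

theorem Pre.B_out (hP : Pre P) (hu : ‖u‖ = 1) (hw : P u u w = 0) (hy : P u u y = 0) :
    P u u (P u w y) = P u w y := by
  have h := hP.off hu hw y
  rwa [hy, map_zero, add_zero] at h

/-- Order `t²` of `idem`: `π P_w + P_w π + 4 B² = P_w + ‖w‖² π`. -/
theorem Spr.BB_in (hP : Spr P) (hu : ‖u‖ = 1) (hw : P u u w = 0) (hx : P u u x = x) :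
    (4 : ℝ) • P u w (P u w x) = ‖w‖ ^ 2 • x := by
  have h := (algA_idem hP.toPre u w x).2
  rw [hx, hP.Pw_in hu hw hx, hP.toPre.perp hu hw (algA_uu hP.toPre hu), map_zero] at h
  linear_combination (norm := module) h

theorem Spr.BB_out (hP : Spr P) (hu : ‖u‖ = 1) (hw : P u u w = 0) (hy : P u u y = 0) :
    (4 : ℝ) • P u w (P u w y) = P w w y := by
  have h := (algA_idem hP.toPre u w y).2
  have h1 : P u u (P w w y) = 0 := by
    apply ext_inner_right ℝ
    intro z
    rw [hP.adj, hP.adj, hP.Pw_in hu hw (algA_pp hP.toPre hu z), inner_zero_right,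
      inner_zero_left]
  rw [h1, hy, hP.toPre.perp hu hw (algA_uu hP.toPre hu), map_zero, hu] at h
  linear_combination (norm := module) h

theorem Spr.norm_B (hP : Spr P) (hu : ‖u‖ = 1) (hw : P u u w = 0) (hx : P u u x = x) :
    ‖(2 : ℝ) • P u w x‖ = ‖w‖ * ‖x‖ := by
  have h := hP.BB_in hu hw hx
  have h1 : ‖(2 : ℝ) • P u w x‖ ^ 2 = (‖w‖ * ‖x‖) ^ 2 := by
    have h2 : inner ℝ x ((4 : ℝ) • P u w (P u w x)) = inner ℝ x (‖w‖ ^ 2 • x) := by rw [h]
    rw [inner_smul_right, inner_smul_right, ← hP.adj, real_inner_self_eq_norm_sq,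
      real_inner_self_eq_norm_sq] at h2
    rw [norm_smul, mul_pow, mul_pow, Real.norm_eq_abs, sq_abs]
    linarith
  exact (pow_left_inj₀ (norm_nonneg _) (by positivity) two_ne_zero).1 h1

/-- Order `t³` of `idem`: `B P_w + P_w B = ‖w‖² B`. -/
theorem Spr.Pw_B (hP : Spr P) (hu : ‖u‖ = 1) (hw : P u u w = 0) (hx : P u u x = x) :
    P w w (P u w x) = ‖w‖ ^ 2 • P u w x := by
  have h := (algA_idem hP.toPre w u x).1
  have h0 : inner ℝ w u = 0 := by
    rw [real_inner_comm]
    exact hP.toPre.perp hu hw (algA_uu hP.toPre hu)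
  rw [hP.Pw_in hu hw hx, h0, map_zero, hP.symm w u] at h
  linear_combination (norm := module) h

/-- Reduce to a unit vector `a`, write `b = x + w`; both sides are `‖x‖²` (`P_in`, `B_in` with
`x / ‖x‖` in place of `u`, `Pw_u`). -/
theorem Spr.Q_symm (hP : Spr P) (a b : V) : inner ℝ (P a a b) b = inner ℝ (P b b a) a := by
  have key : ∀ u b : V, ‖u‖ = 1 → inner ℝ (P u u b) b = inner ℝ (P b b u) u := by
    intro u b hu
    have hx : P u u (P u u b) = P u u b := algA_pp hP.toPre hu b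
    have hw : P u u (b - P u u b) = 0 := by rw [map_sub, hx, sub_self]
    have hb : b = P u u b + (1 : ℝ) • (b - P u u b) := by module
    generalize P u u b = x at hx hw hb
    generalize b - x = w at hw hb
    have huu := algA_uu hP.toPre hu
    have hxw := hP.toPre.perp hu hw hx
    have hxx : P x x = ‖x‖ ^ 2 • P u u := by
      rw [hP.P_in hu hx hx, real_inner_self_eq_norm_sq]
    have h1 : inner ℝ (P x w u) u = 0 := by
      by_cases hx0 : x = 0
      · rw [hx0]
        simp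
      have h := (algA_idem hP.toPre x w u).1
      rw [hxx, hxw] at h
      simp only [smul_apply, huu, map_smul] at h
      have h2 : ‖x‖ ^ 2 • P u u (P x w u) = 0 := by linear_combination (norm := module) h
      have h3 := (smul_eq_zero.1 h2).resolve_left (pow_ne_zero 2 (norm_ne_zero_iff.2 hx0))
      have h4 : inner ℝ (P u u (P x w u)) u = inner ℝ (P x w u) u := by rw [hP.adj, huu]
      rw [← h4, h3, inner_zero_left]
    rw [hb, algA_exp hP.toPre, hP.toPre.Pw_u hu hw, hxx]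
    simp only [inner_add_left, inner_add_right, inner_smul_left, inner_smul_right,
      smul_apply, huu, h1, hxw, real_inner_self_eq_norm_sq, hu, smul_zero,
      inner_zero_left, conj_trivial]
    ring
  by_cases ha : a = 0
  · rw [ha]
    simp
  have h := key _ b (algA_unit ha)
  rw [algA_scale, smul_apply, map_smul, inner_smul_left, inner_smul_left,
    inner_smul_right] at h
  simp only [conj_trivial] at h
  have ha' : ‖a‖⁻¹ ^ 2 ≠ 0 := pow_ne_zero 2 (inv_ne_zero (norm_ne_zero_iff.2 ha))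
  apply mul_left_cancel₀ ha'
  rw [h]
  ring

end Vale.Agent.P231
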