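import Vale.Agent.P231.AlgA

/-! The Clifford system. -/

open scoped ContDiff Topology
open Filter Set

noncomputable section

namespace Vale.Agent.P231

variable {V : Type*} [NormedAddCommGroup V] [InnerProductSpace ℝ V]
  {P : V →L[ℝ] V →L[ℝ] V →L[ℝ] V}

variable {o u w x : V}

theorem algb_exp (hP : Spr P) (u w y : V) :
    P (u + w) (u + w) y = P u u y + (2 : ℝ) • P u w y + P w w y := by
  simp only [map_add, add_apply, hP.symm w u]
  module

theorem algb_nrm (hP : Spr P) (hu : ‖u‖ = 1) (hw : P u u w = 0) : ‖u + w‖ ^ 2 = 1 + ‖w‖ ^ 2 := by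
  rw [norm_add_sq_real, hP.toPre.perp hu hw (by rw [hP.self, hu]; simp), hu]
  ring

theorem algb_fix (hP : Spr P) (hu : ‖u‖ = 1) (hw : P u u w = 0) (hx : P u u x = x) :
    P (u + w) (u + w) (x + (2 : ℝ) • P u w x) = ‖u + w‖ ^ 2 • (x + (2 : ℝ) • P u w x) := by
  rw [algb_exp hP, algb_nrm hP hu hw]
  simp only [map_add, map_smul, hx, hP.toPre.B_in hu hw hx, hP.Pw_in hu hw hx, hP.Pw_B hu hw hx]
  linear_combination (norm := module) hP.BB_in hu hw hx

theorem algb_van (hP : Spr P) (hu : ‖u‖ = 1) (hw : P u u w = 0) {y : V} (hy : P u u y = 0)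
    (h : P (u + w) (u + w) y = ‖u + w‖ ^ 2 • y) : y = 0 := by
  rw [algb_exp hP, algb_nrm hP hu hw, hy, ← hP.BB_out hu hw hy] at h
  have h1 := hP.toPre.B_out hu hw hy
  have h2 := congrArg (P u u) h
  simp only [map_add, map_smul, hy, h1, hP.toPre.B_in hu hw h1, smul_zero, add_zero,
    zero_add, smul_eq_zero, OfNat.ofNat_ne_zero, false_or] at h2
  rw [h2, map_zero, smul_zero, smul_zero, add_zero, add_zero] at h
  exact (smul_eq_zero.1 h.symm).resolve_left (by positivity)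

theorem algb_unit (hP : Spr P) (ho : ‖o‖ = 1) (hu : P o o u = u) :
    ∃ (c : ℝ) (v : V), ‖v‖ = 1 ∧ P v v = P o o ∧ u = c • v := by
  by_cases h : u = 0
  · exact ⟨0, o, ho, rfl, by simp [h]⟩
  have h0 : ‖u‖ ≠ 0 := norm_ne_zero_iff.2 h
  have h1 : ‖‖u‖⁻¹ • u‖ = 1 := by rw [norm_smul, norm_inv, norm_norm, inv_mul_cancel₀ h0]
  exact ⟨‖u‖, ‖u‖⁻¹ • u, h1, hP.part _ _ ho h1 (by rw [map_smul, hu]), by
    rw [smul_inv_smul₀ h0]⟩

theorem algb_oo (hP : Spr P) (ho : ‖o‖ = 1) : P o o o = o := by rw [hP.self, ho]; simp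

theorem algb_t0 (hP : Spr P) (ho : ‖o‖ = 1) (hu : P o o u = u) (hx : P o o x = x)
    (hw : P o o w = 0) : P u w x = P o ((2 : ℝ) • P u w o) x := by
  obtain ⟨c, v, hv, e, rfl⟩ := algb_unit hP ho hu
  suffices h : P v w x = P o ((2 : ℝ) • P v w o) x by
    simp only [map_smul, smul_apply] at h ⊢
    rw [h, smul_comm]
  have hw1 : P v v w = 0 := by rw [e, hw]
  have hx1 : P v v x = x := by rw [e, hx]
  have ho1 : P v v o = o := by rw [e, algb_oo hP ho]
  have hw2 : P o o ((2 : ℝ) • P v w o) = 0 := by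
    rw [map_smul, ← e, hP.toPre.B_in hv hw1 ho1, smul_zero]
  have n1 : v + w ≠ 0 := fun h => by
    have := algb_nrm hP hv hw1
    rw [h, norm_zero] at this
    nlinarith [sq_nonneg ‖w‖]
  have n2 : ‖o + (2 : ℝ) • P v w o‖ ^ 2 ≠ 0 := by rw [algb_nrm hP ho hw2]; positivity
  have h1 := hP.part' n1 (algb_fix hP hv hw1 ho1)
  have h2 := congrArg (· (x + (2 : ℝ) • P o ((2 : ℝ) • P v w o) x)) h1
  simp only [smul_apply] at h2
  rw [algb_fix hP ho hw2 hx, smul_comm] at h2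
  have h3 := smul_right_injective V n2 h2
  have h4 := algb_van hP hv hw1 (y := (2 : ℝ) • P v w x - (2 : ℝ) • P o ((2 : ℝ) • P v w o) x)
    (by rw [map_sub, map_smul, map_smul, hP.toPre.B_in hv hw1 hx1, e, hP.toPre.B_in ho hw2 hx,
      sub_self]) (by
      have h5 := algb_fix hP hv hw1 hx1
      rw [map_add] at h3 h5
      rw [map_sub]
      linear_combination (norm := module) h5 + h3)
  exact smul_right_injective V (two_ne_zero (α := ℝ)) (sub_eq_zero.1 h4)

theorem algb_sq (hP : Spr P) (ho : ‖o‖ = 1) (hu : P o o u = u) (hw : P o o w = 0) :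
    (2 : ℝ) • P u w u = ‖u‖ ^ 2 • w := by
  obtain ⟨c, v, hv, e, rfl⟩ := algb_unit hP ho hu
  have h := hP.toPre.B_u hv (by rw [e, hw])
  rw [norm_smul, hv, mul_one, Real.norm_eq_abs, sq_abs]
  simp only [map_smul, smul_apply]
  linear_combination (norm := module) c ^ 2 • h

theorem algb_off (hP : Spr P) (ho : ‖o‖ = 1) (hu : P o o u = u) (hw : P o o w = 0) {y : V}
    (hy : P o o y = 0) : P o o (P u w y) = P u w y := by
  obtain ⟨c, v, hv, e, rfl⟩ := algb_unit hP ho hu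
  have h := hP.toPre.B_out hv (by rw [e, hw]) (by rw [e, hy])
  rw [e] at h
  simp only [map_smul, smul_apply, h]

theorem algb_cj (hP : Spr P) (ho : ‖o‖ = 1) (hu : P o o u = u) : P o o (cj o u) = cj o u := by
  rw [cj, map_sub, map_smul, hu, algb_oo hP ho]

/-- Reduce to `‖u‖ = 1` (then `P u u = P o o`). With `B = P u w`, `z = u + w`: the vectors
`x + 2 B x` are fixed by `P z z / ‖z‖²` (`BB_in`, `Pw_B`, `Pw_in`, `B_in`), and a fixed vector
`y` with `π y = 0` vanishes (`B y = 0` by `B_out`, then `BB_out`). Put `w' = 2 B o`. By `part'`,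
`z' = o + w'` has the same fixed vectors as `z`, so `2 B x = 2 P o w' x`. Finally
`2 P u w o = 2 P o w (cj o u)` by polarising `2 P a w a = ‖a‖² w` (`B_u`). -/
theorem Spr.triple (hP : Spr P) (ho : ‖o‖ = 1) (hu : P o o u = u) (hx : P o o x = x)
    (hw : P o o w = 0) : P u w x = P o ((2 : ℝ) • P o w (cj o u)) x := by
  rw [algb_t0 hP ho hu hx hw]
  congr 2
  have h1 := algb_sq hP ho hu hw
  have h2 := hP.toPre.B_u ho hw
  have h3 := algb_sq hP ho (u := u + o) (by rw [map_add, hu, algb_oo hP ho]) hw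
  rw [norm_add_sq_real, ho] at h3
  simp only [map_add, add_apply] at h3
  rw [cj, map_sub, map_smul]
  linear_combination (norm := module) h3 - h1 - (1 + 2 * inner ℝ u o) • h2

/-- `w' = 2 P o w u` is fixed by `P w w / ‖w‖²` (`Pw_B`), so is `y = 2 P o w' x` (`Pw_B`,
`part'`), and `P w w y = 2 P o w (2 P o w y)` (`BB_out`) with `2 P o w y` in the range of `π`. -/
theorem Spr.clos (hP : Spr P) (ho : ‖o‖ = 1) (hu : P o o u = u) (hx : P o o x = x)
    (hw : P o o w = 0) :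
    ∃ z, P o o z = z ∧ P o ((2 : ℝ) • P o w u) x = P o w z := by
  by_cases h' : (2 : ℝ) • P o w u = 0
  · exact ⟨0, map_zero _, by simp [h']⟩
  have h : w ≠ 0 := fun h => h' (by simp [h])
  have hw2 : P o o ((2 : ℝ) • P o w u) = 0 := by
    rw [map_smul, hP.toPre.B_in ho hw hu, smul_zero]
  have h1 := hP.part' h (z := (2 : ℝ) • P o w u) (by rw [map_smul, hP.Pw_B ho hw hu, smul_comm])
  have h2 := congrArg (· (P o ((2 : ℝ) • P o w u) x)) h1
  simp only [smul_apply] at h2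
  rw [hP.Pw_B ho hw2 hx, smul_comm] at h2
  have h3 := smul_right_injective V (pow_ne_zero 2 (norm_ne_zero_iff.2 h')) h2
  have h4 := hP.toPre.B_in ho hw2 hx
  refine ⟨(‖w‖ ^ 2)⁻¹ • (4 : ℝ) • P o w (P o ((2 : ℝ) • P o w u) x), ?_, ?_⟩
  · rw [map_smul, map_smul, hP.toPre.B_out ho hw h4]
  · rw [map_smul (P o w), map_smul (P o w), hP.BB_out ho hw h4, ← h3,
      inv_smul_smul₀ (pow_ne_zero 2 (norm_ne_zero_iff.2 h))]

/-- the range of the projection -/
def algbA (P : V →L[ℝ] V →L[ℝ] V →L[ℝ] V) (o : V) : Submodule ℝ V :=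
  LinearMap.eqLocus (P o o : V →ₗ[ℝ] V) LinearMap.id

theorem algb_perp (hP : Spr P) (ho : ‖o‖ = 1) : w ∈ (algbA P o)ᗮ ↔ P o o w = 0 := by
  refine ⟨fun h => ?_, fun h x hx => hP.toPre.perp ho h hx⟩
  have h1 : P o o (P o o w) = P o o w := by rw [hP.idem, ho]; simp
  rw [← inner_self_eq_zero (𝕜 := ℝ), ← hP.adj, h1]
  exact h _ h1

/-- the Clifford multiplication -/
def algbR (hP : Spr P) (ho : ‖o‖ = 1) : algbA P o →L[ℝ] (algbA P o)ᗮ →L[ℝ] (algbA P o)ᗮ :=
  LinearMap.mkContinuous₂ (LinearMap.mk₂ ℝ (fun u w => ⟨(2 : ℝ) • P o w u, (algb_perp hP ho).2 (by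
      rw [map_smul, hP.toPre.B_in ho ((algb_perp hP ho).1 w.2) u.2, smul_zero])⟩)
    (fun _ _ _ => Subtype.ext (by simp)) (fun _ _ _ => Subtype.ext (by simp [smul_comm (2 : ℝ)]))
    (fun _ _ _ => Subtype.ext (by simp)) (fun _ _ _ => Subtype.ext (by simp [smul_comm (2 : ℝ)])))
    1 fun u w => by
      rw [one_mul, mul_comm]
      exact (hP.norm_B ho ((algb_perp hP ho).1 w.2) u.2).le

theorem algbR_coe (hP : Spr P) (ho : ‖o‖ = 1) (u : algbA P o) (w : (algbA P o)ᗮ) :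
    (algbR hP ho u w : V) = (2 : ℝ) • P o w u := rfl

/-- `A` is the range of `P o o`, `R u w = 2 P o w u`. Expand
`P (u + w) (u + w) = ‖u‖² π + 2 P u w + P w w`; the cross term is given by `triple`, and
`⟪P w w w', w'⟫ = ‖2 P o w w'‖²` (`BB_out`) with `2 P o w w' = z`. -/
theorem Spr.exists_cl [FiniteDimensional ℝ V] (hP : Spr P) (ho : ‖o‖ = 1) :
    ∃ (A : Submodule ℝ V) (o' : A) (R : A →L[ℝ] Aᗮ →L[ℝ] Aᗮ), Cl o' R ∧
      ∀ (u u' z : A) (w w' : Aᗮ), (∀ x : A, inner ℝ z x = inner ℝ w' (R x w)) →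
        inner ℝ (P ((u : V) + w) ((u : V) + w) ((u' : V) + w')) ((u' : V) + w') =
          ‖u‖ ^ 2 * ‖u'‖ ^ 2 + 2 * inner ℝ (R u' (R (cj o' u) w)) w' + ‖z‖ ^ 2 := by
  refine ⟨algbA P o, ⟨o, algb_oo hP ho⟩, algbR hP ho, ⟨ho, fun w => Subtype.ext
    (hP.toPre.B_u ho ((algb_perp hP ho).1 w.2)), fun u w => ?_, fun w u u' => ?_⟩,
    fun u u' z w w' hz => ?_⟩
  · rw [mul_comm]
    exact hP.norm_B ho ((algb_perp hP ho).1 w.2) u.2
  · obtain ⟨z, hz, e⟩ := hP.clos ho u.2 u'.2 ((algb_perp hP ho).1 w.2)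
    exact ⟨⟨z, hz⟩, Subtype.ext (congrArg ((2 : ℝ) • ·) e)⟩
  have hu : P o o u = u := u.2
  have hu' : P o o u' = u' := u'.2
  have hw := (algb_perp hP ho).1 w.2
  have hw' := (algb_perp hP ho).1 w'.2
  have e1 : z = ⟨(2 : ℝ) • P o w w', show P o o _ = _ by
      rw [map_smul, hP.toPre.B_out ho hw hw']; rfl⟩ := ext_inner_right ℝ fun x => by
    rw [hz]
    change inner ℝ (w' : V) ((2 : ℝ) • P o w x) = inner ℝ ((2 : ℝ) • P o w w') (x : V)
    rw [inner_smul_right, real_inner_smul_left, hP.adj]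
  have e2 : ‖z‖ ^ 2 = inner ℝ (P w w w') (w' : V) := by
    rw [e1, ← hP.BB_out ho hw hw', real_inner_smul_left, hP.adj, real_inner_self_eq_norm_sq]
    change ‖(2 : ℝ) • P o w w'‖ ^ 2 = _
    rw [norm_smul, Real.norm_ofNat]
    ring
  have e3 : inner ℝ (algbR hP ho u' (algbR hP ho (cj ⟨o, algb_oo hP ho⟩ u) w)) w' =
      2 * inner ℝ (P u w u') (w' : V) := by
    rw [hP.triple ho hu hu' hw, ← real_inner_smul_left]
    rfl
  have e4 : inner ℝ (P u w u') (u' : V) = 0 := by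
    rw [real_inner_comm]
    refine hP.toPre.perp ho ?_ hu'
    rw [hP.triple ho hu hu' hw]
    refine hP.toPre.B_in ho ?_ hu'
    rw [map_smul, hP.toPre.B_in ho hw (algb_cj hP ho hu), smul_zero]
  have e5 : inner ℝ (P u w w') (w' : V) = 0 := hP.toPre.perp ho hw' (algb_off hP ho hu hw hw')
  have e6 : inner ℝ (P u w w') (u' : V) = inner ℝ (P u w u') (w' : V) := by
    rw [hP.adj, real_inner_comm]
  have e7 : inner ℝ (P w w w') (u' : V) = 0 := by rw [hP.adj, hP.Pw_in ho hw hu', inner_zero_right]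
  have e8 : inner ℝ (u' : V) (w' : V) = 0 := hP.toPre.perp ho hw' hu'
  rw [algb_exp hP, hP.P_in ho hu hu, e2, e3]
  simp only [map_add, smul_apply, hu', hw', hP.Pw_in ho hw hu', smul_zero,
    add_zero, zero_add, inner_add_left, inner_add_right, real_inner_smul_left, e4, e5, e6, e7, e8,
    real_inner_self_eq_norm_sq, Submodule.coe_norm]
  ring

end Vale.Agent.P231
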