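import Vale.Agent.P231.AbsB

/-! A closed Clifford system is a free module over a composition algebra. -/

noncomputable section

namespace Vale.Agent.P231

variable {A W : Type*} [NormedAddCommGroup A] [InnerProductSpace ℝ A] [NormedAddCommGroup W]
  [InnerProductSpace ℝ W] {o : A} {R : A →L[ℝ] W →L[ℝ] W}

theorem Cl.algd_inner (h : Cl o R) (u u' : A) (w : W) :
    inner ℝ (R u w) (R u' w) = inner ℝ u u' * ‖w‖ ^ 2 := by
  have h1 := congrArg (· ^ 2) (h.norm (u + u') w)
  simp only [map_add, ContinuousLinearMap.add_apply, mul_pow, norm_add_sq_real, h.norm] at h1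
  linarith

theorem Cl.algd_exch (h : Cl o R) (u u' : A) (w w' : W) :
    inner ℝ (R u w) (R u' w') + inner ℝ (R u w') (R u' w) = 2 * inner ℝ u u' * inner ℝ w w' := by
  have h1 := h.algd_inner u u' (w + w')
  simp only [map_add, inner_add_left, inner_add_right, norm_add_sq_real, h.algd_inner] at h1
  linarith

theorem Cl.algd_inj (h : Cl o R) {w₀ : W} (h0 : ‖w₀‖ = 1) {x y : A} (e : R x w₀ = R y w₀) :
    x = y := by
  have h1 := h.norm (x - y) w₀
  rw [map_sub, ContinuousLinearMap.sub_apply, e, sub_self, norm_zero, h0, mul_one] at h1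
  exact sub_eq_zero.1 (norm_eq_zero.1 h1.symm)

/-- Polarise `norm` in both variables and put one entry equal to `o`. -/
theorem Cl.adj (h : Cl o R) (u : A) (w w' : W) :
    inner ℝ (R u w) w' = inner ℝ w (R (cj o u) w') := by
  have h1 := h.algd_exch u o w w'
  rw [h.one, h.one] at h1
  rw [cj, map_sub, map_smul, ContinuousLinearMap.sub_apply, ContinuousLinearMap.smul_apply,
    h.one, inner_sub_right, real_inner_smul_right, real_inner_comm (R u w') w]
  linarith

theorem Cl.inner_R (h : Cl o R) (u u' : A) (w : W) :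
    inner ℝ (R u w) (R u' w) = inner ℝ u u' * ‖w‖ ^ 2 := by
  exact h.algd_inner u u' w

/-- `x ↦ R x w₀` is a linear isometry whose range is stable (`clos`); transport. -/
theorem Cl.exists_mul [FiniteDimensional ℝ A] (h : Cl o R) {w₀ : W} (h0 : ‖w₀‖ = 1) :
    ∃ m : A →L[ℝ] A →L[ℝ] A, Comp o m ∧ ∀ x y, R (m x y) w₀ = R y (R x w₀) := by
  choose z hz using fun x y => h.clos w₀ x y
  have hn : ∀ x y, ‖z x y‖ = ‖x‖ * ‖y‖ := fun x y => by
    have h1 := h.norm (z x y) w₀
    rw [← hz, h.norm, h.norm, h0] at h1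
    linarith
  let m₀ : A →ₗ[ℝ] A →ₗ[ℝ] A := LinearMap.mk₂ ℝ z
    (fun x x' y => h.algd_inj h0 (by
      simp only [← hz, map_add, ContinuousLinearMap.add_apply]))
    (fun c x y => h.algd_inj h0 (by
      simp only [← hz, map_smul, ContinuousLinearMap.smul_apply]))
    (fun x y y' => h.algd_inj h0 (by
      simp only [← hz, map_add, ContinuousLinearMap.add_apply]))
    (fun c x y => h.algd_inj h0 (by
      simp only [← hz, map_smul, ContinuousLinearMap.smul_apply]))
  refine ⟨m₀.mkContinuous₂ 1 fun x y => by rw [one_mul]; exact (hn x y).le,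
    ⟨h.unit, fun x => h.algd_inj h0 ?_, fun x => h.algd_inj h0 ?_, hn⟩, fun x y => (hz x y).symm⟩
  · change R (z o x) w₀ = _
    rw [← hz, h.one]
  · change R (z x o) w₀ = _
    rw [← hz, h.one]

/-- Apply `clos` to `w₀ + w₁` and separate the components in the range of `x ↦ R x w₀` and in
its orthogonal, which is stable by `adj`. -/
theorem Cl.mul_perp (h : Cl o R) {w₀ w₁ : W} (h0 : ‖w₀‖ = 1) {m : A →L[ℝ] A →L[ℝ] A}
    (hm : ∀ x y, R (m x y) w₀ = R y (R x w₀)) (h1 : ∀ x, inner ℝ (R x w₀) w₁ = 0) (x y : A) :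
    R (m x y) w₁ = R y (R x w₁) := by
  obtain ⟨z, hz⟩ := h.clos (w₀ + w₁) x y
  have a1 : ∀ a b, inner ℝ (R b w₁) (R a w₀) = 0 := fun a b => by
    rw [h.adj, ← hm, real_inner_comm, h1]
  have a2 : ∀ a, inner ℝ (R y (R x w₁)) (R a w₀) = 0 := fun a => by
    rw [h.adj, ← hm, a1]
  have a3 : R (m x y - z) w₀ = R z w₁ - R y (R x w₁) := by
    rw [map_add, map_add, map_add, ← hm] at hz
    rw [map_sub, ContinuousLinearMap.sub_apply, sub_eq_sub_iff_add_eq_add, hz, add_comm]
  have a4 : R (m x y - z) w₀ = 0 := by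
    rw [← inner_self_eq_zero (𝕜 := ℝ)]
    nth_rewrite 1 [a3]
    rw [inner_sub_left, a1, a2, sub_zero]
  have a5 : m x y = z := h.algd_inj h0 (by
    rwa [map_sub, ContinuousLinearMap.sub_apply, sub_eq_zero] at a4)
  rw [a4, eq_comm, sub_eq_zero] at a3
  rw [a5, a3]

/-- Induction on the dimension of a stable subspace: split off the range of `x ↦ R x b`. -/
theorem Cl.exists_basis [FiniteDimensional ℝ W] (h : Cl o R) (U : Submodule ℝ W)
    (hU : ∀ x, ∀ w ∈ U, R x w ∈ U) : ∃ (n : ℕ) (b : Fin n → W), (∀ i, ‖b i‖ = 1) ∧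
      (∀ i j, i ≠ j → ∀ x y, inner ℝ (R x (b i)) (R y (b j)) = 0) ∧ (∀ i, b i ∈ U) ∧
      ∀ w ∈ U, ∃ c : Fin n → A, w = ∑ i, R (c i) (b i) := by
  induction hk : Module.finrank ℝ U using Nat.strong_induction_on generalizing U with
  | _ k ih =>
  by_cases hb : U = ⊥
  · refine ⟨0, Fin.elim0, fun i => i.elim0, fun i => i.elim0, fun i => i.elim0,
      fun w hw => ⟨Fin.elim0, ?_⟩⟩
    rw [hb, Submodule.mem_bot] at hw
    simp [hw]
  obtain ⟨b₀, hb₀, hne⟩ := Submodule.exists_mem_ne_zero_of_ne_bot hb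
  obtain ⟨b, hbU, hb1⟩ : ∃ b ∈ U, ‖b‖ = 1 :=
    ⟨‖b₀‖⁻¹ • b₀, U.smul_mem _ hb₀, norm_smul_inv_norm hne⟩
  let K : Submodule ℝ W := LinearMap.range (R.flip b).toLinearMap
  have hK : ∀ w, w ∈ Kᗮ ↔ ∀ x, inner ℝ (R x b) w = 0 := fun w =>
    ⟨fun hw x => hw _ ⟨x, rfl⟩, fun hw _ ⟨x, hx⟩ => hx ▸ hw x⟩
  have hst : ∀ x, ∀ w ∈ U ⊓ Kᗮ, R x w ∈ U ⊓ Kᗮ := by
    intro x w hw
    refine ⟨hU x w hw.1, (hK _).2 fun a => ?_⟩
    obtain ⟨z, hz⟩ := h.clos b a (cj o x)
    rw [real_inner_comm, h.adj, hz, real_inner_comm]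
    exact (hK _).1 hw.2 z
  have hlt : Module.finrank ℝ (U ⊓ Kᗮ : Submodule ℝ W) < k := by
    rw [← hk]
    refine Submodule.finrank_lt_finrank_of_lt (lt_of_le_of_ne inf_le_left fun he => ?_)
    have h1 := (hK b).1 (he.ge hbU).2 o
    rw [h.one, real_inner_self_eq_norm_sq, hb1] at h1
    norm_num at h1
  obtain ⟨n, b', h1, h2, h3, h4⟩ := ih _ hlt (U ⊓ Kᗮ) hst rfl
  refine ⟨n + 1, Fin.cons b b', fun i => ?_, fun i j hij x y => ?_, fun i => ?_, fun w hw => ?_⟩
  · refine Fin.cases ?_ (fun i => ?_) i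
    · exact hb1
    · exact h1 i
  · revert hij
    refine Fin.cases ?_ (fun i => ?_) i <;> refine Fin.cases ?_ (fun j => ?_) j <;> intro hij
    · exact absurd rfl hij
    · exact (hK _).1 (hst y _ (h3 j)).2 x
    · rw [real_inner_comm]
      exact (hK _).1 (hst x _ (h3 i)).2 y
    · exact h2 i j (fun e => hij (congrArg _ e)) x y
  · refine Fin.cases ?_ (fun i => ?_) i
    · exact hbU
    · exact (h3 i).1
  · obtain ⟨p, ⟨x, rfl⟩, q, hq, he⟩ := K.exists_add_mem_mem_orthogonal w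
    have hq' : q ∈ U := by
      have := U.sub_mem hw (hU x b hbU)
      rw [he] at this
      simpa using this
    obtain ⟨c, hc⟩ := h4 q ⟨hq', hq⟩
    refine ⟨Fin.cons x c, ?_⟩
    rw [Fin.sum_univ_succ, he, hc]
    rfl

/-- Take a basis of `⊤` and the product given by `b 0`; `mul_perp` gives the rule for the other
`b i`. If there is a second vector `b 1`, `mul_perp` with base `b 1` gives the rule for all
vectors `R x (b 0)`, which is associativity. `j` is the inverse of `c ↦ ∑ i, R (c i) (b i)`. -/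
theorem Cl.exists_comp [FiniteDimensional ℝ A] [FiniteDimensional ℝ W] [Nontrivial W]
    (h : Cl o R) : ∃ (m : A →L[ℝ] A →L[ℝ] A) (n : ℕ) (j : W ≃ₗ[ℝ] (Fin (n + 1) → A)),
      Comp o m ∧ (n = 0 ∨ ∀ x y z, m (m x y) z = m x (m y z)) ∧
      (∀ w w', inner ℝ w w' = ∑ i, inner ℝ (j w i) (j w' i)) ∧
      ∀ u w i, j (R u w) i = m (j w i) u := by
  obtain ⟨n, b, h1, h2, -, h4⟩ := h.exists_basis ⊤ fun _ _ _ => trivial
  obtain ⟨n, rfl⟩ : ∃ k, n = k + 1 := by
    refine Nat.exists_eq_succ_of_ne_zero ?_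
    rintro rfl
    obtain ⟨w, hw⟩ := exists_ne (0 : W)
    obtain ⟨c, hc⟩ := h4 w trivial
    exact hw (by simpa using hc)
  obtain ⟨m, hm, hm0⟩ := h.exists_mul (h1 0)
  have hmi : ∀ i x y, R (m x y) (b i) = R y (R x (b i)) := by
    intro i x y
    by_cases hi : i = 0
    · rw [hi, hm0]
    · refine h.mul_perp (h1 0) hm0 (fun a => ?_) x y
      have := h2 0 i (Ne.symm hi) a o
      rwa [h.one] at this
  let L : (Fin (n + 1) → A) →ₗ[ℝ] W :=
    { toFun := fun c => ∑ i, R (c i) (b i)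
      map_add' := fun c c' => by
        simp only [Pi.add_apply, map_add, ContinuousLinearMap.add_apply, Finset.sum_add_distrib]
      map_smul' := fun a c => by
        simp only [Pi.smul_apply, map_smul, ContinuousLinearMap.smul_apply, Finset.smul_sum,
          RingHom.id_apply] }
  have hL : ∀ c, L c = ∑ i, R (c i) (b i) := fun c => rfl
  have hin : ∀ c c', inner ℝ (L c) (L c') = ∑ i, inner ℝ (c i) (c' i) := by
    intro c c'
    rw [hL, hL, sum_inner]
    refine Finset.sum_congr rfl fun i _ => ?_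
    rw [inner_sum, Finset.sum_eq_single i (fun j _ hj => h2 i j hj.symm _ _) (by simp),
      h.inner_R, h1, one_pow, mul_one]
  have hbij : Function.Bijective L := by
    refine ⟨(injective_iff_map_eq_zero L).2 fun c hc => ?_,
      fun w => (h4 w trivial).imp fun c hc => hc.symm⟩
    have h5 := hin c c
    rw [hc, inner_zero_left, eq_comm,
      Finset.sum_eq_zero_iff_of_nonneg fun i _ => real_inner_self_nonneg] at h5
    funext i
    exact inner_self_eq_zero.1 (h5 i (Finset.mem_univ i))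
  refine ⟨m, n, (LinearEquiv.ofBijective L hbij).symm, hm, ?_, fun w w' => ?_, fun u w i => ?_⟩
  · refine or_iff_not_imp_left.2 fun hn x y z => h.algd_inj (h1 0) ?_
    have hne : (Fin.last n) ≠ 0 := by simpa using hn
    have := h.mul_perp (h1 (Fin.last n)) (hmi _) (w₁ := R x (b 0))
      (fun a => h2 _ _ hne a x) y z
    rw [hm0, hm0, hm0, this]
  · rw [← hin]
    congr 1 <;> exact ((LinearEquiv.ofBijective L hbij).apply_symm_apply _).symm
  · obtain ⟨c, rfl⟩ := (LinearEquiv.ofBijective L hbij).surjective w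
    have e : R u (LinearEquiv.ofBijective L hbij c) =
        LinearEquiv.ofBijective L hbij fun i => m (c i) u := by
      change R u (L c) = L _
      simp only [hL, map_sum, hmi]
    rw [e, LinearEquiv.symm_apply_apply, LinearEquiv.symm_apply_apply]

end Vale.Agent.P231
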