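import Vale.Agent.P231.AbsB

/-! Composition algebras: basic identities and doubling (Conway and Smith, chapter 6). -/

open scoped Quaternion

noncomputable section

namespace Vale.Agent.P231

variable {A : Type*} [NormedAddCommGroup A] [InnerProductSpace ℝ A] {o : A}
  {m : A →L[ℝ] A →L[ℝ] A}

/-- Polarise `norm` in both variables. -/
theorem Comp.exch (h : Comp o m) (a b c d : A) :
    inner ℝ (m a b) (m c d) + inner ℝ (m a d) (m c b) = 2 * inner ℝ a c * inner ℝ b d := by
  have h0 : ∀ x y, inner ℝ (m x y) (m x y) = inner ℝ x x * inner ℝ y y := fun x y => by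
    simp only [real_inner_self_eq_norm_sq, h.norm, mul_pow]
  have h1 : ∀ x y z, inner ℝ (m x y) (m x z) = inner ℝ x x * inner ℝ y z := fun x y z => by
    have e := h0 x (y + z)
    simp only [map_add, inner_add_left, inner_add_right, h0, real_inner_comm y z,
      real_inner_comm (m x y) (m x z)] at e
    linarith
  have e := h1 (a + c) b d
  simp only [map_add, ContinuousLinearMap.add_apply, inner_add_left, inner_add_right, h1] at e
  rw [real_inner_comm (m a d) (m c b), real_inner_comm a c] at e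
  linarith

/-- `exch` with one entry equal to `o`. -/
theorem Comp.adj_left (h : Comp o m) (a b c : A) :
    inner ℝ (m a b) c = inner ℝ b (m (cj o a) c) := by
  have e := h.exch a b o c
  simp only [h.left] at e
  simp only [cj, map_sub, map_smul, ContinuousLinearMap.sub_apply, ContinuousLinearMap.smul_apply,
    h.left, inner_sub_right, real_inner_smul_right, real_inner_comm (m a c) b]
  linarith

theorem Comp.adj_right (h : Comp o m) (a b c : A) :
    inner ℝ (m a b) c = inner ℝ a (m c (cj o b)) := by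
  have e := h.exch a b c o
  simp only [h.right] at e
  simp only [cj, map_sub, map_smul, h.right, inner_sub_right, real_inner_smul_right]
  linarith

theorem cj_cj (ho : ‖o‖ = 1) (a : A) : cj o (cj o a) = a := by
  simp only [cj, inner_sub_left, real_inner_smul_left, real_inner_self_eq_norm_sq, ho]
  module

theorem inner_cj (ho : ‖o‖ = 1) (a b : A) : inner ℝ (cj o a) (cj o b) = inner ℝ a b := by
  simp only [cj, inner_sub_left, inner_sub_right, real_inner_smul_left, real_inner_smul_right,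
    real_inner_self_eq_norm_sq, ho, real_inner_comm b o]
  ring

theorem Comp.cj_mul (h : Comp o m) (a b : A) : cj o (m a b) = m (cj o b) (cj o a) := by
  refine ext_inner_right ℝ fun t => ?_
  have e1 := h.adj_right (cj o a) (cj o t) b
  rw [h.adj_left, cj_cj h.unit, cj_cj h.unit] at e1
  rw [h.adj_left, cj_cj h.unit, ← e1, ← inner_cj h.unit, cj_cj h.unit, real_inner_comm]

theorem hurA_L (h : Comp o m) (x y z : A) :
    m (cj o x) (m y z) + m (cj o y) (m x z) = (2 * inner ℝ y x) • z := by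
  refine ext_inner_left ℝ fun t => ?_
  rw [inner_add_right, ← h.adj_left, ← h.adj_left, real_inner_smul_right, real_inner_comm (m y z),
    h.exch, real_inner_comm z]

theorem hurA_R (h : Comp o m) (x y z : A) :
    m (m z y) (cj o x) + m (m z x) (cj o y) = (2 * inner ℝ x y) • z := by
  refine ext_inner_left ℝ fun t => ?_
  rw [inner_add_right, ← h.adj_right, ← h.adj_right, real_inner_smul_right, h.exch]
  ring

theorem hurA_neg {x : A} (hx : inner ℝ x o = 0) : cj o x = -x := by
  simp [cj, hx]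

section Double

variable {B : Submodule ℝ A} {l a b c d : A}

theorem hurA_mem (ho : o ∈ B) (ha : a ∈ B) : cj o a ∈ B := B.sub_mem (B.smul_mem _ ho) ha

/-- `⟪a, b l⟫ = ⟪b̄ a, l⟫ = 0`. -/
theorem Comp.double_perp (h : Comp o m) (ho : o ∈ B) (hB : ∀ x ∈ B, ∀ y ∈ B, m x y ∈ B)
    (hl : l ∈ Bᗮ) (ha : a ∈ B) (hb : b ∈ B) : inner ℝ a (m b l) = 0 := by
  rw [real_inner_comm, h.adj_left]
  exact Submodule.inner_left_of_mem_orthogonal (hB _ (hurA_mem ho hb) _ ha) hl

theorem hurA_l (ho : o ∈ B) (hl : l ∈ Bᗮ) : cj o l = -l :=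
  hurA_neg (Submodule.inner_left_of_mem_orthogonal ho hl)

theorem hurA_comm (h : Comp o m) (ho : o ∈ B) (hB : ∀ x ∈ B, ∀ y ∈ B, m x y ∈ B) (hl : l ∈ Bᗮ)
    (hb : b ∈ B) : m b l = m l (cj o b) := by
  have e := h.cj_mul b l
  rw [hurA_neg (by rw [real_inner_comm]; exact h.double_perp ho hB hl ho hb), hurA_l ho hl,
    map_neg, ContinuousLinearMap.neg_apply] at e
  exact neg_injective e

theorem hurA_one (h : Comp o m) (ho : o ∈ B) (hB : ∀ x ∈ B, ∀ y ∈ B, m x y ∈ B) (hl : l ∈ Bᗮ)
    (ha : a ∈ B) (hd : d ∈ B) : m a (m d l) = m (m d a) l := by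
  have e := hurA_L h (cj o a) l (cj o d)
  rw [cj_cj h.unit, hurA_l ho hl, Submodule.inner_left_of_mem_orthogonal (hurA_mem ho ha) hl,
    mul_zero, zero_smul, map_neg, ContinuousLinearMap.neg_apply, add_neg_eq_zero] at e
  rw [hurA_comm h ho hB hl hd, e, hurA_comm h ho hB hl (hB _ hd _ ha), h.cj_mul]

theorem hurA_two (h : Comp o m) (ho : o ∈ B) (hl : l ∈ Bᗮ) (b : A) (hc : c ∈ B) :
    m (m b l) c = m (m b (cj o c)) l := by
  have e := hurA_R h (cj o c) l b
  rwa [cj_cj h.unit, hurA_l ho hl, Submodule.inner_right_of_mem_orthogonal (hurA_mem ho hc) hl,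
    mul_zero, zero_smul, map_neg, add_neg_eq_zero] at e

theorem hurA_three (h : Comp o m) (ho : o ∈ B) (hB : ∀ x ∈ B, ∀ y ∈ B, m x y ∈ B) (hl : l ∈ Bᗮ)
    (h1 : ‖l‖ = 1) (hb : b ∈ B) (hd : d ∈ B) : m (m b l) (m d l) = -m (cj o d) b := by
  have e1 : m (m b l) l = -b := by
    have e := hurA_R h l l b
    rw [hurA_l ho hl, map_neg, real_inner_self_eq_norm_sq, h1] at e
    have e2 : (2 : ℝ) • m (m b l) l = (2 : ℝ) • -b := by
      linear_combination (norm := module) -e
    exact smul_right_injective A two_ne_zero e2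
  have e := hurA_L h (m b l) d l
  rw [hurA_neg (by rw [real_inner_comm]; exact h.double_perp ho hB hl ho hb), e1,
    h.double_perp ho hB hl hd hb, mul_zero, zero_smul, map_neg, map_neg,
    ContinuousLinearMap.neg_apply, neg_add_eq_zero] at e
  exact e

theorem hurA_inner (h : Comp o m) (h1 : ‖l‖ = 1) (b d : A) :
    inner ℝ (m b l) (m d l) = inner ℝ b d := by
  have e := h.exch b l d l
  rw [real_inner_self_eq_norm_sq, h1] at e
  linarith

/-- Test against an arbitrary `t` with `exch` and the adjoint identities: `l a = ā l`,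
`a (d l) = (d a) l`, `(b l) c = (b c̄) l`, `(b l) (d l) = - d̄ b`. -/
theorem Comp.double_mul (h : Comp o m) (ho : o ∈ B) (hB : ∀ x ∈ B, ∀ y ∈ B, m x y ∈ B)
    (hl : l ∈ Bᗮ) (h1 : ‖l‖ = 1) (ha : a ∈ B) (hb : b ∈ B) (hc : c ∈ B) (hd : d ∈ B) :
    m (a + m b l) (c + m d l) = (m a c - m (cj o d) b) + m (m d a + m b (cj o c)) l := by
  simp only [map_add, ContinuousLinearMap.add_apply, hurA_one h ho hB hl ha hd,
    hurA_two h ho hl b hc, hurA_three h ho hB hl h1 hb hd]
  abel

theorem Comp.double_cj (h : Comp o m) (ho : o ∈ B) (hB : ∀ x ∈ B, ∀ y ∈ B, m x y ∈ B)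
    (hl : l ∈ Bᗮ) (ha : a ∈ B) (hb : b ∈ B) : cj o (a + m b l) = cj o a + m (-b) l := by
  have e := hurA_neg (o := o) (by rw [real_inner_comm]; exact h.double_perp ho hB hl ho hb)
  simp only [cj, inner_add_left, map_neg, ContinuousLinearMap.neg_apply] at e ⊢
  rw [← e]
  module

theorem Comp.double_inner (h : Comp o m) (ho : o ∈ B) (hB : ∀ x ∈ B, ∀ y ∈ B, m x y ∈ B)
    (hl : l ∈ Bᗮ) (h1 : ‖l‖ = 1) (ha : a ∈ B) (hb : b ∈ B) (hc : c ∈ B) (hd : d ∈ B) :
    inner ℝ (a + m b l) (c + m d l) = inner ℝ a c + inner ℝ b d := by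
  rw [inner_add_left, inner_add_right, inner_add_right, h.double_perp ho hB hl ha hd,
    real_inner_comm c (m b l), h.double_perp ho hB hl hc hb, hurA_inner h h1]
  ring

/-- Multiplicativity of the norm in `double_mul` gives `⟪a c, d̄ b⟫ = ⟪d a, b c̄⟫`, that is
`⟪d (a c) - (d a) c, b⟫ = 0` for all `b ∈ B`. -/
theorem Comp.double_assoc (h : Comp o m) (ho : o ∈ B) (hB : ∀ x ∈ B, ∀ y ∈ B, m x y ∈ B)
    (hl : l ∈ Bᗮ) (h1 : ‖l‖ = 1) (ha : a ∈ B) (hb : b ∈ B) (hc : c ∈ B) :
    m (m a b) c = m a (m b c) := by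
  have key : ∀ t ∈ B, inner ℝ (m (m a b) c - m a (m b c)) t = 0 := fun t ht => by
    have e := h.exch b c (m t l) (m a l)
    rw [hurA_three h ho hB hl h1 ht ha, hurA_one h ho hB hl hb ha, hurA_two h ho hl t hc,
      hurA_inner h h1, h.double_perp ho hB hl hb ht, inner_neg_right, ← h.adj_left,
      ← h.adj_right] at e
    rw [inner_sub_left]
    linarith
  exact sub_eq_zero.1 (inner_self_eq_zero.1
    (key _ (B.sub_mem (hB _ (hB _ ha _ hb) _ hc) (hB _ ha _ (hB _ hb _ hc)))))

end Double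

end Vale.Agent.P231
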