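import Vale.Agent.P231.AlgB
import Vale.Agent.P231.AlgD
import Vale.Agent.P231.HurA

/-! Coordinates. -/

open scoped ContDiff Topology
open Filter Set

noncomputable section

namespace Vale.Agent.P231

variable {V : Type*} [NormedAddCommGroup V] [InnerProductSpace ℝ V]
  {P : V →L[ℝ] V →L[ℝ] V →L[ℝ] V}

/-- Take a unit vector and `exists_cl`. If `Aᗮ` is trivial we are in the first case (take
`w = w' = 0`, `z = 0`). Otherwise use `exists_comp`; `J S = Fin.cons u (j w)` where `S = u + w`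
(`Submodule.prodEquivOfIsCompl`), and `z = ∑ i, m (cj o (j w i)) (j w' i)` by `adj_left`. -/
theorem Spr.coord [FiniteDimensional ℝ V] (hP : Spr P) (hV : 0 < Module.finrank ℝ V) :
    (∀ S S' : V, inner ℝ (P S S S') S' = ‖S‖ ^ 2 * ‖S'‖ ^ 2) ∨
      ∃ (A : Submodule ℝ V) (o : A) (m : A →L[ℝ] A →L[ℝ] A) (n : ℕ)
        (J : V ≃ₗ[ℝ] (Fin (n + 2) → A)), Comp o m ∧
        (n = 0 ∨ ∀ x y z, m (m x y) z = m x (m y z)) ∧
        (∀ S S', inner ℝ S S' = ∑ i, inner ℝ (J S i) (J S' i)) ∧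
        ∀ S S', inner ℝ (P S S S') S' = ‖J S 0‖ ^ 2 * ‖J S' 0‖ ^ 2 +
          2 * ∑ i : Fin (n + 1),
            inner ℝ (m (m (J S i.succ) (cj o (J S 0))) (J S' 0)) (J S' i.succ) +
          ‖∑ i : Fin (n + 1), m (cj o (J S i.succ)) (J S' i.succ)‖ ^ 2 := by
  have := Module.nontrivial_of_finrank_pos hV
  obtain ⟨v, hv⟩ := exists_norm_eq V zero_le_one
  obtain ⟨A, o, R, hR, hf⟩ := hP.exists_cl hv
  let e : (A × Aᗮ) ≃ₗ[ℝ] V := Submodule.prodEquivOfIsCompl A Aᗮ A.isCompl_orthogonal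
  have he : ∀ S : V, ∃ (u : A) (w : Aᗮ), e.symm S = (u, w) ∧ S = (u : V) + w := fun S =>
    ⟨(e.symm S).1, (e.symm S).2, rfl, (e.apply_symm_apply S).symm⟩
  rcases subsingleton_or_nontrivial Aᗮ with h0 | h0
  · refine Or.inl fun S S' => ?_
    obtain ⟨u, w, -, rfl⟩ := he S
    obtain ⟨u', w', -, rfl⟩ := he S'
    obtain rfl := Subsingleton.elim w 0
    obtain rfl := Subsingleton.elim w' 0
    rw [hf u u' 0 0 0 fun x => by simp]
    simp
  obtain ⟨m, n, j, hm, ha, hi, hj⟩ := hR.exists_comp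
  let J : V ≃ₗ[ℝ] (Fin (n + 2) → A) := e.symm ≪≫ₗ ((LinearEquiv.refl ℝ A).prodCongr j) ≪≫ₗ
    Fin.consLinearEquiv ℝ fun _ : Fin (n + 2) => A
  have hJ : ∀ S : V, ∃ (u : A) (w : Aᗮ), J S 0 = u ∧ (∀ i, J S (Fin.succ i) = j w i) ∧
      S = (u : V) + w := fun S => by
    obtain ⟨u, w, h1, h2⟩ := he S
    exact ⟨u, w, congrArg Prod.fst h1, fun i => congrArg (fun y => j y.2 i) h1, h2⟩
  refine Or.inr ⟨A, o, m, n, J, hm, ha, fun S S' => ?_, fun S S' => ?_⟩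
  · obtain ⟨u, w, h1, h2, h3⟩ := hJ S
    obtain ⟨u', w', h1', h2', h3'⟩ := hJ S'
    rw [Fin.sum_univ_succ, h1, h1']
    simp only [h2, h2']
    rw [← hi, h3, h3', inner_add_left, inner_add_right, inner_add_right,
      Submodule.inner_right_of_mem_orthogonal u.2 w'.2,
      Submodule.inner_left_of_mem_orthogonal u'.2 w.2, add_zero, zero_add]
    rfl
  · obtain ⟨u, w, h1, h2, h3⟩ := hJ S
    obtain ⟨u', w', h1', h2', h3'⟩ := hJ S'
    rw [h1, h1']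
    simp only [h2, h2']
    rw [h3, h3', hf u u' (∑ i, m (cj o (j w i)) (j w' i)) w w' fun x => ?_, hi]
    · simp only [hj]
    · rw [hi, sum_inner]
      refine Finset.sum_congr rfl fun i _ => ?_
      rw [hj, real_inner_comm, ← hm.adj_left, real_inner_comm]

/-- Associative case: expand the square of the norm; `⟪ū u', o⟫ = ⟪u, u'⟫` and
`⟪ū u', w̄ w'⟫ = ⟪w (ū u'), w'⟫` (`adj_left`). -/
theorem Comp.Fq_assoc {A : Type*} [NormedAddCommGroup A] [InnerProductSpace ℝ A] {o : A}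
    {m : A →L[ℝ] A →L[ℝ] A} (h : Comp o m) (ha : ∀ x y z, m (m x y) z = m x (m y z)) {n : ℕ}
    {J : V → Fin (n + 2) → A} (h1 : ∀ S S', inner ℝ S S' = ∑ i, inner ℝ (J S i) (J S' i))
    (h2 : ∀ S S', inner ℝ (P S S S') S' = ‖J S 0‖ ^ 2 * ‖J S' 0‖ ^ 2 +
      2 * ∑ i : Fin (n + 1), inner ℝ (m (m (J S i.succ) (cj o (J S 0))) (J S' 0)) (J S' i.succ) +
      ‖∑ i : Fin (n + 1), m (cj o (J S i.succ)) (J S' i.succ)‖ ^ 2) (C : ℝ) (S : V) (C' : ℝ)
    (S' : V) : Fq P C S C' S' = ‖(C * C') • o + ∑ i, m (cj o (J S i)) (J S' i)‖ ^ 2 := by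
  have k1 : ∀ a b : A, inner ℝ o (m (cj o a) b) = inner ℝ a b := fun a b => by
    rw [← h.adj_left, h.right]
  have k2 : ‖cj o (J S 0)‖ ^ 2 = ‖J S 0‖ ^ 2 := by
    rw [← real_inner_self_eq_norm_sq, ← real_inner_self_eq_norm_sq, inner_cj h.unit]
  have k3 : inner ℝ o (∑ i, m (cj o (J S i)) (J S' i)) = inner ℝ S S' := by
    rw [inner_sum, h1]
    simp only [k1]
  have k4 : ‖∑ i, m (cj o (J S i)) (J S' i)‖ ^ 2 = inner ℝ (P S S S') S' := by
    rw [h2, Fin.sum_univ_succ, norm_add_sq_real, h.norm, mul_pow, k2, inner_sum]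
    simp only [ha, h.adj_left (J S (Fin.succ _))]
  rw [norm_add_sq_real, k4, real_inner_smul_left, k3, norm_smul, h.unit, Real.norm_eq_abs, mul_one,
    sq_abs, Fq]
  ring

end Vale.Agent.P231
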