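import Vale.Agent.P231.Th

/-! Local comparison of measures. -/

open scoped ContDiff Topology ENNReal
open Filter Set MeasureTheory Metric

noncomputable section

namespace Vale.Agent.P231

open Vale.Agent.P234

variable {M : Type*} [MetricSpace M] [CompactSpace M] {T : M → Type*}
  [∀ x, NormedAddCommGroup (T x)] [∀ x, InnerProductSpace ℝ (T x)]
  [∀ x, FiniteDimensional ℝ (T x)] {e : ∀ x, T x → M} {r D : ℝ}

variable [MeasurableSpace M] [BorelSpace M] [∀ x, MeasurableSpace (T x)] [∀ x, BorelSpace (T x)]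

/-- comparison of the Hausdorff measures of two images -/
theorem areaA_cmp {X Y Z : Type*} [Nonempty X] [MetricSpace Y] [MetricSpace Z] [MeasurableSpace Y]
    [BorelSpace Y] [MeasurableSpace Z] [BorelSpace Z] {f : X → Y} {g : X → Z} {S : Set X}
    {K : NNReal} (h : ∀ a ∈ S, ∀ b ∈ S, dist (f a) (f b) ≤ K * dist (g a) (g b)) (n : ℕ) :
    μHE[n] (f '' S) ≤ (K : ℝ≥0∞) ^ n * μHE[n] (g '' S) := by
  have h1 : ∀ a ∈ S, f (Function.invFunOn g S (g a)) = f a := by
    intro a ha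
    have h2 := h _ (Function.invFunOn_apply_mem (f := g) ha) a ha
    rw [Function.invFunOn_apply_eq (f := g) ha, dist_self, mul_zero] at h2
    exact dist_le_zero.1 h2
  have h3 : LipschitzOnWith K (fun z => f (Function.invFunOn g S z)) (g '' S) := by
    refine LipschitzOnWith.of_dist_le_mul ?_
    rintro _ ⟨a, ha, rfl⟩ _ ⟨b, hb, rfl⟩
    rw [h1 a ha, h1 b hb]
    exact h a ha b hb
  have h4 := h3.hausdorffMeasure_image_le (d := n) (Nat.cast_nonneg n)
  rw [image_image, image_congr h1, ENNReal.rpow_natCast] at h4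
  rw [Measure.euclideanHausdorffMeasure_def, Measure.euclideanHausdorffMeasure_def,
    Measure.smul_apply, Measure.smul_apply, ENNReal.smul_def, ENNReal.smul_def, smul_eq_mul,
    smul_eq_mul, mul_left_comm]
  gcongr

theorem areaA_root {η : ℝ≥0∞} (hη : 1 < η) (n : ℕ) :
    ∃ K : NNReal, 1 < K ∧ (K : ℝ≥0∞) ^ n ≤ η := by
  have h1 : Tendsto (fun t : NNReal => (t : ℝ≥0∞) ^ n) (𝓝[>] 1) (𝓝 (((1 : NNReal) : ℝ≥0∞) ^ n)) :=
    (((ENNReal.continuous_pow n).comp ENNReal.continuous_coe).tendsto 1).mono_left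
      nhdsWithin_le_nhds
  rw [ENNReal.coe_one, one_pow] at h1
  obtain ⟨K, h2, h3⟩ := ((h1.eventually_lt_const hη).and self_mem_nhdsWithin).exists
  exact ⟨K, h3, h2.le⟩

omit [MeasurableSpace M] [BorelSpace M] [∀ x, MeasurableSpace (T x)] [∀ x, BorelSpace (T x)] in
theorem areaA_bi (h : Geo e r) (x : M) (a : T x) {η : ℝ} (hη : 0 < η) :
    ∃ δ : ℝ, 0 < δ ∧ ∀ z ∈ ball a δ, ∀ z' ∈ ball a δ,
      |dist (e x z) (e x z') - ‖Lmap e x a (e x a) (z - z')‖| ≤ η * ‖z - z'‖ := by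
  obtain ⟨δ, hδ, H⟩ := Metric.eventually_nhds_iff.1 (bi h x a hη)
  refine ⟨δ, hδ, fun z hz z' hz' => H (y := (z, z')) ?_⟩
  rw [Prod.dist_eq]
  exact max_lt hz hz'

/-- Let `L = Lmap e x a (e x a)`, bijective. By `bi`, near `a`,
`(1 - ε) ‖L (z - z')‖ ≤ dist (e x z) (e x z') ≤ (1 + ε) ‖L (z - z')‖`. So `e x '' S` is the image of
`L '' S` by a `(1 + ε)`-Lipschitz map and conversely (`LipschitzOnWith.hausdorffMeasure_image_le`,
`euclideanHausdorffMeasure_def`, `euclideanHausdorffMeasure_image_eq_normDet_mul_volume`). -/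
theorem area_local (h : Geo e r) {x : M} {a : T x} (ha : a ∈ Inj e x) {η : ℝ≥0∞} (hη : 1 < η) :
    ∃ δ : ℝ, 0 < δ ∧ ∀ S ⊆ ball a δ,
      μHE[Module.finrank ℝ (T x)] (e x '' S) ≤ η * (ENNReal.ofReal (jac e x a) * volume S) ∧
      ENNReal.ofReal (jac e x a) * volume S ≤ η * μHE[Module.finrank ℝ (T x)] (e x '' S) := by
  obtain ⟨κ, hκ, hκη⟩ := areaA_root hη (Module.finrank ℝ (T x))
  obtain ⟨K, hK, hA⟩ := (Lmap e x a (e x a)).toLinearMap.exists_antilipschitzWith
    (LinearMap.ker_eq_bot.2 (Lmap_bij h ha).1)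
  have hκ' : (1 : ℝ) < κ := hκ
  have hK' : (0 : ℝ) < K := hK
  have hε : (0 : ℝ) < 1 - (κ : ℝ)⁻¹ := sub_pos.2 (inv_lt_one_of_one_lt₀ hκ')
  obtain ⟨δ, hδ, H⟩ := areaA_bi h x a (div_pos hε hK')
  have key : ∀ z ∈ ball a δ, ∀ z' ∈ ball a δ,
      dist (e x z) (e x z') ≤ κ * dist (Lmap e x a (e x a) z) (Lmap e x a (e x a) z') ∧
      dist (Lmap e x a (e x a) z) (Lmap e x a (e x a) z') ≤ κ * dist (e x z) (e x z') := by
    intro z hz z' hz'
    have h1 := H z hz z' hz'
    have h2 : dist z z' ≤ K * dist (Lmap e x a (e x a) z) (Lmap e x a (e x a) z') :=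
      hA.le_mul_dist z z'
    rw [map_sub, ← dist_eq_norm, ← dist_eq_norm] at h1
    have h3 : (1 - (κ : ℝ)⁻¹) / K * dist z z'
        ≤ (1 - (κ : ℝ)⁻¹) * dist (Lmap e x a (e x a) z) (Lmap e x a (e x a) z') := by
      rw [div_mul_eq_mul_div, mul_div_assoc]
      exact mul_le_mul_of_nonneg_left ((div_le_iff₀' hK').2 h2) hε.le
    obtain ⟨h4, h5⟩ := abs_le.1 (h1.trans h3)
    have h6 : 0 ≤ dist (Lmap e x a (e x a) z) (Lmap e x a (e x a) z') := dist_nonneg
    have h7 : (κ : ℝ) * (κ : ℝ)⁻¹ = 1 := mul_inv_cancel₀ (by positivity)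
    have h8 : 2 - (κ : ℝ)⁻¹ ≤ κ := by nlinarith [sq_nonneg ((κ : ℝ) - 1), inv_pos.2 (one_pos.trans hκ')]
    constructor
    · nlinarith
    · have h9 : (κ : ℝ)⁻¹ * dist (Lmap e x a (e x a) z) (Lmap e x a (e x a) z')
          ≤ dist (e x z) (e x z') := by linarith
      rwa [inv_mul_le_iff₀ (one_pos.trans hκ')] at h9
  refine ⟨δ, hδ, fun S hS => ?_⟩
  have hL : μHE[Module.finrank ℝ (T x)] (Lmap e x a (e x a) '' S)
      = ENNReal.ofReal (jac e x a) * volume S :=
    (Lmap e x a (e x a)).toLinearMap.euclideanHausdorffMeasure_image_eq_normDet_mul_volume S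
  rw [← hL]
  exact ⟨(areaA_cmp (fun z hz z' hz' => (key z (hS hz) z' (hS hz')).1) _).trans (by gcongr),
    (areaA_cmp (fun z hz z' hz' => (key z (hS hz) z' (hS hz')).2) _).trans (by gcongr)⟩

/-- `e x` is locally Lipschitz (`bi`); cover `S` by countably many small balls. -/
theorem area_null (h : Geo e r) (x : M) {S : Set (T x)} (hS : volume S = 0) :
    μHE[Module.finrank ℝ (T x)] (e x '' S) = 0 := by
  choose δ hδ H using fun a : T x => areaA_bi h x a one_pos
  obtain ⟨t, ht, hc⟩ := TopologicalSpace.countable_cover_nhds (f := fun a : T x => ball a (δ a))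
    fun a => ball_mem_nhds a (hδ a)
  have h1 : e x '' S ⊆ ⋃ a ∈ t, e x '' (S ∩ ball a (δ a)) := by
    rintro _ ⟨z, hz, rfl⟩
    obtain ⟨a, ha, hza⟩ := mem_iUnion₂.1 (hc ▸ mem_univ z : z ∈ ⋃ a ∈ t, ball a (δ a))
    exact mem_iUnion₂.2 ⟨a, ha, z, ⟨hz, hza⟩, rfl⟩
  refine measure_mono_null h1 ((measure_biUnion_null_iff ht).2 fun a _ => ?_)
  have h2 := areaA_cmp (f := e x) (g := id) (S := S ∩ ball a (δ a))
    (K := ‖Lmap e x a (e x a)‖₊ + 1) (fun z hz z' hz' => by
      have h3 := (abs_le.1 (H a z hz.2 z' hz'.2)).2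
      have h4 := (Lmap e x a (e x a)).le_opNorm (z - z')
      rw [id, id, dist_eq_norm z z']
      push_cast
      linarith) (Module.finrank ℝ (T x))
  rw [image_id, InnerProductSpace.euclideanHausdorffMeasure_eq_volume,
    measure_mono_null inter_subset_left hS, mul_zero] at h2
  exact le_antisymm h2 zero_le

theorem areaA_le {V : Type*} [MetricSpace V] [SecondCountableTopology V]
    [MeasurableSpace V] [BorelSpace V] {μ ν : Measure V} {U : Set V}
    (hl : ∀ η : ℝ≥0∞, 1 < η → ∀ a ∈ U, ∃ δ : ℝ, 0 < δ ∧ ∀ S ⊆ ball a δ, S ⊆ U →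
      MeasurableSet S → μ S ≤ η * ν S) {S : Set V} (hS : MeasurableSet S)
    (hU : S ⊆ U) : μ S ≤ ν S := by
  have key : ∀ η : ℝ≥0∞, 1 < η → μ S ≤ η * ν S := by
    intro η hη
    choose! δ hδ H using hl η hη
    obtain ⟨t, htU, ht, hc⟩ := TopologicalSpace.countable_cover_nhdsWithin
      (f := fun a => ball a (δ a)) (s := U)
      fun a ha => mem_nhdsWithin_of_mem_nhds (ball_mem_nhds a (hδ a ha))
    rcases t.eq_empty_or_nonempty with rfl | hne
    · have : S = ∅ := by simpa using hU.trans hc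
      simp [this]
    obtain ⟨u, rfl⟩ := ht.exists_eq_range hne
    rw [biUnion_range] at hc
    have hm : ∀ n, MeasurableSet (S ∩ disjointed (fun n => ball (u n) (δ (u n))) n) := fun n =>
      hS.inter (MeasurableSet.disjointed (fun _ => measurableSet_ball) n)
    have hd : Pairwise (Function.onFun Disjoint
        fun n => S ∩ disjointed (fun n => ball (u n) (δ (u n))) n) :=
      (disjoint_disjointed _).mono fun i j hij => hij.mono inter_subset_right inter_subset_right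
    have he : S = ⋃ n, S ∩ disjointed (fun n => ball (u n) (δ (u n))) n := by
      rw [← inter_iUnion, iUnion_disjointed, inter_eq_self_of_subset_left (hU.trans hc)]
    rw [he, measure_iUnion hd hm, measure_iUnion hd hm, ← ENNReal.tsum_mul_left]
    exact ENNReal.tsum_le_tsum fun n => H _ (htU (mem_range_self n)) _
      (inter_subset_right.trans (disjointed_subset _ n)) (inter_subset_left.trans hU) (hm n)
  have h1 : Tendsto (fun η : ℝ≥0∞ => η * ν S) (𝓝[>] 1) (𝓝 (1 * ν S)) :=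
    ENNReal.Tendsto.mul_const (tendsto_id.mono_left nhdsWithin_le_nhds) (Or.inl one_ne_zero)
  rw [one_mul] at h1
  exact ge_of_tendsto h1 (eventually_mem_nhdsWithin.mono key)

/-- Two measures that are locally comparable with constants close to one coincide: cover `U` by
countably many balls, make them disjoint (`disjointed`), sum, and let `η → 1`. -/
theorem measure_eq_of_local {V : Type*} [MetricSpace V] [SecondCountableTopology V]
    [MeasurableSpace V] [BorelSpace V] {μ ν : Measure V} {U : Set V}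
    (hl : ∀ η : ℝ≥0∞, 1 < η → ∀ a ∈ U, ∃ δ : ℝ, 0 < δ ∧ ∀ S ⊆ ball a δ, S ⊆ U →
      MeasurableSet S → μ S ≤ η * ν S ∧ ν S ≤ η * μ S) {S : Set V} (hS : MeasurableSet S)
    (hU : S ⊆ U) : μ S = ν S :=
  le_antisymm
    (areaA_le (fun η hη a ha => (hl η hη a ha).imp fun _ H =>
      ⟨H.1, fun S h1 h2 h3 => (H.2 S h1 h2 h3).1⟩) hS hU)
    (areaA_le (fun η hη a ha => (hl η hη a ha).imp fun _ H =>
      ⟨H.1, fun S h1 h2 h3 => (H.2 S h1 h2 h3).2⟩) hS hU)

end Vale.Agent.P231
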