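import Vale.Agent.P231.AreaA

/-! The area formula in normal coordinates. -/

open scoped ContDiff Topology ENNReal
open Filter Set MeasureTheory Metric

noncomputable section

namespace Vale.Agent.P231

open Vale.Agent.P234

variable {M : Type*} [MetricSpace M] [CompactSpace M] {T : M → Type*}
  [∀ x, NormedAddCommGroup (T x)] [∀ x, InnerProductSpace ℝ (T x)]
  [∀ x, FiniteDimensional ℝ (T x)] {e : ∀ x, T x → M} {r D : ℝ}

variable [MeasurableSpace M] [BorelSpace M] [∀ x, MeasurableSpace (T x)] [∀ x, BorelSpace (T x)]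

theorem areaB_eq (h : Bl e r D) (x : M) {μ : Measure (T x)}
    (hμ : ∀ S ⊆ ball (0 : T x) D, MeasurableSet S →
      μ S = μHE[Module.finrank ℝ (T x)] (e x '' S)) {S : Set (T x)} (hS : MeasurableSet S)
    (hU : S ⊆ ball 0 D) :
    μ S = volume.withDensity (fun a => ENNReal.ofReal (jac e x a)) S := by
  refine measure_eq_of_local (fun η hη a ha => ?_) hS hU
  obtain ⟨κ, hκ, hκη⟩ := areaA_root hη 2
  have hκ' : (1 : ℝ≥0∞) < κ := by exact_mod_cast hκ
  have hi := h.mem_inj (mem_ball_zero_iff.1 ha)
  obtain ⟨δ, hδ, H⟩ := area_local h.toGeo hi hκ'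
  have hj : Continuous fun a => ENNReal.ofReal (jac e x a) :=
    ENNReal.continuous_ofReal.comp (continuous_jac h.toGeo x)
  have h0 : ENNReal.ofReal (jac e x a) ≠ 0 := (ENNReal.ofReal_pos.2 (jac_pos h.toGeo hi)).ne'
  have h1 : ENNReal.ofReal (jac e x a) < κ * ENNReal.ofReal (jac e x a) := by
    have := ENNReal.mul_lt_mul_left h0 ENNReal.ofReal_ne_top hκ'
    rwa [one_mul] at this
  have h2 := (hj.tendsto a).eventually_lt_const h1
  have h3 := (ENNReal.Tendsto.const_mul (a := (κ : ℝ≥0∞)) (hj.tendsto a)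
    (Or.inl h0)).eventually_const_lt h1
  obtain ⟨δ', hδ', H'⟩ := Metric.eventually_nhds_iff.1 (h2.and h3)
  refine ⟨min δ δ', lt_min hδ hδ', fun S hS hU hm => ?_⟩
  obtain ⟨a1, a2⟩ := H S (hS.trans (ball_subset_ball (min_le_left _ _)))
  have hS' : ∀ z ∈ S, dist z a < δ' := fun z hz => (hS hz).trans_le (min_le_right _ _)
  have b1 : ENNReal.ofReal (jac e x a) * volume S
      ≤ κ * ∫⁻ z in S, ENNReal.ofReal (jac e x z) := by
    rw [← setLIntegral_const, ← lintegral_const_mul _ hj.measurable]
    exact setLIntegral_mono' hm fun z hz => (H' (hS' z hz)).2.le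
  have b2 : ∫⁻ z in S, ENNReal.ofReal (jac e x z)
      ≤ κ * (ENNReal.ofReal (jac e x a) * volume S) := by
    rw [← mul_assoc, ← setLIntegral_const]
    exact setLIntegral_mono' hm fun z hz => (H' (hS' z hz)).1.le
  rw [hμ S hU hm, withDensity_apply _ hm]
  rw [sq] at hκη
  constructor
  · refine a1.trans ((mul_le_mul_right b1 _).trans ?_)
    rw [← mul_assoc]
    gcongr
  · refine b2.trans ((mul_le_mul_right a2 _).trans ?_)
    rw [← mul_assoc]
    gcongr

/-- `e x` is a measurable embedding of the ball (`ContinuousOn.measurableEmbedding`); compare the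
pull back of the Hausdorff measure with `volume.withDensity jac` by `measure_eq_of_local`
(`area_local`, continuity and positivity of `jac`). The complement of the image of the ball is in
the image of the sphere, which is null (`area_null`, `addHaar_sphere_of_ne_zero`). -/
theorem Bl.area (h : Bl e r D) (x : M) {f : M → ℝ≥0∞} (hf : Measurable f) :
    ∫⁻ y, f y ∂μHE[Module.finrank ℝ (T x)] =
      ∫⁻ a in ball (0 : T x) D, f (e x a) * ENNReal.ofReal (jac e x a) := by
  have hc : Continuous (e x) := h.toGeo.continuous_exp x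
  have hinj : InjOn (e x) (ball 0 D) := fun a ha b hb hab => by
    rw [← h.lg_exp' (mem_ball_zero_iff.1 ha), hab, h.lg_exp' (mem_ball_zero_iff.1 hb)]
  have hφ : MeasurableEmbedding ((ball (0 : T x) D).domRestrict (e x)) :=
    hc.continuousOn.measurableEmbedding measurableSet_ball hinj
  have hv : MeasurableEmbedding (Subtype.val : ball (0 : T x) D → T x) :=
    MeasurableEmbedding.subtype_coe measurableSet_ball
  obtain ⟨μ, hμ⟩ : ∃ μ : Measure (T x), μ = ((μHE[Module.finrank ℝ (T x)] : Measure M).comap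
    ((ball (0 : T x) D).domRestrict (e x))).map Subtype.val := ⟨_, rfl⟩
  have h1 : ∀ S, μ S = μHE[Module.finrank ℝ (T x)] (e x '' (S ∩ ball 0 D)) := by
    intro S
    rw [hμ, hv.map_apply, hφ.comap_apply, image_domRestrict]
  have h2 : μ = (volume.withDensity fun a => ENNReal.ofReal (jac e x a)).restrict (ball 0 D) := by
    ext S hS
    rw [Measure.restrict_apply hS, ← areaB_eq h x (μ := μ)
      (fun S hU _ => by rw [h1, inter_eq_self_of_subset_left hU])
      (hS.inter measurableSet_ball) inter_subset_right, h1, h1, inter_assoc, inter_self]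
  have h3 : ∀ᵐ y ∂(μHE[Module.finrank ℝ (T x)] : Measure M),
      y ∈ range ((ball (0 : T x) D).domRestrict (e x)) := by
    refine measure_mono_null (t := e x '' sphere 0 D) (fun y hy => ?_)
      (area_null h.toGeo x (Measure.addHaar_sphere_of_ne_zero _ _ h.dpos.ne'))
    refine ⟨lg e x y, ?_, h.toGeo.exp_lg x y⟩
    rw [mem_sphere_zero_iff_norm, h.toGeo.norm_lg]
    refine le_antisymm (h.le x y) (le_of_not_gt fun hlt => hy ?_)
    exact ⟨⟨lg e x y, mem_ball_zero_iff.2 (by rwa [h.toGeo.norm_lg])⟩, h.toGeo.exp_lg x y⟩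
  have hj : Measurable fun a => ENNReal.ofReal (jac e x a) :=
    (ENNReal.continuous_ofReal.comp (continuous_jac h.toGeo x)).measurable
  calc ∫⁻ y, f y ∂μHE[Module.finrank ℝ (T x)]
      = ∫⁻ a, f (e x a) ∂μ := by
        rw [hμ, hv.lintegral_map]
        conv_lhs => rw [← Measure.restrict_eq_self_of_ae_mem h3, ← hφ.map_comap, hφ.lintegral_map]
        rfl
    _ = _ := by
        rw [h2, setLIntegral_withDensity_eq_setLIntegral_mul _ hj (g := fun a => f (e x a))
          (hf.comp hc.measurable) measurableSet_ball]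
        simp only [Pi.mul_apply, mul_comm]

theorem Bl.isFiniteMeasure [Nonempty M] (h : Bl e r D) {n : ℕ}
    (hn : ∀ x, Module.finrank ℝ (T x) = n) : IsFiniteMeasure (μHE[n] : Measure M) := by
  obtain ⟨x⟩ := ‹Nonempty M›
  refine ⟨?_⟩
  rw [← hn x, ← lintegral_one, h.area x measurable_const]
  simp only [one_mul]
  refine (lintegral_mono_set ball_subset_closedBall).trans_lt ?_
  exact setLIntegral_lt_top_of_isCompact (measure_closedBall_lt_top).ne (isCompact_closedBall _ _)
    (continuous_real_toNNReal.comp (continuous_jac h.toGeo x))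

/-- Use `area` centred at a point of the open set. -/
theorem Bl.isOpenPosMeasure (h : Bl e r D) {n : ℕ} (hn : ∀ x, Module.finrank ℝ (T x) = n) :
    Measure.IsOpenPosMeasure (μHE[n] : Measure M) := by
  refine ⟨fun U hU ⟨x, hx⟩ h0 => ?_⟩
  obtain ⟨δ, hδ, H⟩ := area_local h.toGeo (x := x) (h.mem_inj (v := 0) (by simpa using h.dpos))
    (η := 2) ENNReal.one_lt_two
  have h1 := (H (ball 0 δ ∩ e x ⁻¹' U) inter_subset_left).2
  rw [hn x, measure_mono_null (image_subset_iff.2 inter_subset_right) h0, mul_zero,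
    jac_zero h.toGeo, ENNReal.ofReal_one, one_mul] at h1
  have h2 : IsOpen (ball (0 : T x) δ ∩ e x ⁻¹' U) :=
    isOpen_ball.inter (hU.preimage (h.toGeo.continuous_exp x))
  exact (h2.measure_pos volume ⟨0, mem_ball_self hδ, by rwa [mem_preimage, h.zero]⟩).not_ge h1

end Vale.Agent.P231
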