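import Vale.Agent.P231.Polar
import Vale.Agent.P231.AbsB

/-! Averages on the sphere. -/

open scoped ContDiff Topology ENNReal
open Filter Set MeasureTheory Metric

noncomputable section

namespace Vale.Agent.P231

variable {V : Type*} [NormedAddCommGroup V] [InnerProductSpace ℝ V] [FiniteDimensional ℝ V]
  [MeasurableSpace V] [BorelSpace V]

open scoped Pointwise in
/-- Invariance of the measure of the sphere (as in `lintegral_sphere_neg`). -/
theorem integral_sphere_iso (L : V ≃ₗᵢ[ℝ] V) {f : V → ℝ} (hf : Continuous f) :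
    ∫ v : sphere (0 : V) 1, f (L v) ∂(volume : Measure V).toSphere =
      ∫ v : sphere (0 : V) 1, f v ∂(volume : Measure V).toSphere := by
  let φ : sphere (0 : V) 1 → sphere (0 : V) 1 := fun v =>
    ⟨L v, mem_sphere_zero_iff_norm.2 ((L.norm_map v).trans (mem_sphere_zero_iff_norm.1 v.2))⟩
  have hc : Continuous φ := (L.continuous.comp continuous_subtype_val).subtype_mk _
  have hn : Measurable φ := hc.measurable
  have h1 : (volume : Measure V).toSphere.map φ = (volume : Measure V).toSphere := by
    refine Measure.ext fun s hs => ?_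
    rw [Measure.map_apply hn hs, Measure.toSphere_apply' _ (hn hs), Measure.toSphere_apply' _ hs,
      ← L.measurePreserving.measure_preimage_emb L.toHomeomorph.measurableEmbedding
        (Ioo (0 : ℝ) 1 • ((↑) '' s : Set V))]
    refine congrArg (fun A : Set V => _ * volume A) (Set.ext fun a => ?_)
    constructor
    · rintro ⟨t, ht, _, ⟨v, hv, rfl⟩, rfl⟩
      exact ⟨t, ht, _, ⟨φ v, hv, rfl⟩, (map_smul L t (v : V)).symm⟩
    · rintro ⟨t, ht, _, ⟨v, hv, rfl⟩, h2⟩
      have h3 : ‖L.symm v‖ = 1 := (L.symm.norm_map v).trans (mem_sphere_zero_iff_norm.1 v.2)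
      refine ⟨t, ht, L.symm v, ⟨⟨L.symm v, mem_sphere_zero_iff_norm.2 h3⟩, ?_, rfl⟩, ?_⟩
      · have h4 : φ ⟨L.symm v, mem_sphere_zero_iff_norm.2 h3⟩ = v :=
          Subtype.ext (L.apply_symm_apply v)
        rw [mem_preimage, h4]
        exact hv
      · apply L.injective
        have h5 : t • (v : V) = L a := h2
        show L (t • L.symm v) = L a
        rw [map_smul, L.apply_symm_apply, h5]
  have h2 : AEStronglyMeasurable (fun v : sphere (0 : V) 1 => f v)
      ((volume : Measure V).toSphere.map φ) :=
    (hf.comp continuous_subtype_val).aestronglyMeasurable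
  have h3 := integral_map hn.aemeasurable h2
  rw [h1] at h3
  exact h3.symm

theorem integral_sphere_inner (S : V) :
    ∫ v : sphere (0 : V) 1, inner ℝ (v : V) S ∂(volume : Measure V).toSphere = 0 := by
  have h := integral_sphere_iso (LinearIsometryEquiv.neg ℝ (E := V))
    (f := fun v => inner ℝ v S) (by fun_prop)
  simp only [LinearIsometryEquiv.coe_neg, inner_neg_left, integral_neg] at h
  linarith

/-- The second moments of the sphere. -/
def avgA_B (x y : V) : ℝ :=
  ∫ v : sphere (0 : V) 1, inner ℝ (v : V) x * inner ℝ (v : V) y ∂(volume : Measure V).toSphere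

theorem avgA_iso (L : V ≃ₗᵢ[ℝ] V) (x y : V) : avgA_B (L x) (L y) = avgA_B x y := by
  have h := integral_sphere_iso L (f := fun v => inner ℝ v (L x) * inner ℝ v (L y)) (by fun_prop)
  simp only [LinearIsometryEquiv.inner_map_map] at h
  exact h.symm

theorem avgA_orth {x y : V} (h : inner ℝ x y = 0) : avgA_B x y = 0 := by
  have h1 := avgA_iso (Submodule.reflection (ℝ ∙ x)ᗮ) x y
  rw [Submodule.reflection_orthogonalComplement_singleton_eq_neg,
    Submodule.reflection_mem_subspace_eq_self
      (Submodule.mem_orthogonal_singleton_iff_inner_right.2 h)] at h1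
  have h2 : avgA_B (-x) y = -avgA_B x y := by
    simp only [avgA_B, inner_neg_right, neg_mul, integral_neg]
  linarith

theorem avgA_norm {x y : V} (h : ‖x‖ = ‖y‖) : avgA_B y y = avgA_B x x := by
  have h1 := avgA_iso (Submodule.reflection (ℝ ∙ (x - y))ᗮ) x x
  rwa [Submodule.reflection_sub h] at h1

theorem avgA_int {f : V → ℝ} (hf : Continuous f) :
    Integrable (fun v : sphere (0 : V) 1 => f v) (volume : Measure V).toSphere :=
  (hf.comp continuous_subtype_val).integrable_of_hasCompactSupport
    (HasCompactSupport.of_compactSpace _)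

/-- In an orthonormal basis `b`, the integral of `⟪v, b i⟫ ⟪v, b j⟫` vanishes for `i ≠ j`
(reflection) and does not depend on `i` for `i = j` (reflection exchanging two basis vectors);
the sum over `i` is the total mass (`toSphere_univ`). -/
theorem integral_sphere_quad {m : ℕ} (hm : Module.finrank ℝ V = m + 1) (Q : V →L[ℝ] V) :
    ∫ v : sphere (0 : V) 1, inner ℝ (Q v) (v : V) ∂(volume : Measure V).toSphere =
      LinearMap.trace ℝ V Q.toLinearMap * sphA (m + 1) / (m + 1) := by
  classical
  let b := stdOrthonormalBasis ℝ V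
  have hi : ∀ x y : V, Integrable (fun v : sphere (0 : V) 1 => inner ℝ (v : V) x * inner ℝ (v : V) y)
      (volume : Measure V).toSphere := fun x y =>
    avgA_int (f := fun v => inner ℝ v x * inner ℝ v y) (by fun_prop)
  have h1 : ∑ i, avgA_B (b i) (b i) = sphA (m + 1) := by
    unfold avgA_B
    rw [← integral_finsetSum _ fun i _ => hi _ _]
    have e : ∀ v : sphere (0 : V) 1, ∑ i, inner ℝ (v : V) (b i) * inner ℝ (v : V) (b i) = 1 := by
      intro v
      have := b.sum_sq_inner_left (v : V)
      rw [mem_sphere_zero_iff_norm.1 v.2] at this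
      simpa only [sq, mul_one] using this
    simp only [e, integral_const, Measure.real, toSphere_univ hm, smul_eq_mul, mul_one]
    exact ENNReal.toReal_ofReal (sphA_pos m).le
  have h2 : ∀ i, avgA_B (b i) (b i) = sphA (m + 1) / (m + 1) := by
    intro i
    have e : ∑ j, avgA_B (b j) (b j) = ∑ _j : Fin (Module.finrank ℝ V), avgA_B (b i) (b i) :=
      Finset.sum_congr rfl fun j _ => avgA_norm ((b.norm_eq_one i).trans (b.norm_eq_one j).symm)
    have e2 : ((Module.finrank ℝ V : ℕ) : ℝ) = m + 1 := by rw [hm]; push_cast; rfl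
    rw [h1, Finset.sum_const, Finset.card_univ, Fintype.card_fin, nsmul_eq_mul, e2] at e
    rw [eq_div_iff (by positivity), e]
    ring
  have h3 : ∀ v : sphere (0 : V) 1, inner ℝ (Q v) (v : V) =
      ∑ i, ∑ j, inner ℝ (b j) (Q (b i)) * (inner ℝ (v : V) (b i) * inner ℝ (v : V) (b j)) := by
    intro v
    have e1 : Q v = ∑ i, inner ℝ (b i) (v : V) • Q (b i) := by
      conv_lhs => rw [← b.sum_repr' (v : V)]
      simp only [map_sum, map_smul]
    rw [e1, sum_inner]
    refine Finset.sum_congr rfl fun i _ => ?_
    rw [real_inner_smul_left, ← b.sum_inner_mul_inner (Q (b i)) (v : V), Finset.mul_sum]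
    refine Finset.sum_congr rfl fun j _ => ?_
    rw [real_inner_comm (b j) (Q (b i)), real_inner_comm (b i) (v : V), real_inner_comm (b j) (v : V)]
    ring
  simp only [h3]
  rw [integral_finsetSum _ fun i _ => integrable_finsetSum _ fun j _ => (hi _ _).const_mul _,
    LinearMap.trace_eq_sum_inner _ b, Finset.sum_mul, Finset.sum_div]
  refine Finset.sum_congr rfl fun i _ => ?_
  rw [integral_finsetSum _ fun j _ => (hi _ _).const_mul _, Finset.sum_eq_single i]
  · rw [integral_const_mul]
    have := h2 i
    unfold avgA_B at this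
    rw [this, mul_div_assoc]
    rfl
  · intro j _ hj
    rw [integral_const_mul]
    have := avgA_orth (b.inner_eq_zero hj.symm)
    unfold avgA_B at this
    rw [this, mul_zero]
  · intro h
    exact absurd (Finset.mem_univ i) h

/-- The derivative of `sin ^ (m + 1) * cos ^ (k + 1)` has integral zero. -/
theorem mdl_moment {D : ℝ} (hD : 0 < D) (m k : ℕ) :
    (k + 1) * ∫ t in (0 : ℝ)..D, Real.sin (Real.pi / (2 * D) * t) ^ 2 * mdl D m k t =
      (m + 1) * ∫ t in (0 : ℝ)..D, Real.cos (Real.pi / (2 * D) * t) ^ 2 * mdl D m k t := by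
  set κ : ℝ := Real.pi / (2 * D) with hκ
  have hκ0 : 0 < κ := by have := Real.pi_pos; positivity
  set c : ℝ := (2 * D / Real.pi) ^ m with hc
  have hm : ∀ t, mdl D m k t = c * (Real.sin (κ * t) ^ m * Real.cos (κ * t) ^ k) := by
    intro t
    have e : Real.pi * t / (2 * D) = κ * t := by rw [hκ]; ring
    rw [mdl, e, mul_pow, mul_assoc]
  have hd : ∀ t ∈ uIcc (0 : ℝ) D, HasDerivAt
      (fun t => c / κ * (Real.sin (κ * t) ^ (m + 1) * Real.cos (κ * t) ^ (k + 1)))
      ((m + 1) * (Real.cos (κ * t) ^ 2 * mdl D m k t) -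
        (k + 1) * (Real.sin (κ * t) ^ 2 * mdl D m k t)) t := by
    intro t _
    have h0 : HasDerivAt (fun t : ℝ => κ * t) κ t := by
      simpa using (hasDerivAt_id t).const_mul κ
    have h1 := ((h0.sin.pow (m + 1)).mul (h0.cos.pow (k + 1))).const_mul (c / κ)
    refine h1.congr_deriv ?_
    rw [hm]
    simp only [Nat.add_sub_cancel, Pi.pow_apply]
    push_cast
    field_simp
    ring
  have hcm : Continuous fun t => mdl D m k t := by
    simp only [hm]
    fun_prop
  have i1 : IntervalIntegrable (fun t => Real.cos (κ * t) ^ 2 * mdl D m k t) volume 0 D :=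
    Continuous.intervalIntegrable (by fun_prop) _ _
  have i2 : IntervalIntegrable (fun t => Real.sin (κ * t) ^ 2 * mdl D m k t) volume 0 D :=
    Continuous.intervalIntegrable (by fun_prop) _ _
  have h := intervalIntegral.integral_eq_sub_of_hasDerivAt hd
    ((i1.const_mul _).sub (i2.const_mul _))
  have e : κ * D = Real.pi / 2 := by rw [hκ]; field_simp
  rw [intervalIntegral.integral_sub (i1.const_mul _) (i2.const_mul _),
    intervalIntegral.integral_const_mul, intervalIntegral.integral_const_mul, e, mul_zero,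
    Real.sin_zero, Real.cos_pi_div_two, zero_pow (Nat.succ_ne_zero m),
    zero_pow (Nat.succ_ne_zero k)] at h
  linarith

end Vale.Agent.P231
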