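import Vale.Agent.P231.Line

/-! Smooth families of geodesics. -/

open scoped ContDiff Topology Matrix
open Filter Set

noncomputable section

namespace Vale.Agent.P231

open Vale.Agent.P234

variable {M : Type*} [MetricSpace M] [CompactSpace M] {T : M → Type*}
  [∀ x, NormedAddCommGroup (T x)] [∀ x, InnerProductSpace ℝ (T x)]
  [∀ x, FiniteDimensional ℝ (T x)] {e : ∀ x, T x → M} {r D : ℝ}

variable {Z Z' : Type*} [NormedAddCommGroup Z] [NormedSpace ℝ Z] [NormedAddCommGroup Z']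
  [NormedSpace ℝ Z'] {f g : Z → M} {z₀ : Z}

theorem Sm.continuousAt (h : Geo e r) (hf : Sm e f z₀) : ContinuousAt f z₀ := by
  have h1 := (h.continuous_exp (f z₀)).continuousAt.comp (ContDiffAt.continuousAt hf)
  simpa only [Function.comp_def, h.exp_lg] using h1

theorem sm_const (h : Geo e r) (p : M) (z₀ : Z) : Sm e (fun _ : Z => p) z₀ := contDiffAt_const

theorem sm_exp (h : Geo e r) (x : M) (a : T x) : Sm e (e x) a := h.contDiffAt_lg_self x a

theorem Sm.comp {k : Z' → Z} {w₀ : Z'} (hf : Sm e f (k w₀)) (hk : ContDiffAt ℝ ∞ k w₀) :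
    Sm e (fun w => f (k w)) w₀ :=
  ContDiffAt.comp (g := fun z => lg e (f (k w₀)) (f z)) w₀ hf hk

theorem Sm.congr (hf : Sm e f z₀) (he : g =ᶠ[𝓝 z₀] f) : Sm e g z₀ := by
  unfold Sm
  rw [he.eq_of_nhds]
  exact ContDiffAt.congr_of_eventuallyEq hf (he.mono fun z hz => by simp only [hz])

theorem Sm.cost (h : Geo e r) (hf : Sm e f z₀) (hg : Sm e g z₀) (hs : SP e (f z₀) (g z₀)) :
    ContDiffAt ℝ ∞ (fun z => cost (f z) (g z)) z₀ := by
  have h1 := smooth_comp hs (fun z => (P234.lg e (f z₀) (f z), P234.lg e (g z₀) (g z))) z₀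
    (ContDiffAt.prodMk hf hg) (by simp only [h.lg_self])
  simpa only [h.exp_lg] using h1

theorem Sm.lg (h : Geo e r) (hf : Sm e f z₀) {p : M} (hs : SP e p (f z₀)) :
    ContDiffAt ℝ ∞ (fun z => lg e p (f z)) z₀ := by
  have h1 := smooth_comp (h.contDiffAt_lg hs (h.zero _)) (fun z => P234.lg e (f z₀) (f z)) z₀ hf
    (h.lg_self _)
  simpa only [h.exp_lg] using h1

theorem fam_cont (h : Geo e r) (hf : Sm e f z₀) (hg : Sm e g z₀) (hd : dist (f z₀) (g z₀) < r)
    {l : Z → ℝ} (hl : ContinuousAt l z₀) :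
    ContinuousAt (fun z => ln e (f z) (g z) (l z)) z₀ :=
  ContinuousAt.comp (f := fun z => ((f z, g z), l z))
    (continuousAt_ln h (h.short_mem_inj (by rwa [h.norm_lg])) (l z₀))
    (((hf.continuousAt h).prodMk (hg.continuousAt h)).prodMk hl)

/-- Interior points. With `m₀ = ln (f z₀) (g z₀) (l z₀)`, `y z = lg m₀ (ln (f z) (g z) (l z))` solves
`fderiv (fun b => cost (f z) (e m₀ b) / l z + cost (e m₀ b) (g z) / (1 - l z)) (y z) = 0`
(global minimum: `cost_le_split`, `inj_split`); the second derivative at `(z₀, 0)` is positive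
definite by `inj_pd`; `contDiffAt_of_implicit`, `continuousAt_ln`. See the proof of `sp_step`. -/
theorem Sm.ln_int [FiniteDimensional ℝ Z] (h : Geo e r) (hf : Sm e f z₀) (hg : Sm e g z₀)
    (hd : dist (f z₀) (g z₀) < r) {l : Z → ℝ} (hl : ContDiffAt ℝ ∞ l z₀) (h0 : 0 < l z₀)
    (h1 : l z₀ < 1) : Sm e (fun z => ln e (f z) (g z) (l z)) z₀ := by
  obtain ⟨v, hv⟩ : ∃ v, v = P234.lg e (f z₀) (g z₀) := ⟨_, rfl⟩
  have hn : ‖v‖ < r := by rwa [hv, h.norm_lg]
  have hn0 := norm_nonneg v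
  have hvi := h.short_mem_inj hn
  have hy : e (f z₀) v = g z₀ := by rw [hv, h.exp_lg]
  obtain ⟨a, ha1, ha, har⟩ := Geo.inj_exists_gt h hvi (τ := l z₀) (by nlinarith)
  obtain ⟨m, hm⟩ : ∃ m, m = e (f z₀) (l z₀ • v) := ⟨_, rfl⟩
  have hm' : ln e (f z₀) (g z₀) (l z₀) = m := by rw [hm, hv]; rfl
  obtain ⟨ρ, hρ, hfl⟩ := h.flow hm.symm
  have hym : e m ((1 - l z₀) • ρ) = g z₀ := by rw [← hfl, add_sub_cancel, one_smul, hy]
  have hzm : e m ((a - l z₀) • ρ) = e (f z₀) (a • v) := by rw [← hfl, add_sub_cancel]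
  have hn1 : ‖(1 - l z₀) • ρ‖ < r := by
    rw [norm_smul, hρ, Real.norm_of_nonneg (by linarith)]
    nlinarith
  have hna : ‖(a - l z₀) • ρ‖ < r := by
    rwa [norm_smul, hρ, Real.norm_of_nonneg (by linarith)]
  have hxm : dist (f z₀) m = ‖l z₀ • v‖ := by
    rw [hm]; exact h.smul_mem_min (h.inj_subset_min _ hvi) h0.le h1.le
  have hs : SP e (f z₀) m := by
    refine h.sp_short ?_
    rw [hxm, norm_smul, Real.norm_of_nonneg h0.le]
    nlinarith
  have hsy : SP e m (g z₀) := by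
    rw [← hym]
    exact h.sp_short (by rwa [h.toLoc.dist_exp hn1])
  let F : T m × Z → ℝ := fun w =>
    P234.cost (f w.2) (e m w.1) / l w.2 + P234.cost (e m w.1) (g w.2) / (1 - l w.2)
  have hF : ContDiffAt ℝ ∞ F (0, z₀) := by
    have s1 : Sm e (fun w : T m × Z => f w.2) (0, z₀) := Sm.comp (k := Prod.snd) hf contDiffAt_snd
    have s2 : Sm e (fun w : T m × Z => g w.2) (0, z₀) := Sm.comp (k := Prod.snd) hg contDiffAt_snd
    have s3 : Sm e (fun w : T m × Z => e m w.1) (0, z₀) :=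
      Sm.comp (k := Prod.fst) (sm_exp h m 0) contDiffAt_fst
    have s4 : ContDiffAt ℝ ∞ (fun w : T m × Z => l w.2) (0, z₀) :=
      ContDiffAt.comp (g := l) (0, z₀) hl contDiffAt_snd
    exact ((s1.cost h s3 (by simpa only [h.zero] using hs)).div s4 h0.ne').add
      ((s3.cost h s2 (by simpa only [h.zero] using hsy)).div (contDiffAt_const.sub s4)
        (sub_pos.2 h1).ne')
  have hpd : ∀ u : T m, u ≠ 0 → 0 < D2 (fun b => F (b, z₀)) 0 u u := fun u hu => by
    have e1 : (fun b => F (b, z₀)) = fun b => P234.cost (e m b) (f z₀) / l z₀ +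
        P234.cost (e m b) (e m ((1 - l z₀) • ρ)) / (1 - l z₀) := by
      funext b
      simp only [F, hym, cost_comm (f z₀)]
    rw [e1]
    refine Geo.inj_pd h h0 h1 ha1 hna hs.symm ?_ hu
    rw [hzm, ha, hρ, dist_comm m, hxm,
      norm_smul, norm_smul, Real.norm_of_nonneg h0.le, Real.norm_of_nonneg (by linarith)]
    exact ⟨rfl, rfl⟩
  let μ : Z → T m := fun z => P234.lg e m (ln e (f z) (g z) (l z))
  have hmin : ∀ᶠ z in 𝓝 z₀, fderiv ℝ (fun b => F (b, z)) (μ z) = 0 := by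
    filter_upwards [hl.continuousAt.eventually (Ioo_mem_nhds h0 h1)] with z hz
    refine IsLocalMin.fderiv_eq_zero (Eventually.of_forall fun b => ?_)
    have h2 := cost_le_split (f z) (e m b) (g z) hz.1 (sub_pos.2 hz.2)
    rw [add_sub_cancel, div_one] at h2
    refine le_trans (le_of_eq ?_) h2
    simp only [F, μ, h.exp_lg]
    exact Geo.inj_split h hz.1 hz.2 _ _
  have hμ0 : μ z₀ = 0 := by simp only [μ, hm', h.lg_self]
  have hμc : ContinuousAt μ z₀ := by
    have c4 := h.continuousAt_lg (x := m) (v := 0) (h.short_mem_inj (by simpa using h.pos))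
    rw [h.zero] at c4
    exact ContinuousAt.comp_of_eq (g := P234.lg e m) c4 (fam_cont h hf hg hd hl.continuousAt) hm'
  have hΨ : ContDiffAt ℝ ∞ (fun z : Z × T m => fderiv ℝ (fun b => F (b, z.1)) z.2)
      (z₀, μ z₀) := by
    rw [hμ0]
    have h2 : ContDiffAt ℝ ∞ (fun z : Z × T m => (z.2, z.1)) (z₀, 0) := by fun_prop
    exact inj_comp (contDiffAt_fderiv_fst hF) h2 rfl
  have hμ : ContDiffAt ℝ ∞ μ z₀ := by
    refine contDiffAt_of_implicit hΨ ?_ hμc (hmin.mono fun w hw => ?_)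
    · rw [hμ0]
      exact bijective_of_pd _ hpd
    · exact hw.trans hmin.self_of_nhds.symm
  subst hm'
  exact hμ

theorem fam_step [FiniteDimensional ℝ Z] (h : Geo e r) (hf : Sm e f z₀) (hg : Sm e g z₀)
    (hd : dist (f z₀) (g z₀) < r) {s t : ℝ} (ht : |t| ≤ 1 / 2)
    (h1 : Sm e (fun z => ln e (f z) (g z) s) z₀)
    (h2 : Sm e (fun z => ln e (f z) (g z) (s + t)) z₀) :
    Sm e (fun z => ln e (f z) (g z) (s + t + t)) z₀ := by
  have e1 : |s - (s + t)| = |t| := by rw [show s - (s + t) = -t by ring, abs_neg]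
  have e2 : |s + t - (s + t + t)| = |t| := by
    rw [show s + t - (s + t + t) = -t by ring, abs_neg]
  have e3 : |s - (s + t + t)| = 2 * |t| := by
    rw [show s - (s + t + t) = -(2 * t) by ring, abs_neg, abs_mul, abs_two]
  have ht0 := abs_nonneg t
  have key : ∀ z, dist (f z) (g z) < r →
      dist (ln e (f z) (g z) s) (ln e (f z) (g z) (s + t)) = |t| * dist (f z) (g z) ∧
      dist (ln e (f z) (g z) (s + t)) (ln e (f z) (g z) (s + t + t)) = |t| * dist (f z) (g z) ∧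
      dist (ln e (f z) (g z) s) (ln e (f z) (g z) (s + t + t)) = 2 * |t| * dist (f z) (g z) := by
    intro z hz
    have hn := dist_nonneg (x := f z) (y := g z)
    have c := h.ugeo (f z) (P234.lg e (f z) (g z))
    rw [h.norm_lg] at c
    have c1 := c s (s + t) (by rw [e1]; nlinarith)
    have c2 := c (s + t) (s + t + t) (by rw [e2]; nlinarith)
    have c3 := c s (s + t + t) (by rw [e3]; nlinarith)
    rw [e1] at c1
    rw [e2] at c2
    rw [e3] at c3
    exact ⟨c1, c2, c3⟩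
  have hn := dist_nonneg (x := f z₀) (y := g z₀)
  refine h.contDiffAt_lg_step (f := fun z => ln e (f z) (g z) s)
    (g := fun z => ln e (f z) (g z) (s + t)) (k := fun z => ln e (f z) (g z) (s + t + t)) h1 h2
    (fam_cont h hf hg hd continuousAt_const) ?_ ?_ ?_
  · rw [(key z₀ hd).1]; nlinarith
  · rw [(key z₀ hd).2.1]; nlinarith
  · filter_upwards [((hf.continuousAt h).dist (hg.continuousAt h)).eventually (gt_mem_nhds hd)]
      with z hz
    obtain ⟨c1, c2, c3⟩ := key z hz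
    rw [c1, c2, c3]
    constructor <;> ring

theorem fam_nat [FiniteDimensional ℝ Z] (h : Geo e r) (hf : Sm e f z₀) (hg : Sm e g z₀)
    (hd : dist (f z₀) (g z₀) < r) {t : ℝ} (ht : |t| < 1 / 2) (n : ℕ) :
    Sm e (fun z => ln e (f z) (g z) (1 / 2 + n * t)) z₀ ∧
      Sm e (fun z => ln e (f z) (g z) (1 / 2 + n * t + t)) z₀ := by
  have ht' := abs_lt.1 ht
  induction n with
  | zero =>
    exact ⟨hf.ln_int h hg hd contDiffAt_const (by simp) (by norm_num),
      hf.ln_int h hg hd contDiffAt_const (by simp only [Nat.cast_zero]; linarith)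
        (by simp only [Nat.cast_zero]; linarith)⟩
  | succ n ih =>
    have e1 : 1 / 2 + ((n + 1 : ℕ) : ℝ) * t = 1 / 2 + n * t + t := by push_cast; ring
    rw [e1]
    exact ⟨ih.2, fam_step h hf hg hd ht.le ih.1 ih.2⟩

theorem fam_int [FiniteDimensional ℝ Z] (h : Geo e r) (hf : Sm e f z₀) (hg : Sm e g z₀)
    (hd : dist (f z₀) (g z₀) < r) (i : ℤ) :
    Sm e (fun z => ln e (f z) (g z) (1 / 2 + i / 4)) z₀ := by
  obtain ⟨n, rfl | rfl⟩ := i.eq_nat_or_neg
  · have := (fam_nat h hf hg hd (t := 1 / 4) (by rw [abs_of_pos] <;> norm_num) n).1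
    rwa [show (1 / 2 : ℝ) + n * (1 / 4) = 1 / 2 + ((n : ℤ) : ℝ) / 4 by push_cast; ring] at this
  · have := (fam_nat h hf hg hd (t := -(1 / 4)) (by rw [abs_neg, abs_of_pos] <;> norm_num) n).1
    rwa [show (1 / 2 : ℝ) + n * -(1 / 4) = 1 / 2 + ((-(n : ℤ) : ℤ) : ℝ) / 4 by push_cast; ring]
      at this

/-- The points `x i z = ln (f z) (g z) (1 / 2 + i / 4)`, `i : ℤ`, are smooth: `i = 0, 1` by `ln_int`,
then `contDiffAt_lg_step` in both directions. A general parameter lies strictly between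
`1 / 2 + (i - 1) / 4` and `1 / 2 + (i + 1) / 4`; use `ln_exp` and `ln_int` for these two points. -/
theorem Sm.ln [FiniteDimensional ℝ Z] (h : Geo e r) (hf : Sm e f z₀) (hg : Sm e g z₀)
    (hd : dist (f z₀) (g z₀) < r) {l : Z → ℝ} (hl : ContDiffAt ℝ ∞ l z₀) :
    Sm e (fun z => ln e (f z) (g z) (l z)) z₀ := by
  obtain ⟨i, hi⟩ : ∃ i : ℤ, i = ⌊4 * l z₀ - 2⌋ := ⟨_, rfl⟩
  have i1 : (i : ℝ) ≤ 4 * l z₀ - 2 := hi ▸ Int.floor_le _
  have i2 : 4 * l z₀ - 2 < i + 1 := hi ▸ Int.lt_floor_add_one _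
  have ha := fam_int h hf hg hd (i - 1)
  have hb := fam_int h hf hg hd (i + 1)
  obtain ⟨a, hae⟩ : ∃ a : ℝ, a = 1 / 2 + ((i - 1 : ℤ) : ℝ) / 4 := ⟨_, rfl⟩
  have hbe : 1 / 2 + ((i + 1 : ℤ) : ℝ) / 4 = a + 1 / 2 := by rw [hae]; push_cast; ring
  rw [← hae] at ha
  rw [hbe] at hb
  push_cast at hae
  have e1 : |a + 1 / 2 - a| = 1 / 2 := by rw [add_sub_cancel_left, abs_of_pos (by norm_num)]
  have hn := dist_nonneg (x := f z₀) (y := g z₀)
  have h1 := ha.ln_int h hb (l := fun z => 2 * (l z - a)) (by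
      refine lt_of_le_of_lt (h.dist_le _ _ _ _) ?_
      rw [abs_sub_comm, e1, h.norm_lg]
      linarith)
    (contDiffAt_const.mul (hl.sub contDiffAt_const)) (by linarith) (by linarith)
  refine h1.congr ?_
  filter_upwards [((hf.continuousAt h).dist (hg.continuousAt h)).eventually (gt_mem_nhds hd)]
    with z hz
  have hn := dist_nonneg (x := f z) (y := g z)
  have h2 := ln_exp h (P234.lg e (f z) (g z)) (a := a) (b := a + 1 / 2)
    (by rw [e1, h.norm_lg]; linarith) (2 * (l z - a))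
  rw [show a + 2 * (l z - a) * (a + 1 / 2 - a) = l z by ring] at h2
  exact h2.symm

end Vale.Agent.P231
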