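import Vale.Agent.P231.AlgA

/-! The gradient of the model function. -/

open scoped ContDiff Topology
open Filter Set

noncomputable section

namespace Vale.Agent.P231

variable {V : Type*} [NormedAddCommGroup V] [InnerProductSpace ℝ V]
  {P : V →L[ℝ] V →L[ℝ] V →L[ℝ] V}

/-- With `S = s • v`, `‖v‖ = 1`, `S' = σ • v + y₁ + y₂` (`y₁` fixed by `π = P v v` and orthogonal
to `v`, `π y₂ = 0`): `F = (C C' + s σ)² + s² ‖y₁‖²` and
`1 - F = (s C' - C σ)² + C² ‖y₁‖² + ‖y₂‖²`. -/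
theorem Pre.Fq_mem (hP : Pre P) {C C' : ℝ} {S S' : V} (h : C ^ 2 + ‖S‖ ^ 2 = 1)
    (h' : C' ^ 2 + ‖S'‖ ^ 2 = 1) : 0 ≤ Fq P C S C' S' ∧ Fq P C S C' S' ≤ 1 := by
  have e1 := hP.norm_sq S S'
  have e2 : inner ℝ (P S S S') S = ‖S‖ ^ 2 * inner ℝ S S' := by
    rw [hP.adj, hP.self, real_inner_smul_right, real_inner_comm]
  have c1 := real_inner_mul_inner_self_le (P S S S') S
  have c2 := real_inner_mul_inner_self_le (P S S S') S'
  simp only [real_inner_self_eq_norm_sq] at c1 c2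
  rw [e1] at c1 c2
  rw [e2] at c1
  have c3 := abs_le.1 (abs_real_inner_le_norm S S')
  have q1 : inner ℝ S S' ^ 2 ≤ inner ℝ (P S S S') S' := by
    rcases eq_or_ne S 0 with rfl | h0
    · simp
    · have : 0 < ‖S‖ ^ 2 * ‖S‖ ^ 2 := by have := norm_pos_iff.2 h0; positivity
      exact le_of_mul_le_mul_left (by linarith) this
  have q2 : inner ℝ (P S S S') S' ≤ ‖S‖ ^ 2 * ‖S'‖ ^ 2 := by
    rcases ((sq_nonneg _).trans q1).eq_or_lt with h0 | h0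
    · rw [← h0]; positivity
    · exact le_of_mul_le_mul_left (by linarith) h0
  unfold Fq
  refine ⟨by nlinarith [sq_nonneg (C * C' + inner ℝ S S')], ?_⟩
  have e : (C ^ 2 + ‖S‖ ^ 2) * (C' ^ 2 + ‖S'‖ ^ 2) = 1 := by rw [h, h', one_mul]
  rcases le_total 0 (C * C') with h0 | h0
  · nlinarith [mul_le_mul_of_nonneg_left c3.2 h0, sq_nonneg (C * ‖S'‖ - ‖S‖ * C')]
  · nlinarith [mul_le_mul_of_nonpos_left c3.1 h0, sq_nonneg (C * ‖S'‖ + ‖S‖ * C')]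

theorem grad_dec (hP : Pre P) {v : V} (hv : ‖v‖ = 1) (x : V) : ∃ (ρ : ℝ) (x₁ x₂ : V),
    x = ρ • v + x₁ + x₂ ∧ P v v x₁ = x₁ ∧ inner ℝ v x₁ = 0 ∧ P v v x₂ = 0 := by
  have πv : P v v v = v := by rw [hP.self, hv, one_pow, one_smul]
  have ππ : P v v (P v v x) = P v v x := by rw [hP.idem, hv, one_pow, one_smul]
  refine ⟨inner ℝ v x, P v v x - inner ℝ v x • v, x - P v v x, by abel, ?_, ?_, ?_⟩
  · rw [map_sub, map_smul, πv, ππ]
  · rw [inner_sub_right, ← hP.adj, πv, real_inner_smul_right, real_inner_self_eq_norm_sq, hv]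
    ring
  · rw [map_sub, ππ, sub_self]

theorem grad_sq (x y : V) : inner ℝ x y ^ 2 ≤ ‖x‖ ^ 2 * ‖y‖ ^ 2 := by
  rw [← mul_pow, ← sq_abs]
  exact pow_le_pow_left₀ (abs_nonneg _) (abs_real_inner_le_norm x y) 2

theorem grad_two {u u' A A' B B' : ℝ} (a : 0 ≤ A) (a' : 0 ≤ A') (b : 0 ≤ B) (b' : 0 ≤ B')
    (h : u ^ 2 ≤ A * B) (h' : u' ^ 2 ≤ A' * B') : 2 * (u * u') ≤ A * B' + A' * B := by
  refine (abs_le_of_sq_le_sq' ?_ (by positivity)).2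
  have := mul_le_mul h h' (sq_nonneg _) (by positivity)
  nlinarith [sq_nonneg (A * B' - A' * B)]

theorem grad_cs {u₁ u₂ u₃ A₁ A₂ A₃ B₁ B₂ B₃ : ℝ} (a₁ : 0 ≤ A₁) (a₂ : 0 ≤ A₂) (a₃ : 0 ≤ A₃)
    (b₁ : 0 ≤ B₁) (b₂ : 0 ≤ B₂) (b₃ : 0 ≤ B₃) (h₁ : u₁ ^ 2 ≤ A₁ * B₁) (h₂ : u₂ ^ 2 ≤ A₂ * B₂)
    (h₃ : u₃ ^ 2 ≤ A₃ * B₃) : (u₁ + u₂ + u₃) ^ 2 ≤ (A₁ + A₂ + A₃) * (B₁ + B₂ + B₃) := by
  have := grad_two a₁ a₂ b₁ b₂ h₁ h₂
  have := grad_two a₁ a₃ b₁ b₃ h₁ h₃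
  have := grad_two a₂ a₃ b₂ b₃ h₂ h₃
  linarith

/-- The algebraic inequality. Write `w = ρ • v + w₁ + w₂` and `S'` as above, `B = P v w₂`,
`a = C C' + s σ`, `b = C σ - s C'`. Then `P v w₁ = 0` (`P_in`), and the left side is the square
of `2 κ` times `(t ρ) (a b + s C ‖y₁‖²) + (s C / κ) C' ⟪w₁, y₁⟫ + (s / κ) ⟪2 B z, y₂⟫` with
`z = (C C') • v + s • (σ • v + y₁)` (`B_u`, `B_in`, `B_out`), `‖2 B z‖² = ‖w₂‖² F` (`norm_B`).
Cauchy-Schwarz in `ℝ³` and the Lagrange identity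
`(a² + s² Y²) (b² + C² Y²) = (a b + s C Y²)² + C'² Y²` conclude. -/
theorem Spr.grad_alg (hP : Spr P) {κ t C' : ℝ} (hκ : 0 < κ) {v S' : V} (hv : ‖v‖ = 1)
    (h' : C' ^ 2 + ‖S'‖ ^ 2 = 1) (w : V) {C s dC : ℝ} {dS : V} (hC : C = Real.cos (κ * t))
    (hs : s = Real.sin (κ * t)) (hdC : dC = -(t * κ * s * inner ℝ w v))
    (hdS : dS = (t * κ * C * inner ℝ w v) • v + s • (w - inner ℝ w v • v)) :
    (2 * C * dC * C' ^ 2 + 2 * dC * C' * inner ℝ (s • v) S' + 2 * C * C' * inner ℝ dS S' +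
        2 * inner ℝ (P (s • v) dS S') S') ^ 2 ≤
      4 * κ ^ 2 * (Fq P C (s • v) C' S' * (1 - Fq P C (s • v) C' S')) *
        Gq κ t v w (inner ℝ (P v v w) w) := by
  have hQ := hP.toPre
  have vv : inner ℝ v v = 1 := by rw [real_inner_self_eq_norm_sq, hv, one_pow]
  have πv : P v v v = v := by rw [hQ.self, hv, one_pow, one_smul]
  obtain ⟨ρ, w₁, w₂, rfl, a1, a2, a3⟩ := grad_dec hQ hv w
  obtain ⟨σ, y₁, y₂, rfl, b1, b2, b3⟩ := grad_dec hQ hv S'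
  have o1 := hQ.perp hv a3 πv
  have o2 := hQ.perp hv b3 πv
  have o3 := hQ.perp hv a3 a1
  have o4 := hQ.perp hv b3 b1
  have o5 := hQ.perp hv b3 a1
  have o6 := hQ.perp hv a3 b1
  have c := @real_inner_comm V _ _
  have n : ∀ (x : ℝ) (x₁ x₂ : V), inner ℝ v x₁ = 0 → inner ℝ v x₂ = 0 → inner ℝ x₁ x₂ = 0 →
      P v v x₁ = x₁ → P v v x₂ = 0 → ‖x • v + x₁ + x₂‖ ^ 2 = x ^ 2 + ‖x₁‖ ^ 2 + ‖x₂‖ ^ 2 ∧
      inner ℝ (P v v (x • v + x₁ + x₂)) (x • v + x₁ + x₂) = x ^ 2 + ‖x₁‖ ^ 2 ∧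
      inner ℝ v (x • v + x₁ + x₂) = x := fun x x₁ x₂ h1 h2 h3 h4 h5 => by
    simp only [← real_inner_self_eq_norm_sq, map_add, map_smul, πv, h4, h5, add_zero,
      inner_add_left, inner_add_right, real_inner_smul_left, real_inner_smul_right, vv, h1, h2, h3,
      c v x₁, c v x₂, c x₁ x₂]
    refine ⟨by ring, by ring, by ring⟩
  obtain ⟨n1, n2, n3⟩ := n ρ w₁ w₂ a2 o1 o3 a1 a3
  obtain ⟨m1, m2, m3⟩ := n σ y₁ y₂ b2 o2 o4 b1 b3
  rw [c] at n3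
  have cs : C ^ 2 + s ^ 2 = 1 := by rw [hC, hs, Real.cos_sq_add_sin_sq]
  rw [n3] at hdC hdS
  rw [show ρ • v + w₁ + w₂ - ρ • v = w₁ + w₂ by abel] at hdS
  obtain ⟨p, hp⟩ : ∃ p, p = σ • v + y₁ := ⟨_, rfl⟩
  rw [← hp] at h' m1 m2 m3 ⊢
  have πp : P v v p = p := by rw [hp, map_add, map_smul, πv, b1]
  obtain ⟨z, hz⟩ : ∃ z, z = (C * C') • v + s • p := ⟨_, rfl⟩
  have πz : P v v z = z := by rw [hz, map_add, map_smul, map_smul, πv, πp]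
  have F1 : Fq P C (s • v) C' (p + y₂) = (C * C' + s * σ) ^ 2 + s ^ 2 * ‖y₁‖ ^ 2 := by
    simp only [Fq, map_smul, _root_.smul_apply, real_inner_smul_left, m2, m3]
    ring
  have F2 : ‖z‖ ^ 2 = (C * C' + s * σ) ^ 2 + s ^ 2 * ‖y₁‖ ^ 2 := by
    simp only [hz, hp, ← real_inner_self_eq_norm_sq, inner_add_left, inner_add_right,
      real_inner_smul_left, real_inner_smul_right, vv, b2, c v y₁]
    ring
  have B1 : inner ℝ (P v w₂ (p + y₂)) (p + y₂) = 2 * inner ℝ (P v w₂ p) y₂ := by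
    have e1 : inner ℝ (P v w₂ p) p = 0 := by
      rw [c]; exact hQ.perp hv (hQ.B_in hv a3 πp) πp
    have e2 := hQ.perp hv b3 (hQ.B_out hv a3 b3)
    rw [map_add, inner_add_left, inner_add_right, inner_add_right, e1, e2, hQ.adj v w₂ y₂, c]
    ring
  have B2 : inner ℝ ((2 : ℝ) • P v w₂ z) y₂ =
      C * C' * inner ℝ w₂ y₂ + s * (2 * inner ℝ (P v w₂ p) y₂) := by
    have e := congrArg (inner ℝ · y₂) (hQ.B_u hv a3)
    simp only [real_inner_smul_left] at e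
    simp only [hz, map_add, map_smul, inner_add_left, real_inner_smul_left, ← e]
    ring
  have B3 : P v w₁ = 0 := by rw [hP.P_in hv πv a1, a2, zero_smul]
  have E1 : inner ℝ dS (p + y₂) = t * κ * C * ρ * σ + s * (inner ℝ w₁ y₁ + inner ℝ w₂ y₂) := by
    simp only [hdS, hp, inner_add_left, inner_add_right, real_inner_smul_left,
      real_inner_smul_right, vv, b2, o2, c v w₁, c v w₂, a2, o1, o5, c y₁ w₂, o6]
    ring
  have E2 : inner ℝ (P (s • v) dS (p + y₂)) (p + y₂) =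
      s * (t * κ * C * ρ * (σ ^ 2 + ‖y₁‖ ^ 2) + s * (2 * inner ℝ (P v w₂ p) y₂)) := by
    rw [← m2, ← B1, hdS]
    generalize p + y₂ = y
    simp only [map_add, map_smul, _root_.smul_apply, _root_.add_apply, B3, _root_.zero_apply,
      inner_zero_left, inner_add_left, real_inner_smul_left]
    ring
  have k := grad_cs (u₁ := t * ρ * ((C * C' + s * σ) * (C * σ - s * C') + s * C * ‖y₁‖ ^ 2))
    (u₂ := s * C / κ * (C' * inner ℝ w₁ y₁)) (u₃ := s / κ * inner ℝ ((2 : ℝ) • P v w₂ z) y₂)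
    (A₁ := t ^ 2 * ρ ^ 2) (A₂ := (s * C / κ) ^ 2 * ‖w₁‖ ^ 2) (A₃ := (s / κ) ^ 2 * ‖w₂‖ ^ 2)
    (B₁ := ((C * C' + s * σ) * (C * σ - s * C') + s * C * ‖y₁‖ ^ 2) ^ 2) (B₂ := C' ^ 2 * ‖y₁‖ ^ 2)
    (B₃ := ‖z‖ ^ 2 * ‖y₂‖ ^ 2) (by positivity) (by positivity) (by positivity) (by positivity)
    (by positivity) (by positivity) (le_of_eq (by ring)) (by
      have := mul_le_mul_of_nonneg_left (grad_sq w₁ y₁) (sq_nonneg (s * C / κ * C'))
      linarith) (by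
      have := mul_le_mul_of_nonneg_left (grad_sq ((2 : ℝ) • P v w₂ z) y₂) (sq_nonneg (s / κ))
      rw [hP.norm_B hv a3 πz] at this
      linarith)
  rw [m1] at h'
  have L : ((C * C' + s * σ) * (C * σ - s * C') + s * C * ‖y₁‖ ^ 2) ^ 2 + C' ^ 2 * ‖y₁‖ ^ 2 +
      ‖z‖ ^ 2 * ‖y₂‖ ^ 2 = Fq P C (s • v) C' (p + y₂) * (1 - Fq P C (s • v) C' (p + y₂)) := by
    have e : 1 - ((C * C' + s * σ) ^ 2 + s ^ 2 * ‖y₁‖ ^ 2) =
        (C * σ - s * C') ^ 2 + C ^ 2 * ‖y₁‖ ^ 2 + ‖y₂‖ ^ 2 := by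
      linear_combination (-1 : ℝ) * h' - (C' ^ 2 + σ ^ 2 + ‖y₁‖ ^ 2) * cs
    rw [F1, F2, e]
    linear_combination (-(C' ^ 2 * ‖y₁‖ ^ 2) * (C ^ 2 + s ^ 2 + 1)) * cs
  rw [L, B2] at k
  rw [E1, E2, real_inner_smul_left, m3, hdC, Gq, n1, n2, n3, ← hC, ← hs]
  refine (le_of_eq ?_).trans ((mul_le_mul_of_nonneg_left k (show 0 ≤ 4 * κ ^ 2 by positivity)).trans_eq
    (by ring))
  field_simp
  ring

/-- The norm has derivative `⟪·, v⟫` at `t • v`; `t` times the derivatives of `cos (κ ‖a‖)` and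
`Sv κ a` are the `dC` and `dS` of `grad_alg`. -/
theorem Spr.grad (hP : Spr P) {κ t C' : ℝ} (hκ : 0 < κ) (ht : 0 < t) {v S' : V} (hv : ‖v‖ = 1)
    (h' : C' ^ 2 + ‖S'‖ ^ 2 = 1) : ∃ F' : V →L[ℝ] ℝ,
      HasFDerivAt (fun a => Fq P (Real.cos (κ * ‖a‖)) (Sv κ a) C' S') F' (t • v) ∧
      ∀ w, (t * F' w) ^ 2 ≤ 4 * κ ^ 2 * (Fq P (Real.cos (κ * ‖t • v‖)) (Sv κ (t • v)) C' S' *
        (1 - Fq P (Real.cos (κ * ‖t • v‖)) (Sv κ (t • v)) C' S')) *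
          Gq κ t v w (inner ℝ (P v v w) w) := by
  have nt : ‖t • v‖ = t := by rw [norm_smul, hv, mul_one, Real.norm_of_nonneg ht.le]
  have h0 : HasFDerivAt (fun a : V => ‖a‖) (innerSL ℝ v) (t • v) := by
    have h1 := (hasStrictFDerivAt_norm_sq (t • v)).hasFDerivAt.sqrt (by rw [nt]; positivity)
    simp only [Real.sqrt_sq (norm_nonneg _)] at h1
    refine h1.congr_fderiv (ContinuousLinearMap.ext fun w => ?_)
    simp only [nt, _root_.smul_apply, innerSL_apply_apply, smul_eq_mul, real_inner_smul_left,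
      nsmul_eq_mul]
    field_simp
    norm_num
  have h1 := (h0.const_mul κ).cos
  have h2 : HasFDerivAt (Sv κ) _ (t • v) :=
    (((h0.const_mul κ).sin.mul ((hasDerivAt_inv (by rw [nt]; exact ht.ne')).comp_hasFDerivAt _
      h0)).smul (hasFDerivAt_id (t • v))).congr_of_eventuallyEq
      (Eventually.of_forall fun a => by simp [Sv, div_eq_mul_inv])
  have h3 := (((h1.pow 2).mul_const (C' ^ 2)).add (((h1.const_mul 2).mul_const C').mul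
    (h2.inner ℝ (hasFDerivAt_const S' _)))).add
    (((P.hasFDerivAt_of_bilinear h2 h2).clm_apply (hasFDerivAt_const S' _)).inner ℝ
      (hasFDerivAt_const S' _))
  refine ⟨_, h3, fun w => ?_⟩
  have e : Sv κ (t • v) = Real.sin (κ * t) • v := by
    rw [Sv, nt, smul_smul, div_mul_cancel₀ _ ht.ne']
  rw [e, nt]
  refine le_trans (le_of_eq ?_) (hP.grad_alg hκ hv h' w rfl rfl rfl rfl)
  congr 1
  simp [e, nt, hP.symm w v, inner_add_left, inner_sub_left, real_inner_smul_left,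
    real_inner_comm v w]
  field_simp
  ring

end Vale.Agent.P231
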