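import Vale.Agent.P231.PartB
import Vale.Agent.P231.Grad
import Vale.Agent.P231.Fam

/-! The model distance is at most the distance. -/

open scoped ContDiff Topology Matrix
open Filter Set

noncomputable section

namespace Vale.Agent.P231

open Vale.Agent.P234

variable {M : Type*} [MetricSpace M] [CompactSpace M] {T : M → Type*}
  [∀ x, NormedAddCommGroup (T x)] [∀ x, InnerProductSpace ℝ (T x)]
  [∀ x, FiniteDimensional ℝ (T x)] {e : ∀ x, T x → M} {r D : ℝ}

variable {x : M} {P : T x →L[ℝ] T x →L[ℝ] T x →L[ℝ] T x}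

/-- Induction on the finite set (mean value inequality on each piece). -/
theorem lip_finite {g : ℝ → ℝ} {K a b : ℝ} (S : Finset ℝ) (hab : a ≤ b)
    (hc : ContinuousOn g (Icc a b))
    (hd : ∀ t ∈ Ioo a b, t ∉ S → ∃ g', HasDerivAt g g' t ∧ |g'| ≤ K) :
    |g b - g a| ≤ K * (b - a) := by
  induction S using Finset.induction_on generalizing a b with
  | empty =>
    rcases hab.eq_or_lt with rfl | h
    · simp
    obtain ⟨c, hc, e⟩ := exists_deriv_eq_slope g h hc fun t ht =>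
      (hd t ht (by simp)).choose_spec.1.differentiableAt.differentiableWithinAt
    obtain ⟨g', h1, h2⟩ := hd c hc (by simp)
    rwa [← h1.deriv, e, abs_div, abs_of_pos (sub_pos.2 h), div_le_iff₀ (sub_pos.2 h)] at h2
  | insert c S _ ih =>
    by_cases h : c ∈ Ioo a b
    · have e1 := ih h.1.le (hc.mono (Icc_subset_Icc_right h.2.le)) fun t ht hS =>
        hd t ⟨ht.1, ht.2.trans h.2⟩ (by simp [hS, ht.2.ne])
      have e2 := ih h.2.le (hc.mono (Icc_subset_Icc_left h.1.le)) fun t ht hS =>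
        hd t ⟨h.1.trans ht.1, ht.2⟩ (by simp [hS, ht.1.ne'])
      linarith [abs_sub_le (g b) (g c) (g a)]
    · exact ih hab hc fun t ht hS => hd t ht (by
        rw [Finset.mem_insert, not_or]
        exact ⟨fun e => h (e ▸ ht), hS⟩)

/-- Apply `lip_finite` to `arccos ((1 - ε) (2 f - 1))`, whose derivative is bounded by `2 K`
since `1 - (1 - ε)² (2 f - 1)² ≥ 4 f (1 - f)`, and let `ε → 0`. -/
theorem lip_arccos {f : ℝ → ℝ} {K : ℝ} (hK : 0 ≤ K) (S : Finset ℝ)
    (hc : ContinuousOn f (Icc 0 1)) (hm : ∀ t ∈ Icc (0 : ℝ) 1, 0 ≤ f t ∧ f t ≤ 1)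
    (hd : ∀ t ∈ Ioo (0 : ℝ) 1, t ∉ S →
      ∃ f', HasDerivAt f f' t ∧ f' ^ 2 ≤ 4 * K ^ 2 * (f t * (1 - f t))) :
    |Real.arccos (2 * f 1 - 1) - Real.arccos (2 * f 0 - 1)| ≤ 2 * K := by
  have key : ∀ l ∈ Ioo (0 : ℝ) 1,
      |Real.arccos (l * (2 * f 1 - 1)) - Real.arccos (l * (2 * f 0 - 1))| ≤ 2 * K := fun l hl => by
    have := lip_finite (g := fun t => Real.arccos (l * (2 * f t - 1))) (K := 2 * K) S zero_le_one
      (Real.continuous_arccos.comp_continuousOn (by fun_prop)) fun t ht hS => ?_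
    · simpa using this
    obtain ⟨f', h1, h2⟩ := hd t ht hS
    obtain ⟨m0, m1⟩ := hm t (Ioo_subset_Icc_self ht)
    have u1 : (2 * f t - 1) ^ 2 ≤ 1 := by nlinarith
    have l1 : l ^ 2 < 1 := by nlinarith [hl.1, hl.2]
    have u2 : (l * (2 * f t - 1)) ^ 2 < 1 := by
      rw [mul_pow]; exact (mul_le_of_le_one_right (sq_nonneg _) u1).trans_lt l1
    have u3 : (l * (2 * f t - 1)) ^ 2 ≤ (2 * f t - 1) ^ 2 := by
      rw [mul_pow]; exact mul_le_of_le_one_left (sq_nonneg _) l1.le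
    have hD := (Real.hasDerivAt_arccos (x := l * (2 * f t - 1)) (fun e => by simp [e] at u2)
      (fun e => by simp [e] at u2)).comp t (((h1.const_mul 2).sub_const 1).const_mul l)
    refine ⟨_, hD, ?_⟩
    refine abs_le_of_sq_le_sq ?_ (by positivity)
    rw [mul_pow, neg_sq, div_pow, Real.sq_sqrt (by linarith), one_pow, one_div, inv_mul_le_iff₀
      (by linarith)]
    have a1 := mul_le_of_le_one_left (sq_nonneg f') l1.le
    have a2 := mul_le_mul_of_nonneg_left u3 (sq_nonneg K)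
    nlinarith
  have c : Continuous fun l : ℝ =>
      |Real.arccos (l * (2 * f 1 - 1)) - Real.arccos (l * (2 * f 0 - 1))| := by
    have := Real.continuous_arccos
    fun_prop
  have := le_of_tendsto ((c.tendsto 1).mono_left (nhdsWithin_le_nhds (s := Iio 1)))
    (mem_of_superset (Ioo_mem_nhdsLT one_pos) key)
  simpa using this

/-- The curve read in normal coordinates is smooth (`Sm.lg`, `Bl.sp`, `sm_exp`) and its speed
is computed by `bi`. -/
theorem Bl.lip_speed (h : Bl e r D) {y : M} (w : T y) {t : ℝ} (ht : dist x (e y (t • w)) < D) :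
    ∃ a' : T x, HasDerivAt (fun s : ℝ => lg e x (e y (s • w))) a' t ∧
      ‖Lmap e x (lg e x (e y (t • w))) (e x (lg e x (e y (t • w)))) a'‖ = ‖w‖ := by
  have g := h.toGeo
  have d : DifferentiableAt ℝ (fun s : ℝ => lg e x (e y (s • w))) t :=
    (smooth_comp (g.contDiffAt_lg (h.sp ht) rfl) (fun s : ℝ => s • w) t (by fun_prop)
      rfl).differentiableAt (by simp)
  refine ⟨_, d.hasDerivAt, ?_⟩
  obtain ⟨ρ, h1, h2⟩ := g.flow (g.exp_lg x (e y (t • w))).symm
  have e1 := ((g.contDiffAt_lg_self x (lg e x (e y (t • w)))).differentiableAt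
    (by simp)).hasFDerivAt.comp_hasDerivAt t d.hasDerivAt
  have e2 : HasDerivAt (fun s : ℝ => (s - t) • ρ) ((1 : ℝ) • ρ) t :=
    ((hasDerivAt_id t).sub_const t).smul_const ρ
  have e3 : ∀ᶠ s : ℝ in 𝓝 t, lg e _ (e _ ((s - t) • ρ)) = (s - t) • ρ :=
    (show Tendsto (fun s : ℝ => (s - t) • ρ) (𝓝 t) (𝓝 0) by
      simpa using e2.continuousAt.tendsto).eventually (g.smooth_ev_lg _)
  have e4 := e1.unique (e2.congr_of_eventuallyEq (e3.mono fun s hs => by
    refine Eq.trans ?_ hs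
    rw [← h2, add_sub_cancel, Function.comp_apply, g.exp_lg x (e y (s • w))]))
  rw [← h1, ← one_smul ℝ ρ, ← e4]
  rfl

/-- If `a = 0` there is equality; if the distance is `0` use `Fn_eq`, `Fn_self`; if it is `D`
the left side vanishes (`Fq_mem`). Otherwise let `y = e x a`, `w = lg e y (e x b)` and
`f s = Fn κ P (lg e x (e y (s • w))) b`, `f 1 = 1`, `f 0 = Fn κ P a b`. The exceptional times,
where the curve is at `x` or at distance `D` from `x`, are at most two (`cut_once`). At the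
other times use `lip_speed`, `grad` and `RigP`: `K = κ ‖w‖`. -/
theorem Bl.cos_le (h : Bl e r D) (hP : Spr P) (hR : RigP e D x P) {a b : T x} (ha : ‖a‖ < D)
    (hb : ‖b‖ < D) : Real.cos (Real.pi / (2 * D) * dist (e x a) (e x b)) ^ 2 ≤
      Fn (Real.pi / (2 * D)) P a b := by
  have g := h.toGeo
  have D0 := h.dpos
  set κ := Real.pi / (2 * D) with hκ
  have κ0 : 0 < κ := by have := Real.pi_pos; positivity
  have κD : κ * D = Real.pi / 2 := by rw [hκ]; field_simp
  have mem : ∀ u : T x, 0 ≤ Fn κ P u b ∧ Fn κ P u b ≤ 1 := fun u =>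
    hP.toPre.Fq_mem (cos_sq_add_Sv κ u) (cos_sq_add_Sv κ b)
  rcases eq_or_ne a 0 with rfl | a0
  · rw [g.zero, h.min x b hb.le]
    simp [Fn, Fq, Sv]
  rcases (h.le (e x a) (e x b)).eq_or_lt with hd | hd
  · rw [hd, κD, Real.cos_pi_div_two]
    simpa using (mem a).1
  by_cases hab : e x a = e x b
  · rw [h.Fn_eq hP hR ha.le hb.le hab, hP.toPre.Fn_self]
    exact Real.cos_sq_le_one _
  set y := e x a with hy
  set w := lg e y (e x b) with hw
  have nw : ‖w‖ = dist y (e x b) := g.norm_lg _ _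
  have w0 : 0 < ‖w‖ := nw ▸ dist_pos.2 hab
  have dy : dist x y = ‖a‖ := h.min x a ha.le
  have s1 : {s ∈ Icc (0 : ℝ) 1 | e y (s • w) = x}.Finite := by
    have k : ∀ s t, s ∈ {s ∈ Icc (0 : ℝ) 1 | e y (s • w) = x} →
        t ∈ {s ∈ Icc (0 : ℝ) 1 | e y (s • w) = x} → s ≤ t → s = t := fun s t hs ht hst => by
      have := g.dist_of_min (g.lg_mem_min y (e x b)) hs.1.1 hst ht.1.2
      rw [hs.2, ht.2, dist_self, eq_comm, mul_eq_zero, sub_eq_zero] at this
      exact (this.resolve_right w0.ne').symm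
    exact Set.Subsingleton.finite fun s hs t ht =>
      (le_total s t).elim (k s t hs ht) fun e => (k t s ht hs e).symm
  have s2 : {s ∈ Icc (0 : ℝ) 1 | dist x (e y (s • w)) = D}.Finite :=
    Set.Subsingleton.finite fun s hs t ht => h.cut_once hR (dy ▸ norm_pos_iff.2 a0) (dy ▸ ha)
      (nw ▸ hd) (norm_pos_iff.1 w0) hs.1 ht.1 hs.2 ht.2
  have key := lip_arccos (f := fun s => Fn κ P (lg e x (e y (s • w))) b) (K := κ * ‖w‖)
    (by positivity) (s1.union s2).toFinset (((h.continuous_Fn_lg hP hR b).comp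
      ((g.continuous_exp y).comp (continuous_id.smul continuous_const))).continuousOn)
    (fun t _ => mem _) fun t ht hS => by
      rw [Set.Finite.mem_toFinset, mem_union, not_or] at hS
      have t1 : dist x (e y (t • w)) < D :=
        lt_of_le_of_ne (h.le _ _) fun e => hS.2 ⟨Ioo_subset_Icc_self ht, e⟩
      have t0 : 0 < dist x (e y (t • w)) :=
        dist_pos.2 fun e => hS.1 ⟨Ioo_subset_Icc_self ht, e.symm⟩
      obtain ⟨a', h1, h2⟩ := h.lip_speed w t1
      rw [← g.norm_lg] at t0 t1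
      obtain ⟨τ, v, hv, τ0, τ1, e1⟩ : ∃ (τ : ℝ) (v : T x), ‖v‖ = 1 ∧ 0 < τ ∧ τ < D ∧
          lg e x (e y (t • w)) = τ • v :=
        ⟨_, _, norm_smul_inv_norm (𝕜 := ℝ) (norm_pos_iff.1 t0), t0, t1, by
          rw [smul_smul]
          exact ((congrArg (· • _) (mul_inv_cancel₀ t0.ne')).trans (one_smul _ _)).symm⟩
      obtain ⟨F', h3, h4⟩ := hP.grad κ0 τ0 hv (cos_sq_add_Sv κ b)
      have h6 := h3.comp_hasDerivAt_of_eq t h1 e1.symm
      refine ⟨F' a', h6, ?_⟩
      have h5 := h4 a'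
      rw [← hR v hv τ ⟨τ0, τ1⟩ a', ← e1, h2] at h5
      exact le_of_mul_le_mul_left ((le_of_eq (by ring)).trans (h5.trans_eq (by unfold Fn; ring)))
        (pow_pos τ0 2)
  simp only [one_smul, zero_smul, g.zero, hw, g.exp_lg, hy, h.lg_exp' ha, h.lg_exp' hb,
    hP.toPre.Fn_self] at key
  rw [show (2 : ℝ) * 1 - 1 = 1 by norm_num, Real.arccos_one, zero_sub, abs_neg,
    abs_of_nonneg (Real.arccos_nonneg _), g.norm_lg] at key
  have k1 : 2 * (κ * dist y (e x b)) ≤ Real.pi := by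
    have := mul_le_mul_of_nonneg_left hd.le κ0.le
    linarith
  have k2 := Real.cos_le_cos_of_nonneg_of_le_pi (Real.arccos_nonneg _) k1 key
  rw [Real.cos_arccos (by linarith [(mem a).1]) (by linarith [(mem a).2]), Real.cos_two_mul] at k2
  linarith

end Vale.Agent.P231
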