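import Vale.Agent.P231.CoreB

/-! The equality case along one geodesic. -/

open scoped ContDiff Topology Matrix
open Filter Set

noncomputable section

namespace Vale.Agent.P231

variable {α β : Type} [Fintype α] [DecidableEq α] [Fintype β] [DecidableEq β] {D c : ℝ}
  {C A g S : ℝ → Matrix (α ⊕ β) (α ⊕ β) ℝ} {P S₁ : ℝ → Matrix α α ℝ} {φ₁ φ₂ : ℝ → ℝ}

lemma corec_scalar {n : Type} [Fintype n] [DecidableEq n] {M : Matrix n n ℝ} (hM : M.PosDef)
    {l : Filter ℝ} [l.NeBot] {F : ℝ → Matrix n n ℝ} (hF : Tendsto F l (𝓝 1))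
    (hev : ∀ᶠ σ in l, ∃ (N : Matrix n n ℝ) (a b : ℝ), F σ = a • N ∧ M = b • N) {x : ℝ}
    (hx : 0 < x) (hdet : x ^ Fintype.card n = M.det) : M = x • 1 := by
  rcases isEmpty_or_nonempty n with hn | ⟨⟨i₀⟩⟩
  · exact Subsingleton.elim _ _
  have hE : ∀ i j, Tendsto (fun σ => F σ i j) l (𝓝 ((1 : Matrix n n ℝ) i j)) := fun i j =>
    tendsto_pi_nhds.mp (tendsto_pi_nhds.mp hF i) j
  have h1 : M = M i₀ i₀ • (1 : Matrix n n ℝ) := by
    ext i j
    have h2 := (hE i j).mul_const (M i₀ i₀)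
    have h3 := (hE i₀ i₀).const_mul (M i j)
    have h4 := tendsto_nhds_unique_of_eventuallyEq h2 h3 (by
      filter_upwards [hev] with σ ⟨N, a, b, h5, h6⟩
      rw [h5, h6]
      simp only [Matrix.smul_apply, smul_eq_mul]
      ring)
    simp only [Matrix.one_apply_eq, mul_one] at h4
    rw [Matrix.smul_apply, smul_eq_mul, mul_comm, h4]
  have h2 : 0 < M i₀ i₀ := hM.diag_pos
  have h3 : M.det = M i₀ i₀ ^ Fintype.card n := by
    conv_lhs => rw [h1]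
    rw [Matrix.det_smul, Matrix.det_one, mul_one]
  have h4 : Fintype.card n ≠ 0 := (Fintype.card_pos_iff.mpr ⟨i₀⟩).ne'
  rw [h3] at hdet
  rw [(pow_left_inj₀ hx.le h2.le h4).mp hdet]
  exact h1

lemma corec_inv_smul {n : Type} [Fintype n] [DecidableEq n] {M : Matrix n n ℝ} (hM : M.det ≠ 0)
    {k : ℝ} (hk : k ≠ 0) : (k⁻¹ • M)⁻¹ = k • M⁻¹ := by
  refine Matrix.inv_eq_left_inv ?_
  rw [Matrix.smul_mul, Matrix.mul_smul, smul_smul, mul_inv_cancel₀ hk, one_smul,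
    Matrix.nonsing_inv_mul _ (Ne.isUnit hM)]

lemma corec_of_mul {n : Type} [Fintype n] [DecidableEq n] {M : Matrix n n ℝ} {k : ℝ} (hk : k ≠ 0)
    (h : M * (k⁻¹ • (1 : Matrix n n ℝ)) = 1) : M = k • 1 := by
  rw [Matrix.mul_smul, Matrix.mul_one] at h
  rw [← h, smul_smul, mul_inv_cancel₀ hk, one_smul]

lemma SData.corec_diag (h : SData D g S P S₁) (hR : Roots D g P φ₁ φ₂ c) {t : ℝ}
    (ht : t ∈ Ioo 0 (2 * D)) (hD : t ≠ D) {l : Filter ℝ} [l.NeBot] {ρ : ℝ → ℝ}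
    (hl : Tendsto (fun σ => (ρ σ ^ 2)⁻¹ • g σ) l (𝓝 1))
    (hev : ∀ᶠ σ in l, ρ σ ≠ 0 ∧ σ ∈ Ioo 0 (2 * D) ∧ σ ≠ D ∧
      ∃ (X : Matrix α β ℝ) (N₁ : Matrix α α ℝ) (N₂ : Matrix β β ℝ), ∀ τ, τ = σ ∨ τ = t →
        (∃ a : ℝ, P τ = a • N₁) ∧ (g τ).toBlocks₁₂ = X * (g τ).toBlocks₂₂ ∧
          ∃ a : ℝ, (g τ).toBlocks₂₂⁻¹ = a • N₂) :
    g t = Matrix.fromBlocks (φ₂ t ^ 2 • 1) 0 0 (φ₁ t ^ 2 • 1) := by
  have hg := h.pd t ht hD
  have h22 := (posDef_blocks hg).2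
  have p1 : 0 < φ₁ t ^ 2 := pow_pos (hR.coreb_pos1 ht hD) 2
  have p2 : 0 < φ₂ t ^ 2 := pow_pos (hR.good2.pos t ht) 2
  have c12 : Continuous fun M : Matrix (α ⊕ β) (α ⊕ β) ℝ => M.toBlocks₁₂ :=
    continuous_matrix fun i j => continuous_id.matrix_elem (Sum.inl i) (Sum.inr j)
  have o12 : (1 : Matrix (α ⊕ β) (α ⊕ β) ℝ).toBlocks₁₂ = 0 := by
    rw [← Matrix.fromBlocks_one, Matrix.toBlocks_fromBlocks₁₂]
  have o22 : (1 : Matrix (α ⊕ β) (α ⊕ β) ℝ).toBlocks₂₂ = 1 := by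
    rw [← Matrix.fromBlocks_one, Matrix.toBlocks_fromBlocks₂₂]
  have o11 : (1 : Matrix (α ⊕ β) (α ⊕ β) ℝ).toBlocks₁₁ = 1 := by
    rw [← Matrix.fromBlocks_one, Matrix.toBlocks_fromBlocks₁₁]
  have l22 := (jacb_cont22.tendsto _).comp hl
  rw [o22] at l22
  have z12 : (g t).toBlocks₁₂ = 0 := by
    set X₀ := (g t).toBlocks₁₂ * (g t).toBlocks₂₂⁻¹ with hX₀
    have l12 := (c12.tendsto _).comp hl
    rw [o12] at l12
    have cX : Continuous fun M : Matrix β β ℝ => X₀ * M := continuous_const.matrix_mul continuous_id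
    have l3 := (cX.tendsto _).comp l22
    have h0 := tendsto_nhds_unique_of_eventuallyEq l12 l3 (by
      filter_upwards [hev] with σ ⟨_, _, _, X, _, _, h1⟩
      have h2 : X₀ = X := by
        rw [hX₀, (h1 t (Or.inr rfl)).2.1, Matrix.mul_assoc,
          Matrix.mul_nonsing_inv _ (Ne.isUnit h22.det_pos.ne'), Matrix.mul_one]
      have h3 := (h1 σ (Or.inl rfl)).2.1
      change (ρ σ ^ 2)⁻¹ • (g σ).toBlocks₁₂ = X₀ * ((ρ σ ^ 2)⁻¹ • (g σ).toBlocks₂₂)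
      rw [h2, h3, Matrix.mul_smul])
    rw [Matrix.mul_one] at h0
    rw [← Matrix.mul_one (g t).toBlocks₁₂,
      ← Matrix.nonsing_inv_mul _ (Ne.isUnit h22.det_pos.ne'), ← Matrix.mul_assoc, ← hX₀, ← h0,
      Matrix.zero_mul]
  have z21 : (g t).toBlocks₂₁ = 0 := by
    ext i j
    have h1 := congrFun (congrFun z12 j) i
    have h2 := hg.isHermitian.apply (Sum.inr i) (Sum.inl j)
    simp only [Matrix.toBlocks₁₂, Matrix.of_apply, Matrix.zero_apply, star_trivial] at h1 h2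
    simp only [Matrix.toBlocks₂₁, Matrix.of_apply, Matrix.zero_apply]
    rw [← h2, h1]
  have d1 : (1 : Matrix (α ⊕ β) (α ⊕ β) ℝ).det ≠ 0 := by simp
  have d2 : (1 : Matrix β β ℝ).det ≠ 0 := by simp
  have eP : P t = (φ₂ t ^ 2)⁻¹ • (1 : Matrix α α ℝ) := by
    have l1 := (jacb_cont11.tendsto _).comp ((jacb_contAt_inv d1).tendsto.comp hl)
    rw [inv_one, o11] at l1
    refine corec_scalar (h.P_pd t ht) l1 ?_ (inv_pos.mpr p2) (hR.det2 t ht)
    filter_upwards [hev] with σ ⟨h1, h2, h3, _, N₁, _, h4⟩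
    obtain ⟨a, ha⟩ := (h4 σ (Or.inl rfl)).1
    obtain ⟨b, hb⟩ := (h4 t (Or.inr rfl)).1
    refine ⟨N₁, ρ σ ^ 2 * a, b, ?_, hb⟩
    simp only [Function.comp]
    rw [corec_inv_smul (h.pd σ h2 h3).det_pos.ne' (pow_ne_zero 2 h1), ← smul_smul, ← ha,
      h.P_eq σ h3]
    rfl
  have eQ : (g t).toBlocks₂₂⁻¹ = (φ₁ t ^ 2)⁻¹ • (1 : Matrix β β ℝ) := by
    have l1 := (jacb_contAt_inv d2).tendsto.comp l22
    rw [inv_one] at l1
    refine corec_scalar h22.inv l1 ?_ (inv_pos.mpr p1) ?_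
    · filter_upwards [hev] with σ ⟨h1, h2, h3, _, _, N₂, h4⟩
      obtain ⟨a, ha⟩ := (h4 σ (Or.inl rfl)).2.2
      obtain ⟨b, hb⟩ := (h4 t (Or.inr rfl)).2.2
      refine ⟨N₂, ρ σ ^ 2 * a, b, ?_, hb⟩
      change ((ρ σ ^ 2)⁻¹ • (g σ).toBlocks₂₂)⁻¹ = _
      rw [corec_inv_smul (posDef_blocks (h.pd σ h2 h3)).2.det_pos.ne' (pow_ne_zero 2 h1),
        ← smul_smul, ← ha]
    · rw [inv_pow, hR.det1 t ht hD, Matrix.det_nonsing_inv, Ring.inverse_eq_inv']
  have e22 : (g t).toBlocks₂₂ = φ₁ t ^ 2 • 1 := by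
    refine corec_of_mul p1.ne' ?_
    rw [← eQ, Matrix.mul_nonsing_inv _ (Ne.isUnit h22.det_pos.ne')]
  have e11 : (g t).toBlocks₁₁ = φ₂ t ^ 2 • 1 := by
    refine corec_of_mul p2.ne' ?_
    have h1 := Matrix.mul_nonsing_inv _ (Ne.isUnit hg.det_pos.ne')
    rw [← Matrix.fromBlocks_toBlocks (g t)⁻¹] at h1
    nth_rewrite 1 [← Matrix.fromBlocks_toBlocks (g t)] at h1
    rw [Matrix.fromBlocks_multiply] at h1
    have h2 := congrArg Matrix.toBlocks₁₁ h1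
    rw [Matrix.toBlocks_fromBlocks₁₁, o11, z12, Matrix.zero_mul, add_zero, ← h.P_eq t hD, eP] at h2
    exact h2
  rw [← e11, ← e22, ← z12, ← z21, Matrix.fromBlocks_toBlocks]

/-- Let `σ` be on the side considered and `σ' → 0` (or `2 D`). By `same`, `g₁₂ g₂₂⁻¹` takes the same
value at `σ` and `σ'`, and tends to `0`; so `g₁₂ = 0`, `g₂₁ = 0`, `P = g₁₁⁻¹`. The matrices
`σ'² P σ'` lie on the closed line spanned by `P σ` and tend to `1`, so `P σ` is scalar; the same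
for `g₂₂`. The scalars are read from `det2`, `det1` (if the index type is nonempty). -/
theorem SData.diag (h : SData D g S P S₁) (hR : Roots D g P φ₁ φ₂ c)
    (he : ∀ s t, Same D s t →
      iv φ₂ s t ^ Fintype.card α * iv φ₁ s t ^ Fintype.card β = |(S t - S s).det|)
    {t : ℝ} (ht : t ∈ Ioo 0 (2 * D)) (hD : t ≠ D) :
    g t = Matrix.fromBlocks (φ₂ t ^ 2 • 1) 0 0 (φ₁ t ^ 2 • 1) := by
  have hD0 := h.pos
  rcases lt_or_gt_of_ne hD with h1 | h1
  · refine h.corec_diag hR ht hD (ρ := fun σ => σ) h.asym0 ?_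
    filter_upwards [Ioo_mem_nhdsGT ht.1] with σ hσ
    have hs : Same D σ t := Or.inl ⟨hσ.1, hσ.2, h1⟩
    obtain ⟨X, N₁, N₂, h2⟩ := (h.same hR hs).2 (he σ t hs)
    refine ⟨hσ.1.ne', ⟨hσ.1, by linarith [hσ.2]⟩, by linarith [hσ.2], X, N₁, N₂, ?_⟩
    rintro τ (rfl | rfl)
    · exact h2 _ ⟨le_rfl, hσ.2.le⟩
    · exact h2 _ ⟨hσ.2.le, le_rfl⟩
  · refine h.corec_diag hR ht hD (ρ := fun σ => 2 * D - σ) h.asym2 ?_
    filter_upwards [Ioo_mem_nhdsLT ht.2] with σ hσ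
    have hs : Same D t σ := Or.inr ⟨h1, hσ.1, hσ.2⟩
    obtain ⟨X, N₁, N₂, h2⟩ := (h.same hR hs).2 (he t σ hs)
    refine ⟨by linarith [hσ.2], ⟨by linarith [hσ.1], hσ.2⟩, by linarith [hσ.1], X, N₁, N₂, ?_⟩
    rintro τ (rfl | rfl)
    · exact h2 _ ⟨hσ.1.le, le_rfl⟩
    · exact h2 _ ⟨le_rfl, hσ.1.le⟩

lemma corec_vanish {f : ℝ → ℝ} {a b : ℝ} (hab : a ≤ b) (hc : ContinuousOn f (Ioo a b))
    (h0 : ∀ s ∈ Ioo a b, 0 ≤ f s) (hi : IntervalIntegrable f MeasureTheory.volume a b)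
    (hz : ∫ s in a..b, f s = 0) {s : ℝ} (hs : s ∈ Ioo a b) : f s = 0 := by
  rw [intervalIntegral.integral_of_le hab, MeasureTheory.integral_Ioc_eq_integral_Ioo,
    MeasureTheory.setIntegral_eq_zero_iff_of_nonneg_ae
      ((MeasureTheory.ae_restrict_iff' measurableSet_Ioo).mpr (Eventually.of_forall h0))
      (hi.1.mono_set Ioo_subset_Ioc_self)] at hz
  exact MeasureTheory.Measure.eqOn_open_of_ae_eq hz isOpen_Ioo hc continuousOn_const hs

lemma Good.corec_cont {φ : ℝ → ℝ} {l c₀ c₁ u : ℝ} (h : Good φ l c₀ c₁) (hu : 0 < u) :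
    ContinuousOn (fun s => Real.log (sth φ s (s + u))) (Ioo 0 (l - u)) := by
  have m1 : MapsTo (fun s : ℝ => s) (Ioo 0 (l - u)) (Ioo 0 l) := fun s hs =>
    ⟨hs.1, by linarith [hs.2]⟩
  have m2 : MapsTo (fun s : ℝ => s + u) (Ioo 0 (l - u)) (Ioo 0 l) := fun s hs =>
    ⟨by linarith [hs.1], by linarith [hs.2]⟩
  have c2 : Continuous fun s : ℝ => s + u := continuous_id.add continuous_const
  have c3 : ContinuousOn (fun s : ℝ => iv φ s (s + u)) (Ioo 0 (l - u)) :=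
    h.continuousOn_iv.comp (f := fun s : ℝ => (s, s + u)) (continuous_id.prodMk c2).continuousOn
      fun s hs => ⟨m1 hs, m2 hs⟩
  refine ContinuousOn.log (((h.cont.comp continuousOn_id m1).mul
    (h.cont.comp c2.continuousOn m2)).mul c3) fun s hs => ?_
  exact (h.sth_pos hs.1 (by linarith) (by linarith [hs.2])).ne'

lemma Jac.corec_cont (h : Jac D C A) (hR : Roots D (gm A) P φ₁ φ₂ c) {u : ℝ} (hu : u ∈ Ioo 0 D)
    (hc : Continuous fun s => |(Wm C A s (s + u)).det|) :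
    ContinuousOn (dfc C A φ₁ φ₂ u) (Ioo 0 (D - u)) ∧
      ContinuousOn (dfc C A φ₁ φ₂ u) (Ioo D (2 * D - u)) := by
  have hL := h.coreb_cont_log hu hc
  have hD := h.pos
  have h2 := hR.good2.corec_cont hu.1
  constructor
  · exact hL.continuousOn.sub ((continuousOn_const.mul (h2.mono
      (Ioo_subset_Ioo le_rfl (by linarith)))).add
        (continuousOn_const.mul (hR.good1.corec_cont hu.1)))
  · refine hL.continuousOn.sub ((continuousOn_const.mul (h2.mono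
      (Ioo_subset_Ioo hD.le le_rfl))).add (continuousOn_const.mul ?_))
    have h3 := (hR.good1'.corec_cont hu.1).comp (f := fun s : ℝ => s - D) (s := Ioo D (2 * D - u))
      (continuous_id.sub continuous_const).continuousOn fun s hs =>
        ⟨by linarith [hs.1], by linarith [hs.2]⟩
    refine h3.congr fun s _ => ?_
    simp only [Function.comp, coreb_sth_shift]
    congr 2 <;> ring

lemma Jac.corec_of_dfc (h : Jac D C A) (hR : Roots D (gm A) P φ₁ φ₂ c) {s t : ℝ}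
    (hs : Same D s t) (hz : dfc C A φ₁ φ₂ (t - s) s = 0) :
    iv φ₂ s t ^ Fintype.card α * iv φ₁ s t ^ Fintype.card β = |(Sl C A t - Sl C A s).det| := by
  obtain ⟨⟨h1, h2⟩, ⟨h3, h4⟩, h5⟩ := coreb_same_mem h.pos hs
  have p2 := hR.good2.sth_pos h1.1 h5 h3.2
  have p1 := hR.coreb_sth1_pos hs
  have hst : t < s + D := by
    rcases hs with ⟨a1, a2, a3⟩ | ⟨a1, a2, a3⟩ <;> linarith
  rw [dfc, add_sub_cancel, sub_eq_zero, ← Real.log_pow, ← Real.log_pow,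
    ← Real.log_mul (pow_pos p2 _).ne' (pow_pos p1 _).ne'] at hz
  have h6 := Real.log_injOn_pos (abs_pos.mpr (h.nc s t h5 hst))
    (mul_pos (pow_pos p2 _) (pow_pos p1 _)) hz
  rw [h.coreb_abs_det hR h1 h2 h3 h4] at h6
  have h7 : 0 < (φ₂ s * φ₂ t) ^ Fintype.card α * (φ₁ s * φ₁ t) ^ Fintype.card β :=
    mul_pos (pow_pos (mul_pos (hR.good2.pos s h1) (hR.good2.pos t h3)) _)
      (pow_pos (mul_pos (hR.coreb_pos1 h1 h2) (hR.coreb_pos1 h3 h4)) _)
  refine mul_left_cancel₀ h7.ne' ?_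
  rw [h6]
  simp only [sth, mul_pow]
  ring

lemma corec_smul_eq {n : Type} [Fintype n] [DecidableEq n] {x y : ℝ} (hx : 0 < x) (hy : 0 < y)
    (h : x ^ Fintype.card n = y ^ Fintype.card n) :
    x ^ 2 • (1 : Matrix n n ℝ) = y ^ 2 • (1 : Matrix n n ℝ) := by
  rcases isEmpty_or_nonempty n with hn | hn
  · exact Subsingleton.elim _ _
  · rw [(pow_left_inj₀ hx.le hy.le Fintype.card_ne_zero).mp h]

/-- All the defects in `core_ref` vanish. The `dfc` are continuous and nonnegative on the open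
intervals with integral zero, so they vanish, which is the hypothesis of `diag`. If `α` is
nonempty `eq_of_sI` gives `φ₂ (2 D - t) = φ₂ t`. The hypothesis at `s = 0` and `s = 2 D - t` gives
`|det (A t)| = |det (A (2 D - t))|`, hence `φ₁ (2 D - t) = φ₁ t` if `β` is nonempty. -/
theorem Jac.core_eq (h : Jac D C A) (ha : Adapted (A D)) (hk : ∀ s ∈ Ioo 0 D, Fintype.card β ≤
      Module.finrank ℝ (LinearMap.ker (Wm C A s (s + D)).mulVecLin))
    (he : ∀ s, ∀ u ∈ Ioo 0 D, |(Wm C A s (s + u)).det| =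
      mdl D (Fintype.card α + Fintype.card β) (Fintype.card β) u) {t : ℝ} (ht : t ∈ Ioo 0 D) :
    gm A (-t) = gm A t := by
  obtain ⟨P, S₁, hS⟩ := h.exists_sdata ha
  obtain ⟨φ₁, φ₂, c, hR⟩ := hS.exists_roots
  have hD := h.pos
  have hc : ∀ u ∈ Ioo 0 D, Continuous fun s => |(Wm C A s (s + u)).det| := fun u hu => by
    simp only [he _ u hu]
    exact continuous_const
  have key : ∀ u ∈ Ioo 0 D, (∫ s in (0 : ℝ)..(D - u), dfc C A φ₁ φ₂ u s) = 0 ∧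
      (∫ s in D..(2 * D - u), dfc C A φ₁ φ₂ u s) = 0 ∧ Fintype.card α * (2 * D *
        Real.log (2 * D / Real.pi * Real.sin (Real.pi * u / (2 * D)))) =
          Fintype.card α * sI φ₂ (2 * D) u := by
    intro u hu
    have h1 := h.core_ref hS hR hk hu (hc u hu)
    obtain ⟨h2, h3⟩ := h.coreb_dfc_int_nonneg hS hR hu (hc u hu)
    have h4 := hR.good2.sI_ge (u := u) ⟨hu.1, by linarith [hu.1, hu.2]⟩
    have h5 := hR.good1.sI_ge hu
    have h6 := hR.good1'.sI_ge hu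
    have h7 := mul_le_mul_of_nonneg_left h4 (Nat.cast_nonneg (α := ℝ) (Fintype.card α))
    have h8 := mul_le_mul_of_nonneg_left (add_le_add h5 h6)
      (Nat.cast_nonneg (α := ℝ) (Fintype.card β))
    simp only [he _ u hu, intervalIntegral.integral_const, sub_zero, smul_eq_mul] at h1
    rw [log_mdl hu] at h1
    exact ⟨by linarith, by linarith, by linarith⟩
  have hsame : ∀ s t, Same D s t → iv φ₂ s t ^ Fintype.card α * iv φ₁ s t ^ Fintype.card β =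
      |(Sl C A t - Sl C A s).det| := by
    intro s t hs
    refine h.corec_of_dfc hR hs ?_
    have hu : t - s ∈ Ioo 0 D := by
      rcases hs with ⟨a1, a2, a3⟩ | ⟨a1, a2, a3⟩ <;> exact ⟨by linarith, by linarith⟩
    obtain ⟨c1, c2⟩ := h.corec_cont hR hu (hc _ hu)
    obtain ⟨i1, i2⟩ := h.coreb_int_dfc hR hu (hc _ hu)
    obtain ⟨k1, k2, -⟩ := key _ hu
    rcases hs with ⟨a1, a2, a3⟩ | ⟨a1, a2, a3⟩
    · exact corec_vanish (by linarith [hu.2]) c1 (fun σ hσ => h.dfc_nonneg hS hR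
        (Or.inl ⟨hσ.1, by linarith, by linarith [hσ.2]⟩)) i1 k1 ⟨a1, by linarith⟩
    · exact corec_vanish (by linarith [hu.2]) c2 (fun σ hσ => h.dfc_nonneg hS hR
        (Or.inr ⟨hσ.1, by linarith, by linarith [hσ.2]⟩)) i2 k2 ⟨a1, by linarith⟩
  have m1 : t ∈ Ioo 0 (2 * D) := ⟨ht.1, by linarith [ht.2]⟩
  have n1 : t ≠ D := ht.2.ne
  have m2 : 2 * D - t ∈ Ioo 0 (2 * D) := ⟨by linarith [ht.2], by linarith [ht.1]⟩
  have n2 : 2 * D - t ≠ D := by linarith [ht.2]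
  have e2 : φ₂ (2 * D - t) ^ Fintype.card α = φ₂ t ^ Fintype.card α := by
    rcases Nat.eq_zero_or_pos (Fintype.card α) with h0 | h0
    · rw [h0, pow_zero, pow_zero]
    · have h1 : (Fintype.card α : ℝ) ≠ 0 := Nat.cast_ne_zero.mpr h0.ne'
      obtain ⟨h2, h3⟩ := hR.good2.eq_of_sI (u₀ := D) (by linarith)
        (fun u hu => mul_left_cancel₀ h1 (key u hu).2.2) ht
      rw [h2, h3]
  have e1 : φ₁ (2 * D - t) ^ Fintype.card β = φ₁ t ^ Fintype.card β := by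
    have h1 := he 0 t ht
    have h2 := he (2 * D - t) t ht
    have h3 : 2 * D - t + t = 0 + 2 * D := by ring
    rw [zero_add, h.Wm_zero, h.abs_detA hR m1 n1] at h1
    rw [h3, h.det_per, Wm_swap, Matrix.det_neg, Matrix.det_transpose, abs_mul, abs_pow, abs_neg,
      abs_one, one_pow, one_mul, h.Wm_zero, h.abs_detA hR m2 n2, e2, ← h1] at h2
    exact mul_left_cancel₀ (pow_pos (hR.good2.pos t m1) _).ne' h2
  have h1 : -t + 2 * D = 2 * D - t := by ring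
  rw [← h.gm_per (-t), h1, hS.diag hR hsame m1 n1, hS.diag hR hsame m2 n2,
    corec_smul_eq (hR.good2.pos _ m2) (hR.good2.pos _ m1) e2,
    corec_smul_eq (hR.coreb_pos1 m2 n2) (hR.coreb_pos1 m1 n1) e1]

end Vale.Agent.P231
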