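import Vale.Agent.P231.Th

/-! Reduction to matrices. -/

open scoped ContDiff Topology Matrix
open Filter Set

noncomputable section

namespace Vale.Agent.P231

open Vale.Agent.P234

variable {M : Type*} [MetricSpace M] [CompactSpace M] {T : M → Type*}
  [∀ x, NormedAddCommGroup (T x)] [∀ x, InnerProductSpace ℝ (T x)]
  [∀ x, FiniteDimensional ℝ (T x)] {e : ∀ x, T x → M} {r D : ℝ}

variable {γ : ℝ → M} {ρ : ∀ s, T (γ s)} {J : Type*} [NormedAddCommGroup J] [NormedSpace ℝ J]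
  {Y : ∀ s, J →L[ℝ] T (γ s)} {ι' : ∀ s, T (γ s) →L[ℝ] J} {Ω : J →ₗ[ℝ] J →ₗ[ℝ] ℝ}
  {σ : J →L[ℝ] ℝ} {ι : Type} [Fintype ι] [DecidableEq ι]

/-- An orthonormal basis of the orthogonal complement of a unit vector. -/
structure Frame {V : Type*} [NormedAddCommGroup V] [InnerProductSpace ℝ V] (v : V) (b : ι → V) :
    Prop where
  on : Orthonormal ℝ b
  perp : ∀ i, inner ℝ (b i) v = 0
  span : ∀ w, inner ℝ w v = 0 → ∑ i, inner ℝ (b i) w • b i = w

theorem exists_frame {V : Type*} [NormedAddCommGroup V] [InnerProductSpace ℝ V]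
    [FiniteDimensional ℝ V] {v : V} (hv : ‖v‖ = 1)
    (hc : Fintype.card ι + 1 = Module.finrank ℝ V) : ∃ b : ι → V, Frame v b := by
  have hon : Orthonormal ℝ (({none} : Set (Option ι)).domRestrict fun _ => v) := by
    refine ⟨fun _ => hv, fun i j hij => absurd (Subsingleton.elim i j) hij⟩
  obtain ⟨B, hB⟩ := hon.exists_orthonormalBasis_extension_of_card_eq
    (by rw [Fintype.card_option, hc])
  have h0 : B none = v := hB none rfl
  refine ⟨fun i => B (some i), B.orthonormal.comp some (Option.some_injective ι), fun i => ?_,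
    fun w hw => ?_⟩
  · rw [← h0]
    exact B.orthonormal.inner_eq_zero (by simp)
  · have h1 := B.sum_repr' w
    rw [Fintype.sum_option, h0, real_inner_comm, hw, zero_smul, zero_add] at h1
    exact h1

section RedFrame

variable {V : Type*} [NormedAddCommGroup V] [InnerProductSpace ℝ V] {v : V} {b : ι → V}

omit [DecidableEq ι] in
lemma Frame.red_coord (hb : Frame v b) (x : ι → ℝ) (i : ι) :
    inner ℝ (b i) (∑ l, x l • b l) = x i := hb.on.inner_right_fintype x i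

omit [DecidableEq ι] in
lemma Frame.red_perp (hb : Frame v b) (x : ι → ℝ) : inner ℝ (∑ l, x l • b l) v = 0 := by
  simp [sum_inner, inner_smul_left, hb.perp]

omit [DecidableEq ι] in
lemma Frame.red_inner (hb : Frame v b) (x y : ι → ℝ) :
    inner ℝ (∑ l, x l • b l) (∑ l, y l • b l) = x ⬝ᵥ y := by
  rw [hb.on.inner_sum]
  simp [dotProduct]

lemma Frame.red_basis (hv : ‖v‖ = 1) (hb : Frame v b) :
    ∃ B : OrthonormalBasis (Unit ⊕ ι) ℝ V, (∀ u, B (Sum.inl u) = v) ∧ ∀ i, B (Sum.inr i) = b i := by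
  have hon : Orthonormal ℝ (Sum.elim (fun _ : Unit => v) b) := by
    refine ⟨fun i => ?_, fun i j hij => ?_⟩
    · rcases i with i | i
      · exact hv
      · exact hb.on.1 i
    · rcases i with i | i <;> rcases j with j | j
      · exact absurd rfl hij
      · simpa [real_inner_comm] using hb.perp j
      · simpa using hb.perp i
      · exact hb.on.2 fun h => hij (congrArg Sum.inr h)
  have hsp : ⊤ ≤ Submodule.span ℝ (Set.range (Sum.elim (fun _ : Unit => v) b)) := by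
    intro w _
    have h1 : inner ℝ (w - inner ℝ w v • v) v = 0 := by
      rw [inner_sub_left, real_inner_smul_left, real_inner_self_eq_norm_sq, hv]
      ring
    have h2 := hb.span _ h1
    have h3 : w = inner ℝ w v • v + ∑ i, inner ℝ (b i) (w - inner ℝ w v • v) • b i := by
      rw [h2]
      abel
    rw [h3]
    refine add_mem (Submodule.smul_mem _ _ (Submodule.subset_span ⟨Sum.inl (), rfl⟩))
      (Submodule.sum_mem _ fun i _ => Submodule.smul_mem _ _
        (Submodule.subset_span ⟨Sum.inr i, rfl⟩))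
  exact ⟨OrthonormalBasis.mk hon hsp, fun u => by simp, fun i => by simp⟩

end RedFrame

theorem Frame.card {V : Type*} [NormedAddCommGroup V] [InnerProductSpace ℝ V]
    [FiniteDimensional ℝ V] {v : V} (hv : ‖v‖ = 1) {b : ι → V} (hb : Frame v b) :
    Fintype.card ι + 1 = Module.finrank ℝ V := by
  obtain ⟨B, -, -⟩ := hb.red_basis hv
  rw [Module.finrank_eq_card_basis B.toBasis, Fintype.card_sum, Fintype.card_unit, add_comm]

/-- A map that sends `v` to `v'` and the complement of `v` to the complement of `v'`: use the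
orthonormal bases indexed by `Option ι` and `normDet_eq_norm_det_toMatrix`. -/
theorem Frame.normDet {V V' : Type*} [NormedAddCommGroup V] [InnerProductSpace ℝ V]
    [FiniteDimensional ℝ V] [NormedAddCommGroup V'] [InnerProductSpace ℝ V']
    [FiniteDimensional ℝ V'] {v : V} {v' : V'} (hv : ‖v‖ = 1) (hv' : ‖v'‖ = 1) {b : ι → V}
    {b' : ι → V'} (hb : Frame v b) (hb' : Frame v' b') (L : V →ₗ[ℝ] V') (h1 : L v = v')
    (h2 : ∀ w, inner ℝ (L w) v' = inner ℝ w v) :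
    L.normDet = |(Matrix.of fun i j => inner ℝ (b' i) (L (b j))).det| ∧
      Module.finrank ℝ (LinearMap.ker L) = Module.finrank ℝ
        (LinearMap.ker (Matrix.of fun i j => inner ℝ (b' i) (L (b j))).mulVecLin) := by
  obtain ⟨B, hB1, hB2⟩ := hb.red_basis hv
  obtain ⟨B', hB1', hB2'⟩ := hb'.red_basis hv'
  set N : Matrix ι ι ℝ := Matrix.of fun i j => inner ℝ (b' i) (L (b j)) with hN
  constructor
  · have h3 : L.toMatrix B.toBasis B'.toBasis = Matrix.fromBlocks 1 0 0 N := by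
      ext i j
      rw [LinearMap.toMatrix_apply, OrthonormalBasis.coe_toBasis_repr_apply,
        OrthonormalBasis.repr_apply_apply, OrthonormalBasis.coe_toBasis]
      rcases i with i | i <;> rcases j with j | j
      · rw [hB1, hB1', h1, real_inner_self_eq_norm_sq, hv']
        simp
      · rw [hB2, hB1', real_inner_comm, h2, hb.perp]
        simp
      · rw [hB1, hB2', h1, hb'.perp]
        simp
      · rw [hB2, hB2']
        simp [hN]
    rw [L.normDet_eq_norm_det_toMatrix B B', h3, Matrix.det_fromBlocks_zero₂₁, Matrix.det_one,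
      one_mul, Real.norm_eq_abs]
  · set Φ : (ι → ℝ) →ₗ[ℝ] V := Fintype.linearCombination ℝ b with hΦ
    have hΦa : ∀ x, Φ x = ∑ l, x l • b l := fun x => Fintype.linearCombination_apply ℝ b x
    have hinj : Function.Injective Φ := by
      intro x y hxy
      ext i
      rw [← hb.red_coord x i, ← hb.red_coord y i, ← hΦa, ← hΦa, hxy]
    have hNx : ∀ x i, (N *ᵥ x) i = inner ℝ (b' i) (L (Φ x)) := by
      intro x i
      simp [hΦa, hN, Matrix.mulVec, dotProduct, inner_sum, inner_smul_right, mul_comm]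
    have h3 : LinearMap.ker L = Submodule.map Φ (LinearMap.ker N.mulVecLin) := by
      ext w
      simp only [LinearMap.mem_ker, Submodule.mem_map, Matrix.mulVecLin_apply]
      constructor
      · intro hw
        have h4 : inner ℝ w v = 0 := by rw [← h2, hw, inner_zero_left]
        have h5 : Φ (fun i => inner ℝ (b i) w) = w := by rw [hΦa, hb.span w h4]
        refine ⟨_, ?_, h5⟩
        ext i
        rw [hNx, h5, hw, inner_zero_right, Pi.zero_apply]
      · rintro ⟨x, hx, rfl⟩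
        have h4 : inner ℝ (L (Φ x)) v' = 0 := by rw [h2, hΦa, hb.red_perp]
        rw [← hb'.span _ h4]
        refine Finset.sum_eq_zero fun i _ => ?_
        rw [← hNx, hx, Pi.zero_apply, zero_smul]
    rw [h3]
    exact (Submodule.equivMapOfInjective Φ hinj _).finrank_eq.symm

omit [CompactSpace M] [∀ x, FiniteDimensional ℝ (T x)] in
lemma JData.red_self (hJ : JData e D γ ρ Y ι' Ω σ) (s : ℝ) (w : T (γ s)) : Y s (ι' s w) = 0 := by
  rw [hJ.expd, sub_self, zero_smul]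

/-- Darboux coordinates on the normal fields. `jA i = ι' 0 (b i)`; `j₀ i` from `surj 0 (b i)`,
`jC i = j₀ i + ∑ l, (Ω (j₀ i) (j₀ l) / 2) • jA l` up to sign, so that `Ω (jC i) (jC l) = 0`. -/
theorem JData.exists_darboux (hJ : JData e D γ ρ Y ι' Ω σ) {b : ι → T (γ 0)}
    (hb : Frame (ρ 0) b) : ∃ Ξ : (ι → ℝ) × (ι → ℝ) →ₗ[ℝ] J,
      (∀ z, σ (Ξ z) = 0) ∧ (∀ y w, Y 0 (Ξ (y, w)) = ∑ i, y i • b i) ∧
      (∀ w, Ξ (0, w) = ι' 0 (∑ i, w i • b i)) ∧
      (∀ y w y' w', Ω (Ξ (y, w)) (Ξ (y', w')) = w ⬝ᵥ y' - y ⬝ᵥ w') ∧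
      ∀ j, σ j = 0 → inner ℝ (Y 0 j) (ρ 0) = 0 → ∃ z, Ξ z = j := by
  choose j₀ hj₀σ hj₀Y using fun i => hJ.surj 0 (b i) (hb.perp i)
  set a : (ι → ℝ) →ₗ[ℝ] J := (ι' 0).toLinearMap ∘ₗ Fintype.linearCombination ℝ b with ha
  set c₀ : (ι → ℝ) →ₗ[ℝ] J := Fintype.linearCombination ℝ j₀ with hc₀
  have ha' : ∀ w, a w = ι' 0 (∑ i, w i • b i) := fun w => by
    simp [ha, Fintype.linearCombination_apply]
  have hc' : ∀ y, c₀ y = ∑ i, y i • j₀ i := fun y => Fintype.linearCombination_apply ℝ j₀ y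
  set Q : (ι → ℝ) →ₗ[ℝ] (ι → ℝ) := LinearMap.pi fun i => (1 / 2 : ℝ) • (Ω (j₀ i) ∘ₗ c₀) with hQ
  have hYa : ∀ w, Y 0 (a w) = 0 := fun w => by rw [ha', hJ.red_self]
  have hYc : ∀ y, Y 0 (c₀ y) = ∑ i, y i • b i := fun y => by simp [hc', hj₀Y]
  have hσa : ∀ w, σ (a w) = 0 := fun w => by rw [ha', hJ.sig, hb.red_perp]
  have hσc : ∀ y, σ (c₀ y) = 0 := fun y => by simp [hc', hj₀σ]
  have haa : ∀ w w', Ω (a w) (a w') = 0 := fun w w' => by
    rw [ha' w, hJ.pair, hYa, inner_zero_right]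
  have hac : ∀ w y, Ω (a w) (c₀ y) = w ⬝ᵥ y := fun w y => by
    rw [ha' w, hJ.pair, hYc, hb.red_inner]
  have hQd : ∀ y y', y ⬝ᵥ Q y' = 1 / 2 * Ω (c₀ y) (c₀ y') := fun y y' => by
    rw [hc' y]
    simp only [hQ, dotProduct, LinearMap.pi_apply, LinearMap.smul_apply, LinearMap.comp_apply,
      smul_eq_mul, map_sum, map_smul, LinearMap.sum_apply, Finset.mul_sum]
    exact Finset.sum_congr rfl fun i _ => by ring
  set Ξ : (ι → ℝ) × (ι → ℝ) →ₗ[ℝ] J := LinearMap.coprod (c₀ + a ∘ₗ Q) a with hΞ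
  have hΞ' : ∀ y w, Ξ (y, w) = c₀ y + a (Q y + w) := fun y w => by
    simp [hΞ, add_assoc]
  have hσ : ∀ z, σ (Ξ z) = 0 := fun z => by
    rw [← Prod.mk.eta (p := z), hΞ', map_add, hσa, hσc, add_zero]
  have hY : ∀ y w, Y 0 (Ξ (y, w)) = ∑ i, y i • b i := fun y w => by
    rw [hΞ', map_add, hYa, hYc, add_zero]
  have h0 : ∀ w, Ξ (0, w) = ι' 0 (∑ i, w i • b i) := fun w => by
    rw [hΞ', map_zero, map_zero, zero_add, zero_add, ha']
  refine ⟨Ξ, hσ, hY, h0, fun y w y' w' => ?_, fun j hj hjρ => ?_⟩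
  · rw [hΞ', hΞ', map_add Ω, LinearMap.add_apply, map_add (Ω (c₀ y)), map_add (Ω (a _)), haa,
      hac, hJ.skew (c₀ y) (a _), hac, add_dotProduct, add_dotProduct, dotProduct_comm (Q y),
      dotProduct_comm (Q y'), hQd, hQd, hJ.skew (c₀ y') (c₀ y), dotProduct_comm w' y]
    ring
  · set y : ι → ℝ := fun i => inner ℝ (b i) (Y 0 j) with hy
    have h1 : Y 0 (j - Ξ (y, 0)) = 0 := by
      rw [map_sub, hY, hb.span _ hjρ, sub_self]
    obtain ⟨w₀, hw₀⟩ := hJ.ker 0 _ h1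
    have h2 : inner ℝ w₀ (ρ 0) = 0 := by
      rw [← hJ.sig, hw₀, map_sub, hj, hσ, sub_self]
    refine ⟨(y, 0) + (0, fun i => inner ℝ (b i) w₀), ?_⟩
    rw [map_add, h0, hb.span _ h2, hw₀, add_sub_cancel]

lemma Bl.red_finrank (h : Bl e r D) (hl : Line e γ ρ) (s : ℝ) :
    Module.finrank ℝ (T (γ s)) = Module.finrank ℝ (T (γ 0)) := by
  have key : ∀ (x y : M) (a : T x), a ∈ Inj e x → e x a = y →
      Module.finrank ℝ (T y) = Module.finrank ℝ (T x) := by
    rintro x y a ha rfl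
    exact (LinearEquiv.ofBijective (Lmap e x a (e x a)).toLinearMap
      (Lmap_bij h.toGeo ha)).finrank_eq.symm
  have hlc : IsLocallyConstant fun s => Module.finrank ℝ (T (γ s)) := by
    rw [IsLocallyConstant.iff_eventually_eq]
    intro s
    filter_upwards [Metric.ball_mem_nhds s h.dpos] with t ht
    refine key _ _ ((t - s) • ρ s) (h.mem_inj ?_) (hl.eq s t).symm
    rw [norm_smul, hl.norm, mul_one]
    exact ht
  exact hlc.apply_eq_of_preconnectedSpace s 0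

lemma red_asym (h : Geo e r) (hl : Line e γ ρ) (ξ η : T (γ 0)) :
    Tendsto (fun t : ℝ => inner ℝ (Lmap e (γ 0) (t • ρ 0) (γ t) ξ)
      (Lmap e (γ 0) (t • ρ 0) (γ t) η)) (𝓝 0) (𝓝 (inner ℝ ξ η)) := by
  obtain ⟨G, hG, hG'⟩ := exists_metric h (γ 0)
  have key : ∀ (a : T (γ 0)) (y : M), e (γ 0) a = y →
      G a ξ η = inner ℝ (Lmap e (γ 0) a y ξ) (Lmap e (γ 0) a y η) := by
    rintro a y rfl
    exact hG' a ξ η
  have he : ∀ t : ℝ, e (γ 0) (t • ρ 0) = γ t := fun t => by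
    rw [hl.eq 0 t, sub_zero]
  have hc : Continuous fun t : ℝ => G (t • ρ 0) ξ η := by
    have := hG.continuous
    fun_prop
  have h0 : G ((0 : ℝ) • ρ 0) ξ η = inner ℝ ξ η := by
    rw [key _ _ (he 0), zero_smul, h.Lmap_zero]
    rfl
  have h1 := hc.tendsto 0
  rw [h0] at h1
  exact h1.congr fun t => key _ _ (he t)

/-- Choose frames `fr s` of the complement of `ρ s` with `fr 0 = b` (`Function.update` or `if`),
`C s i l = ⟪fr s i, Y s (Ξ (single l 1, 0))⟫`, `A s i l = ⟪fr s i, Y s (Ξ (0, single l 1))⟫`. Then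
`Y s (Ξ (y, w)) = ∑ i, (C s y + A s w) i • fr s i`, `Gm = ⟪Y, Y⟫`, and
`ι' s (∑ x i • fr s i) = Ξ (-(A s)ᵀ x, (C s)ᵀ x)` (it is some `Ξ z`, pair it with `Ω`), so `Wm s t`
is the matrix of `(t - s) • Lmap` in the frames. `asym` from `exists_metric`. -/
theorem JData.exists_jac (h : Bl e r D) (hl : Line e γ ρ) (hJ : JData e D γ ρ Y ι' Ω σ)
    {b : ι → T (γ 0)} (hb : Frame (ρ 0) b) :
    ∃ (C A : ℝ → Matrix ι ι ℝ) (Ξ : (ι → ℝ) × (ι → ℝ) →ₗ[ℝ] J), Jac D C A ∧
      (∀ s t, s ≠ t → |(Wm C A s t).det| =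
        |t - s| ^ Fintype.card ι * jac e (γ s) ((t - s) • ρ s)) ∧
      (∀ s t, s ≠ t → Module.finrank ℝ (LinearMap.ker (Wm C A s t).mulVecLin) =
        kap e (γ s) ((t - s) • ρ s)) ∧
      (∀ t w, (A t *ᵥ w) ⬝ᵥ (A t *ᵥ w) =
        t ^ 2 * ‖Lmap e (γ 0) (t • ρ 0) (γ t) (∑ i, w i • b i)‖ ^ 2) ∧
      (∀ s y w, Y s (Ξ (y, w)) = 0 ↔ C s *ᵥ y + A s *ᵥ w = 0) ∧
      (∀ w, Ξ (0, w) = ι' 0 (∑ i, w i • b i)) ∧
      ∀ y w y' w', Ω (Ξ (y, w)) (Ξ (y', w')) = w ⬝ᵥ y' - y ⬝ᵥ w' := by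
  obtain ⟨Ξ, hσ, hY, h0, hΩ, hsurj⟩ := hJ.exists_darboux hb
  have hcard : ∀ s, Fintype.card ι + 1 = Module.finrank ℝ (T (γ s)) := fun s => by
    rw [h.red_finrank hl s, hb.card (hl.norm 0)]
  choose fr₀ hfr₀ using fun s => exists_frame (hl.norm s) (hcard s)
  set fr : ∀ s, ι → T (γ s) := Function.update fr₀ 0 b with hfrdef
  have hfr0 : fr 0 = b := Function.update_self 0 b fr₀
  have hfr : ∀ s, Frame (ρ s) (fr s) := fun s => by
    by_cases hs : s = 0
    · subst hs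
      rw [hfr0]
      exact hb
    · rw [hfrdef, Function.update_of_ne hs]
      exact hfr₀ s
  clear_value fr
  set Fm : ∀ s : ℝ, (ι → ℝ) × (ι → ℝ) →ₗ[ℝ] (ι → ℝ) := fun s =>
    LinearMap.pi fun i => (innerSL ℝ (fr s i)).toLinearMap ∘ₗ (Y s).toLinearMap ∘ₗ Ξ with hFm
  set C : ℝ → Matrix ι ι ℝ := fun s => LinearMap.toMatrix' (Fm s ∘ₗ LinearMap.inl ℝ _ _) with hC
  set A : ℝ → Matrix ι ι ℝ := fun s => LinearMap.toMatrix' (Fm s ∘ₗ LinearMap.inr ℝ _ _) with hA
  have K2 : ∀ s y w i, (C s *ᵥ y + A s *ᵥ w) i = inner ℝ (fr s i) (Y s (Ξ (y, w))) := by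
    intro s y w i
    have h1 : C s *ᵥ y + A s *ᵥ w = Fm s (y, w) := by
      rw [hC, hA, LinearMap.toMatrix'_mulVec, LinearMap.toMatrix'_mulVec, LinearMap.comp_apply,
        LinearMap.comp_apply, ← map_add]
      simp
    rw [h1]
    simp [hFm]
  clear_value C A
  have K1 : ∀ s z, inner ℝ (Y s (Ξ z)) (ρ s) = 0 := fun s z => by
    rw [hJ.rad 0 s, hσ, ← Prod.mk.eta (p := z), hY, hb.red_perp]
    ring
  have K3 : ∀ s y w, Y s (Ξ (y, w)) = ∑ i, (C s *ᵥ y + A s *ᵥ w) i • fr s i := fun s y w => by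
    simp only [K2]
    exact ((hfr s).span _ (K1 s _)).symm
  have K4 : ∀ s y w y' w', Gm C A s y w y' w' =
      inner ℝ (Y s (Ξ (y, w))) (Y s (Ξ (y', w'))) := fun s y w y' w' => by
    rw [K3, K3, (hfr s).red_inner, Gm]
  have K5 : ∀ s x, ι' s (∑ i, x i • fr s i) = Ξ (-((A s)ᵀ *ᵥ x), (C s)ᵀ *ᵥ x) := by
    intro s x
    have h1 : σ (ι' s (∑ i, x i • fr s i)) = 0 := by rw [hJ.sig, (hfr s).red_perp]
    have h2 : inner ℝ (Y 0 (ι' s (∑ i, x i • fr s i))) (ρ 0) = 0 := by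
      rw [hJ.rad s 0, h1, hJ.red_self, inner_zero_left]
      ring
    obtain ⟨⟨y, w⟩, hz⟩ := hsurj _ h1 h2
    have h3 : ∀ y' w', w ⬝ᵥ y' - y ⬝ᵥ w' = x ⬝ᵥ (C s *ᵥ y' + A s *ᵥ w') := fun y' w' => by
      rw [← hΩ, hz, hJ.pair, K3, (hfr s).red_inner]
    have h4 : w = (C s)ᵀ *ᵥ x := by
      ext i
      have h5 := h3 (Pi.single i 1) 0
      rw [Matrix.mulVec_zero, add_zero, dotProduct_zero, sub_zero, Matrix.dotProduct_mulVec,
        dotProduct_single, dotProduct_single, mul_one, mul_one] at h5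
      rw [h5, Matrix.mulVec_transpose]
    have h6 : y = -((A s)ᵀ *ᵥ x) := by
      ext i
      have h5 := h3 0 (Pi.single i 1)
      rw [Matrix.mulVec_zero, zero_add, dotProduct_zero, zero_sub, Matrix.dotProduct_mulVec,
        dotProduct_single, dotProduct_single, mul_one, mul_one] at h5
      rw [Pi.neg_apply, Matrix.mulVec_transpose, ← h5, neg_neg]
    rw [← hz, h4, h6]
  have K6 : ∀ s t, Wm C A s t = (t - s) • Matrix.of fun i j => inner ℝ (fr t i)
      ((Lmap e (γ s) ((t - s) • ρ s) (γ t)).toLinearMap (fr s j)) := by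
    intro s t
    ext i j
    have h1 : Wm C A s t *ᵥ Pi.single j 1 = C t *ᵥ (-((A s)ᵀ *ᵥ Pi.single j 1)) +
        A t *ᵥ ((C s)ᵀ *ᵥ Pi.single j 1) := by
      rw [Wm, Matrix.sub_mulVec, Matrix.mulVec_neg, Matrix.mulVec_mulVec, Matrix.mulVec_mulVec]
      abel
    have h2 : (∑ i, (Pi.single j (1 : ℝ) : ι → ℝ) i • fr s i) = fr s j := by
      simp [Pi.single_apply]
    have h3 := congrFun h1 i
    rw [K2, ← K5, h2, hJ.expd, real_inner_smul_right] at h3
    simpa using h3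
  have K7 : ∀ s t, s ≠ t → ∀ w, inner ℝ ((Lmap e (γ s) ((t - s) • ρ s) (γ t)).toLinearMap w)
      (ρ t) = inner ℝ w (ρ s) := by
    intro s t hst w
    have h1 := hJ.rad s t (ι' s w)
    rw [hJ.red_self, inner_zero_left, zero_add, hJ.sig, hJ.expd, real_inner_smul_left] at h1
    exact mul_left_cancel₀ (sub_ne_zero.mpr hst.symm) h1
  have K8 := fun s t (hst : s ≠ t) => (hfr s).normDet (hl.norm s) (hl.norm t) (hfr t)
    (Lmap e (γ s) ((t - s) • ρ s) (γ t)).toLinearMap (hJ.radial s t) (K7 s t hst)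
  have hdet : ∀ s t, s ≠ t → |(Wm C A s t).det| =
      |t - s| ^ Fintype.card ι * jac e (γ s) ((t - s) • ρ s) := by
    intro s t hst
    rw [K6, Matrix.det_smul, abs_mul, abs_pow, jac_eq (hl.eq s t).symm, (K8 s t hst).1]
  have hzero : ∀ s y w, Y s (Ξ (y, w)) = 0 ↔ C s *ᵥ y + A s *ᵥ w = 0 := by
    intro s y w
    constructor
    · intro h1
      ext i
      rw [K2, h1, inner_zero_right, Pi.zero_apply]
    · intro h1
      rw [K3, h1]
      simp
  have hA0 : ∀ t w w', Gm C A t 0 w 0 w' = t ^ 2 *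
      inner ℝ (Lmap e (γ 0) (t • ρ 0) (γ t) (∑ i, w i • b i))
        (Lmap e (γ 0) (t • ρ 0) (γ t) (∑ i, w' i • b i)) := by
    intro t w w'
    rw [K4, h0, h0, hJ.expd, hJ.expd, real_inner_smul_left, real_inner_smul_right, sub_zero]
    ring
  have hC0 : ∀ y w, C 0 *ᵥ y + A 0 *ᵥ w = y := by
    intro y w
    ext i
    rw [K2, hY, hfr0, hb.red_coord]
  refine ⟨C, A, Ξ, ⟨h.dpos, ?_, ?_, fun y w y' w' => ?_, fun s => ?_, fun s y w h1 y' w' => ?_,
    fun s y w y' w' => ?_, fun s t h1 h2 => ?_, fun w w' => ?_⟩, hdet, fun s t hst => ?_,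
    fun t w => ?_, hzero, h0, hΩ⟩
  · refine Matrix.ext_iff_mulVec.mpr fun y => ?_
    simpa using hC0 y 0
  · refine Matrix.ext_iff_mulVec.mpr fun w => ?_
    simpa using hC0 0 w
  · simp only [K4]
    exact hJ.smooth _ _
  · rw [K6, sub_self, zero_smul]
  · obtain ⟨w₀, hw₀⟩ := hJ.ker s _ ((hzero s y w).mpr h1)
    simp only [K4]
    rw [← hΩ, ← hw₀, hJ.pair]
    exact hJ.deriv s w₀ _
  · rw [K4, K4, hJ.per s _ _ (hσ _) (hσ _)]
  · rw [← abs_pos, hdet s t h1.ne]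
    refine mul_pos (pow_pos (abs_pos.mpr (sub_pos.mpr h1).ne') _) (jac_pos h.toGeo (h.mem_inj ?_))
    rw [norm_smul, hl.norm, mul_one, Real.norm_eq_abs, abs_of_pos (sub_pos.mpr h1)]
    linarith
  · have h1 := (red_asym h.toGeo hl (∑ i, w i • b i) (∑ i, w' i • b i)).mono_left
      (nhdsWithin_le_nhds (s := {0}ᶜ))
    rw [hb.red_inner] at h1
    refine h1.congr' ?_
    filter_upwards [self_mem_nhdsWithin] with t ht
    have h2 : t ^ 2 ≠ 0 := pow_ne_zero 2 ht
    rw [hA0, mul_div_cancel_left₀ _ h2]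
  · have h1 : ∀ (k : ℝ) (N : Matrix ι ι ℝ), (k • N).mulVecLin = k • N.mulVecLin := fun k N =>
      LinearMap.ext fun x => Matrix.smul_mulVec k N x
    rw [kap_eq (hl.eq s t).symm, (K8 s t hst).2, K6, h1,
      LinearMap.ker_smul _ _ (sub_ne_zero.mpr hst.symm)]
  · have h1 := hA0 t w w
    rw [real_inner_self_eq_norm_sq] at h1
    rw [← h1, Gm, Matrix.mulVec_zero, zero_add]

end Vale.Agent.P231
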