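import Vale.Agent.P231.JacG3
import Vale.Agent.P231.Red
import Vale.Agent.P231.CoreC

/-! The inequality along a geodesic of the manifold. -/

open scoped ContDiff Topology Matrix
open Filter Set

noncomputable section

namespace Vale.Agent.P231

open Vale.Agent.P234

variable {M : Type*} [MetricSpace M] [CompactSpace M] {T : M → Type*}
  [∀ x, NormedAddCommGroup (T x)] [∀ x, InnerProductSpace ℝ (T x)]
  [∀ x, FiniteDimensional ℝ (T x)] {e : ∀ x, T x → M} {r D : ℝ}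

variable {γ : ℝ → M} {ρ : ∀ s, T (γ s)}

/-- Gauss lemma, from `JData.rad`, `sig`, `expd` (`Bl.jdata` with `τ = r / 2`). -/
theorem Bl.gauss (h : Bl e r D) (hl : Line e γ ρ) (s t : ℝ) (w : T (γ s)) :
    inner ℝ (Lmap e (γ s) ((t - s) • ρ s) (γ t) w) (ρ t) = inner ℝ w (ρ s) := by
  rcases eq_or_ne s t with rfl | hst
  · rw [sub_self, zero_smul, h.toGeo.Lmap_zero]
    rfl
  obtain ⟨Ω, -, hJ⟩ := h.jdata hl (half_pos h.pos) (half_lt_self h.pos)
  have h1 := hJ.rad s t (io e γ ρ (r / 2) s w)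
  rw [hJ.expd, hJ.expd, hJ.sig, sub_self, zero_smul, inner_zero_left, zero_add,
    real_inner_smul_left] at h1
  exact mul_left_cancel₀ (sub_ne_zero.2 hst.symm) h1

theorem geoa_adapt {V : Type*} [NormedAddCommGroup V] [InnerProductSpace ℝ V]
    [FiniteDimensional ℝ V] (K : Submodule ℝ V) {v : V} (hK : ∀ w ∈ K, inner ℝ w v = 0) {k : ℕ}
    (hk : Module.finrank ℝ K = k) : ∃ (a : ℕ) (b : Fin a ⊕ Fin k → V), Frame v b ∧
      ∀ w : Fin a ⊕ Fin k → ℝ, ∑ i, w i • b i ∈ K ↔ ∀ i, w (Sum.inl i) = 0 := by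
  subst hk
  obtain ⟨W, hW⟩ : ∃ W : Submodule ℝ V, ∀ w, w ∈ W ↔ w ∈ Kᗮ ∧ inner ℝ w v = 0 :=
    ⟨Kᗮ ⊓ (ℝ ∙ v)ᗮ, fun w => by
      rw [Submodule.mem_inf, Submodule.mem_orthogonal_singleton_iff_inner_left]⟩
  obtain ⟨b₁, -⟩ : ∃ b, b = stdOrthonormalBasis ℝ W := ⟨_, rfl⟩
  obtain ⟨b₂, -⟩ : ∃ b, b = stdOrthonormalBasis ℝ K := ⟨_, rfl⟩
  have o : ∀ (x : W) (y : K), inner ℝ (x : V) (y : V) = 0 := fun x y =>
    Submodule.inner_left_of_mem_orthogonal y.2 ((hW _).1 x.2).1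
  have o' : ∀ (y : K) (x : W), inner ℝ (y : V) (x : V) = 0 := fun y x => by
    rw [real_inner_comm, o]
  refine ⟨_, Sum.elim (fun i => (b₁ i : V)) fun i => (b₂ i : V), ⟨?_, ?_, fun w hw => ?_⟩,
    fun w => ?_⟩
  · rw [orthonormal_iff_ite]
    rintro (i | i) (j | j)
    · simpa using orthonormal_iff_ite.1 b₁.orthonormal i j
    · simp [o]
    · simp [o']
    · simpa using orthonormal_iff_ite.1 b₂.orthonormal i j
  · rintro (i | i)
    · exact ((hW _).1 (b₁ i).2).2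
    · exact hK _ (b₂ i).2
  · obtain ⟨p, hp, q, hq, rfl⟩ := K.exists_add_mem_mem_orthogonal w
    have hq' : q ∈ W := (hW _).2 ⟨hq, by rwa [inner_add_left, hK p hp, zero_add] at hw⟩
    have e1 := congrArg Subtype.val (b₁.sum_repr' ⟨q, hq'⟩)
    have e2 := congrArg Subtype.val (b₂.sum_repr' ⟨p, hp⟩)
    simp only [Submodule.coe_sum, Submodule.coe_smul, Submodule.coe_inner] at e1 e2
    simp only [Fintype.sum_sum_type, Sum.elim_inl, Sum.elim_inr, inner_add_right,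
      fun i => o (b₁ i) ⟨p, hp⟩, fun i => o' (b₂ i) ⟨q, hq'⟩, zero_add, e1, e2, add_comm]
  · simp only [Fintype.sum_sum_type, Sum.elim_inl, Sum.elim_inr]
    rw [K.add_mem_iff_left (K.sum_mem fun i _ => K.smul_mem _ (b₂ i).2)]
    refine ⟨fun h => ?_, fun h => by simp [h]⟩
    refine Fintype.linearIndependent_iff.1 b₁.orthonormal.linearIndependent _ ?_
    rw [← inner_self_eq_zero (𝕜 := ℝ)]
    have := o (∑ i, w (Sum.inl i) • b₁ i) ⟨_, h⟩
    simpa only [Submodule.coe_sum, Submodule.coe_smul, Submodule.coe_inner] using this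

/-- `K` is the kernel of `Lmap (D • ρ 0)`, orthogonal to `ρ 0` by `gauss`; take orthonormal bases
of `K` and of the complement of `K ⊔ span (ρ 0)`. -/
theorem Bl.exists_adapted (h : Bl e r D) (hl : Line e γ ρ) :
    ∃ (a : ℕ) (b : Fin a ⊕ Fin (kap e (γ 0) (D • ρ 0)) → T (γ 0)), Frame (ρ 0) b ∧
      ∀ w : Fin a ⊕ Fin (kap e (γ 0) (D • ρ 0)) → ℝ,
        Lmap e (γ 0) (D • ρ 0) (γ D) (∑ i, w i • b i) = 0 ↔ ∀ i, w (Sum.inl i) = 0 := by
  have hD : e (γ 0) (D • ρ 0) = γ D := by rw [hl.eq 0 D, sub_zero]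
  have hg := h.gauss hl 0 D
  rw [sub_zero] at hg
  exact geoa_adapt (LinearMap.ker (Lmap e (γ 0) (D • ρ 0) (γ D)).toLinearMap)
    (fun w hw => by rw [← hg, show Lmap e (γ 0) (D • ρ 0) (γ D) w = 0 from hw, inner_zero_left])
    (kap_eq hD).symm

theorem Bl.geoa_data (h : Bl e r D) (hl : Line e γ ρ) :
    ∃ (a : ℕ) (b : Fin a ⊕ Fin (kap e (γ 0) (D • ρ 0)) → T (γ 0))
      (C A : ℝ → Matrix (Fin a ⊕ Fin (kap e (γ 0) (D • ρ 0)))
        (Fin a ⊕ Fin (kap e (γ 0) (D • ρ 0))) ℝ), Frame (ρ 0) b ∧ Jac D C A ∧ Adapted (A D) ∧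
      (∀ s, ∀ u ∈ Ioo 0 D, |(Wm C A s (s + u)).det| =
        dens e (a + kap e (γ 0) (D • ρ 0)) D (γ s) (γ (s + u))) ∧
      (∀ s, Module.finrank ℝ (LinearMap.ker (Wm C A s (s + D)).mulVecLin) =
        kap e (γ s) (D • ρ s)) ∧
      ∀ t w, (A t *ᵥ w) ⬝ᵥ (A t *ᵥ w) =
        t ^ 2 * ‖Lmap e (γ 0) (t • ρ 0) (γ t) (∑ i, w i • b i)‖ ^ 2 := by
  obtain ⟨a, b, hb, hk⟩ := h.exists_adapted hl
  obtain ⟨Ω, -, hJ⟩ := h.jdata hl (half_pos h.pos) (half_lt_self h.pos)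
  obtain ⟨C, A, Ξ, h1, h2, h3, h4, -⟩ := hJ.exists_jac h hl hb
  refine ⟨a, b, C, A, hb, h1, fun w => ?_, fun s u hu => ?_, fun s => ?_, h4⟩
  · rw [← dotProduct_self_eq_zero, h4, ← hk, mul_eq_zero, or_iff_right (pow_pos h.dpos 2).ne',
      pow_eq_zero_iff two_ne_zero, norm_eq_zero]
  · have hn : ‖u • ρ s‖ = u := by rw [norm_smul, hl.norm, mul_one, Real.norm_of_nonneg hu.1.le]
    rw [h2 s (s + u) (by linarith [hu.1]), hl.flow, h.dens_exp _ (by rw [hn]; exact hu.2), hn,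
      add_sub_cancel_left, abs_of_pos hu.1, Fintype.card_sum, Fintype.card_fin, Fintype.card_fin]
  · rw [h3 s (s + D) (by linarith [h.dpos]), add_sub_cancel_left]

/-- `Jac.ker_le`. -/
theorem Bl.kap_le (h : Bl e r D) (hl : Line e γ ρ) {s : ℝ} (hs : s ∈ Ioo 0 D) :
    kap e (γ s) (D • ρ s) ≤ kap e (γ 0) (D • ρ 0) := by
  obtain ⟨a, b, C, A, -, h1, h2, -, h3, -⟩ := h.geoa_data hl
  have := h1.ker_le h2 hs
  rwa [h3, Fintype.card_fin] at this

theorem Bl.geoa_per (h : Bl e r D) (hl : Line e γ ρ) (s : ℝ) : γ (s + 2 * D) = γ s := by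
  rw [hl.eq 0 (s + 2 * D), hl.eq 0 s, sub_zero, sub_zero, h.periodic _ (hl.norm 0)]

/-- The function `s ↦ kap (γ s) (D • ρ s)` is antitone (`kap_le`, `Line.shift`) and periodic
(`periodic`, `vel_unique`). -/
theorem Bl.kap_line (h : Bl e r D) (hl : Line e γ ρ) (s : ℝ) :
    kap e (γ s) (D • ρ s) = kap e (γ 0) (D • ρ 0) := by
  obtain ⟨f, hf⟩ : ∃ f : ℝ → ℕ, ∀ s, f s = kap e (γ s) (D • ρ s) := ⟨_, fun _ => rfl⟩
  have hD := h.dpos
  have h1 : ∀ a, ∀ t ∈ Ioo 0 D, f (a + t) ≤ f a := fun a t ht => by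
    have := h.kap_le (hl.shift a) ht
    rwa [← hf, ← hf, add_zero] at this
  have h2 : ∀ (n : ℕ) (a : ℝ), ∀ t ∈ Ioo 0 D, f (a + n * t) ≤ f a := fun n a t ht => by
    induction n with
    | zero => simp
    | succ n ih =>
      rw [Nat.cast_succ, add_one_mul, ← add_assoc]
      exact (h1 _ t ht).trans ih
  have h3 : Antitone f := antitone_iff_forall_lt.2 fun a b hab => by
    obtain ⟨n, hn⟩ := exists_nat_gt ((b - a) / D)
    have h0 : 0 < b - a := sub_pos.2 hab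
    have n0 : (0 : ℝ) < n := lt_trans (by positivity) hn
    have := h2 n a ((b - a) / n) ⟨by positivity, by
      rw [div_lt_iff₀ hD] at hn
      rw [div_lt_iff₀ n0]
      linarith⟩
    rwa [mul_div_cancel₀ _ n0.ne', add_sub_cancel] at this
  have h4 : ∀ (x y : M) (v : T x) (w : T y), x = y → (∀ t : ℝ, e x (t • v) = e y (t • w)) →
      kap e x (D • v) = kap e y (D • w) := by
    rintro x _ v w rfl hvw
    rw [vel_unique h.toGeo hvw]
  have h5 : Function.Periodic f (2 * D) := fun s => by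
    rw [hf, hf]
    refine h4 _ _ _ _ (h.geoa_per hl s) fun t => ?_
    rw [← hl.flow, ← hl.flow, add_right_comm, h.geoa_per hl]
  obtain ⟨n, hn⟩ := exists_nat_gt (|s| / (2 * D))
  rw [div_lt_iff₀ (by positivity), abs_lt] at hn
  have h6 := h3 hn.1.le
  have h7 := h3 hn.2.le
  rw [← zero_sub, h5.sub_nat_mul_eq] at h6
  rw [h5.nat_mul_eq] at h7
  rw [← hf, ← hf]
  exact le_antisymm h6 h7

/-- `Jac.core`, `dens_exp`, periodicity to pass from `(0, 2 D)` to `(-D, D)`. -/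
theorem Bl.line_ineq (h : Bl e r D) (hl : Line e γ ρ) {m : ℕ}
    (hm : Module.finrank ℝ (T (γ 0)) = m + 1) {u : ℝ} (hu : u ∈ Ioo 0 D) :
    2 * D * Real.log (mdl D m (kap e (γ 0) (D • ρ 0)) u) ≤
      ∫ s in (-D)..D, Real.log (dens e m D (γ s) (γ (s + u))) := by
  obtain ⟨a, b, C, A, hb, h1, h2, h3, h4, -⟩ := h.geoa_data hl
  have hc := hb.card (hl.norm 0)
  rw [hm, Fintype.card_sum, Fintype.card_fin, Fintype.card_fin, add_left_inj] at hc
  have h5 := h1.core h2 (fun s _ => by rw [h4, h.kap_line hl s, Fintype.card_fin]) hu (by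
    simp only [h3 _ u hu]
    refine (h.continuousOn_dens _).comp_continuous (f := fun s => (γ s, γ (s + u)))
      ((hl.continuous h.toGeo).prodMk ((hl.continuous h.toGeo).comp (by fun_prop))) fun s => ?_
    have : |s - (s + u)| = u := by rw [sub_add_cancel_left, abs_neg, abs_of_pos hu.1]
    change dist (γ s) (γ (s + u)) < D
    rw [hl.dist_eq h (by rw [this]; exact hu.2.le), this]
    exact hu.2)
  simp only [h3 _ u hu, Fintype.card_fin, hc] at h5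
  have hp : Function.Periodic (fun s => Real.log (dens e m D (γ s) (γ (s + u)))) (2 * D) :=
    fun s => by simp only [add_right_comm s, h.geoa_per hl]
  have h6 := hp.intervalIntegral_add_eq 0 (-D)
  rw [zero_add, show -D + 2 * D = D by ring] at h6
  exact h5.trans_eq h6

theorem geoa_trig {D u : ℝ} (hu : u ∈ Ioo 0 D) : 0 < 2 * D / Real.pi ∧
    0 < Real.sin (Real.pi * u / (2 * D)) ∧ 0 < Real.cos (Real.pi * u / (2 * D)) ∧
      Real.cos (Real.pi * u / (2 * D)) < 1 := by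
  have hD : 0 < D := hu.1.trans hu.2
  have hp := Real.pi_pos
  have h0 : 0 < Real.pi * u / (2 * D) := by have := hu.1; positivity
  have h1 : Real.pi * u / (2 * D) < Real.pi / 2 := by
    rw [div_lt_div_iff₀ (by positivity) two_pos]
    nlinarith [hu.2]
  have h2 := Real.sin_pos_of_pos_of_lt_pi h0 (by linarith)
  have h3 := Real.cos_pos_of_mem_Ioo (x := Real.pi * u / (2 * D)) ⟨by linarith, h1⟩
  refine ⟨by positivity, h2, h3, ?_⟩
  nlinarith [Real.sin_sq_add_cos_sq (Real.pi * u / (2 * D))]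

theorem mdl_pos {D u : ℝ} (hu : u ∈ Ioo 0 D) (m k : ℕ) : 0 < mdl D m k u := by
  obtain ⟨h1, h2, h3, -⟩ := geoa_trig hu
  exact mul_pos (pow_pos (mul_pos h1 h2) _) (pow_pos h3 _)

theorem mdl_anti {D u : ℝ} (hu : u ∈ Ioo 0 D) (m : ℕ) : StrictAnti fun k => mdl D m k u := by
  obtain ⟨h1, h2, h3, h4⟩ := geoa_trig hu
  exact fun k l hkl => mul_lt_mul_of_pos_left (pow_lt_pow_right_of_lt_one₀ h3 h4 hkl)
    (pow_pos (mul_pos h1 h2) _)

theorem Bl.geo_ineq (h : Bl e r D) {m k : ℕ} (hm : ∀ x, Module.finrank ℝ (T x) = m + 1)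
    (hk : ∀ x (v : T x), ‖v‖ = D → kap e x v ≤ k) (x : M) {v : T x} (hv : ‖v‖ = 1) {u : ℝ}
    (hu : u ∈ Ioo 0 D) : 2 * D * Real.log (mdl D m k u) ≤
      ∫ s in (-D)..D, Real.log (dens e m D (e x (s • v)) (e x ((s + u) • v))) := by
  obtain ⟨γ, ρ, hl, rfl, h0⟩ := exists_line h.toGeo x hv
  obtain rfl := eq_of_heq h0
  have h1 := h.line_ineq hl (hm _) hu
  have h2 : ∀ s, e (γ 0) (s • ρ 0) = γ s := fun s => by rw [← hl.flow, zero_add]
  simp only [h2]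
  refine le_trans (mul_le_mul_of_nonneg_left (Real.log_le_log (mdl_pos hu _ _)
    ((mdl_anti hu m).antitone (hk _ _ ?_))) (by have := h.dpos; positivity)) h1
  rw [norm_smul, hv, mul_one, Real.norm_of_nonneg h.dpos.le]

/-- By `line_ineq` and `mdl_anti` the multiplicity is `k`; `Jac.core_eq` gives the equality of
norms on the complement of `ρ 0`; `gauss` and `radial` for the radial part; `a = 0` is trivial. -/
theorem Bl.geo_eq (h : Bl e r D) {m k : ℕ} (hm : ∀ x, Module.finrank ℝ (T x) = m + 1)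
    (hk : ∀ x (v : T x), ‖v‖ = D → kap e x v ≤ k)
    (he : ∀ x y, 0 < dist x y → dist x y < D → dens e m D x y = mdl D m k (dist x y))
    (x : M) {a : T x} (ha : ‖a‖ < D) (ξ : T x) :
    ‖Lmap e x (-a) (e x (-a)) ξ‖ = ‖Lmap e x a (e x a) ξ‖ := by
  rcases eq_or_ne a 0 with rfl | h0
  · rw [neg_zero]
  have hD := h.dpos
  obtain ⟨t, ht, v, hv, rfl⟩ : ∃ t ∈ Ioo 0 D, ∃ v : T x, ‖v‖ = 1 ∧ a = t • v :=
    ⟨‖a‖, ⟨norm_pos_iff.2 h0, ha⟩, ‖a‖⁻¹ • a, norm_smul_inv_norm h0,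
      (smul_inv_smul₀ (norm_ne_zero_iff.2 h0) a).symm⟩
  obtain ⟨γ, ρ, hl, rfl, h0⟩ := exists_line h.toGeo x hv
  obtain rfl := eq_of_heq h0
  have e1 : ∀ s, ∀ u ∈ Ioo 0 D, dens e m D (γ s) (γ (s + u)) = mdl D m k u := fun s u hu => by
    have : |s - (s + u)| = u := by rw [sub_add_cancel_left, abs_neg, abs_of_pos hu.1]
    have h1 := (hl.dist_eq h (by rw [this]; exact hu.2.le)).trans this
    rw [he _ _ (by rw [h1]; exact hu.1) (by rw [h1]; exact hu.2), h1]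
  have e2 : kap e (γ 0) (D • ρ 0) = k := by
    refine le_antisymm (hk _ _ (by rw [norm_smul, hv, mul_one, Real.norm_of_nonneg hD.le])) ?_
    have h1 := h.line_ineq hl (hm _) ht
    simp only [e1 _ t ht, intervalIntegral.integral_const, smul_eq_mul, sub_neg_eq_add,
      ← two_mul] at h1
    exact (mdl_anti ht m).le_iff_ge.1 ((Real.log_le_log_iff (mdl_pos ht _ _) (mdl_pos ht _ _)).1
      (le_of_mul_le_mul_left h1 (by positivity)))
  obtain ⟨a, b, C, A, hb, h1, h2, h3, h4, h5⟩ := h.geoa_data hl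
  have hc := hb.card (hl.norm 0)
  rw [hm, Fintype.card_sum, Fintype.card_fin, Fintype.card_fin, add_left_inj] at hc
  have h6 := h1.core_eq h2 (fun s _ => by rw [h4, h.kap_line hl s, Fintype.card_fin])
    (fun s u hu => by rw [h3 s u hu, Fintype.card_fin, Fintype.card_fin, hc, e1 s u hu, e2]) ht
  have h7 : ∀ (s : ℝ) w, (A s *ᵥ w) ⬝ᵥ (A s *ᵥ w) = w ⬝ᵥ gm A s *ᵥ w := fun s w => by
    rw [gm, ← Matrix.mulVec_mulVec, Matrix.dotProduct_mulVec w, Matrix.vecMul_transpose]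
  obtain ⟨c, η, hη, rfl⟩ : ∃ (c : ℝ) (η : T (γ 0)), inner ℝ η (ρ 0) = 0 ∧ ξ = c • ρ 0 + η :=
    ⟨inner ℝ ξ (ρ 0), ξ - inner ℝ ξ (ρ 0) • ρ 0, by
      rw [inner_sub_left, real_inner_smul_left, real_inner_self_eq_norm_sq, hv]; ring, by abel⟩
  have h8 : ∀ s : ℝ, ‖Lmap e (γ 0) (s • ρ 0) (e (γ 0) (s • ρ 0)) (c • ρ 0 + η)‖ ^ 2 =
      c ^ 2 + ‖Lmap e (γ 0) (s • ρ 0) (γ s) η‖ ^ 2 := fun s => by
    have k1 := Lmap_radial h.toGeo hl 0 s
    have k2 := h.gauss hl 0 s η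
    rw [sub_zero] at k1 k2
    rw [← hl.flow, zero_add, map_add, map_smul, k1, norm_add_sq_real, real_inner_smul_left,
      real_inner_comm, k2, hη, norm_smul, hl.norm, Real.norm_eq_abs, mul_one, sq_abs]
    ring
  have h9 := h5 (-t) fun i => inner ℝ (b i) η
  rw [h7, h6, ← h7, h5, hb.span η hη, neg_sq] at h9
  rw [← neg_smul, ← sq_eq_sq₀ (norm_nonneg _) (norm_nonneg _), h8, h8,
    mul_left_cancel₀ (pow_pos ht.1 2).ne' h9]

end Vale.Agent.P231
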