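import Vale.Agent.P231.Pair
import Vale.Agent.P231.GeoA

/-! The volume inequality. -/

open scoped ContDiff Topology ENNReal
open Filter Set MeasureTheory Metric

noncomputable section

namespace Vale.Agent.P231

open Vale.Agent.P234

variable {M : Type*} [MetricSpace M] [CompactSpace M] {T : M → Type*}
  [∀ x, NormedAddCommGroup (T x)] [∀ x, InnerProductSpace ℝ (T x)]
  [∀ x, FiniteDimensional ℝ (T x)] {e : ∀ x, T x → M} {r D : ℝ}

variable [MeasurableSpace M] [BorelSpace M] [∀ x, MeasurableSpace (T x)] [∀ x, BorelSpace (T x)]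

/-- The defect in `θ ≥ μ (1 + log (θ / μ))`. -/
def dlt (e : ∀ x, T x → M) (m k : ℕ) (D : ℝ) (z : M × M) : ℝ :=
  dens e m D z.1 z.2 - mdl D m k (dist z.1 z.2) *
    (1 + Real.log (dens e m D z.1 z.2 / mdl D m k (dist z.1 z.2)))

theorem Bl.dlt_nonneg (h : Bl e r D) (m k : ℕ) {z : M × M} (h0 : 0 < dist z.1 z.2)
    (h1 : dist z.1 z.2 < D) : 0 ≤ dlt e m k D z ∧
      (dlt e m k D z = 0 → dens e m D z.1 z.2 = mdl D m k (dist z.1 z.2)) := by
  have hθ := h.dens_pos m h0 h1
  have hμ := mdl_pos (D := D) ⟨h0, h1⟩ m k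
  unfold dlt
  generalize dens e m D z.1 z.2 = θ at hθ
  generalize mdl D m k (dist z.1 z.2) = μ at hμ
  have hx : 0 < θ / μ := div_pos hθ hμ
  have e1 : θ - μ * (1 + Real.log (θ / μ)) = μ * (θ / μ - 1 - Real.log (θ / μ)) := by
    field_simp
    ring
  rw [e1]
  refine ⟨mul_nonneg hμ.le (by linarith [Real.log_le_sub_one_of_pos hx]), fun h2 => ?_⟩
  by_contra h3
  have h4 : θ / μ ≠ 1 := fun h5 => h3 ((div_eq_one_iff_eq hμ.ne').1 h5)
  have h5 := Real.log_lt_sub_one_of_pos hx h4
  have h6 : 0 < μ * (θ / μ - 1 - Real.log (θ / μ)) := mul_pos hμ (by linarith)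
  exact h6.ne' h2

theorem vol_continuous_mdl (D : ℝ) (m k : ℕ) : Continuous (mdl D m k) := by
  unfold mdl
  fun_prop

theorem Bl.measurable_dlt (h : Bl e r D) (m k : ℕ) : Measurable (dlt e m k D) := by
  have h1 := h.measurable_dens m
  have h2 : Measurable fun z : M × M => mdl D m k (dist z.1 z.2) :=
    ((vol_continuous_mdl D m k).comp continuous_dist).measurable
  exact h1.sub (h2.mul (measurable_const.add (h1.div h2).log))

theorem Bl.vol_dist (h : Bl e r D) (x : M) {v : T x} (hv : ‖v‖ = 1) (s : ℝ) {u : ℝ}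
    (hu : u ∈ Ioo 0 D) : dist (e x (s • v)) (e x ((s + u) • v)) = u := by
  obtain ⟨ρ, h1, h2⟩ := h.toGeo.flow (x := x) (v := v) (θ := s) rfl
  have h3 : ‖u • ρ‖ = u := by rw [norm_smul, h1, hv, Real.norm_eq_abs, abs_of_pos hu.1, mul_one]
  rw [h2, h.min _ _ (by rw [h3]; exact hu.2.le), h3]

theorem Bl.vol_dist0 (h : Bl e r D) (x : M) (v : sphere (0 : T x) 1) {u : ℝ}
    (hu : u ∈ Ioo 0 D) : dist (e x ((0 : ℝ) • (v : T x))) (e x (u • (v : T x))) = u := by
  have := h.vol_dist x (v := v) (by simpa using v.2) 0 hu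
  rwa [zero_add] at this

theorem vol_meas_v (h : Geo e r) {F : M × M → ℝ≥0∞} (hF : Measurable F) (a b : ℝ) (x : M) :
    Measurable fun v : sphere (0 : T x) 1 => F (e x (a • (v : T x)), e x (b • (v : T x))) := by
  have h1 := h.continuous_exp x
  refine hF.comp (Continuous.measurable ?_)
  fun_prop

theorem Bl.vol_meas_x (h : Bl e r D) {m : ℕ} (hm : ∀ x, Module.finrank ℝ (T x) = m + 1)
    {F : M × M → ℝ≥0∞} (hF : Measurable F) (a b : ℝ) : Measurable (Hs e F a b) := by
  have h1 := h.measurable_Hs hm hF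
  have h2 : Measurable fun x : M => (((a, b), x) : (ℝ × ℝ) × M) := measurable_prodMk_left
  have h3 := h1.comp h2
  exact h3

/-- The shifted logarithm has a large integral along every geodesic. -/
theorem Bl.vol_line (h : Bl e r D) {m k : ℕ} (hm : ∀ x, Module.finrank ℝ (T x) = m + 1)
    (hk : ∀ x (v : T x), ‖v‖ = D → kap e x v ≤ k) {u : ℝ} (hu : u ∈ Ioo 0 D) {c : ℝ}
    (hc : ∀ z : M × M, dist z.1 z.2 = u → 0 ≤ Real.log (dens e m D z.1 z.2 / mdl D m k u) + c)
    (x : M) {v : T x} (hv : ‖v‖ = 1) :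
    ENNReal.ofReal (2 * D * c) ≤ ∫⁻ s in Ioo (-D) D, ENNReal.ofReal
      (Real.log (dens e m D (e x (s • v)) (e x ((s + u) • v)) / mdl D m k u) + c) := by
  have hμ := mdl_pos hu m k
  have hD := h.dpos
  have hd : ∀ s, dist (e x (s • v)) (e x ((s + u) • v)) = u := fun s => h.vol_dist x hv s hu
  have hp : ∀ s, 0 < dens e m D (e x (s • v)) (e x ((s + u) • v)) := fun s =>
    h.dens_pos m (by rw [hd]; exact hu.1) (by rw [hd]; exact hu.2)
  have h1 := h.toGeo.continuous_exp x
  have hγ : Continuous fun s : ℝ => (e x (s • v), e x ((s + u) • v)) := by fun_prop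
  have hcd : Continuous fun s : ℝ => dens e m D (e x (s • v)) (e x ((s + u) • v)) :=
    (h.continuousOn_dens m).comp_continuous hγ fun s => by
      simp only [mem_setOf_eq, hd]; exact hu.2
  have hl : Continuous fun s : ℝ =>
      Real.log (dens e m D (e x (s • v)) (e x ((s + u) • v))) := hcd.log fun s => (hp s).ne'
  have he : (fun s : ℝ =>
      Real.log (dens e m D (e x (s • v)) (e x ((s + u) • v)) / mdl D m k u) + c) = fun s =>
      Real.log (dens e m D (e x (s • v)) (e x ((s + u) • v))) + (c - Real.log (mdl D m k u)) := by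
    funext s
    rw [Real.log_div (hp s).ne' hμ.ne']
    ring
  have hcont : Continuous fun s : ℝ =>
      Real.log (dens e m D (e x (s • v)) (e x ((s + u) • v)) / mdl D m k u) + c := by
    rw [he]; exact hl.add continuous_const
  rw [← ofReal_integral_eq_lintegral_ofReal
    ((hcont.integrableOn_Icc (a := -D) (b := D)).mono_set Ioo_subset_Icc_self)
    (Filter.Eventually.of_forall fun s => hc (_, _) (hd s))]
  refine ENNReal.ofReal_le_ofReal ?_
  rw [← integral_Ioc_eq_integral_Ioo, ← intervalIntegral.integral_of_le (by linarith), he,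
    intervalIntegral.integral_add (hl.intervalIntegrable _ _) intervalIntegrable_const,
    intervalIntegral.integral_const, smul_eq_mul]
  have := h.geo_ineq hm hk x hv hu
  nlinarith

/-- Fix `u`, `μ = mdl u`. On the compact set `dist = u`, `log (dens / μ) ≥ -c`, `c ≥ 0`. Let
`Θ z = ofReal (log (dens z / μ) + c)`. By `geo_ineq` the integral of `Θ` along each geodesic is at
least `2 D c`, so by `liouville` `∫ Hs Θ 0 u ≥ c * sphA * vol`. Pointwise on `dist = u`,
`dens + μ c = μ + μ (log + c) + dlt`. Cancel the finite term `μ c sphA vol`. -/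
theorem Bl.sphere_ge [Nonempty M] (h : Bl e r D) {m k : ℕ}
    (hm : ∀ x, Module.finrank ℝ (T x) = m + 1) (hk : ∀ x (v : T x), ‖v‖ = D → kap e x v ≤ k)
    {u : ℝ} (hu : u ∈ Ioo 0 D) :
    ENNReal.ofReal (sphA (m + 1) * mdl D m k u) * μHE[m + 1] (univ : Set M) +
        ∫⁻ x, Hs e (fun z => ENNReal.ofReal (dlt e m k D z)) 0 u x ∂μHE[m + 1] ≤
      ∫⁻ x, Hs e (fun z => ENNReal.ofReal (dens e m D z.1 z.2)) 0 u x ∂μHE[m + 1] := by
  haveI := h.isFiniteMeasure hm
  have hμ := mdl_pos hu m k
  have hD := h.dpos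
  obtain ⟨c, hc0, hc⟩ : ∃ c : ℝ, 0 ≤ c ∧ ∀ z : M × M, dist z.1 z.2 = u →
      0 ≤ Real.log (dens e m D z.1 z.2 / mdl D m k u) + c := by
    have hK : IsCompact {z : M × M | dist z.1 z.2 = u} :=
      (isClosed_eq continuous_dist continuous_const).isCompact
    have h1 : ContinuousOn (fun z : M × M => dens e m D z.1 z.2) {z | dist z.1 z.2 = u} :=
      (h.continuousOn_dens m).mono fun z hz => by
        simp only [mem_setOf_eq] at hz ⊢
        rw [hz]; exact hu.2
    have h2 : ContinuousOn (fun z : M × M => Real.log (dens e m D z.1 z.2 / mdl D m k u))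
        {z | dist z.1 z.2 = u} := (h1.div_const _).log fun z hz => by
      simp only [mem_setOf_eq] at hz
      exact (div_pos (h.dens_pos m (by rw [hz]; exact hu.1) (by rw [hz]; exact hu.2)) hμ).ne'
    obtain ⟨C, hC⟩ := hK.exists_bound_of_continuousOn h2
    refine ⟨max C 0, le_max_right _ _, fun z hz => ?_⟩
    have h3 := (abs_le.1 (hC z hz)).1
    linarith [le_max_left C 0]
  set S : ℝ≥0∞ := ENNReal.ofReal (sphA (m + 1)) with hS
  set V : ℝ≥0∞ := μHE[m + 1] (univ : Set M) with hV
  let Θ : M × M → ℝ≥0∞ := fun z =>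
    ENNReal.ofReal (Real.log (dens e m D z.1 z.2 / mdl D m k u) + c)
  have hΘ : Measurable Θ :=
    ((((h.measurable_dens m).div_const _).log).add_const c).ennreal_ofReal
  have hdl : Measurable fun z => ENNReal.ofReal (dlt e m k D z) :=
    (h.measurable_dlt m k).ennreal_ofReal
  have hlow : ENNReal.ofReal c * S * V ≤ ∫⁻ x, Hs e Θ 0 u x ∂μHE[m + 1] := by
    have h1 : ENNReal.ofReal (2 * D * c) * S * V ≤
        ENNReal.ofReal (2 * D) * ∫⁻ x, Hs e Θ 0 u x ∂μHE[m + 1] := by
      rw [← h.liouville hm hΘ u, hV, ← lintegral_const]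
      refine lintegral_mono fun x => ?_
      rw [hS, ← toSphere_univ (hm x), ← lintegral_const]
      exact lintegral_mono fun v => h.vol_line hm hk hu hc x (by simpa using v.2)
    rw [ENNReal.ofReal_mul (by positivity), mul_assoc, mul_assoc] at h1
    have h2 : ENNReal.ofReal (2 * D) ≠ 0 := (ENNReal.ofReal_pos.2 (by positivity)).ne'
    rw [mul_assoc]
    exact (ENNReal.mul_le_mul_iff_right h2 ENNReal.ofReal_ne_top).1 h1
  have hpt : ∀ x, Hs e (fun z => ENNReal.ofReal (dens e m D z.1 z.2)) 0 u x +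
      ENNReal.ofReal (mdl D m k u) * ENNReal.ofReal c * S =
      ENNReal.ofReal (mdl D m k u) * S + (ENNReal.ofReal (mdl D m k u) * Hs e Θ 0 u x +
        Hs e (fun z => ENNReal.ofReal (dlt e m k D z)) 0 u x) := by
    intro x
    unfold Hs
    rw [hS, ← toSphere_univ (hm x), ← lintegral_const, ← lintegral_const,
      ← lintegral_add_right _ measurable_const,
      ← lintegral_const_mul _ (vol_meas_v h.toGeo hΘ 0 u x),
      ← lintegral_add_right _ (vol_meas_v h.toGeo hdl 0 u x),
      ← lintegral_add_left measurable_const]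
    refine lintegral_congr fun v => ?_
    have hd := h.vol_dist0 x v hu
    have h1 := hc (_, _) hd
    have h2 := (h.dlt_nonneg m k (z := (e x ((0 : ℝ) • (v : T x)), e x (u • (v : T x))))
      (by rw [hd]; exact hu.1) (by rw [hd]; exact hu.2)).1
    have h3 := h.dens_pos m (x := e x ((0 : ℝ) • (v : T x))) (y := e x (u • (v : T x)))
      (by rw [hd]; exact hu.1) (by rw [hd]; exact hu.2)
    simp only [Θ]
    rw [← ENNReal.ofReal_mul hμ.le, ← ENNReal.ofReal_mul hμ.le,
      ← ENNReal.ofReal_add h3.le (by positivity),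
      ← ENNReal.ofReal_add (mul_nonneg hμ.le h1) h2,
      ← ENNReal.ofReal_add hμ.le (add_nonneg (mul_nonneg hμ.le h1) h2)]
    congr 1
    simp only [dlt, hd]
    ring
  have hint : ∫⁻ x, Hs e (fun z => ENNReal.ofReal (dens e m D z.1 z.2)) 0 u x ∂μHE[m + 1] +
      ENNReal.ofReal (mdl D m k u) * ENNReal.ofReal c * S * V =
      ENNReal.ofReal (mdl D m k u) * S * V +
        (ENNReal.ofReal (mdl D m k u) * ∫⁻ x, Hs e Θ 0 u x ∂μHE[m + 1] +
        ∫⁻ x, Hs e (fun z => ENNReal.ofReal (dlt e m k D z)) 0 u x ∂μHE[m + 1]) := by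
    rw [hV, ← lintegral_const, ← lintegral_const, ← lintegral_add_right _ measurable_const,
      ← lintegral_const_mul _ (h.vol_meas_x hm hΘ 0 u),
      ← lintegral_add_right _ (h.vol_meas_x hm hdl 0 u), ← lintegral_add_left measurable_const]
    exact lintegral_congr hpt
  have hfin : ENNReal.ofReal (mdl D m k u) * ENNReal.ofReal c * S * V ≠ ⊤ :=
    ENNReal.mul_ne_top (ENNReal.mul_ne_top
      (ENNReal.mul_ne_top ENNReal.ofReal_ne_top ENNReal.ofReal_ne_top) ENNReal.ofReal_ne_top)
      (measure_ne_top _ _)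
  refine (ENNReal.add_le_add_iff_right hfin).1 ?_
  rw [hint, ENNReal.ofReal_mul (sphA_pos m).le, ← hS, mul_comm S, add_assoc]
  refine add_le_add le_rfl ?_
  rw [add_comm]
  refine add_le_add ?_ le_rfl
  rw [mul_assoc, mul_assoc, ← mul_assoc (ENNReal.ofReal c)]
  exact mul_le_mul_right hlow _

/-- Integrate `sphere_ge` over `u`; `lintegral_pair` for `F = 1`. The volume is finite and
positive. In the equality case the integral of the defect vanishes; by `lintegral_pair` for
`dlt / dens` the defect vanishes almost everywhere on the open set `0 < dist < D` of pairs, hence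
everywhere on it (`Measure.eqOn_open_of_ae_eq`, product of open positive measures). -/
theorem Bl.vol [Nonempty M] (h : Bl e r D) {m k : ℕ} (hm : ∀ x, Module.finrank ℝ (T x) = m + 1)
    (hk : ∀ x (v : T x), ‖v‖ = D → kap e x v ≤ k) :
    ENNReal.ofReal (sphA (m + 1) * ∫ u in (0 : ℝ)..D, mdl D m k u) ≤ μHE[m + 1] (univ : Set M) ∧
      (μHE[m + 1] (univ : Set M) ≤
          ENNReal.ofReal (sphA (m + 1) * ∫ u in (0 : ℝ)..D, mdl D m k u) →
        ∀ x y, 0 < dist x y → dist x y < D → dens e m D x y = mdl D m k (dist x y)) := by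
  haveI := h.isFiniteMeasure hm
  haveI := h.isOpenPosMeasure hm
  have hD := h.dpos
  set V : ℝ≥0∞ := μHE[m + 1] (univ : Set M) with hV
  have hV0 : V ≠ 0 := isOpen_univ.measure_ne_zero _ univ_nonempty
  have hVt : V ≠ ⊤ := measure_ne_top _ _
  set a : ℝ≥0∞ := ENNReal.ofReal (sphA (m + 1) * ∫ u in (0 : ℝ)..D, mdl D m k u) with ha
  set Δ : ℝ≥0∞ := ∫⁻ u in Ioo 0 D,
    ∫⁻ x, Hs e (fun z => ENNReal.ofReal (dlt e m k D z)) 0 u x ∂μHE[m + 1] with hΔ
  have hc : Continuous fun u => sphA (m + 1) * mdl D m k u :=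
    continuous_const.mul (vol_continuous_mdl D m k)
  have hae : a = ∫⁻ u in Ioo 0 D, ENNReal.ofReal (sphA (m + 1) * mdl D m k u) := by
    rw [← ofReal_integral_eq_lintegral_ofReal
      ((hc.integrableOn_Icc (a := 0) (b := D)).mono_set Ioo_subset_Icc_self)
      ((ae_restrict_iff' measurableSet_Ioo).2 (Filter.Eventually.of_forall fun u hu =>
        mul_nonneg (sphA_pos m).le (mdl_pos hu m k).le)),
      ← integral_Ioc_eq_integral_Ioo, ← intervalIntegral.integral_of_le hD.le,
      intervalIntegral.integral_const_mul]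
  have hmain : a * V + Δ ≤ V * V := by
    have h1 := h.lintegral_pair hm (F := fun _ => 1) measurable_const
    simp only [lintegral_const, one_mul] at h1
    rw [← hV] at h1
    rw [h1, hae, hΔ, ← lintegral_mul_const _ hc.measurable.ennreal_ofReal,
      ← lintegral_add_left (hc.measurable.ennreal_ofReal.mul_const V)]
    exact setLIntegral_mono' measurableSet_Ioo fun u hu => h.sphere_ge hm hk hu
  refine ⟨(ENNReal.mul_le_mul_iff_left hV0 hVt).1 (le_self_add.trans hmain), fun hle => ?_⟩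
  have hΔ0 : Δ = 0 := by
    have h1 : a * V + Δ ≤ a * V + 0 := by
      rw [add_zero]
      exact hmain.trans (mul_le_mul_left hle _)
    exact le_zero_iff.1 ((ENNReal.add_le_add_iff_left
      (ENNReal.mul_ne_top ENNReal.ofReal_ne_top hVt)).1 h1)
  let F : M × M → ℝ≥0∞ := fun z =>
    ENNReal.ofReal (dlt e m k D z) / ENNReal.ofReal (dens e m D z.1 z.2)
  have hF : Measurable F :=
    (h.measurable_dlt m k).ennreal_ofReal.div (h.measurable_dens m).ennreal_ofReal
  have hF0 : ∫⁻ z, F z ∂((μHE[m + 1] : Measure M).prod μHE[m + 1]) = 0 := by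
    rw [lintegral_prod _ hF.aemeasurable, h.lintegral_pair hm hF, ← hΔ0, hΔ]
    refine setLIntegral_congr_fun measurableSet_Ioo fun u hu => ?_
    refine lintegral_congr fun x => lintegral_congr fun v => ?_
    have hd := h.vol_dist0 x v hu
    have h3 := h.dens_pos m (x := e x ((0 : ℝ) • (v : T x))) (y := e x (u • (v : T x)))
      (by rw [hd]; exact hu.1) (by rw [hd]; exact hu.2)
    exact ENNReal.div_mul_cancel (ENNReal.ofReal_pos.2 h3).ne' ENNReal.ofReal_ne_top
  have hU : IsOpen {z : M × M | 0 < dist z.1 z.2 ∧ dist z.1 z.2 < D} :=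
    (isOpen_lt continuous_const continuous_dist).inter (isOpen_lt continuous_dist continuous_const)
  have hE : (fun z : M × M => dens e m D z.1 z.2) =ᵐ[((μHE[m + 1] : Measure M).prod
      μHE[m + 1]).restrict {z : M × M | 0 < dist z.1 z.2 ∧ dist z.1 z.2 < D}]
      fun z => mdl D m k (dist z.1 z.2) := by
    refine (ae_restrict_iff' hU.measurableSet).2 ?_
    filter_upwards [(lintegral_eq_zero_iff hF).1 hF0] with z hz hzU
    obtain ⟨h1, h2⟩ := h.dlt_nonneg m k hzU.1 hzU.2
    refine h2 (le_antisymm ?_ h1)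
    rcases ENNReal.div_eq_zero_iff.1 hz with h3 | h3
    · exact ENNReal.ofReal_eq_zero.1 h3
    · exact absurd h3 ENNReal.ofReal_ne_top
  have hEq := Measure.eqOn_open_of_ae_eq hE hU
    ((h.continuousOn_dens m).mono fun z hz => hz.2)
    ((vol_continuous_mdl D m k).comp continuous_dist).continuousOn
  intro x y h0 h1
  exact hEq (x := (x, y)) ⟨h0, h1⟩

end Vale.Agent.P231
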