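import Vale.Agent.P231.AvgA
import Vale.Agent.P231.Lip
import Vale.Agent.P231.Vol

/-! The model distance is the distance. -/

open scoped ContDiff Topology ENNReal
open Filter Set MeasureTheory Metric

noncomputable section

namespace Vale.Agent.P231

open Vale.Agent.P234

variable {M : Type*} [MetricSpace M] [CompactSpace M] {T : M → Type*}
  [∀ x, NormedAddCommGroup (T x)] [∀ x, InnerProductSpace ℝ (T x)]
  [∀ x, FiniteDimensional ℝ (T x)] {e : ∀ x, T x → M} {r D : ℝ}

variable [MeasurableSpace M] [BorelSpace M] [∀ x, MeasurableSpace (T x)] [∀ x, BorelSpace (T x)]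
  {x : M} {P : T x →L[ℝ] T x →L[ℝ] T x →L[ℝ] T x} {m k : ℕ}

theorem AvgB_norm {V : Type*} [NormedAddCommGroup V] [InnerProductSpace ℝ V]
    (v : sphere (0 : V) 1) {t : ℝ} (ht : 0 ≤ t) : ‖t • (v : V)‖ = t := by
  rw [norm_smul, mem_sphere_zero_iff_norm.1 v.2, mul_one, Real.norm_of_nonneg ht]

theorem AvgB_polar (h : Bl e r D) (hm : ∀ x, Module.finrank ℝ (T x) = m + 1)
    (he : ∀ x y, 0 < dist x y → dist x y < D → dens e m D x y = mdl D m k (dist x y)) (x : M)
    {f : M → ℝ} (hf : Continuous f) (h0 : ∀ y, 0 ≤ f y) :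
    ∫⁻ y, ENNReal.ofReal (f y) ∂μHE[m + 1] = ∫⁻ v : sphere (0 : T x) 1,
      ENNReal.ofReal (∫ t in (0 : ℝ)..D, f (e x (t • (v : T x))) * mdl D m k t)
        ∂(volume : Measure (T x)).toSphere := by
  rw [h.polar (hm x) hf.measurable.ennreal_ofReal]
  refine lintegral_congr fun v => ?_
  have hc : Continuous fun t : ℝ => f (e x (t • (v : T x))) * mdl D m k t :=
    (hf.comp ((h.toGeo.continuous_exp x).comp (continuous_id.smul continuous_const))).mul
      (vol_continuous_mdl D m k)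
  rw [intervalIntegral.integral_of_le h.dpos.le, integral_Ioc_eq_integral_Ioo,
    ofReal_integral_eq_lintegral_ofReal
      ((hc.integrableOn_Icc (a := 0) (b := D)).mono_set Ioo_subset_Icc_self)
      ((ae_restrict_mem measurableSet_Ioo).mono fun t ht =>
        mul_nonneg (h0 _) (mdl_pos ht m k).le)]
  refine setLIntegral_congr_fun measurableSet_Ioo fun t ht => ?_
  have hv := AvgB_norm v ht.1.le
  have hd : dist x (e x (t • (v : T x))) = t := by rw [h.min x _ (hv.trans_le ht.2.le), hv]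
  rw [he _ _ (hd.symm ▸ ht.1) (hd.symm ▸ ht.2), hd, ENNReal.ofReal_mul (h0 _)]

theorem AvgB_I_nonneg (hD : 0 < D) {g : ℝ → ℝ} (hg : ∀ t, 0 ≤ g t) :
    0 ≤ ∫ t in (0 : ℝ)..D, g t * mdl D m k t := by
  rw [intervalIntegral.integral_of_le hD.le, integral_Ioc_eq_integral_Ioo]
  exact setIntegral_nonneg measurableSet_Ioo fun t ht => mul_nonneg (hg t) (mdl_pos ht m k).le

/-- `Bl.polar` at `z`, `toSphere_univ`. -/
theorem Bl.avg_cos (h : Bl e r D) (hm : ∀ x, Module.finrank ℝ (T x) = m + 1)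
    (he : ∀ x y, 0 < dist x y → dist x y < D → dens e m D x y = mdl D m k (dist x y)) (z : M) :
    ∫⁻ y, ENNReal.ofReal (Real.cos (Real.pi / (2 * D) * dist y z) ^ 2) ∂μHE[m + 1] =
      ENNReal.ofReal (sphA (m + 1) *
        ∫ t in (0 : ℝ)..D, Real.cos (Real.pi / (2 * D) * t) ^ 2 * mdl D m k t) := by
  have hc : Continuous fun y : M => Real.cos (Real.pi / (2 * D) * dist y z) ^ 2 := by fun_prop
  rw [AvgB_polar h hm he z hc fun y => sq_nonneg _]
  have h1 : ∀ v : sphere (0 : T z) 1, ∫ t in (0 : ℝ)..D,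
      Real.cos (Real.pi / (2 * D) * dist (e z (t • (v : T z))) z) ^ 2 * mdl D m k t =
      ∫ t in (0 : ℝ)..D, Real.cos (Real.pi / (2 * D) * t) ^ 2 * mdl D m k t := fun v => by
    refine intervalIntegral.integral_congr fun t ht => ?_
    rw [uIcc_of_le h.dpos.le] at ht
    have hv := AvgB_norm v ht.1
    rw [dist_comm, h.min z _ (hv.trans_le ht.2), hv]
  simp only [h1]
  rw [lintegral_const, toSphere_univ (hm z), mul_comm, ENNReal.ofReal_mul (sphA_pos m).le]

theorem AvgB_Fn_smul {V : Type*} [NormedAddCommGroup V] [InnerProductSpace ℝ V]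
    {P : V →L[ℝ] V →L[ℝ] V →L[ℝ] V} (hP : Spr P) (κ : ℝ) (v : sphere (0 : V) 1) {t : ℝ}
    (ht : 0 ≤ t) (b : V) : Fn κ P (t • (v : V)) b =
      Real.cos (κ * t) ^ 2 * Real.cos (κ * ‖b‖) ^ 2 +
        Real.cos (κ * t) * Real.sin (κ * t) * (2 * Real.cos (κ * ‖b‖) * inner ℝ (v : V) (Sv κ b)) +
        Real.sin (κ * t) ^ 2 * inner ℝ (P (Sv κ b) (Sv κ b) v) (v : V) := by
  have hs : Sv κ (t • (v : V)) = Real.sin (κ * t) • (v : V) := by
    rw [Sv, AvgB_norm v ht, smul_smul]
    rcases ht.eq_or_lt with rfl | ht'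
    · simp
    · rw [div_mul_cancel₀ _ ht'.ne']
  rw [Fn, Fq, hs, AvgB_norm v ht, hP.Q_symm, map_smul, inner_smul_left, inner_smul_left,
    inner_smul_right]
  simp only [conj_trivial]
  ring

theorem AvgB_trace {V : Type*} [NormedAddCommGroup V] [InnerProductSpace ℝ V]
    {P : V →L[ℝ] V →L[ℝ] V →L[ℝ] V} {c : ℝ}
    (ht : ∀ v : V, ‖v‖ = 1 → LinearMap.trace ℝ V (P v v).toLinearMap = c) (S : V) :
    LinearMap.trace ℝ V (P S S).toLinearMap = c * ‖S‖ ^ 2 := by
  rcases eq_or_ne S 0 with rfl | hS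
  · simp
  · have hn : ‖S‖ ≠ 0 := norm_ne_zero_iff.2 hS
    have h1 : ‖(‖S‖⁻¹ • S)‖ = 1 := by
      rw [norm_smul, norm_inv, norm_norm, inv_mul_cancel₀ hn]
    have h2 := ht _ h1
    have h3 : P (‖S‖⁻¹ • S) (‖S‖⁻¹ • S) = (‖S‖⁻¹ * ‖S‖⁻¹) • P S S := by
      rw [map_smul, map_smul, ContinuousLinearMap.smul_apply, smul_smul]
    rw [h3, ContinuousLinearMap.coe_smul, map_smul, smul_eq_mul] at h2
    rw [← h2]
    field_simp

omit [MeasurableSpace M] [BorelSpace M] [∀ x, MeasurableSpace (T x)] [∀ x, BorelSpace (T x)] in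
theorem AvgB_Fn_lg (h : Bl e r D) (hP : Spr P) (hR : RigP e D x P) {a : T x} (ha : ‖a‖ ≤ D)
    (b : T x) : Fn (Real.pi / (2 * D)) P (lg e x (e x a)) b = Fn (Real.pi / (2 * D)) P a b :=
  h.Fn_eq hP hR (by rw [h.toGeo.norm_lg]; exact h.le _ _) ha (h.toGeo.exp_lg _ _) b

/-- `Bl.polar` at `x`. For a unit vector `v`, with `C' = cos (κ ‖b‖)`, `S' = Sv κ b`,
`Fn κ P (t • v) b = cos² C'² + 2 cos sin C' ⟪v, S'⟫ + sin² ⟪P S' S' v, v⟫` (`Q_symm`). Integrate
in `t`, then in `v` (`ofReal_integral_eq_lintegral_ofReal`, `integral_sphere_inner`,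
`integral_sphere_quad`; the trace of `P S' S'` is `(k + 1) ‖S'‖²`), and use `mdl_moment`. -/
theorem Bl.avg_Fn (h : Bl e r D) (hm : ∀ x, Module.finrank ℝ (T x) = m + 1)
    (he : ∀ x y, 0 < dist x y → dist x y < D → dens e m D x y = mdl D m k (dist x y))
    (hP : Spr P) (hR : RigP e D x P)
    (ht : ∀ v : T x, ‖v‖ = 1 → LinearMap.trace ℝ (T x) (P v v).toLinearMap = k + 1) (b : T x) :
    ∫⁻ y, ENNReal.ofReal (Fn (Real.pi / (2 * D)) P (lg e x y) b) ∂μHE[m + 1] =
      ENNReal.ofReal (sphA (m + 1) *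
        ∫ t in (0 : ℝ)..D, Real.cos (Real.pi / (2 * D) * t) ^ 2 * mdl D m k t) := by
  set κ := Real.pi / (2 * D) with hκ
  have h0 : ∀ a : T x, 0 ≤ Fn κ P a b := fun a =>
    (hP.toPre.Fq_mem (cos_sq_add_Sv κ a) (cos_sq_add_Sv κ b)).1
  rw [AvgB_polar h hm he x (h.continuous_Fn_lg hP hR b) fun y => h0 _, ← hκ]
  obtain ⟨Ic, hIc⟩ : ∃ I, I = ∫ t in (0 : ℝ)..D, Real.cos (κ * t) ^ 2 * mdl D m k t := ⟨_, rfl⟩
  obtain ⟨Is, hIs⟩ : ∃ I, I = ∫ t in (0 : ℝ)..D, Real.sin (κ * t) ^ 2 * mdl D m k t := ⟨_, rfl⟩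
  obtain ⟨Im, hIm⟩ : ∃ I, I = ∫ t in (0 : ℝ)..D, Real.cos (κ * t) * Real.sin (κ * t) *
    mdl D m k t := ⟨_, rfl⟩
  have hmd := vol_continuous_mdl D m k
  have h1 : ∀ v : sphere (0 : T x) 1, ∫ t in (0 : ℝ)..D,
      Fn κ P (lg e x (e x (t • (v : T x)))) b * mdl D m k t =
      Ic * Real.cos (κ * ‖b‖) ^ 2 + Im * (2 * Real.cos (κ * ‖b‖)) * inner ℝ (v : T x) (Sv κ b) +
        Is * inner ℝ (P (Sv κ b) (Sv κ b) v) (v : T x) := fun v => by
    rw [mul_assoc Im, hIc, hIs, hIm, ← intervalIntegral.integral_mul_const,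
      ← intervalIntegral.integral_mul_const, ← intervalIntegral.integral_mul_const,
      ← intervalIntegral.integral_add (Continuous.intervalIntegrable (by fun_prop) _ _)
        (Continuous.intervalIntegrable (by fun_prop) _ _),
      ← intervalIntegral.integral_add (Continuous.intervalIntegrable (by fun_prop) _ _)
        (Continuous.intervalIntegrable (by fun_prop) _ _)]
    refine intervalIntegral.integral_congr fun t ht => ?_
    rw [uIcc_of_le h.dpos.le] at ht
    rw [AvgB_Fn_lg h hP hR ((AvgB_norm v ht.1).trans_le ht.2), AvgB_Fn_smul hP _ v ht.1]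
    ring
  have h2 : ∀ v : sphere (0 : T x) 1, 0 ≤ ∫ t in (0 : ℝ)..D,
      Fn κ P (lg e x (e x (t • (v : T x)))) b * mdl D m k t := fun v =>
    AvgB_I_nonneg h.dpos fun t => h0 _
  simp only [h1] at h2 ⊢
  have i1 : Integrable (fun _ : sphere (0 : T x) 1 => Ic * Real.cos (κ * ‖b‖) ^ 2)
      (volume : Measure (T x)).toSphere := integrable_const _
  have i2 : Integrable (fun v : sphere (0 : T x) 1 =>
      Im * (2 * Real.cos (κ * ‖b‖)) * inner ℝ (v : T x) (Sv κ b))
      (volume : Measure (T x)).toSphere :=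
    Continuous.integrable_of_hasCompactSupport (by fun_prop) (HasCompactSupport.of_compactSpace _)
  have i3 : Integrable (fun v : sphere (0 : T x) 1 =>
      Is * inner ℝ (P (Sv κ b) (Sv κ b) v) (v : T x)) (volume : Measure (T x)).toSphere :=
    Continuous.integrable_of_hasCompactSupport (by fun_prop) (HasCompactSupport.of_compactSpace _)
  rw [← ofReal_integral_eq_lintegral_ofReal ((i1.fun_add i2).fun_add i3) (Eventually.of_forall h2),
    integral_add (i1.fun_add i2) i3, integral_add i1 i2, integral_const, integral_const_mul,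
    integral_const_mul, integral_sphere_inner, integral_sphere_quad (hm x), AvgB_trace ht,
    Measure.real, toSphere_univ (hm x), ENNReal.toReal_ofReal (sphA_pos m).le, ← hIc]
  congr 1
  have h3 := mdl_moment h.dpos m k
  rw [← hκ, ← hIc, ← hIs] at h3
  have h4 := cos_sq_add_Sv κ b
  have h5 : (m : ℝ) + 1 ≠ 0 := by positivity
  rw [smul_eq_mul]
  field_simp
  linear_combination sphA (m + 1) * ‖Sv κ b‖ ^ 2 * h3 + sphA (m + 1) * ((m : ℝ) + 1) * Ic * h4

theorem AvgB_cont {V : Type*} [NormedAddCommGroup V] [InnerProductSpace ℝ V] (κ : ℝ)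
    (P : V →L[ℝ] V →L[ℝ] V →L[ℝ] V) {f g : V → V} (hf : Continuous f) (hg : Continuous g) :
    Continuous fun a => Fn κ P (f a) (g a) := by
  have h1 := (continuous_Fn κ P).comp (hf.prodMk hg)
  simpa only [Function.comp_def] using h1

theorem AvgB_ext {V : Type*} [NormedAddCommGroup V] [InnerProductSpace ℝ V] (hD : 0 < D)
    {S : Set V} (hS : IsClosed S) (h1 : ∀ a, ‖a‖ < D → a ∈ S) {a : V} (ha : ‖a‖ ≤ D) : a ∈ S := by
  have h2 : ball (0 : V) D ⊆ S := fun a ha => h1 a (mem_ball_zero_iff.1 ha)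
  have h3 := hS.closure_subset_iff.2 h2
  rw [closure_ball 0 hD.ne'] at h3
  exact h3 (mem_closedBall_zero_iff.2 ha)

/-- For `‖b‖ < D` the two continuous functions of `y` are comparable (`cos_le`, and density of
the open ball), with the same finite integral for a measure positive on open sets
(`isOpenPosMeasure`), so they agree. Pass to `‖b‖ ≤ D` by continuity (`continuous_Fn`). -/
theorem Bl.cos_eq (h : Bl e r D) (hm : ∀ x, Module.finrank ℝ (T x) = m + 1)
    (he : ∀ x y, 0 < dist x y → dist x y < D → dens e m D x y = mdl D m k (dist x y))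
    (hP : Spr P) (hR : RigP e D x P)
    (ht : ∀ v : T x, ‖v‖ = 1 → LinearMap.trace ℝ (T x) (P v v).toLinearMap = k + 1) {a b : T x}
    (ha : ‖a‖ ≤ D) (hb : ‖b‖ ≤ D) : Real.cos (Real.pi / (2 * D) * dist (e x a) (e x b)) ^ 2 =
      Fn (Real.pi / (2 * D)) P a b := by
  have hx := h.toGeo.continuous_exp x
  have key : ∀ b : T x, ‖b‖ < D → Real.cos (Real.pi / (2 * D) * dist (e x a) (e x b)) ^ 2 =
      Fn (Real.pi / (2 * D)) P a b := fun b hb => by
    haveI : Nonempty M := ⟨x⟩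
    haveI := h.isOpenPosMeasure hm
    have hf : Continuous fun y : M => Real.cos (Real.pi / (2 * D) * dist y (e x b)) ^ 2 := by
      fun_prop
    have hg := h.continuous_Fn_lg hP hR b
    have hle : ∀ y, Real.cos (Real.pi / (2 * D) * dist y (e x b)) ^ 2 ≤
        Fn (Real.pi / (2 * D)) P (lg e x y) b := fun y => by
      have h1 : IsClosed {a : T x | Real.cos (Real.pi / (2 * D) * dist (e x a) (e x b)) ^ 2 ≤
          Fn (Real.pi / (2 * D)) P a b} :=
        isClosed_le (by fun_prop) (AvgB_cont _ P continuous_id continuous_const)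
      have h2 := AvgB_ext h.dpos h1 (fun a ha => h.cos_le hP hR ha hb) (a := lg e x y)
        (by rw [h.toGeo.norm_lg]; exact h.le _ _)
      rwa [mem_setOf_eq, h.toGeo.exp_lg] at h2
    have h3 := ae_eq_of_ae_le_of_lintegral_le (μ := (μHE[m + 1] : Measure M))
      (f := fun y => ENNReal.ofReal (Real.cos (Real.pi / (2 * D) * dist y (e x b)) ^ 2))
      (g := fun y => ENNReal.ofReal (Fn (Real.pi / (2 * D)) P (lg e x y) b))
      (Eventually.of_forall fun y => ENNReal.ofReal_le_ofReal (hle y))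
      (by rw [h.avg_cos hm he]; exact ENNReal.ofReal_ne_top)
      hg.measurable.ennreal_ofReal.aemeasurable
      (by rw [h.avg_cos hm he, h.avg_Fn hm he hP hR ht])
    have h4 := (Continuous.ae_eq_iff_eq _ (ENNReal.continuous_ofReal.comp hf)
      (ENNReal.continuous_ofReal.comp hg)).1 h3
    have h5 := congrFun h4 (e x a)
    simp only [Function.comp_apply] at h5
    rw [ENNReal.ofReal_eq_ofReal_iff (sq_nonneg _) ((sq_nonneg _).trans (hle _)),
      AvgB_Fn_lg h hP hR ha] at h5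
    exact h5
  have h1 : IsClosed {b : T x | Real.cos (Real.pi / (2 * D) * dist (e x a) (e x b)) ^ 2 =
      Fn (Real.pi / (2 * D)) P a b} :=
    isClosed_eq (by fun_prop) (AvgB_cont _ P continuous_const continuous_id)
  exact AvgB_ext h.dpos h1 key hb

end Vale.Agent.P231
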