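import Vale.Agent.P231.Line

/-! Normal coordinates are infinitesimally isometric. -/

open scoped ContDiff Topology Matrix
open Filter Set

noncomputable section

namespace Vale.Agent.P231

open Vale.Agent.P234

variable {M : Type*} [MetricSpace M] [CompactSpace M] {T : M → Type*}
  [∀ x, NormedAddCommGroup (T x)] [∀ x, InnerProductSpace ℝ (T x)]
  [∀ x, FiniteDimensional ℝ (T x)] {e : ∀ x, T x → M} {r D : ℝ}

theorem bi_mixed {A B : Type*} [NormedAddCommGroup A] [NormedSpace ℝ A] [NormedAddCommGroup B]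
    [NormedSpace ℝ B] {F : A × B → ℝ} {a : A} {b : B} (hF : ContDiffAt ℝ ∞ F (a, b)) (ξ : A)
    {φ : B → ℝ} {φ' : B →L[ℝ] ℝ} (hφ : HasFDerivAt φ φ' b)
    (he : ∀ᶠ b' in 𝓝 b, fderiv ℝ (fun a' => F (a', b')) a ξ = φ b') (η : B) :
    D2 F (a, b) (ξ, 0) (0, η) = φ' η := by
  have h2 : ContDiffAt ℝ 2 F (a, b) := hF.of_le hess_two
  have h3 : HasFDerivAt (fun b' : B => fderiv ℝ F (a, b'))
      ((D2 F (a, b)).comp (ContinuousLinearMap.inr ℝ A B)) b :=
    (Calc_has h2).comp b (hasFDerivAt_prodMk_right a b)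
  have h4 := h3.clm_apply (hasFDerivAt_const ((ξ, 0) : A × B) b)
  have h5 : ∀ᶠ b' in 𝓝 b, DifferentiableAt ℝ F (a, b') :=
    (Continuous.prodMk_right a).continuousAt.eventually (Calc_ev h2)
  have h6 : φ =ᶠ[𝓝 b] fun b' => fderiv ℝ F (a, b') (ξ, 0) := by
    filter_upwards [he, h5] with b' h7 h8
    have h9 : HasFDerivAt (fun a' => F (a', b')) _ a :=
      h8.hasFDerivAt.comp a (hasFDerivAt_prodMk_left a b')
    rw [← h7, h9.fderiv]
    rfl
  rw [hφ.unique (h4.congr_of_eventuallyEq h6), D2_symm h2]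
  simp

theorem bi_comp (h : Geo e r) {A B : Type*} [NormedAddCommGroup A] [NormedSpace ℝ A]
    [NormedAddCommGroup B] [NormedSpace ℝ B] {p q : M} {u : A → T p} {v : B → T q} {a : A} {b : B}
    (hu : ContDiffAt ℝ ∞ u a) (hv : ContDiffAt ℝ ∞ v b) (ha : u a = 0) (hb : v b = 0)
    (hs : SP e p q) (ξ : A) (η : B) :
    D2 (fun z : A × B => cost (e p (u z.1)) (e q (v z.2))) (a, b) (ξ, 0) (0, η) =
      -inner ℝ (fderiv ℝ u a ξ) (Lmap e q 0 p (fderiv ℝ v b η)) := by
  have hud := hu.differentiableAt (by simp)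
  have hvd := hv.differentiableAt (by simp)
  have hF : ContDiffAt ℝ ∞ (fun z : A × B => cost (e p (u z.1)) (e q (v z.2))) (a, b) :=
    smooth_comp hs (fun z : A × B => (u z.1, v z.2)) (a, b)
      ((smooth_comp hu _ _ contDiffAt_fst rfl).prodMk (smooth_comp hv _ _ contDiffAt_snd rfl))
      (by rw [ha, hb])
  have h1 : HasFDerivAt (fun c => lg e p (e q c)) (Lmap e q 0 p) (v b) := by
    rw [hb]
    exact ((h.contDiffAt_lg hs (h.zero q)).differentiableAt (by simp)).hasFDerivAt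
  have h2 := ((innerSL ℝ (fderiv ℝ u a ξ)).hasFDerivAt.comp b (h1.comp b hvd.hasFDerivAt)).neg
  refine bi_mixed hF ξ h2 ?_ η
  have h3 : Tendsto (fun b' => ((0 : T p), v b')) (𝓝 b) (𝓝 (0, 0)) :=
    tendsto_const_nhds.prodMk_nhds (hb ▸ hv.continuousAt)
  filter_upwards [h3.eventually (smooth_ev_diff hs)] with b' h4
  have h5 : DifferentiableAt ℝ (fun c : T p => cost (e p c) (e q (v b'))) 0 :=
    smooth_dcomp h4 (fun c : T p => (c, v b')) 0 (by fun_prop) rfl
  have h6 : HasFDerivAt (fun c : T p => cost (e p c) (e q (v b'))) _ (u a) :=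
    ha ▸ h.smooth_fderiv_eq h5 ▸ h5.hasFDerivAt
  have h7 : HasFDerivAt (fun a' => cost (e p (u a')) (e q (v b'))) _ a :=
    h6.comp a hud.hasFDerivAt
  rw [h7.fderiv]
  simp [real_inner_comm]

/-- The mixed second derivative of the cost: `smooth_fderiv_eq` gives the derivative in the first
variable as `-⟪lg x (e y b), ·⟫` for `b` near `0`; differentiate in `b`. -/
theorem D2_mixed (h : Geo e r) {x y : M} (hs : SP e x y) (ξ : T x) (η : T y) :
    D2 (fun z : T x × T y => cost (e x z.1) (e y z.2)) (0, 0) (ξ, 0) (0, η) =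
      -inner ℝ ξ (Lmap e y 0 x η) := by
  simpa using bi_comp h (u := fun z : T x => z) (v := fun z : T y => z) (a := 0) (b := 0)
    contDiffAt_id contDiffAt_id rfl rfl hs ξ η

theorem bi_sp (h : Geo e r) (y : M) : SP e y y := h.sp_short (by simpa using h.pos)

theorem bi_cost (h : Geo e r) (y : M) : (fun c : T y => cost y (e y c)) =ᶠ[𝓝 0]
    fun c => ‖c‖ ^ 2 / 2 := by
  filter_upwards [Metric.ball_mem_nhds (0 : T y) h.pos] with c hc
  rw [cost, h.toLoc.dist_exp (mem_ball_zero_iff.1 hc)]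

/-- `cost y (e y b) = ‖b‖ ^ 2 / 2` near `0`, `D2_mixed`, `Lmap_zero`. -/
theorem D2_cost_zero (h : Geo e r) (y : M) (a b a' b' : T y) :
    D2 (fun z : T y × T y => cost (e y z.1) (e y z.2)) (0, 0) (a, b) (a', b') =
      inner ℝ (a - b) (a' - b') := by
  have hs : ContDiffAt ℝ 2 (fun z : T y × T y => cost (e y z.1) (e y z.2)) (0, 0) :=
    ContDiffAt.of_le (bi_sp h y) hess_two
  have h1 : D2 (fun z : T y × T y => cost (e y z.1) (e y z.2)) (0, 0) (a, 0) (a', 0) =
      inner ℝ a a' := by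
    have := D2_comp_clm (f := fun z : T y × T y => cost (e y z.1) (e y z.2))
      (ContinuousLinearMap.inl ℝ (T y) (T y)) (0, 0) (b := 0) (by simpa using hs) a a'
    simp only [ContinuousLinearMap.inl_apply, Prod.mk_add_mk, add_zero, h.zero] at this
    rw [← this, ← D2_normsq 0 a a', ← D2_congr (bi_cost h y)]
    simp only [cost_comm y]
  have h2 : D2 (fun z : T y × T y => cost (e y z.1) (e y z.2)) (0, 0) (0, b) (0, b') =
      inner ℝ b b' := by
    have := D2_comp_clm (f := fun z : T y × T y => cost (e y z.1) (e y z.2))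
      (ContinuousLinearMap.inr ℝ (T y) (T y)) (0, 0) (b := 0) (by simpa using hs) b b'
    simp only [ContinuousLinearMap.inr_apply, Prod.mk_add_mk, add_zero, h.zero] at this
    rw [← this, ← D2_normsq 0 b b', ← D2_congr (bi_cost h y)]
  have h3 := D2_mixed h (bi_sp h y) a b'
  have h4 := (D2_symm hs _ _).trans (D2_mixed h (bi_sp h y) a' b)
  rw [h.Lmap_zero, ContinuousLinearMap.id_apply] at h3 h4
  have e1 : (a, b) = (a, 0) + (0, b) := by simp
  have e2 : (a', b') = (a', 0) + (0, b') := by simp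
  rw [e1, e2, map_add, map_add, add_apply, add_apply, h1,
    h2, h3, h4, inner_sub_left, inner_sub_right, inner_sub_right, real_inner_comm b a']
  ring

/-- Change of coordinates in a mixed second derivative: if `f`, `g` are smooth maps into `M`, write
`f z = e p (lg p (f z))`; the variables are separated, so only first derivatives appear. -/
theorem D2_mixed_comp (h : Geo e r) {A B : Type*} [NormedAddCommGroup A] [NormedSpace ℝ A]
    [NormedAddCommGroup B] [NormedSpace ℝ B] {f : A → M} {g : B → M} {a : A} {b : B}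
    (hf : Sm e f a) (hg : Sm e g b) (hs : SP e (f a) (g b)) (ξ : A) (η : B) :
    D2 (fun z : A × B => cost (f z.1) (g z.2)) (a, b) (ξ, 0) (0, η) =
      -inner ℝ (fderiv ℝ (fun z => lg e (f a) (f z)) a ξ)
        (Lmap e (g b) 0 (f a) (fderiv ℝ (fun z => lg e (g b) (g z)) b η)) := by
  simpa only [h.exp_lg] using bi_comp h hf hg (h.lg_self _) (h.lg_self _) hs ξ η

/-- `F (a, b) = cost (e y a) (e y b)` vanishes with its derivative on the diagonal; apply
`taylor2_uniform` at `(0, 0)` to the points `(a, a)` and `(a, b)`. -/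
theorem bi_zero (h : Geo e r) (y : M) {η : ℝ} (hη : 0 < η) :
    ∀ᶠ z : T y × T y in 𝓝 (0, 0),
      |dist (e y z.1) (e y z.2) - ‖z.1 - z.2‖| ≤ η * ‖z.1 - z.2‖ := by
  have hs : ContDiffAt ℝ 2 (fun z : T y × T y => cost (e y z.1) (e y z.2)) (0, 0) :=
    ContDiffAt.of_le (bi_sp h y) hess_two
  have h1 : Tendsto (fun z : T y × T y => ((z.2, z.2), z)) (𝓝 (0, 0)) (𝓝 ((0, 0), (0, 0))) :=
    (by fun_prop : Continuous fun z : T y × T y => ((z.2, z.2), z)).tendsto (0, 0)
  filter_upwards [h1.eventually (taylor2_uniform hs (half_pos hη))] with z hz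
  have h2 : IsLocalMin (fun z : T y × T y => cost (e y z.1) (e y z.2)) (z.2, z.2) :=
    Eventually.of_forall fun w => (cost_self _).le.trans (cost_nonneg _ _)
  have h3 : z - (z.2, z.2) = (z.1 - z.2, 0) := by ext <;> simp
  simp only [h2.fderiv_eq_zero, h3, D2_cost_zero h, cost_self, sub_zero,
    zero_apply, real_inner_self_eq_norm_sq, Prod.norm_mk, norm_zero,
    max_eq_left (norm_nonneg (z.1 - z.2))] at hz
  rw [cost] at hz
  have h4 := dist_nonneg (x := e y z.1) (y := e y z.2)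
  generalize dist (e y z.1) (e y z.2) = d at hz h4
  rcases (norm_nonneg (z.1 - z.2)).eq_or_lt with h5 | h5
  · rw [← h5] at hz ⊢
    have : d ^ 2 ≤ 0 := by linarith [(abs_le.1 hz).2]
    rw [pow_eq_zero_iff two_ne_zero |>.1 (le_antisymm this (sq_nonneg d))]
    simp
  · generalize ‖z.1 - z.2‖ = n at hz h5
    obtain ⟨h6, h7⟩ := abs_le.1 hz
    refine abs_le.2 ⟨?_, ?_⟩
    · by_contra hc
      push Not at hc
      nlinarith [mul_pos hη h5]
    · by_contra hc
      push Not at hc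
      nlinarith [mul_pos hη h5]

/-- `bi_zero` at `y = e x a` and strict differentiability of `lg y ∘ e x` at `a`. -/
theorem bi (h : Geo e r) (x : M) (a : T x) {η : ℝ} (hη : 0 < η) :
    ∀ᶠ z : T x × T x in 𝓝 (a, a),
      |dist (e x z.1) (e x z.2) - ‖Lmap e x a (e x a) (z.1 - z.2)‖| ≤ η * ‖z.1 - z.2‖ := by
  have hu := h.contDiffAt_lg_self x a
  have h1 : HasStrictFDerivAt (fun a' => lg e (e x a) (e x a')) (Lmap e x a (e x a)) a :=
    hu.hasStrictFDerivAt (by simp)
  generalize Lmap e x a (e x a) = L at h1 ⊢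
  have hL := norm_nonneg L
  obtain ⟨ε, hε, hε1, hε2⟩ : ∃ ε : ℝ, 0 < ε ∧ ε ≤ 1 ∧ ε * (‖L‖ + 2) ≤ η :=
    ⟨min 1 (η / (‖L‖ + 2)), by positivity, min_le_left _ _,
      (le_div_iff₀ (by positivity)).1 (min_le_right _ _)⟩
  have h0 : Tendsto (fun a' => lg e (e x a) (e x a')) (𝓝 a) (𝓝 0) :=
    h.lg_self (e x a) ▸ hu.continuousAt
  have h2 : Tendsto (fun z : T x × T x => (lg e (e x a) (e x z.1), lg e (e x a) (e x z.2)))
      (𝓝 (a, a)) (𝓝 (0, 0)) :=
    (h0.comp (continuous_fst.tendsto (a, a))).prodMk_nhds (h0.comp (continuous_snd.tendsto (a, a)))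
  filter_upwards [h2.eventually (bi_zero h (e x a) hε), h1.isLittleO.bound hε] with z h3 h4
  simp only [h.exp_lg] at h3
  have h5 := L.le_opNorm (z.1 - z.2)
  have h6 := abs_le.1 ((abs_norm_sub_norm_le _ _).trans h4)
  have h7 := abs_le.1 h3
  have h8 := norm_nonneg (z.1 - z.2)
  have h9 : ε * ‖lg e (e x a) (e x z.1) - lg e (e x a) (e x z.2)‖ ≤
      ε * ((‖L‖ + 1) * ‖z.1 - z.2‖) :=
    mul_le_mul_of_nonneg_left (by nlinarith [h6.2]) hε.le
  have h10 := mul_le_mul_of_nonneg_right hε2 h8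
  exact abs_le.2 ⟨by nlinarith [h6.1, h7.1], by nlinarith [h6.2, h7.2]⟩

/-- The metric in normal coordinates is minus the mixed second derivative of the cost on the
diagonal (`D2_mixed_comp`), which is smooth. -/
theorem exists_metric (h : Geo e r) (x : M) : ∃ G : T x → T x →L[ℝ] T x →L[ℝ] ℝ,
    ContDiff ℝ ∞ G ∧
      ∀ a ξ η, G a ξ η = inner ℝ (Lmap e x a (e x a) ξ) (Lmap e x a (e x a) η) := by
  refine ⟨fun a => -((D2 (fun z : T x × T x => cost (e x z.1) (e x z.2)) (a, a)).bilinearComp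
    (ContinuousLinearMap.inl ℝ (T x) (T x)) (ContinuousLinearMap.inr ℝ (T x) (T x))), ?_,
    fun a ξ η => ?_⟩
  · refine contDiff_clm_apply_iff.2 fun ξ => contDiff_clm_apply_iff.2 fun η =>
      contDiff_iff_contDiffAt.2 fun a => ?_
    have h1 := h.contDiffAt_cost (bi_sp h (e x a)) rfl rfl
    have h2 : ContDiffAt ℝ ∞ (D2 fun z : T x × T x => cost (e x z.1) (e x z.2)) (a, a) :=
      (h1.fderiv_right (m := ∞) (by simp)).fderiv_right (by simp)
    have h3 := smooth_comp h2 (fun a : T x => (a, a)) a (by fun_prop) rfl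
    exact ((h3.clm_apply contDiffAt_const).clm_apply contDiffAt_const).neg
  · have := D2_mixed_comp h (h.contDiffAt_lg_self x a) (h.contDiffAt_lg_self x a)
      (bi_sp h (e x a)) ξ η
    rw [h.Lmap_zero] at this
    exact neg_eq_iff_eq_neg.2 this

/-- `lg x (e y (lg y (e x a'))) = a'` near `a` (`isOpen_inj`, `lg_exp`). -/
theorem Lmap_inv (h : Geo e r) {x : M} {a : T x} (ha : a ∈ Inj e x) (ξ : T x) :
    Lmap e (e x a) 0 x (Lmap e x a (e x a) ξ) = ξ := by
  have h1 : HasFDerivAt (fun a' => lg e (e x a) (e x a')) (Lmap e x a (e x a)) a :=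
    ((h.contDiffAt_lg_self x a).differentiableAt (by simp)).hasFDerivAt
  have h2 : HasFDerivAt (fun c => lg e x (e (e x a) c)) (Lmap e (e x a) 0 x)
      (lg e (e x a) (e x a)) := by
    rw [h.lg_self]
    exact ((h.contDiffAt_lg (h.sp_of_inj ha) (h.zero _)).differentiableAt (by simp)).hasFDerivAt
  have h3 : (fun a' : T x => a') =ᶠ[𝓝 a]
      (fun c => lg e x (e (e x a) c)) ∘ fun a' => lg e (e x a) (e x a') := by
    filter_upwards [(h.isOpen_inj x).mem_nhds ha] with a' h4
    rw [Function.comp_apply, h.exp_lg, h.lg_exp h4]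
  exact congrArg (fun L : T x →L[ℝ] T x => L ξ)
    (((h2.comp a h1).congr_of_eventuallyEq h3).unique (hasFDerivAt_id a))

theorem Lmap_bij (h : Geo e r) {x : M} {a : T x} (ha : a ∈ Inj e x) :
    Function.Bijective (Lmap e x a (e x a)) := by
  have h1 : Function.Injective (Lmap e x a (e x a)) :=
    Function.LeftInverse.injective (Lmap_inv h ha)
  exact ⟨h1, (LinearMap.injective_iff_surjective_of_finrank_eq_finrank
    (f := (Lmap e x a (e x a)).toLinearMap) (h.rank _ _)).1 h1⟩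

end Vale.Agent.P231
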