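import Vale.Agent.P231.Bi

/-! The link of a pair of points at maximal distance. -/

open scoped ContDiff Topology Matrix
open Filter Set

noncomputable section

namespace Vale.Agent.P231

open Vale.Agent.P234

variable {M : Type*} [MetricSpace M] [CompactSpace M] {T : M → Type*}
  [∀ x, NormedAddCommGroup (T x)] [∀ x, InnerProductSpace ℝ (T x)]
  [∀ x, FiniteDimensional ℝ (T x)] {e : ∀ x, T x → M} {r D : ℝ}

/-- The vectors at `q` of length `D` that are sent to `p`. -/
def Lk (e : ∀ x, T x → M) (D : ℝ) (p q : M) : Set (T q) := {w | ‖w‖ = D ∧ e q w = p}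

/-- Tangent directions at `q` of the set of points at distance `D` from `p`. -/
def Tan (e : ∀ x, T x → M) (D : ℝ) (p q : M) : Set (T q) :=
  {c | ∃ (a : ℕ → T q) (t : ℕ → ℝ), (∀ i, 0 < t i) ∧ Tendsto t atTop (𝓝 0) ∧
    (∀ i, dist p (e q (a i)) = D) ∧ Tendsto (fun i => (t i)⁻¹ • a i) atTop (𝓝 c)}

variable {p q : M}

theorem Bl.isCompact_Lk (h : Bl e r D) (p q : M) : IsCompact (Lk e D p q) := by
  have h1 : IsClosed (e q ⁻¹' {p}) := isClosed_singleton.preimage (h.toGeo.continuous_exp q)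
  have h2 : Lk e D p q = Metric.sphere (0 : T q) D ∩ e q ⁻¹' {p} := by
    ext w
    simp [Lk]
  rw [h2]
  exact (isCompact_sphere 0 D).inter_right h1

omit [CompactSpace M] [∀ x, FiniteDimensional ℝ (T x)] in
theorem cla_min (h : Bl e r D) {x : M} {w : T x} (hw : ‖w‖ = D) : w ∈ MinSet e x :=
  h.min x w hw.le

/-- Difference quotients of a strictly differentiable function along moving base points. -/
theorem cla_slope {A B κ : Type*} [NormedAddCommGroup A] [NormedSpace ℝ A] [NormedAddCommGroup B]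
    [NormedSpace ℝ B] {G : A × B → ℝ} {G' : A × B →L[ℝ] ℝ} (hG : HasStrictFDerivAt G G' (0, 0))
    {l : Filter κ} {t : κ → ℝ} {b : κ → B} (ξ : A) (h0 : ∀ k, t k ≠ 0) (ht : Tendsto t l (𝓝 0))
    (hb : Tendsto b l (𝓝 0)) :
    Tendsto (fun k => (G (t k • ξ, b k) - G (0, b k)) / t k) l (𝓝 (G' (ξ, 0))) := by
  have h1 : Tendsto (fun k => t k • ξ) l (𝓝 0) := by simpa using ht.smul_const ξ
  have h2 : Tendsto (fun k => (((t k • ξ, b k), (0, b k)) : (A × B) × (A × B))) l
      (𝓝 ((0, 0), (0, 0))) :=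
    (h1.prodMk_nhds hb).prodMk_nhds (tendsto_const_nhds.prodMk_nhds hb)
  have h3 := hG.isLittleO.comp_tendsto h2
  have h4 : ∀ k, ((t k • ξ, b k) : A × B) - (0, b k) = t k • ((ξ, 0) : A × B) := fun k => by
    simp
  have h5 : (fun k => t k • ((ξ, 0) : A × B)) =O[l] t :=
    Asymptotics.IsBigO.of_bound ‖((ξ, 0) : A × B)‖ (Eventually.of_forall fun k => by
      rw [norm_smul, mul_comm])
  have h6 : (fun k => G (t k • ξ, b k) - G (0, b k) - t k * G' (ξ, 0)) =o[l] t := by
    refine Asymptotics.IsLittleO.trans_isBigO (h3.congr (fun k => ?_) fun k => ?_) h5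
    · simp only [Function.comp, h4, map_smul, smul_eq_mul]
    · simp only [Function.comp, h4]
  have h7 := h6.tendsto_div_nhds_zero.add_const (G' (ξ, 0))
  rw [zero_add] at h7
  refine h7.congr fun k => ?_
  have h8 := h0 k
  field_simp
  ring

/-- Every point `y ≠ p` has a nearest point at distance `D` from `p`. -/
theorem Bl.exists_near (h : Bl e r D) {y : M} (hy : y ≠ p) :
    ∃ z : M, dist p z = D ∧ dist y z = D - dist p y := by
  have hd : 0 < dist p y := dist_pos.mpr hy.symm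
  have hD := h.dpos
  have h1 : ‖(D / dist p y) • lg e p y‖ = D := by
    rw [norm_smul, h.toGeo.norm_lg, Real.norm_of_nonneg (by positivity)]
    field_simp
  refine ⟨e p ((D / dist p y) • lg e p y), by rw [h.min p _ h1.le, h1], ?_⟩
  have h2 := h.toGeo.dist_of_min (cla_min h h1) (s := dist p y / D) (t := 1) (by positivity)
    ((div_le_one hD).mpr (h.le p y)) le_rfl
  have h3 : dist p y / D * (D / dist p y) = 1 := by field_simp
  rw [one_smul, smul_smul, h3, one_smul, h.toGeo.exp_lg, h1] at h2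
  rw [h2]
  field_simp

/-- Fix a small `ε`, `x = e q (ε • w)`, `dist p x = (1 - ε) D`. Then
`dist p (e q a) ≤ (1 - ε) D + dist x (e q a)` and `a ↦ cost (e q a) x` is smooth at `0` with
derivative `-⟪ε • w, ·⟫`; `taylor2_uniform` or a second order bound. -/
theorem Bl.reach (h : Bl e r D) {w : T q} (hw : w ∈ Lk e D p q) : ∃ K : ℝ, 0 < K ∧
    ∀ᶠ a : T q in 𝓝 0, inner ℝ w a / D - K * ‖a‖ ^ 2 ≤ D - dist p (e q a) := by
  have hD := h.dpos
  obtain ⟨x, hx⟩ : ∃ x, x = e q ((1 / 2 : ℝ) • w) := ⟨_, rfl⟩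
  have h1 : ‖(1 / 2 : ℝ) • w‖ = D / 2 := by
    rw [norm_smul, hw.1, Real.norm_of_nonneg (by norm_num)]
    ring
  have h2 : dist q x = D / 2 := by rw [hx, h.min q _ (by linarith), h1]
  have h3 : dist x p = D / 2 := by
    have h4 := h.toGeo.dist_of_min (cla_min h hw.1) (s := 1 / 2) (t := 1) (by norm_num)
      (by norm_num) le_rfl
    rw [one_smul, hw.2, hw.1, ← hx] at h4
    linarith
  have h4 : ContDiffAt ℝ ∞ (fun a : T q => cost (e q a) x) 0 :=
    h.toGeo.contDiffAt_cost_left (h.sp (by linarith)) (h.zero q)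
  have h5 := h.toGeo.smooth_fderiv_eq (h4.differentiableAt (by simp))
  have h6 : lg e q x = (1 / 2 : ℝ) • w := by rw [hx, h.lg_exp' (by linarith)]
  obtain ⟨Q, hQ⟩ : ∃ Q, Q = D2 (fun a : T q => cost (e q a) x) 0 := ⟨_, rfl⟩
  have h7 := taylor2_uniform (h4.of_le (m := 2) (by norm_cast)) one_pos
  have h8 : Tendsto (fun a : T q => ((0, a) : T q × T q)) (𝓝 0) (𝓝 (0, 0)) :=
    tendsto_const_nhds.prodMk_nhds tendsto_id
  refine ⟨(‖Q‖ + 2) / D, by positivity, ?_⟩
  filter_upwards [h8.eventually h7] with a ha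
  simp only [sub_zero, h5, h6, ← hQ, neg_apply, innerSL_apply_apply, real_inner_smul_left,
    h.zero, one_mul] at ha
  have h9 : Q a a ≤ ‖Q‖ * ‖a‖ ^ 2 := by
    have h10 := Q.le_opNorm₂ a a
    rw [Real.norm_eq_abs] at h10
    have h11 := le_abs_self (Q a a)
    nlinarith
  have h10 := (abs_le.mp ha).2
  have h11 := dist_triangle p x (e q a)
  rw [dist_comm p x, h3, dist_comm x] at h11
  unfold cost at h10
  rw [h2] at h10
  have h12 := sq_nonneg (dist (e q a) x - D / 2)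
  have h13 : dist (e q a) x * D ≤ D ^ 2 / 2 - inner ℝ w a + (‖Q‖ + 2) * ‖a‖ ^ 2 := by nlinarith
  have h14 : dist (e q a) x ≤ D / 2 - inner ℝ w a / D + (‖Q‖ + 2) / D * ‖a‖ ^ 2 := by
    rw [← le_div_iff₀ hD] at h13
    refine h13.trans (le_of_eq ?_)
    field_simp
  linarith

theorem Bl.inner_Tan (h : Bl e r D) {w c : T q} (hw : w ∈ Lk e D p q) (hc : c ∈ Tan e D p q) :
    inner ℝ w c ≤ 0 := by
  obtain ⟨a, t, h0, ht, ha, hb⟩ := hc
  obtain ⟨K, hK, h1⟩ := h.reach hw
  have hD := h.dpos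
  have h2 : ∀ i, t i • (t i)⁻¹ • a i = a i := fun i => by
    rw [smul_smul, mul_inv_cancel₀ (h0 i).ne', one_smul]
  have h3 : Tendsto a atTop (𝓝 0) := by
    have h4 := ht.smul hb
    rw [zero_smul] at h4
    exact h4.congr h2
  have h4 : Tendsto (fun i => inner ℝ w ((t i)⁻¹ • a i) / D - K * (t i * ‖(t i)⁻¹ • a i‖ ^ 2))
      atTop (𝓝 (inner ℝ w c / D - K * (0 * ‖c‖ ^ 2))) :=
    ((tendsto_const_nhds.inner hb).div_const D).sub ((ht.mul (hb.norm.pow 2)).const_mul K)
  have h5 := le_of_tendsto (b := 0) h4 ((h3.eventually h1).mono fun i hi => by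
    rw [ha i, sub_self, ← h2 i, real_inner_smul_right, norm_smul,
      Real.norm_of_nonneg (h0 i).le] at hi
    refine nonpos_of_mul_nonpos_right ?_ (h0 i)
    refine le_of_eq_of_le ?_ hi
    ring)
  rw [zero_mul, mul_zero, sub_zero] at h5
  exact (div_nonpos_iff.mp h5).elim (fun h6 => absurd h6.2 (not_le.mpr hD)) fun h6 => h6.1

/-- Upper bound for the directional derivative. Let `y i = e q (t i • ξ)`, fix a small `ε`, let
`x i` be the point at distance `ε` from `y i` on a minimal geodesic to `p`. Then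
`D - dist p (y i) ≤ dist (x i) q - dist (x i) (y i)`. Along a subsequence `x i → x` with
`dist q x = ε`, `dist x p = D - ε`, so `x = e q ((ε / D) • w)` with `w ∈ Lk` (extend the ray from
`q` through `x`: `Geo.u2` or `between` and `ray_ext`). Expand `(b, a) ↦ cost (e x b) (e q a)`, which
is of class `C¹` near `(0, 0)`. -/
theorem Bl.upper (h : Bl e r D) (hpq : dist p q = D) (ξ : T q) {t : ℕ → ℝ} (h0 : ∀ i, 0 < t i)
    (ht : Tendsto t atTop (𝓝 0)) : ∃ w ∈ Lk e D p q, ∀ η : ℝ, 0 < η →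
      ∃ᶠ i in atTop, D - dist p (e q (t i • ξ)) ≤ t i * (inner ℝ w ξ / D + η) := by
  have hD := h.dpos
  obtain ⟨s, hs0, hs1, hsr⟩ : ∃ s : ℝ, 0 < s ∧ s < 1 ∧ s * D < r := by
    obtain ⟨s, h1, h2⟩ := h.toGeo.Lim_small D hD.le
    refine ⟨Min.min s (1 / 2), lt_min h1 (by norm_num), (min_le_right _ _).trans_lt (by norm_num), ?_⟩
    exact (mul_le_mul_of_nonneg_right (min_le_left _ _) hD.le).trans_lt h2
  have hτ : 0 < 1 - s := sub_pos.mpr hs1
  choose x hx1 hx2 using fun i => h.mid (e q (t i • ξ)) p (1 - s) hτ.le (by linarith)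
  obtain ⟨m, φ, hφ, hm⟩ := CompactSpace.tendsto_subseq x
  have htφ : Tendsto (fun i => t (φ i)) atTop (𝓝 0) := ht.comp hφ.tendsto_atTop
  have hy : Tendsto (fun i => e q (t (φ i) • ξ)) atTop (𝓝 q) := by
    have h1 : Tendsto (fun i => t (φ i) • ξ) atTop (𝓝 0) := by simpa using htφ.smul_const ξ
    have h2 := ((h.toGeo.continuous_exp q).tendsto 0).comp h1
    rwa [h.zero] at h2
  have hd : Tendsto (fun i => dist (e q (t (φ i) • ξ)) p) atTop (𝓝 D) := by
    have h1 := hy.dist (tendsto_const_nhds (x := p))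
    rwa [dist_comm, hpq] at h1
  have hqm : dist q m = (1 - s) * D :=
    tendsto_nhds_unique (hy.dist hm) ((hd.const_mul (1 - s)).congr fun i => (hx1 (φ i)).symm)
  have hmp : dist m p = s * D := by
    have h1 := tendsto_nhds_unique (hm.dist (tendsto_const_nhds (x := p)))
      ((hd.const_mul (1 - (1 - s))).congr fun i => (hx2 (φ i)).symm)
    rwa [sub_sub_cancel] at h1
  have hu : p = e q ((1 + s / (1 - s)) • lg e q m) := by
    refine h.toGeo.u2 (h.toGeo.lg_mem_min q m) hτ hs0 (by rwa [h.toGeo.exp_lg, hmp]) ?_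
    refine Eventually.of_forall fun m' => ?_
    have h1 := cost_le_split q m' p hτ hs0
    have h2 : cost q m / (1 - s) + cost m p / s = cost q p / (1 - s + s) := by
      rw [cost, cost, cost, hqm, hmp, dist_comm q p, hpq]
      field_simp
      ring
    simp only [h.toGeo.exp_lg]
    linarith
  have hc : 1 + s / (1 - s) = (1 - s)⁻¹ := by
    field_simp
    ring
  rw [hc] at hu
  refine ⟨(1 - s)⁻¹ • lg e q m, ⟨?_, hu.symm⟩, fun η hη => ?_⟩
  · rw [norm_smul, h.toGeo.norm_lg, hqm, Real.norm_of_nonneg (by positivity)]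
    field_simp
  have hsp : SP e q m := h.sp (by nlinarith)
  have hG := hsp.hasStrictFDerivAt (by simp)
  have hb : Tendsto (fun i => lg e m (x (φ i))) atTop (𝓝 0) := by
    refine tendsto_zero_iff_norm_tendsto_zero.mpr ?_
    have h1 := (tendsto_const_nhds (x := m)).dist hm
    rw [dist_self] at h1
    exact h1.congr fun i => (h.toGeo.norm_lg _ _).symm
  have h1 := cla_slope hG ξ (fun i => (h0 (φ i)).ne') htφ hb
  have h2 : fderiv ℝ (fun z : T q × T m => cost (e q z.1) (e m z.2)) (0, 0) (ξ, 0) =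
      -inner ℝ (lg e q m) ξ := by
    have h3 : HasFDerivAt (fun a : T q => ((a, 0) : T q × T m))
        (ContinuousLinearMap.inl ℝ (T q) (T m)) 0 := hasFDerivAt_prodMk_left 0 0
    have h4 := HasFDerivAt.comp (f := fun a : T q => ((a, 0) : T q × T m)) 0 hG.hasFDerivAt h3
    have h5 : HasFDerivAt (fun a : T q => cost (e q a) m) _ 0 :=
      h4.congr_of_eventuallyEq (Eventually.of_forall fun a => by simp only [Function.comp, h.zero])
    have h6 := h.toGeo.smooth_fderiv_eq h5.differentiableAt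
    rw [h5.fderiv] at h6
    simpa using congrArg (fun L : T q →L[ℝ] ℝ => L ξ) h6
  rw [h2] at h1
  simp only [h.toGeo.exp_lg, h.zero] at h1
  have h3 : Tendsto (fun i => dist q (x (φ i)) + dist (e q (t (φ i) • ξ)) (x (φ i))) atTop
      (𝓝 ((1 - s) * D + (1 - s) * D)) := by
    rw [← hqm]
    exact (tendsto_const_nhds.dist hm).add (hy.dist hm)
  have h4 : (1 - s) * D + (1 - s) * D ≠ 0 := by positivity
  have h5 := (h1.const_mul (-2)).div h3 h4
  have h6 : -2 * -inner ℝ (lg e q m) ξ / ((1 - s) * D + (1 - s) * D) <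
      inner ℝ ((1 - s)⁻¹ • lg e q m) ξ / D + η := by
    rw [real_inner_smul_left]
    refine lt_of_eq_of_lt ?_ (lt_add_of_pos_right _ hη)
    field_simp
    ring
  refine hφ.tendsto_atTop.frequently (Eventually.frequently ?_)
  filter_upwards [h5.eventually_lt_const h6, h3.eventually_const_lt (u := 0) (by positivity)]
    with i hi hj
  have h7 := dist_triangle q (x (φ i)) p
  rw [dist_comm q p, hpq, hx2] at h7
  have h8 := hx1 (φ i)
  have h9 := h0 (φ i)
  have h10 : -2 * ((cost (e q (t (φ i) • ξ)) (x (φ i)) - cost q (x (φ i))) / t (φ i)) /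
      (dist q (x (φ i)) + dist (e q (t (φ i) • ξ)) (x (φ i))) =
      (dist q (x (φ i)) - dist (e q (t (φ i) • ξ)) (x (φ i))) / t (φ i) := by
    rw [cost, cost]
    field_simp
    ring
  rw [Pi.div_apply, h10, div_lt_iff₀ h9] at hi
  rw [dist_comm p]
  linarith

/-- Let `z i` be the nearest point of `y i = e q (t i • ξ)` (`exists_near`), `a i = lg q (z i)`,
`‖a i‖ ≤ 2 t i ‖ξ‖`; along a subsequence `a i / t i → c ∈ Tan`; by `bi_zero`
`(D - dist p (y i)) / t i → ‖ξ - c‖ ≥ ‖ξ‖`. Apply `upper` to this subsequence and the equality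
case of Cauchy-Schwarz. -/
theorem Bl.mem_Lk (h : Bl e r D) (hpq : dist p q = D) {ξ : T q} (hξ : ‖ξ‖ = D)
    (hc : ∀ c ∈ Tan e D p q, inner ℝ ξ c ≤ 0) : ξ ∈ Lk e D p q := by
  have hD := h.dpos
  obtain ⟨t, h0, h1, ht⟩ : ∃ t : ℕ → ℝ, (∀ i, 0 < t i) ∧ (∀ i, t i < 1) ∧
      Tendsto t atTop (𝓝 0) := by
    obtain ⟨t, -, h1, h2⟩ := exists_seq_strictAnti_tendsto' (zero_lt_one' ℝ)
    exact ⟨t, fun i => (h1 i).1, fun i => (h1 i).2, h2⟩
  have hy : ∀ i, dist q (e q (t i • ξ)) ≤ t i * D := fun i => by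
    have h2 := h.toGeo.dist_exp_le q (t i • ξ)
    rwa [norm_smul, hξ, Real.norm_of_nonneg (h0 i).le] at h2
  have hne : ∀ i, e q (t i • ξ) ≠ p := fun i he => by
    have h2 := hy i
    rw [he, dist_comm, hpq] at h2
    have h3 := h1 i
    nlinarith
  choose z hz1 hz2 using fun i => h.exists_near (hne i)
  have hb : ∀ i, (t i)⁻¹ • lg e q (z i) ∈ Metric.closedBall (0 : T q) (2 * D) := fun i => by
    have h2 := dist_triangle q (e q (t i • ξ)) (z i)
    have h3 := dist_triangle p (e q (t i • ξ)) q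
    rw [hpq, dist_comm _ q] at h3
    have h4 := hy i
    rw [mem_closedBall_zero_iff, norm_smul, h.toGeo.norm_lg,
      Real.norm_of_nonneg (inv_nonneg.mpr (h0 i).le), inv_mul_le_iff₀ (h0 i)]
    linarith [hz2 i]
  obtain ⟨c, -, φ, hφ, hcφ⟩ := (isCompact_closedBall (0 : T q) (2 * D)).tendsto_subseq hb
  have htφ : Tendsto (fun i => t (φ i)) atTop (𝓝 0) := ht.comp hφ.tendsto_atTop
  have h2 := hc c ⟨fun i => lg e q (z (φ i)), fun i => t (φ i), fun i => h0 _, htφ,
    fun i => by rw [h.toGeo.exp_lg, hz1], hcφ⟩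
  obtain ⟨w, hw, h3⟩ := h.upper hpq ξ (fun i => h0 (φ i)) htφ
  have h4 : ∀ i, t i • (t i)⁻¹ • lg e q (z i) = lg e q (z i) := fun i => by
    rw [smul_smul, mul_inv_cancel₀ (h0 i).ne', one_smul]
  have h5 : Tendsto (fun i => ((t (φ i) • ξ, lg e q (z (φ i))) : T q × T q)) atTop (𝓝 (0, 0)) := by
    have h6 := htφ.smul hcφ
    rw [zero_smul] at h6
    exact Tendsto.prodMk_nhds (by simpa using htφ.smul_const ξ) (h6.congr fun i => h4 (φ i))
  have h6 : ∀ η : ℝ, 0 < η → (1 - η) * ‖ξ - c‖ ≤ inner ℝ w ξ / D + η := fun η hη => by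
    refine le_of_tendsto_of_frequently (((tendsto_const_nhds (x := ξ)).sub hcφ).norm.const_mul
      (1 - η)) (((h3 η hη).and_eventually (h5.eventually (bi_zero h.toGeo q hη))).mono ?_)
    rintro i ⟨h7, h8⟩
    have h9 : t (φ i) • ξ - lg e q (z (φ i)) =
        t (φ i) • (ξ - (t (φ i))⁻¹ • lg e q (z (φ i))) := by rw [smul_sub, h4]
    simp only [h.toGeo.exp_lg, hz2, h9, norm_smul, Real.norm_of_nonneg (h0 (φ i)).le] at h8
    have h10 := (abs_le.mp h8).1
    refine le_of_mul_le_mul_left ?_ (h0 (φ i))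
    simp only [Function.comp]
    linarith
  have h7 : ‖ξ - c‖ ≤ inner ℝ w ξ / D := by
    refine le_of_forall_pos_le_add fun ε hε => ?_
    have h8 := norm_nonneg (ξ - c)
    have h9 := h6 (ε / (‖ξ - c‖ + 1)) (by positivity)
    have h10 : ε / (‖ξ - c‖ + 1) * (‖ξ - c‖ + 1) = ε := by field_simp
    linarith
  have h8 : D ≤ ‖ξ - c‖ := by
    refine le_of_sq_le_sq ?_ (norm_nonneg _)
    rw [norm_sub_sq_real, hξ]
    linarith [sq_nonneg ‖c‖]
  have h9 : ‖w - ξ‖ ^ 2 ≤ 0 := by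
    have h10 := (le_div_iff₀ hD).mp (h8.trans h7)
    rw [norm_sub_sq_real, hξ, hw.1]
    linarith
  have h10 : w = ξ := sub_eq_zero.mp (norm_eq_zero.mp
    (pow_eq_zero_iff two_ne_zero |>.mp (le_antisymm h9 (sq_nonneg _))))
  exact h10 ▸ hw

end Vale.Agent.P231
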