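import Vale.Agent.P231.ClA

/-! All geodesics are closed. -/

open scoped ContDiff Topology Matrix
open Filter Set

noncomputable section

namespace Vale.Agent.P231

open Vale.Agent.P234

variable {M : Type*} [MetricSpace M] [CompactSpace M] {T : M → Type*}
  [∀ x, NormedAddCommGroup (T x)] [∀ x, InnerProductSpace ℝ (T x)]
  [∀ x, FiniteDimensional ℝ (T x)] {e : ∀ x, T x → M} {r D : ℝ}

variable {p q : M}

/-- If `0` is not in the convex hull of `Lk` (compact: `isCompact_convexHull_of_isCompact`),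
separate: `⟪w, ξ⟫ < 0` on `Lk`, which contradicts `upper` since `dist ≤ D`. So
`0 = ∑ λ i • w i` with some `λ i₀ > 0`, and `-w i₀` has nonpositive products with `Tan`
(it is a nonnegative combination of the other vectors); `mem_Lk`. -/
theorem Bl.exists_pair (h : Bl e r D) (hpq : dist p q = D) :
    ∃ w ∈ Lk e D p q, -w ∈ Lk e D p q := by
  have hD := h.dpos
  have h0 : (0 : T q) ∈ convexHull ℝ (Lk e D p q) := by
    by_contra hn
    obtain ⟨f, u, hu, hf⟩ := geometric_hahn_banach_point_closed (convex_convexHull ℝ _)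
      (isCompact_convexHull_of_isCompact (h.isCompact_Lk p q)).isClosed hn
    rw [map_zero] at hu
    obtain ⟨sh, hsh, -⟩ := smooth_sharp (T q)
    have hp : ∀ i : ℕ, (0 : ℝ) < 1 / ((i : ℝ) + 1) := fun i => by positivity
    obtain ⟨w, hw, hη⟩ := h.upper hpq (-sh f) hp tendsto_one_div_add_atTop_nhds_zero_nat
    obtain ⟨i, hi⟩ := (hη (u / D) (by positivity)).exists
    have h1 := hf w (subset_convexHull ℝ _ hw)
    have h2 : inner ℝ w (-sh f) / D + u / D < 0 := by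
      rw [inner_neg_right, real_inner_comm, hsh, ← add_div]
      exact div_neg_of_neg_of_pos (by linarith) hD
    have h3 := mul_neg_of_pos_of_neg (hp i) h2
    have h4 := h.le p (e q ((1 / ((i : ℝ) + 1)) • -sh f))
    linarith
  obtain ⟨ι, _, lam, v, h1, h2, h3, h4⟩ := mem_convexHull_iff_exists_fintype.1 h0
  obtain ⟨i, hi⟩ : ∃ i, lam i ≠ 0 := by
    by_contra hn
    push Not at hn
    simp [hn] at h2
  refine ⟨v i, h3 i, h.mem_Lk hpq (by rw [norm_neg]; exact (h3 i).1) fun c hc => ?_⟩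
  have h5 : ∑ j, lam j * inner ℝ (v j) c = 0 := by
    have := congrArg (fun z => inner ℝ z c) h4
    simpa only [sum_inner, real_inner_smul_left, inner_zero_left] using this
  have h6 := (Finset.sum_eq_zero_iff_of_nonpos fun j _ =>
    mul_nonpos_of_nonneg_of_nonpos (h1 j) (h.inner_Tan (h3 j) hc)).1 h5 i (Finset.mem_univ _)
  rw [inner_neg_left, (mul_eq_zero.1 h6).resolve_left hi, neg_zero]

/-- The nearest point map near `b₀ = ε • w₀`: `N b = lg q (e p ((D / ‖u b‖) • u b))` with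
`u b = lg p (e q b)` is smooth at `b₀`, `N b₀ = 0`. -/
theorem Bl.exists_proj (h : Bl e r D) {w₀ : T q} (hw : w₀ ∈ Lk e D p q) {ε : ℝ} (h0 : 0 < ε)
    (h1 : ε < 1) : ∃ N : T q → T q, ContDiffAt ℝ ∞ N (ε • w₀) ∧ N (ε • w₀) = 0 ∧
      ∀ᶠ b in 𝓝 (ε • w₀), dist p (e q (N b)) = D ∧
        dist (e q b) (e q (N b)) = D - dist p (e q b) := by
  have hD := h.dpos
  have g := h.toGeo
  obtain ⟨ρ, hρ, hf⟩ := g.flow (x := q) (v := w₀) (θ := 1) (m := p) (by rw [one_smul]; exact hw.2)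
  rw [hw.1] at hρ
  have e1 : e q (ε • w₀) = e p ((ε - 1) • ρ) := by rw [← hf]; congr 2; ring
  have n1 : ‖(ε - 1) • ρ‖ = (1 - ε) * D := by
    rw [norm_smul, hρ, Real.norm_eq_abs, abs_of_neg (by linarith), neg_sub]
  have p1 : 0 < (1 - ε) * D := mul_pos (by linarith) hD
  have l1 : (1 - ε) * D < D := by nlinarith
  have u0 : lg e p (e q (ε • w₀)) = (ε - 1) • ρ := by rw [e1, h.lg_exp' (n1 ▸ l1)]
  have d0 : dist p (e q (ε • w₀)) < D := by rw [← g.norm_lg, u0, n1]; exact l1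
  have hu : ContDiffAt ℝ ∞ (fun b => lg e p (e q b)) (ε • w₀) := g.contDiffAt_lg (h.sp d0) rfl
  have hne : lg e p (e q (ε • w₀)) ≠ 0 := by
    rw [← norm_pos_iff, u0, n1]; exact p1
  have hv : ContDiffAt ℝ ∞ (fun b => (D / ‖lg e p (e q b)‖) • lg e p (e q b)) (ε • w₀) :=
    (contDiffAt_const.div (hu.norm ℝ hne) (norm_ne_zero_iff.2 hne)).smul hu
  have v0 : e p ((D / ‖lg e p (e q (ε • w₀))‖) • lg e p (e q (ε • w₀))) = q := by
    rw [u0, n1, smul_smul, ← hf]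
    have : 1 + D / ((1 - ε) * D) * (ε - 1) = 0 := by
      have : 1 - ε ≠ 0 := by linarith
      field_simp
      ring
    rw [this, zero_smul, h.zero]
  refine ⟨fun b => lg e q (e p ((D / ‖lg e p (e q b)‖) • lg e p (e q b))), ?_, ?_, ?_⟩
  · exact smooth_comp (g.contDiffAt_lg (g.sp_short (by simpa using h.pos)) v0) _ _ hv rfl
  · exact (congrArg (lg e q) v0).trans (g.lg_self q)
  · filter_upwards [hu.continuousAt.eventually_ne hne] with b hb
    have hp : 0 < ‖lg e p (e q b)‖ := norm_pos_iff.2 hb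
    have hn : ‖(D / ‖lg e p (e q b)‖) • lg e p (e q b)‖ = D := by
      rw [norm_smul, Real.norm_of_nonneg (by positivity), div_mul_cancel₀ _ hp.ne']
    have hm := h.min p _ hn.le
    have hle : ‖lg e p (e q b)‖ ≤ D := by rw [g.norm_lg]; exact h.le _ _
    rw [g.exp_lg]
    refine ⟨hm.trans hn, ?_⟩
    have h2 := g.dist_of_min hm (s := ‖lg e p (e q b)‖ / D) (t := 1) (by positivity)
      ((div_le_one hD).2 hle) le_rfl
    have h3 : ‖lg e p (e q b)‖ / D * (D / ‖lg e p (e q b)‖) = 1 := by field_simp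
    rw [smul_smul, h3, one_smul, one_smul, g.exp_lg, hn] at h2
    rw [h2, ← g.norm_lg p]
    field_simp

theorem clb_lim {V : Type*} [NormedAddCommGroup V] [NormedSpace ℝ V] {F : V × V → ℝ} {b₀ : V}
    (hF : ContDiffAt ℝ 2 F (b₀, 0)) {c c₁ : V} {t : ℕ → ℝ} {n a : ℕ → V} {κ : ℝ}
    (h0 : ∀ i, 0 < t i) (ht : Tendsto t atTop (𝓝 0)) (hn : Tendsto n atTop (𝓝 c₁))
    (ha : Tendsto a atTop (𝓝 c))
    (hle : ∀ᶠ i in atTop, F (b₀ + t i • c, t i • n i) ≤ F (b₀ + t i • c, t i • a i))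
    (hl : ∀ᶠ i in atTop, fderiv ℝ F (b₀, 0) (0, t i • a i) - fderiv ℝ F (b₀, 0) (0, t i • n i) ≤
      κ * (‖t i • n i‖ ^ 2 + ‖t i • a i‖ ^ 2)) :
    D2 F (b₀, 0) (c, c₁) (c, c₁) - D2 F (b₀, 0) (c, c) (c, c) ≤ 2 * κ * (‖c₁‖ ^ 2 + ‖c‖ ^ 2) := by
  have key : ∀ δ : ℝ, 0 < δ → D2 F (b₀, 0) (c, c₁) (c, c₁) - D2 F (b₀, 0) (c, c) (c, c) ≤
      2 * κ * (‖c₁‖ ^ 2 + ‖c‖ ^ 2) + 2 * δ * (‖(c, c₁)‖ ^ 2 + ‖(c, c)‖ ^ 2) := by
    intro δ hδ
    have hT : ∀ {m : ℕ → V} {d : V}, Tendsto m atTop (𝓝 d) → ∀ᶠ i in atTop,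
        |F (b₀ + t i • c, t i • m i) - F (b₀, 0) - fderiv ℝ F (b₀, 0) (t i • c, 0) -
          fderiv ℝ F (b₀, 0) (0, t i • m i) - t i ^ 2 * D2 F (b₀, 0) (c, m i) (c, m i) / 2| ≤
          δ * (t i ^ 2 * ‖(c, m i)‖ ^ 2) := by
      intro m d hm
      have h1 : Tendsto (fun i => (((b₀, 0) : V × V), ((b₀ + t i • c, t i • m i) : V × V))) atTop
          (𝓝 ((b₀, 0), (b₀, 0))) := by
        refine tendsto_const_nhds.prodMk_nhds (Tendsto.prodMk_nhds ?_ ?_)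
        · simpa using (ht.smul_const c).const_add b₀
        · simpa using ht.smul hm
      filter_upwards [h1.eventually (taylor2_uniform hF hδ)] with i hi
      have e1 : ((b₀ + t i • c, t i • m i) : V × V) - (b₀, 0) = t i • (c, m i) := by simp
      have e2 : t i • ((c, m i) : V × V) = (t i • c, 0) + (0, t i • m i) := by simp
      rw [e1, norm_smul, mul_pow, Real.norm_eq_abs, sq_abs] at hi
      have e3 : D2 F (b₀, 0) (t i • (c, m i)) (t i • (c, m i)) =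
          t i ^ 2 * D2 F (b₀, 0) (c, m i) (c, m i) := by
        simp only [map_smul, smul_apply, smul_eq_mul]
        ring
      rw [e3, e2, map_add, ← sub_sub] at hi
      exact hi
    have hB : ∀ {m : ℕ → V} {d : V}, Tendsto m atTop (𝓝 d) →
        Tendsto (fun i => D2 F (b₀, 0) (c, m i) (c, m i)) atTop
          (𝓝 (D2 F (b₀, 0) (c, d) (c, d))) := fun {m d} hm =>
      (by fun_prop : Continuous fun x : V => D2 F (b₀, 0) (c, x) (c, x)).continuousAt.tendsto.comp hm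
    have hN : ∀ {m : ℕ → V} {d : V}, Tendsto m atTop (𝓝 d) →
        Tendsto (fun i => ‖(c, m i)‖ ^ 2) atTop (𝓝 (‖(c, d)‖ ^ 2)) := fun {m d} hm =>
      (tendsto_const_nhds.prodMk_nhds hm).norm.pow 2
    refine le_of_tendsto_of_tendsto ((hB hn).sub (hB ha))
      ((((hn.norm.pow 2).add (ha.norm.pow 2)).const_mul (2 * κ)).add
        (((hN hn).add (hN ha)).const_mul (2 * δ))) ?_
    filter_upwards [hT hn, hT ha, hle, hl] with i h1 h2 h3 h4
    rw [norm_smul, norm_smul, mul_pow, mul_pow, Real.norm_eq_abs, sq_abs] at h4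
    refine le_of_mul_le_mul_left ?_ (pow_pos (h0 i) 2)
    have h5 := (abs_le.1 h1).1
    have h6 := (abs_le.1 h2).2
    linarith
  refine le_of_forall_pos_le_add fun η hη => ?_
  have hS : 0 ≤ ‖(c, c₁)‖ ^ 2 + ‖(c, c)‖ ^ 2 := by positivity
  refine (key (η / (2 * (‖(c, c₁)‖ ^ 2 + ‖(c, c)‖ ^ 2 + 1))) (by positivity)).trans ?_
  refine add_le_add_right ?_ _
  generalize ‖(c, c₁)‖ ^ 2 + ‖(c, c)‖ ^ 2 = S at hS
  rw [show 2 * (η / (2 * (S + 1))) * S = η * (S / (S + 1)) by field_simp]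
  exact mul_le_of_le_one_right hη.le ((div_le_one (by positivity)).2 (by linarith))

theorem clb_cont {V : Type*} [NormedAddCommGroup V] [NormedSpace ℝ V] {F : V → ℝ} {a : V}
    (hF : ContDiffAt ℝ ∞ F a) {θ : ℝ} (hθ : 0 < θ) :
    ∀ᶠ z in 𝓝 a, ∀ x : V, |D2 F z x x - D2 F a x x| ≤ θ * (‖x‖ * ‖x‖) := by
  have hc : ContinuousAt (D2 F) a :=
    ((hF.fderiv_right (m := ∞) (by simp)).fderiv_right (m := ∞) (by simp)).continuousAt
  have h2 : Tendsto (fun z => ‖D2 F z - D2 F a‖) (𝓝 a) (𝓝 0) :=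
    (tendsto_iff_norm_sub_tendsto_zero (E := V →L[ℝ] V →L[ℝ] ℝ)).1 hc
  filter_upwards [h2.eventually (gt_mem_nhds hθ)] with z hz x
  have b1 := (D2 F z - D2 F a).le_opNorm₂ x x
  rw [mul_assoc] at b1
  exact b1.trans (mul_le_mul_of_nonneg_right hz.le (by positivity))

theorem clb_slope {V : Type*} [NormedAddCommGroup V] [NormedSpace ℝ V] {N : V → V} {b₀ : V}
    (hN : DifferentiableAt ℝ N b₀) (h0 : N b₀ = 0) (c : V) {t : ℕ → ℝ} (hp : ∀ i, 0 < t i)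
    (ht : Tendsto t atTop (𝓝 0)) :
    Tendsto (fun i => (t i)⁻¹ • N (b₀ + t i • c)) atTop (𝓝 (fderiv ℝ N b₀ c)) := by
  have h1 : HasDerivAt (fun s : ℝ => N (b₀ + s • c)) (fderiv ℝ N b₀ c) 0 :=
    hN.hasFDerivAt.comp_hasDerivAt_of_eq 0 (Calc_line b₀ c 0) (by simp)
  have h2 := h1.tendsto_slope_zero.comp
    (tendsto_nhdsWithin_iff.2 ⟨ht, Eventually.of_forall fun i => (hp i).ne'⟩)
  simpa [Function.comp_def, h0] using h2

omit [CompactSpace M] [∀ x, FiniteDimensional ℝ (T x)] in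
theorem clb_mem_Tan {c : T q} {a : ℕ → T q} {t : ℕ → ℝ} (hp : ∀ i, 0 < t i)
    (ht : Tendsto t atTop (𝓝 0)) (hd : ∀ᶠ i in atTop, dist p (e q (a i)) = D)
    (hc : Tendsto (fun i => (t i)⁻¹ • a i) atTop (𝓝 c)) : c ∈ Tan e D p q := by
  obtain ⟨k, hk⟩ := eventually_atTop.1 hd
  exact ⟨fun i => a (i + k), fun i => t (i + k), fun i => hp _, ht.comp (tendsto_add_atTop_nat k),
    fun i => hk _ (Nat.le_add_left _ _), hc.comp (tendsto_add_atTop_nat k)⟩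

theorem clb_step (h : Bl e r D) {w₀ : T q} (hw₀ : w₀ ∈ Lk e D p q) {K : ℝ}
    (hK : ∀ᶠ a : T q in 𝓝 0, dist p (e q a) = D → |inner ℝ w₀ a| ≤ K * ‖a‖ ^ 2)
    {c : T q} (hc : c ∈ Tan e D p q) {ε : ℝ} (h0 : 0 < ε) (h1 : ε < 1) :
    ∃ c₁ : T q, (∀ w ∈ Lk e D p q, inner ℝ w c₁ = 0) ∧
      D2 (fun z : T q × T q => cost (e q z.1) (e q z.2)) (ε • w₀, 0) (c, c₁) (c, c₁) -
        D2 (fun z : T q × T q => cost (e q z.1) (e q z.2)) (ε • w₀, 0) (c, c) (c, c) ≤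
        2 * (ε * K) * (‖c₁‖ ^ 2 + ‖c‖ ^ 2) := by
  have hD := h.dpos
  have g := h.toGeo
  obtain ⟨N, hN, hN0, hev⟩ := h.exists_proj hw₀ h0 h1
  obtain ⟨a, t, hp, ht, hd, ha⟩ := hc
  have hNd := hN.differentiableAt (by simp)
  have hb : ∀ c' : T q, Tendsto (fun i => ε • w₀ + t i • c') atTop (𝓝 (ε • w₀)) := fun c' => by
    simpa using (ht.smul_const c').const_add (ε • w₀)
  have hT : ∀ c' : T q, fderiv ℝ N (ε • w₀) c' ∈ Tan e D p q := fun c' =>
    clb_mem_Tan hp ht (((hb c').eventually hev).mono fun i hi => hi.1)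
      (clb_slope hNd hN0 c' hp ht)
  refine ⟨fderiv ℝ N (ε • w₀) c, fun w hw => ?_, ?_⟩
  · have h2 := h.inner_Tan hw (hT (-c))
    rw [map_neg, inner_neg_right] at h2
    exact le_antisymm (h.inner_Tan hw (hT c)) (by linarith)
  have n0 : ‖ε • w₀‖ < D := by
    rw [norm_smul, hw₀.1, Real.norm_of_nonneg h0.le]
    nlinarith
  have m0 : dist q (e q (ε • w₀)) = ‖ε • w₀‖ := h.min q _ n0.le
  have hF : ContDiffAt ℝ ∞ (fun z : T q × T q => cost (e q z.1) (e q z.2)) (ε • w₀, 0) :=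
    g.contDiffAt_cost (h.sp (by rw [dist_comm, m0]; exact n0)) rfl (h.zero q)
  have hder : ∀ η : T q, fderiv ℝ (fun z : T q × T q => cost (e q z.1) (e q z.2)) (ε • w₀, 0)
      (0, η) = -(ε * inner ℝ w₀ η) := fun η => by
    have d1 := (hF.differentiableAt (by simp)).hasFDerivAt.comp (0 : T q)
      (hasFDerivAt_prodMk_right (ε • w₀) (0 : T q))
    have e1 : ((fun z : T q × T q => cost (e q z.1) (e q z.2)) ∘ fun a : T q => (ε • w₀, a)) =
        fun a : T q => cost (e q a) (e q (ε • w₀)) := funext fun a => cost_comm _ _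
    rw [e1] at d1
    have d2 := congrArg (fun L : T q →L[ℝ] ℝ => L η) (d1.unique (g.fv_min m0 d1.differentiableAt))
    simpa [real_inner_smul_left] using d2
  have sc : ∀ (i : ℕ) (x : T q), t i • (t i)⁻¹ • x = x := fun i x => smul_inv_smul₀ (hp i).ne' x
  have a0 : Tendsto a atTop (𝓝 0) := by
    simpa only [sc, zero_smul] using ht.smul ha
  have n1 : Tendsto (fun i => N (ε • w₀ + t i • c)) atTop (𝓝 0) :=
    hN0 ▸ hN.continuousAt.tendsto.comp (hb c)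
  refine clb_lim (hF.of_le hess_two) hp ht (clb_slope hNd hN0 c hp ht) ha ?_ ?_
  · filter_upwards [(hb c).eventually hev] with i hi
    simp only [sc, cost]
    have h2 := dist_triangle p (e q (ε • w₀ + t i • c)) (e q (a i))
    rw [hd] at h2
    exact div_le_div_of_nonneg_right (pow_le_pow_left₀ dist_nonneg (by linarith [hi.2]) 2)
      zero_le_two
  · filter_upwards [(hb c).eventually hev, a0.eventually hK, n1.eventually hK] with i hi h2 h3
    simp only [sc, hder]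
    have h4 := mul_le_mul_of_nonneg_left (abs_le.1 (h2 (hd i))).1 h0.le
    have h5 := mul_le_mul_of_nonneg_left (abs_le.1 (h3 hi.1)).2 h0.le
    linarith

/-- Second order argument. `F (b, a) = cost (e q b) (e q a)`, `b₀ = ε • w₀`, `c₁ = fderiv N b₀ c`;
`± c₁ ∈ Tan`, so `c₁` is orthogonal to `Lk`. With `b i = b₀ + t i • c`:
`F (b i, N (b i)) ≤ F (b i, a i)`. Expand both sides at `(b₀, 0)` to second order
(`taylor2_uniform`); the derivative in `a` is `-⟪b₀, ·⟫`; by `reach` for `w₀` and `-w₀`,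
`⟪w₀, N (b i)⟫ ≤ D K ‖N (b i)‖²` and `-⟪w₀, a i⟫ ≤ D K ‖a i‖²`. In the limit
`D2 F (b₀, 0) (c, c₁) (c, c₁) - D2 F (b₀, 0) (c, c) (c, c) ≤ 2 ε D K (‖c‖² + ‖c₁‖²)`. As `ε → 0`,
`D2 F (b₀, 0) → D2 F (0, 0)` in norm (`D2_cost_zero`), hence `‖c - c₁‖² ≤ η (‖c‖² + ‖c₁‖²)` with
`η` arbitrarily small, and `⟪w, c⟫ = ⟪w, c - c₁⟫`. -/
theorem Bl.inner_Tan_eq (h : Bl e r D) {w₀ : T q} (hw₀ : w₀ ∈ Lk e D p q)
    (hw₁ : -w₀ ∈ Lk e D p q) {w c : T q} (hw : w ∈ Lk e D p q) (hc : c ∈ Tan e D p q) :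
    inner ℝ w c = 0 := by
  have hD := h.dpos
  have g := h.toGeo
  obtain ⟨K₀, p0, k0⟩ := h.reach hw₀
  obtain ⟨K₁, p1, k1⟩ := h.reach hw₁
  have hK : ∀ᶠ a : T q in 𝓝 0, dist p (e q a) = D →
      |inner ℝ w₀ a| ≤ D * (K₀ + K₁) * ‖a‖ ^ 2 := by
    filter_upwards [k0, k1] with a h0 h1 hd
    rw [hd, sub_self, sub_nonpos, div_le_iff₀ hD] at h0 h1
    rw [inner_neg_left] at h1
    have s0 : 0 ≤ K₀ * ‖a‖ ^ 2 * D := by positivity
    have s1 : 0 ≤ K₁ * ‖a‖ ^ 2 * D := by positivity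
    exact abs_le.2 ⟨by linarith, by linarith⟩
  obtain ⟨K, hKe⟩ : ∃ K, K = D * (K₀ + K₁) := ⟨_, rfl⟩
  rw [← hKe] at hK
  obtain ⟨F, hFe⟩ : ∃ F : T q × T q → ℝ, F = fun z => cost (e q z.1) (e q z.2) := ⟨_, rfl⟩
  have hF : ContDiffAt ℝ ∞ F (0, 0) := hFe ▸ g.sp_short (by simpa using h.pos)
  have hz : Tendsto (fun ε : ℝ => ((ε • w₀, 0) : T q × T q)) (𝓝[>] 0) (𝓝 (0, 0)) := by
    refine Tendsto.mono_left ?_ nhdsWithin_le_nhds
    simpa using (by fun_prop : Continuous fun ε : ℝ => ((ε • w₀, 0) : T q × T q)).tendsto 0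
  have key : ∀ θ : ℝ, 0 < θ → θ ≤ 1 / 16 → inner ℝ w c ^ 2 ≤ θ * (24 * D ^ 2 * ‖c‖ ^ 2) := by
    intro θ hθ hθ1
    have e1 := hz.eventually (clb_cont hF hθ)
    have e2 : ∀ᶠ ε : ℝ in 𝓝[>] 0, ε * K < θ := by
      have : Tendsto (fun ε : ℝ => ε * K) (𝓝[>] 0) (𝓝 0) := by
        refine Tendsto.mono_left ?_ nhdsWithin_le_nhds
        simpa using (by fun_prop : Continuous fun ε : ℝ => ε * K).tendsto 0
      exact this.eventually (gt_mem_nhds hθ)
    obtain ⟨ε, ⟨h1, h2⟩, h3⟩ := ((e1.and e2).and (Ioo_mem_nhdsGT zero_lt_one)).exists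
    obtain ⟨c₁, ho, hle⟩ := clb_step h hw₀ hK hc h3.1 h3.2
    rw [← hFe] at hle
    have hB : ∀ x : T q, |D2 F (ε • w₀, 0) (c, x) (c, x) - ‖c - x‖ ^ 2| ≤
        θ * (‖c‖ ^ 2 + ‖x‖ ^ 2) := fun x => by
      have b0 : D2 F (0, 0) (c, x) (c, x) = ‖c - x‖ ^ 2 := by
        rw [hFe, D2_cost_zero g, real_inner_self_eq_norm_sq]
      have b1 := h1 (c, x)
      rw [b0] at b1
      have b2 : ‖(c, x)‖ * ‖(c, x)‖ ≤ ‖c‖ ^ 2 + ‖x‖ ^ 2 := by
        rw [Prod.norm_mk]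
        rcases le_total ‖c‖ ‖x‖ with hx | hx
        · rw [max_eq_right hx]; nlinarith [sq_nonneg ‖c‖]
        · rw [max_eq_left hx]; nlinarith [sq_nonneg ‖x‖]
      exact b1.trans (mul_le_mul_of_nonneg_left b2 hθ.le)
    have b1 := (abs_le.1 (hB c₁)).1
    have b2 := (abs_le.1 (hB c)).2
    rw [sub_self, norm_zero] at b2
    have b3 : ‖c₁‖ ≤ ‖c‖ + ‖c - c₁‖ := by
      simpa using norm_sub_le c (c - c₁)
    have b4 : ‖c₁‖ ^ 2 ≤ 2 * ‖c‖ ^ 2 + 2 * ‖c - c₁‖ ^ 2 := by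
      nlinarith [norm_nonneg c₁, sq_nonneg (‖c‖ - ‖c - c₁‖)]
    have b5 : 2 * (ε * K) * (‖c₁‖ ^ 2 + ‖c‖ ^ 2) ≤ 2 * θ * (‖c₁‖ ^ 2 + ‖c‖ ^ 2) :=
      mul_le_mul_of_nonneg_right (by linarith) (by positivity)
    have b6 := mul_le_mul_of_nonneg_left b4 hθ.le
    have b7 := mul_le_mul_of_nonneg_right hθ1 (sq_nonneg ‖c - c₁‖)
    have b8 : 0 ≤ θ * ‖c‖ ^ 2 := by positivity
    have b9 : ‖c - c₁‖ ^ 2 ≤ θ * (24 * ‖c‖ ^ 2) := by nlinarith [sq_nonneg ‖c - c₁‖]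
    have c1 : inner ℝ w c = inner ℝ w (c - c₁) := by rw [inner_sub_right, ho w hw, sub_zero]
    have c2 := abs_real_inner_le_norm w (c - c₁)
    rw [hw.1] at c2
    have c3 := pow_le_pow_left₀ (abs_nonneg _) c2 2
    rw [sq_abs, mul_pow] at c3
    rw [c1]
    nlinarith [mul_le_mul_of_nonneg_left b9 (sq_nonneg D)]
  refine pow_eq_zero_iff two_ne_zero |>.1 (le_antisymm ?_ (sq_nonneg _))
  have hl : Tendsto (fun θ : ℝ => θ * (24 * D ^ 2 * ‖c‖ ^ 2)) (𝓝[>] 0) (𝓝 0) := by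
    refine Tendsto.mono_left ?_ nhdsWithin_le_nhds
    simpa using (by fun_prop : Continuous fun θ : ℝ => θ * (24 * D ^ 2 * ‖c‖ ^ 2)).tendsto 0
  refine ge_of_tendsto hl ?_
  filter_upwards [Ioo_mem_nhdsGT (by norm_num : (0 : ℝ) < 1 / 16)] with θ hθ
  exact key θ hθ.1 hθ.2.le

theorem Bl.closed (h : Bl e r D) (x : M) {v : T x} (hv : ‖v‖ = D) : e x (-v) = e x v := by
  have hpq : dist (e x v) x = D := by rw [dist_comm, h.min x v hv.le, hv]
  obtain ⟨w₀, h0, h1⟩ := h.exists_pair hpq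
  refine (h.mem_Lk hpq (by rw [norm_neg, hv]) fun c hc => ?_).2
  rw [inner_neg_left, h.inner_Tan_eq h0 h1 ⟨hv, rfl⟩ hc, neg_zero]

/-- `closed` at the point `e x ((s + D) • v)` (`Geo.flow`). -/
theorem Bl.periodic (h : Bl e r D) (x : M) {v : T x} (hv : ‖v‖ = 1) (s : ℝ) :
    e x ((s + 2 * D) • v) = e x (s • v) := by
  obtain ⟨ρ, h1, h2⟩ := h.toGeo.flow (x := x) (v := v) (θ := s + D) rfl
  have h3 := h.closed _ (v := D • ρ)
    (by rw [norm_smul, h1, hv, mul_one, Real.norm_of_nonneg h.dpos.le])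
  rw [← neg_smul, ← h2, ← h2] at h3
  rw [show s + 2 * D = s + D + D by ring, ← h3]
  congr 2
  ring

/-- The link is the sphere of radius `D` of a linear subspace (the orthogonal of `Tan`). -/
theorem Bl.link (h : Bl e r D) (hpq : dist p q = D) :
    ∃ W : Submodule ℝ (T q), Lk e D p q = {w | w ∈ W ∧ ‖w‖ = D} := by
  obtain ⟨w₀, h0, h1⟩ := h.exists_pair hpq
  refine ⟨{ carrier := {w | ∀ c ∈ Tan e D p q, inner ℝ w c = 0}
            add_mem' := fun ha hb c hc => by rw [inner_add_left, ha c hc, hb c hc, add_zero]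
            zero_mem' := fun c _ => inner_zero_left c
            smul_mem' := fun s w hw c hc => by rw [real_inner_smul_left, hw c hc, mul_zero] }, ?_⟩
  ext w
  exact ⟨fun hw => ⟨fun c hc => h.inner_Tan_eq h0 h1 hw hc, hw.1⟩,
    fun hw => h.mem_Lk hpq hw.2 fun c hc => (hw.1 c hc).le⟩

end Vale.Agent.P231
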