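import Vale.Agent.P231.MatB

/-! Pointwise lower bounds. -/

open scoped ContDiff Topology Matrix
open Filter Set

noncomputable section

namespace Vale.Agent.P231

variable {α β : Type} [Fintype α] [DecidableEq α] [Fintype β] [DecidableEq β] {D c : ℝ}
  {g S : ℝ → Matrix (α ⊕ β) (α ⊕ β) ℝ} {P S₁ : ℝ → Matrix α α ℝ} {φ₁ φ₂ : ℝ → ℝ}

/-- Both times lie on the same side of the conjugate time. -/
def Same (D s t : ℝ) : Prop := (0 < s ∧ s < t ∧ t < D) ∨ (D < s ∧ s < t ∧ t < 2 * D)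

theorem corea_mem {s t σ : ℝ} (hD : 0 < D) (hs : Same D s t) (h : σ ∈ Icc s t) :
    σ ∈ Ioo 0 (2 * D) ∧ σ ≠ D := by
  rcases hs with ⟨a, b, c⟩ | ⟨a, b, c⟩
  · exact ⟨⟨by linarith [h.1], by linarith [h.2]⟩, ne_of_lt (by linarith [h.2])⟩
  · exact ⟨⟨by linarith [h.1], by linarith [h.2]⟩, ne_of_gt (by linarith [h.1])⟩

theorem corea_lt {s t : ℝ} (hs : Same D s t) : s < t := by
  rcases hs with ⟨-, b, -⟩ | ⟨-, b, -⟩ <;> exact b

theorem corea_iv (φ : ℝ → ℝ) {s t : ℝ} (h : s ≤ t) : 0 ≤ iv φ s t :=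
  intervalIntegral.integral_nonneg h fun _ _ => by positivity

theorem corea_inv (h : SData D g S P S₁) {s t : ℝ} (hs : Same D s t) :
    ContinuousOn (fun σ => (g σ)⁻¹) (Icc s t) := fun σ hσ => by
  have a := corea_mem h.pos hs hσ
  have b : ContinuousAt Ring.inverse (g σ).det := by
    rw [Ring.inverse_eq_inv']
    exact continuousAt_inv₀ (h.pd σ a.1 a.2).det_pos.ne'
  exact ((continuousAt_matrix_inv _ b).comp h.cont.continuousAt).continuousWithinAt

theorem corea_blk (h : SData D g S P S₁) {s t : ℝ} (hs : s ≠ D) (ht : t ≠ D) :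
    (S t - S s).toBlocks₁₁ = S₁ t - S₁ s := by
  rw [h.S_eq s hs, h.S_eq t ht]
  rfl

theorem corea_symm (h : SData D g S P S₁) {s t : ℝ} (hs : s ∈ Ioo 0 (2 * D)) (hs' : s ≠ D)
    (ht : t ∈ Ioo 0 (2 * D)) (ht' : t ≠ D) : (S t - S s)ᵀ = S t - S s := by
  rw [Matrix.transpose_sub, h.symm s hs hs', h.symm t ht ht']

theorem corea_phi (hD : 0 < D) (hR : Roots D g P φ₁ φ₂ c) {s t : ℝ} (hs : Same D s t) :
    ContinuousOn φ₁ (Icc s t) ∧ ∀ σ ∈ Icc s t, 0 < φ₁ σ := by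
  rcases hs with ⟨a, b, c⟩ | ⟨a, b, c⟩
  · have e : Icc s t ⊆ Ioo 0 D := fun σ h => ⟨by linarith [h.1], by linarith [h.2]⟩
    exact ⟨hR.good1.cont.mono e, fun σ h => hR.good1.pos σ (e h)⟩
  · have e : MapsTo (fun σ => σ - D) (Icc s t) (Ioo 0 D) := fun σ h =>
      ⟨by linarith [h.1], by linarith [h.2]⟩
    refine ⟨(hR.good1'.cont.comp (continuousOn_id.sub continuousOn_const) e).congr
      fun σ _ => by simp, fun σ h => by simpa using hR.good1'.pos _ (e h)⟩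

theorem corea_prod {a A b B : ℝ} (ha : 0 ≤ a) (hb : 0 ≤ b) (hA : 0 < A) (hB : 0 < B) (h1 : a ≤ A)
    (h2 : b ≤ B) (h : a * b = A * B) : a = A ∧ b = B := by
  constructor
  · by_contra hne
    have := lt_of_le_of_ne h1 hne
    nlinarith [mul_le_mul_of_nonneg_left h2 ha]
  · by_contra hne
    have := lt_of_le_of_ne h2 hne
    nlinarith [mul_le_mul_of_nonneg_right h1 hb]

/-- Fundamental theorem of calculus; if `D ∈ [s, t]` split at `D` and use
`intervalIntegral.integral_eq_sub_of_hasDerivAt_of_le` on each piece. -/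
theorem SData.S1_sub (h : SData D g S P S₁) {s t : ℝ} (h0 : 0 < s) (hst : s < t) (h1 : t < 2 * D)
    (i j : α) : (S₁ t - S₁ s) i j = ∫ σ in s..t, P σ i j := by
  have e : Icc s t ⊆ Ioo 0 (2 * D) := fun σ h => ⟨by linarith [h.1], by linarith [h.2]⟩
  refine (MeasureTheory.integral_eq_of_hasDerivAt_off_countable_of_le (fun σ => S₁ σ i j)
    (fun σ => P σ i j) hst.le (countable_singleton D)
    (continuousOn_pi.1 (continuousOn_pi.1 (h.S_cont.mono e) i) j) (fun x hx => ?_) ?_).symm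
  · have hx' : x ≠ D := hx.2
    rw [h.P_eq x hx']
    refine (h.deriv x (e (Ioo_subset_Icc_self hx.1)) hx' (Sum.inl i)
      (Sum.inl j)).congr_of_eventuallyEq ?_
    filter_upwards [isOpen_ne.mem_nhds hx'] with y hy
    rw [h.S_eq y hy]
    rfl
  · refine ContinuousOn.intervalIntegrable ?_
    rw [uIcc_of_le hst.le]
    exact continuousOn_pi.1 (continuousOn_pi.1 (h.P_cont.mono e) i) j

theorem SData.S_sub (h : SData D g S P S₁) {s t : ℝ} (hs : Same D s t) (i j : α ⊕ β) :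
    (S t - S s) i j = ∫ σ in s..t, (g σ)⁻¹ i j := by
  have hst := (corea_lt hs).le
  refine (intervalIntegral.integral_eq_sub_of_hasDerivAt (f := fun σ => S σ i j)
    (fun x hx => ?_) (ContinuousOn.intervalIntegrable ?_)).symm
  · rw [uIcc_of_le hst] at hx
    exact h.deriv x (corea_mem h.pos hs hx).1 (corea_mem h.pos hs hx).2 i j
  · rw [uIcc_of_le hst]
    exact continuousOn_pi.1 (continuousOn_pi.1 (corea_inv h hs) i) j

theorem corea_pd (h : SData D g S P S₁) {s t : ℝ} (h0 : 0 < s) (hst : s < t) (h1 : t < 2 * D) :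
    (S₁ t - S₁ s).PosDef := by
  have e : Icc s t ⊆ Ioo 0 (2 * D) := fun σ h => ⟨by linarith [h.1], by linarith [h.2]⟩
  refine (mink hst (h.P_cont.mono e) (fun σ hσ => h.P_pd σ (e hσ)) (h.S1_sub h0 hst h1)
    (f := fun _ => 0) continuousOn_const (fun _ _ => le_rfl) fun σ hσ => ?_).1
  rcases isEmpty_or_nonempty α with hα | hα
  · simp
  · rw [zero_pow Fintype.card_ne_zero]
    exact (h.P_pd σ (e hσ)).det_pos.le

/-- `mink` for `P`. -/
theorem SData.first (h : SData D g S P S₁) (hR : Roots D g P φ₁ φ₂ c) {s t : ℝ} (h0 : 0 < s)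
    (hst : s < t) (h1 : t < 2 * D) :
    (S₁ t - S₁ s).PosDef ∧ iv φ₂ s t ^ Fintype.card α ≤ (S₁ t - S₁ s).det ∧
      (iv φ₂ s t ^ Fintype.card α = (S₁ t - S₁ s).det →
        ∀ σ ∈ Icc s t, ∃ a : ℝ, P σ = a • (S₁ t - S₁ s)) := by
  have e : Icc s t ⊆ Ioo 0 (2 * D) := fun σ h => ⟨by linarith [h.1], by linarith [h.2]⟩
  obtain ⟨a1, a2, a3⟩ := mink hst (h.P_cont.mono e) (fun σ hσ => h.P_pd σ (e hσ))
    (h.S1_sub h0 hst h1) (f := fun σ => (φ₂ σ ^ 2)⁻¹)
    (((hR.good2.cont.mono e).pow 2).inv₀ fun σ hσ => pow_ne_zero _ (hR.good2.pos σ (e hσ)).ne')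
    (fun _ _ => by positivity) fun σ hσ => (hR.det2 σ (e hσ)).le
  exact ⟨a1, a2, fun he σ hσ => (a3 he σ hσ).2⟩

/-- `mink` for `(Em X)ᵀ g⁻¹ (Em X)` and `f = φ₁⁻²`, with `schur_le`. -/
theorem SData.second (h : SData D g S P S₁) (hR : Roots D g P φ₁ φ₂ c) {s t : ℝ}
    (hs : Same D s t) (X : Matrix α β ℝ) :
    ((Em X)ᵀ * (S t - S s) * Em X).PosDef ∧
      iv φ₁ s t ^ Fintype.card β ≤ ((Em X)ᵀ * (S t - S s) * Em X).det ∧
      (iv φ₁ s t ^ Fintype.card β = ((Em X)ᵀ * (S t - S s) * Em X).det →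
        ∀ σ ∈ Icc s t, (g σ).toBlocks₁₂ = X * (g σ).toBlocks₂₂ ∧
          ∃ a : ℝ, (g σ).toBlocks₂₂⁻¹ = a • ((Em X)ᵀ * (S t - S s) * Em X)) := by
  have hst := corea_lt hs
  have hc := corea_inv h hs
  obtain ⟨p1, p2⟩ := corea_phi h.pos hR hs
  have pd : ∀ σ ∈ Icc s t, (g σ).PosDef := fun σ hσ =>
    h.pd σ (corea_mem h.pos hs hσ).1 (corea_mem h.pos hs hσ).2
  have dt : ∀ σ ∈ Icc s t, ((φ₁ σ ^ 2)⁻¹) ^ Fintype.card β = ((g σ).toBlocks₂₂.det)⁻¹ :=
    fun σ hσ => by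
      rw [inv_pow, hR.det1 σ (corea_mem h.pos hs hσ).1 (corea_mem h.pos hs hσ).2]
  have ci : ∀ (k l : α ⊕ β) (x y : ℝ),
      IntervalIntegrable (fun σ => x * (g σ)⁻¹ k l * y) MeasureTheory.volume s t := by
    intro k l x y
    refine ContinuousOn.intervalIntegrable ?_
    rw [uIcc_of_le hst.le]
    exact (continuousOn_const.mul (continuousOn_pi.1 (continuousOn_pi.1 hc k) l)).mul
      continuousOn_const
  have cj : ∀ (l : α ⊕ β) (x : α ⊕ β → ℝ) (y : ℝ),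
      IntervalIntegrable (fun σ => ∑ k, x k * (g σ)⁻¹ k l * y) MeasureTheory.volume s t :=
    fun l x y => (IntervalIntegrable.sum Finset.univ fun k _ => ci k l (x k) y).congr
      fun σ _ => Finset.sum_apply _ _ _
  obtain ⟨a1, a2, a3⟩ := mink (P := fun σ => (Em X)ᵀ * (g σ)⁻¹ * Em X) hst
    (((continuous_const.matrix_mul continuous_id).matrix_mul continuous_const).comp_continuousOn hc)
    (fun σ hσ => (schur_le (pd σ hσ) X).1) (Mx := (Em X)ᵀ * (S t - S s) * Em X) (fun i j => by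
      simp only [Matrix.mul_apply, Finset.sum_mul]
      rw [intervalIntegral.integral_finsetSum fun l _ => cj l _ _]
      refine Finset.sum_congr rfl fun l _ => ?_
      rw [intervalIntegral.integral_finsetSum fun k _ => ci k l _ _]
      refine Finset.sum_congr rfl fun k _ => ?_
      rw [intervalIntegral.integral_mul_const, intervalIntegral.integral_const_mul, h.S_sub hs])
    (f := fun σ => (φ₁ σ ^ 2)⁻¹) ((p1.pow 2).inv₀ fun σ hσ => pow_ne_zero _ (p2 σ hσ).ne')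
    (fun _ _ => by positivity) fun σ hσ => (dt σ hσ).trans_le (schur_le (pd σ hσ) X).2.1
  refine ⟨a1, a2, fun he σ hσ => ?_⟩
  obtain ⟨b1, a, b2⟩ := a3 he σ hσ
  obtain ⟨c1, c2⟩ := (schur_le (pd σ hσ) X).2.2 ((dt σ hσ).symm.trans b1)
  exact ⟨c1, a, c2.symm.trans b2⟩

theorem SData.ker_le (h : SData D g S P S₁) {s : ℝ} (hs : s ∈ Ioo 0 D) :
    Module.finrank ℝ (LinearMap.ker (S (s + D) - S s).mulVecLin) ≤ Fintype.card β := by
  refine ker_le_card ?_
  rw [corea_blk h hs.2.ne (ne_of_gt (by linarith [hs.1]))]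
  exact corea_pd h hs.1 (by linarith [h.pos]) (by linarith [hs.2])

/-- `block_pos`, `first`, `second`; in the equality case both factors are equalities. -/
theorem SData.same (h : SData D g S P S₁) (hR : Roots D g P φ₁ φ₂ c) {s t : ℝ}
    (hs : Same D s t) :
    iv φ₂ s t ^ Fintype.card α * iv φ₁ s t ^ Fintype.card β ≤ |(S t - S s).det| ∧
    (iv φ₂ s t ^ Fintype.card α * iv φ₁ s t ^ Fintype.card β = |(S t - S s).det| →
      ∃ (X : Matrix α β ℝ) (N₁ : Matrix α α ℝ) (N₂ : Matrix β β ℝ), ∀ σ ∈ Icc s t,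
        (∃ a : ℝ, P σ = a • N₁) ∧ (g σ).toBlocks₁₂ = X * (g σ).toBlocks₂₂ ∧
          ∃ a : ℝ, (g σ).toBlocks₂₂⁻¹ = a • N₂) := by
  have hst := corea_lt hs
  have m1 := corea_mem h.pos hs (left_mem_Icc.2 hst.le)
  have m2 := corea_mem h.pos hs (right_mem_Icc.2 hst.le)
  obtain ⟨a1, a2, a3⟩ := h.first hR m1.1.1 hst m2.1.2
  have bl := corea_blk h m1.2 m2.2
  obtain ⟨X, hX⟩ := block_pos (corea_symm h m1.1 m1.2 m2.1 m2.2) (bl ▸ a1)
  obtain ⟨b1, b2, b3⟩ := h.second hR hs X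
  rw [hX, bl, abs_of_pos (mul_pos a1.det_pos b1.det_pos)]
  have n1 := pow_nonneg (corea_iv φ₂ hst.le) (Fintype.card α)
  have n2 := pow_nonneg (corea_iv φ₁ hst.le) (Fintype.card β)
  refine ⟨mul_le_mul a2 b2 n2 a1.det_pos.le, fun he => ?_⟩
  obtain ⟨e1, e2⟩ := corea_prod n1 n2 a1.det_pos b1.det_pos a2 b2 he
  exact ⟨X, _, _, fun σ hσ => ⟨a3 e1 σ hσ, b3 e2 σ hσ⟩⟩

/-- `X` from `exists_Em` for `S (s + D) - S s`; then
`-(Em X)ᵀ (S t - S s) (Em X) = (Em X)ᵀ (S (s + D) - S t) (Em X)`; `block_neg`. -/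
theorem SData.cross1 (h : SData D g S P S₁) (hR : Roots D g P φ₁ φ₂ c) {s t : ℝ} (h0 : 0 < s)
    (h1 : s < D) (h2 : D < t) (h3 : t < s + D) (hk : Fintype.card β ≤
      Module.finrank ℝ (LinearMap.ker (S (s + D) - S s).mulVecLin)) :
    iv φ₂ s t ^ Fintype.card α * iv φ₁ t (s + D) ^ Fintype.card β ≤ |(S t - S s).det| := by
  have n1 : s + D ≠ D := ne_of_gt (by linarith)
  have p1 : (S (s + D) - S s).toBlocks₁₁.PosDef := by
    rw [corea_blk h h1.ne n1]
    exact corea_pd h h0 (by linarith) (by linarith)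
  obtain ⟨X, hX⟩ := exists_Em p1 hk
  obtain ⟨a1, a2, -⟩ := h.first hR h0 (h1.trans h2) (by linarith : t < 2 * D)
  obtain ⟨b1, b2, -⟩ := h.second hR (Or.inr ⟨h2, h3, by linarith⟩ : Same D t (s + D)) X
  have e : (Em X)ᵀ * (S (s + D) - S t) * Em X = -((Em X)ᵀ * (S t - S s) * Em X) := by
    have : S (s + D) - S t = (S (s + D) - S s) - (S t - S s) := by abel
    rw [this, Matrix.mul_sub, Matrix.sub_mul, Matrix.mul_assoc, hX, Matrix.mul_zero, zero_sub]
  rw [e] at b1 b2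
  have bl := corea_blk h h1.ne h2.ne'
  have := block_neg (corea_symm h ⟨h0, by linarith⟩ h1.ne ⟨by linarith, by linarith⟩ h2.ne')
    (bl ▸ a1) b1
  rw [bl] at this
  exact (mul_le_mul a2 b2 (pow_nonneg (corea_iv φ₁ h3.le) _) a1.det_pos.le).trans this

/-- `S (s + D) - S r = (S s - S r) + (S (s + D) - S s)`, the last matrix is semidefinite
(`psd_of_Em`); `block_pos`, `det_mono`, `second`. -/
theorem SData.cross2 (h : SData D g S P S₁) (hR : Roots D g P φ₁ φ₂ c) {r s : ℝ} (h0 : 0 < r)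
    (h1 : r < s) (h2 : s < D) (hk : Fintype.card β ≤
      Module.finrank ℝ (LinearMap.ker (S (s + D) - S s).mulVecLin)) :
    iv φ₂ r (s + D) ^ Fintype.card α * iv φ₁ r s ^ Fintype.card β ≤ |(S (s + D) - S r).det| := by
  have n1 : s + D ≠ D := ne_of_gt (by linarith)
  have m1 : s + D ∈ Ioo 0 (2 * D) := ⟨by linarith, by linarith⟩
  have p1 : (S (s + D) - S s).toBlocks₁₁.PosDef := by
    rw [corea_blk h h2.ne n1]
    exact corea_pd h (h0.trans h1) (by linarith) (by linarith)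
  obtain ⟨X, hX⟩ := exists_Em p1 hk
  have ps := psd_of_Em (corea_symm h ⟨by linarith, by linarith⟩ h2.ne m1 n1) p1 hX
  obtain ⟨a1, a2, -⟩ := h.first hR h0 (by linarith : r < s + D) m1.2
  have bl := corea_blk h (h1.trans h2).ne n1
  obtain ⟨Y, hY⟩ := block_pos (corea_symm h ⟨h0, by linarith⟩ (h1.trans h2).ne m1 n1) (bl ▸ a1)
  obtain ⟨b1, b2, -⟩ := h.second hR (Or.inl ⟨h0, h1, h2⟩ : Same D r s) Y
  have q := ps.conjTranspose_mul_mul_same (Em Y)
  rw [Matrix.conjTranspose_eq_transpose_of_trivial] at q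
  have e : (Em Y)ᵀ * (S (s + D) - S r) * Em Y
      = (Em Y)ᵀ * (S s - S r) * Em Y + (Em Y)ᵀ * (S (s + D) - S s) * Em Y := by
    rw [← Matrix.add_mul, ← Matrix.mul_add]
    congr 2
    abel
  rw [hY, bl, e]
  exact (mul_le_mul a2 (b2.trans (det_mono b1 q).1) (pow_nonneg (corea_iv φ₁ h1.le) _)
    a1.det_pos.le).trans (le_abs_self _)

end Vale.Agent.P231
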