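import Vale.Agent.P231.MatA

/-! Block matrices. -/

open scoped ContDiff Topology Matrix
open Filter Set

noncomputable section

namespace Vale.Agent.P231

variable {α β : Type} [Fintype α] [DecidableEq α] [Fintype β] [DecidableEq β]

/-- The graph of `X` over the second block of coordinates. -/
def Em (X : Matrix α β ℝ) : Matrix (α ⊕ β) β ℝ := Matrix.fromRows X 1

theorem matb_mul (N : Matrix (α ⊕ β) (α ⊕ β) ℝ) (X : Matrix α β ℝ) :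
    N * Em X = Matrix.fromRows (N.toBlocks₁₁ * X + N.toBlocks₁₂)
      (N.toBlocks₂₁ * X + N.toBlocks₂₂) := by
  conv_lhs => rw [← N.fromBlocks_toBlocks]
  rw [Em, Matrix.fromBlocks_mul_fromRows, Matrix.mul_one, Matrix.mul_one]

theorem matb_exp (N : Matrix (α ⊕ β) (α ⊕ β) ℝ) (X : Matrix α β ℝ) :
    (Em X)ᵀ * N * Em X = Xᵀ * (N.toBlocks₁₁ * X + N.toBlocks₁₂)
      + (N.toBlocks₂₁ * X + N.toBlocks₂₂) := by
  rw [Matrix.mul_assoc, matb_mul, Em, Matrix.transpose_fromRows, Matrix.fromCols_mul_fromRows,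
    Matrix.transpose_one, Matrix.one_mul]

omit [Fintype α] [DecidableEq α] [Fintype β] [DecidableEq β] in
theorem matb_symm {N : Matrix (α ⊕ β) (α ⊕ β) ℝ} (hs : Nᵀ = N) :
    N.toBlocks₁₁ᵀ = N.toBlocks₁₁ ∧ N.toBlocks₂₁ = N.toBlocks₁₂ᵀ := by
  constructor
  · ext i j
    exact congrFun (congrFun hs (Sum.inl i)) (Sum.inl j)
  · ext i j
    exact (congrFun (congrFun hs (Sum.inr i)) (Sum.inl j)).symm

theorem matb_shift {N : Matrix (α ⊕ β) (α ⊕ β) ℝ} (hs : Nᵀ = N) {X₀ : Matrix α β ℝ}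
    (h0 : N.toBlocks₁₁ * X₀ + N.toBlocks₁₂ = 0) (X : Matrix α β ℝ) :
    (Em X)ᵀ * N * Em X = (Em X₀)ᵀ * N * Em X₀ + (X - X₀)ᵀ * N.toBlocks₁₁ * (X - X₀) := by
  obtain ⟨h1, h2⟩ := matb_symm hs
  have h3 : N.toBlocks₁₂ = -(N.toBlocks₁₁ * X₀) := eq_neg_of_add_eq_zero_right h0
  rw [matb_exp, matb_exp, h2, h3, Matrix.transpose_neg, Matrix.transpose_mul, h1]
  simp only [Matrix.transpose_sub, Matrix.mul_add, Matrix.mul_neg, Matrix.neg_mul, Matrix.sub_mul,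
    Matrix.mul_sub, Matrix.mul_assoc]
  abel

omit [DecidableEq α] [DecidableEq β] in
theorem matb_psd {A : Matrix α α ℝ} (hA : A.PosDef) (Y : Matrix α β ℝ) :
    (Yᵀ * A * Y).PosSemidef := by
  have := hA.posSemidef.conjTranspose_mul_mul_same Y
  rwa [Matrix.conjTranspose_eq_transpose_of_trivial] at this

omit [DecidableEq α] [Fintype β] [DecidableEq β] in
theorem matb_zero {A : Matrix α α ℝ} (hA : A.PosDef) {Y : Matrix α β ℝ} (h : Yᵀ * A * Y = 0) :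
    Y = 0 := by
  ext i j
  by_contra hc
  have hv : (fun k => Y k j) ≠ 0 := fun h0 => hc (congrFun h0 i)
  have h1 := hA.dotProduct_mulVec_pos hv
  have h2 : (Yᵀ * (A * Y)) j j = 0 := by rw [← Matrix.mul_assoc, h]; rfl
  exact h1.ne' h2

theorem matb_inv {g : Matrix (α ⊕ β) (α ⊕ β) ℝ} (hg : g.PosDef) :
    g⁻¹.toBlocks₁₁ * g.toBlocks₁₂ + g⁻¹.toBlocks₁₂ * g.toBlocks₂₂ = 0 ∧
      g⁻¹.toBlocks₂₁ * g.toBlocks₁₂ + g⁻¹.toBlocks₂₂ * g.toBlocks₂₂ = 1 := by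
  have h1 : g⁻¹ * g = 1 := Matrix.nonsing_inv_mul _ hg.det_pos.ne'.isUnit
  have h2 : Matrix.fromBlocks g⁻¹.toBlocks₁₁ g⁻¹.toBlocks₁₂ g⁻¹.toBlocks₂₁ g⁻¹.toBlocks₂₂ *
      Matrix.fromBlocks g.toBlocks₁₁ g.toBlocks₁₂ g.toBlocks₂₁ g.toBlocks₂₂
      = Matrix.fromBlocks 1 0 0 1 := by
    rw [Matrix.fromBlocks_toBlocks, Matrix.fromBlocks_toBlocks, h1, Matrix.fromBlocks_one]
  rw [Matrix.fromBlocks_multiply, Matrix.fromBlocks_inj] at h2
  exact ⟨h2.2.1, h2.2.2.2⟩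

theorem matb_crit {N : Matrix (α ⊕ β) (α ⊕ β) ℝ} (h : N.toBlocks₁₁.PosDef) :
    ∃ X : Matrix α β ℝ, N.toBlocks₁₁ * X + N.toBlocks₁₂ = 0 ∧
      N.det = N.toBlocks₁₁.det * ((Em X)ᵀ * N * Em X).det := by
  have hu : IsUnit N.toBlocks₁₁.det := h.det_pos.ne'.isUnit
  have h0 : N.toBlocks₁₁ * -(N.toBlocks₁₁⁻¹ * N.toBlocks₁₂) + N.toBlocks₁₂ = 0 := by
    rw [Matrix.mul_neg, ← Matrix.mul_assoc, Matrix.mul_nonsing_inv _ hu, Matrix.one_mul,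
      neg_add_cancel]
  refine ⟨_, h0, ?_⟩
  have := Matrix.invertibleOfIsUnitDet _ hu
  rw [matb_exp, h0, Matrix.mul_zero, zero_add]
  conv_lhs => rw [← N.fromBlocks_toBlocks]
  rw [Matrix.det_fromBlocks₁₁, Matrix.invOf_eq_nonsing_inv, Matrix.mul_neg, Matrix.mul_assoc,
    neg_add_eq_sub]

/-- The projection of the kernel to the second block. -/
def matbP (N : Matrix (α ⊕ β) (α ⊕ β) ℝ) : LinearMap.ker N.mulVecLin →ₗ[ℝ] (β → ℝ) :=
  (LinearMap.funLeft ℝ ℝ Sum.inr).comp (LinearMap.ker N.mulVecLin).subtype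

omit [DecidableEq α] [DecidableEq β] in
theorem matb_inj {N : Matrix (α ⊕ β) (α ⊕ β) ℝ} (h : N.toBlocks₁₁.PosDef) :
    Function.Injective (matbP N) := by
  refine (injective_iff_map_eq_zero _).2 fun v hv => ?_
  have h1 : ∀ b, v.1 (Sum.inr b) = 0 := fun b => congrFun hv b
  have h2 : N *ᵥ v.1 = 0 := v.2
  have h3 : N.toBlocks₁₁ *ᵥ (fun a => v.1 (Sum.inl a)) = 0 := by
    funext a
    have := congrFun h2 (Sum.inl a)
    simpa [Matrix.mulVec, dotProduct, Fintype.sum_sum_type, h1, Matrix.toBlocks₁₁] using this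
  have h4 : (fun a => v.1 (Sum.inl a)) = 0 := by
    by_contra hc
    have := h.dotProduct_mulVec_pos hc
    rw [h3, dotProduct_zero] at this
    exact lt_irrefl _ this
  refine Subtype.ext (funext fun i => ?_)
  rcases i with a | b
  · exact congrFun h4 a
  · exact h1 b

omit [Fintype α] [DecidableEq α] [Fintype β] [DecidableEq β] in
theorem matb_blocks {g : Matrix (α ⊕ β) (α ⊕ β) ℝ} (hg : g.PosDef) :
    g.toBlocks₁₁.PosDef ∧ g.toBlocks₂₂.PosDef :=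
  ⟨hg.submatrix Sum.inl_injective, hg.submatrix Sum.inr_injective⟩

theorem posDef_blocks {g : Matrix (α ⊕ β) (α ⊕ β) ℝ} (hg : g.PosDef) :
    g.toBlocks₁₁.PosDef ∧ g.toBlocks₂₂.PosDef := matb_blocks hg

/-- `g⁻¹ * fromBlocks 1 g₁₂ 0 g₂₂ = fromBlocks B₁₁ 0 B₂₁ 1` with `B = g⁻¹`. -/
theorem det_blocks {g : Matrix (α ⊕ β) (α ⊕ β) ℝ} (hg : g.PosDef) :
    g.det * g⁻¹.toBlocks₁₁.det = g.toBlocks₂₂.det := by
  obtain ⟨h1, h2⟩ := matb_inv hg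
  have h3 : g⁻¹ * Matrix.fromBlocks 1 g.toBlocks₁₂ 0 g.toBlocks₂₂
      = Matrix.fromBlocks g⁻¹.toBlocks₁₁ 0 g⁻¹.toBlocks₂₁ 1 := by
    conv_lhs => rw [← g⁻¹.fromBlocks_toBlocks]
    rw [Matrix.fromBlocks_multiply, h1, h2]
    simp
  have h4 := congrArg Matrix.det h3
  rw [Matrix.det_mul, Matrix.det_fromBlocks_zero₂₁, Matrix.det_fromBlocks_zero₁₂, Matrix.det_one,
    Matrix.det_one, one_mul, mul_one, Matrix.det_nonsing_inv, Ring.inverse_eq_inv'] at h4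
  rw [← h4, ← mul_assoc, mul_inv_cancel₀ hg.det_pos.ne', one_mul]

/-- With `X₀ = g₁₂ g₂₂⁻¹`, `B = g⁻¹`: `B * Em X₀ = fromRows 0 g₂₂⁻¹`, hence
`(Em X)ᵀ B (Em X) = g₂₂⁻¹ + (X - X₀)ᵀ B₁₁ (X - X₀)`; use `det_mono`. -/
theorem schur_le {g : Matrix (α ⊕ β) (α ⊕ β) ℝ} (hg : g.PosDef) (X : Matrix α β ℝ) :
    ((Em X)ᵀ * g⁻¹ * Em X).PosDef ∧ (g.toBlocks₂₂.det)⁻¹ ≤ ((Em X)ᵀ * g⁻¹ * Em X).det ∧
      ((g.toBlocks₂₂.det)⁻¹ = ((Em X)ᵀ * g⁻¹ * Em X).det →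
        g.toBlocks₁₂ = X * g.toBlocks₂₂ ∧ (Em X)ᵀ * g⁻¹ * Em X = g.toBlocks₂₂⁻¹) := by
  obtain ⟨h1, h2⟩ := matb_inv hg
  have p2 := (matb_blocks hg).2
  have p1 := (matb_blocks hg.inv).1
  have hu : IsUnit g.toBlocks₂₂.det := p2.det_pos.ne'.isUnit
  have hs : g⁻¹ᵀ = g⁻¹ := by
    have := hg.inv.isHermitian.eq
    rwa [Matrix.conjTranspose_eq_transpose_of_trivial] at this
  have e : ∀ {γ : Type} (P : Matrix γ α ℝ) (Q : Matrix γ β ℝ),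
      P * (g.toBlocks₁₂ * g.toBlocks₂₂⁻¹) + Q
        = (P * g.toBlocks₁₂ + Q * g.toBlocks₂₂) * g.toBlocks₂₂⁻¹ := fun P Q => by
    rw [Matrix.add_mul, Matrix.mul_assoc, Matrix.mul_assoc, Matrix.mul_nonsing_inv _ hu,
      Matrix.mul_one]
  have h3 : g⁻¹.toBlocks₁₁ * (g.toBlocks₁₂ * g.toBlocks₂₂⁻¹) + g⁻¹.toBlocks₁₂ = 0 := by
    rw [e, h1, Matrix.zero_mul]
  have h4 := matb_shift hs h3 X
  rw [matb_exp g⁻¹ (g.toBlocks₁₂ * g.toBlocks₂₂⁻¹), h3, e, h2, Matrix.mul_zero, zero_add,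
    Matrix.one_mul] at h4
  have q := matb_psd p1 (X - g.toBlocks₁₂ * g.toBlocks₂₂⁻¹)
  obtain ⟨d1, d2⟩ := det_mono p2.inv q
  rw [Matrix.det_nonsing_inv, Ring.inverse_eq_inv'] at d1 d2
  rw [h4]
  refine ⟨p2.inv.add_posSemidef q, d1, fun hd => ?_⟩
  have d3 := d2 hd
  refine ⟨?_, by rw [d3, add_zero]⟩
  rw [sub_eq_zero.1 (matb_zero p1 d3), Matrix.mul_assoc, Matrix.nonsing_inv_mul _ hu,
    Matrix.mul_one]

/-- `X = -N₁₁⁻¹ N₁₂`, `Matrix.det_fromBlocks₁₁`. -/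
theorem block_pos {N : Matrix (α ⊕ β) (α ⊕ β) ℝ} (hs : Nᵀ = N) (h : N.toBlocks₁₁.PosDef) :
    ∃ X : Matrix α β ℝ, N.det = N.toBlocks₁₁.det * ((Em X)ᵀ * N * Em X).det :=
  (matb_crit h).imp fun _ hX => hX.2

/-- With `X₀` from `block_pos`: `(Em X)ᵀ N (Em X) = (Em X₀)ᵀ N (Em X₀) + (X - X₀)ᵀ N₁₁ (X - X₀)`,
so `-(Em X₀)ᵀ N (Em X₀)` is the sum of `-(Em X)ᵀ N (Em X)` and a semidefinite matrix. -/
theorem block_neg {N : Matrix (α ⊕ β) (α ⊕ β) ℝ} (hs : Nᵀ = N) (h : N.toBlocks₁₁.PosDef)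
    {X : Matrix α β ℝ} (hX : (-((Em X)ᵀ * N * Em X)).PosDef) :
    N.toBlocks₁₁.det * (-((Em X)ᵀ * N * Em X)).det ≤ |N.det| := by
  obtain ⟨X₀, h0, h1⟩ := matb_crit h
  have h2 := matb_shift hs h0 X
  have h3 := (det_mono hX (matb_psd h (X - X₀))).1
  have h4 : -((Em X)ᵀ * N * Em X) + (X - X₀)ᵀ * N.toBlocks₁₁ * (X - X₀)
      = -((Em X₀)ᵀ * N * Em X₀) := by rw [h2]; abel
  rw [h4] at h3
  rw [h1, abs_mul, abs_of_pos h.det_pos]
  refine mul_le_mul_of_nonneg_left (h3.trans ((le_abs_self _).trans_eq ?_)) h.det_pos.le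
  rw [Matrix.det_neg, abs_mul, abs_neg_one_pow, one_mul]

/-- The projection of the kernel to the second block of coordinates is injective. -/
theorem ker_le_card {N : Matrix (α ⊕ β) (α ⊕ β) ℝ} (h : N.toBlocks₁₁.PosDef) :
    Module.finrank ℝ (LinearMap.ker N.mulVecLin) ≤ Fintype.card β :=
  (LinearMap.finrank_le_finrank_of_injective (matb_inj h)).trans_eq
    (Module.finrank_fintype_fun_eq_card ℝ)

/-- The same projection is then bijective. -/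
theorem exists_Em {N : Matrix (α ⊕ β) (α ⊕ β) ℝ} (h : N.toBlocks₁₁.PosDef)
    (hk : Fintype.card β ≤ Module.finrank ℝ (LinearMap.ker N.mulVecLin)) :
    ∃ X : Matrix α β ℝ, N * Em X = 0 := by
  have hr : Module.finrank ℝ (LinearMap.ker N.mulVecLin) = Module.finrank ℝ (β → ℝ) := by
    rw [Module.finrank_fintype_fun_eq_card]
    exact le_antisymm (ker_le_card h) hk
  have hsurj := (LinearMap.injective_iff_surjective_of_finrank_eq_finrank hr).1 (matb_inj h)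
  choose v hv using fun b : β => hsurj (Pi.single b 1)
  refine ⟨Matrix.of fun a b => (v b).1 (Sum.inl a), ?_⟩
  ext i b
  have h1 : N *ᵥ (v b).1 = 0 := (v b).2
  have h2 : (fun k => Em (Matrix.of fun a b => (v b).1 (Sum.inl a)) k b) = (v b).1 := by
    funext k
    rcases k with a | c
    · rfl
    · have h3 : (v b).1 (Sum.inr c) = (Pi.single b 1 : β → ℝ) c := congrFun (hv b) c
      rw [h3, Pi.single_apply]
      exact Matrix.one_apply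
  have h4 : (N *ᵥ fun k => Em (Matrix.of fun a b => (v b).1 (Sum.inl a)) k b) i = 0 := by
    rw [h2, h1]; rfl
  exact h4

/-- Every vector is `Sum.elim z 0 + Em X *ᵥ w`. -/
theorem psd_of_Em {N : Matrix (α ⊕ β) (α ⊕ β) ℝ} (hs : Nᵀ = N) (h : N.toBlocks₁₁.PosDef)
    {X : Matrix α β ℝ} (hX : N * Em X = 0) : N.PosSemidef := by
  obtain ⟨h1, h2⟩ := matb_symm hs
  rw [matb_mul, ← Matrix.fromRows_zero] at hX
  obtain ⟨h3, h4⟩ := Matrix.fromRows_inj hX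
  have h5 : N.toBlocks₁₂ = -(N.toBlocks₁₁ * X) := eq_neg_of_add_eq_zero_right h3
  have h6 : N.toBlocks₂₂ = -(N.toBlocks₂₁ * X) := eq_neg_of_add_eq_zero_right h4
  rw [h5, Matrix.transpose_neg, Matrix.transpose_mul, h1] at h2
  have h7 : N = (Matrix.fromCols 1 (-X))ᵀ * N.toBlocks₁₁ * Matrix.fromCols 1 (-X) := by
    conv_lhs => rw [← N.fromBlocks_toBlocks, h6, h5, h2]
    rw [Matrix.transpose_fromCols, Matrix.fromRows_mul, Matrix.fromRows_mul_fromCols]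
    simp
  rw [h7]
  exact matb_psd h _

end Vale.Agent.P231
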