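import Vale.Agent.P231.JacA
import Vale.Agent.P231.MatB

/-! Behaviour at the conjugate time. -/

open scoped ContDiff Topology Matrix
open Filter Set

noncomputable section

namespace Vale.Agent.P231

variable {α β : Type} [Fintype α] [DecidableEq α] [Fintype β] [DecidableEq β] {D : ℝ}
  {C A : ℝ → Matrix (α ⊕ β) (α ⊕ β) ℝ}

/-- The scaling matrix. -/
def Dg (α β : Type) [DecidableEq α] [DecidableEq β] (x : ℝ) : Matrix (α ⊕ β) (α ⊕ β) ℝ :=
  Matrix.fromBlocks 1 0 0 (x • 1)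

omit [Fintype α] [Fintype β] in
lemma jacb_Dg_eq (x : ℝ) :
    Dg α β x = Matrix.diagonal (Sum.elim (fun _ => (1 : ℝ)) (fun _ => x)) := by
  ext i j
  rcases i with i | i <;> rcases j with j | j <;>
    simp [Dg, Matrix.diagonal_apply, Matrix.one_apply]

/-- A smooth function vanishing to second order. -/
lemma jacb_taylor {f : ℝ → ℝ} (hf : ContDiff ℝ ∞ f) {a : ℝ} (h0 : f a = 0)
    (h1 : HasDerivAt f 0 a) :
    ∃ q : ℝ, Tendsto (fun t => f t / (t - a) ^ 2) (𝓝[≠] a) (𝓝 q) := by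
  have hd : Differentiable ℝ f := hf.differentiable (by simp)
  have hd2 : Differentiable ℝ (deriv f) := by
    have := (contDiff_infty_iff_deriv.mp hf).2
    exact this.differentiable (by simp)
  refine ⟨deriv (deriv f) a / 2, ?_⟩
  have hs := (hd2 a).hasDerivAt
  rw [hasDerivAt_iff_tendsto_slope] at hs
  refine HasDerivAt.lhopital_zero_nhdsNE (f' := deriv f) (g' := fun t => 2 * (t - a))
    (Eventually.of_forall fun t => (hd t).hasDerivAt) (Eventually.of_forall fun t => ?_) ?_ ?_ ?_ ?_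
  · have := ((hasDerivAt_id t).sub_const a).fun_pow 2
    simpa using this
  · filter_upwards [self_mem_nhdsWithin] with t ht
    exact mul_ne_zero two_ne_zero (sub_ne_zero.mpr ht)
  · have := hd.continuous.tendsto a
    rw [h0] at this
    exact this.mono_left nhdsWithin_le_nhds
  · have : Tendsto (fun t : ℝ => (t - a) ^ 2) (𝓝 a) (𝓝 ((a - a) ^ 2)) :=
      ((continuous_id.sub continuous_const).pow 2).tendsto a
    simp only [sub_self, ne_eq, OfNat.ofNat_ne_zero, not_false_eq_true, zero_pow] at this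
    exact this.mono_left nhdsWithin_le_nhds
  · refine (hs.div_const 2).congr fun t => ?_
    rw [slope_def_field, h1.deriv, sub_zero, div_div, mul_comm]

lemma jacb_slope {f : ℝ → ℝ} {a q : ℝ} (h0 : f a = 0) (h1 : HasDerivAt f q a) :
    Tendsto (fun t => (t - a)⁻¹ * f t) (𝓝[≠] a) (𝓝 q) := by
  rw [hasDerivAt_iff_tendsto_slope] at h1
  refine h1.congr fun t => ?_
  rw [slope_def_field, h0, sub_zero, div_eq_inv_mul]

omit [DecidableEq α] [DecidableEq β] in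
lemma jacb_gm_dot (t : ℝ) (w w' : α ⊕ β → ℝ) :
    w ⬝ᵥ gm A t *ᵥ w' = Gm C A t 0 w 0 w' := by
  simp only [gm, Gm, Matrix.mulVec_zero, zero_add]
  rw [← Matrix.mulVec_mulVec, Matrix.dotProduct_mulVec, Matrix.vecMul_transpose]

lemma jacb_gm_apply (t : ℝ) (i j : α ⊕ β) :
    gm A t i j = Gm C A t 0 (Pi.single i 1) 0 (Pi.single j 1) := by
  rw [← jacb_gm_dot]
  simp

lemma jacb_AC_apply (t : ℝ) (i j : α ⊕ β) :
    ((A t)ᵀ * C t) i j = Gm C A t 0 (Pi.single i 1) (Pi.single j 1) 0 := by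
  simp only [Gm, Matrix.mulVec_zero, zero_add, add_zero]
  simp [Matrix.mul_apply, dotProduct]

omit [DecidableEq α] [DecidableEq β] in
lemma jacb_Gm_comm (t : ℝ) (y w y' w' : α ⊕ β → ℝ) :
    Gm C A t y w y' w' = Gm C A t y' w' y w := dotProduct_comm _ _

lemma Jac.jacb_first (h : Jac D C A) {w : α ⊕ β → ℝ} (hw : A D *ᵥ w = 0) (y' w' : α ⊕ β → ℝ) :
    Gm C A D 0 w y' w' = 0 ∧ HasDerivAt (fun t => Gm C A t 0 w y' w') (w ⬝ᵥ y') D := by
  refine ⟨by simp [Gm, hw], ?_⟩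
  have := h.deriv D 0 w (by simp [hw]) y' w'
  simpa using this

lemma Jac.jacb_second (h : Jac D C A) {w : α ⊕ β → ℝ} (hw : A D *ᵥ w = 0) (w' : α ⊕ β → ℝ) :
    ∃ q : ℝ, Tendsto (fun t => Gm C A t 0 w 0 w' / (t - D) ^ 2) (𝓝[≠] D) (𝓝 q) := by
  obtain ⟨h0, h1⟩ := h.jacb_first hw 0 w'
  rw [dotProduct_zero] at h1
  exact jacb_taylor (h.smooth 0 w 0 w') h0 h1

lemma Jac.jacb_second_pos (h : Jac D C A) {w : α ⊕ β → ℝ} (hw : A D *ᵥ w = 0) (hw0 : w ≠ 0)
    {q : ℝ} (hq : Tendsto (fun t => Gm C A t 0 w 0 w / (t - D) ^ 2) (𝓝[≠] D) (𝓝 q)) : 0 < q := by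
  obtain ⟨h0, h1⟩ := h.jacb_first hw w 0
  have h2 := (jacb_slope h0 h1).pow 2
  have h3 : Tendsto (fun t => Gm C A t w 0 w 0) (𝓝[≠] D) (𝓝 (Gm C A D w 0 w 0)) :=
    ((h.smooth w 0 w 0).continuous.tendsto D).mono_left nhdsWithin_le_nhds
  have h4 : (w ⬝ᵥ w) ^ 2 ≤ q * Gm C A D w 0 w 0 := by
    refine le_of_tendsto_of_tendsto' h2 (hq.mul h3) fun t => ?_
    have hcs : Gm C A t 0 w w 0 ^ 2 ≤ Gm C A t 0 w 0 w * Gm C A t w 0 w 0 := by
      simp only [Gm, dotProduct]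
      have := Finset.sum_mul_sq_le_sq_mul_sq Finset.univ (C t *ᵥ 0 + A t *ᵥ w)
        (C t *ᵥ w + A t *ᵥ 0)
      simpa only [sq] using this
    rw [mul_pow, div_mul_eq_mul_div, inv_pow, ← div_eq_inv_mul]
    exact div_le_div_of_nonneg_right hcs (sq_nonneg _)
  have h5 : 0 < w ⬝ᵥ w := by
    rcases (dotProduct_self_star_nonneg w).lt_or_eq with h6 | h6
    · simpa using h6
    · exact absurd (dotProduct_self_eq_zero.mp (by simpa using h6.symm)) hw0
  have h6 : 0 ≤ Gm C A D w 0 w 0 := by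
    simp only [Gm, dotProduct]
    exact Finset.sum_nonneg fun i _ => mul_self_nonneg _
  by_contra hq0
  have h7 : q * Gm C A D w 0 w 0 ≤ 0 := mul_nonpos_of_nonpos_of_nonneg (not_lt.mp hq0) h6
  nlinarith [pow_pos h5 2]

lemma jacb_single_ker (ha : Adapted (A D)) (b : β) :
    A D *ᵥ Pi.single (Sum.inr b) (1 : ℝ) = 0 :=
  (ha _).mpr fun a => by simp

/-- Blocks of the rescaled Gram matrix at `t → D`: `g₁₁ → g₁₁ D` (positive definite by
`Adapted`), `g₁₂ / (t - D) → 0` (`deriv` with `y = y' = 0`), `g₂₂ / (t - D)² → q = g₂₂'' / 2`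
(Taylor; `g₂₂ D = 0`, `g₂₂' D = 0`). `q` is positive definite: for `w = Sum.elim 0 k`,
Cauchy-Schwarz gives `Gm t 0 w w 0 ^ 2 ≤ Gm t 0 w 0 w * Gm t w 0 w 0`, and
`Gm t 0 w w 0 / (t - D) → w ⬝ w`. -/
theorem Jac.tendsto_scaled (h : Jac D C A) (ha : Adapted (A D)) :
    ∃ G₀ : Matrix (α ⊕ β) (α ⊕ β) ℝ, G₀.PosDef ∧ Tendsto
      (fun t => Dg α β (t - D)⁻¹ * gm A t * Dg α β (t - D)⁻¹) (𝓝[≠] D) (𝓝 G₀) := by
  have hex : ∀ i j : α ⊕ β, ∃ q : ℝ, Tendsto
      (fun t => (Dg α β (t - D)⁻¹ * gm A t * Dg α β (t - D)⁻¹) i j) (𝓝[≠] D) (𝓝 q) := by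
    intro i j
    simp only [jacb_Dg_eq, Matrix.mul_diagonal, Matrix.diagonal_mul]
    rcases i with i | i <;> rcases j with j | j
    · refine ⟨gm A D (Sum.inl i) (Sum.inl j), ?_⟩
      simp only [Sum.elim_inl, one_mul, mul_one]
      exact ((h.contDiff_gm _ _).continuous.tendsto D).mono_left nhdsWithin_le_nhds
    · obtain ⟨h0, h1⟩ := h.jacb_first (jacb_single_ker ha j) 0 (Pi.single (Sum.inl i) 1)
      refine ⟨_, (jacb_slope h0 h1).congr fun t => ?_⟩
      simp only [Sum.elim_inl, Sum.elim_inr, one_mul]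
      rw [jacb_gm_apply (C := C), jacb_Gm_comm, mul_comm]
    · obtain ⟨h0, h1⟩ := h.jacb_first (jacb_single_ker ha i) 0 (Pi.single (Sum.inl j) 1)
      refine ⟨_, (jacb_slope h0 h1).congr fun t => ?_⟩
      simp only [Sum.elim_inl, Sum.elim_inr, mul_one]
      rw [jacb_gm_apply (C := C)]
    · obtain ⟨q, hq⟩ := h.jacb_second (jacb_single_ker ha i) (Pi.single (Sum.inr j) 1)
      refine ⟨q, hq.congr fun t => ?_⟩
      simp only [Sum.elim_inr]
      rw [jacb_gm_apply (C := C), div_eq_mul_inv, ← inv_pow]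
      ring
  choose G₀ hG₀ using hex
  have hT : Tendsto (fun t => Dg α β (t - D)⁻¹ * gm A t * Dg α β (t - D)⁻¹) (𝓝[≠] D)
      (𝓝 (Matrix.of G₀)) := tendsto_pi_nhds.mpr fun i => tendsto_pi_nhds.mpr fun j => hG₀ i j
  refine ⟨Matrix.of G₀, ?_, hT⟩
  refine Matrix.PosDef.of_dotProduct_mulVec_pos ?_ fun x hx => ?_
  · ext i j
    simp only [Matrix.conjTranspose_apply, Matrix.of_apply, star_trivial]
    refine tendsto_nhds_unique (hG₀ j i) ((hG₀ i j).congr fun t => ?_)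
    simp only [jacb_Dg_eq, Matrix.mul_diagonal, Matrix.diagonal_mul]
    rw [jacb_gm_apply (C := C), jacb_gm_apply (C := C), jacb_Gm_comm]
    ring
  · set x₁ : α ⊕ β → ℝ := Sum.elim (fun a => x (Sum.inl a)) 0 with hx₁
    set x₂ : α ⊕ β → ℝ := Sum.elim 0 (fun b => x (Sum.inr b)) with hx₂
    have hk : A D *ᵥ x₂ = 0 := (ha _).mpr fun a => by simp [hx₂]
    have hc : Continuous fun M : Matrix (α ⊕ β) (α ⊕ β) ℝ => x ⬝ᵥ M *ᵥ x := by fun_prop
    have h1 := (hc.tendsto _).comp hT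
    obtain ⟨q, hq⟩ := h.jacb_second hk x₂
    obtain ⟨h0, h2⟩ := h.jacb_first hk 0 x₁
    rw [dotProduct_zero] at h2
    have h3 := jacb_slope h0 h2
    have h4 : Tendsto (fun t => Gm C A t 0 x₁ 0 x₁) (𝓝[≠] D) (𝓝 (Gm C A D 0 x₁ 0 x₁)) :=
      ((h.smooth 0 x₁ 0 x₁).continuous.tendsto D).mono_left nhdsWithin_le_nhds
    have h5 := (h4.add (h3.const_mul 2)).add hq
    have h6 : x ⬝ᵥ Matrix.of G₀ *ᵥ x = Gm C A D 0 x₁ 0 x₁ + 2 * 0 + q := by
      refine tendsto_nhds_unique h1 (h5.congr fun t => ?_)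
      have hv : Dg α β (t - D)⁻¹ *ᵥ x = x₁ + (t - D)⁻¹ • x₂ := by
        ext i
        rcases i with i | i <;> simp [jacb_Dg_eq, Matrix.mulVec_diagonal, hx₁, hx₂]
      have hv' : x ᵥ* Dg α β (t - D)⁻¹ = x₁ + (t - D)⁻¹ • x₂ := by
        ext i
        rcases i with i | i <;> simp [jacb_Dg_eq, Matrix.vecMul_diagonal, hx₁, hx₂, mul_comm]
      simp only [Function.comp]
      rw [← Matrix.mulVec_mulVec, ← Matrix.mulVec_mulVec, Matrix.dotProduct_mulVec, hv, hv',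
        jacb_gm_dot (C := C)]
      simp only [Gm, Matrix.mulVec_zero, zero_add, Matrix.mulVec_add, Matrix.mulVec_smul,
        add_dotProduct, dotProduct_add, smul_dotProduct, dotProduct_smul, smul_eq_mul]
      rw [dotProduct_comm (A t *ᵥ x₁) (A t *ᵥ x₂), div_eq_mul_inv, ← inv_pow]
      ring
    simp only [star_trivial]
    rw [h6]
    have h7 : 0 ≤ Gm C A D 0 x₁ 0 x₁ := by
      simp only [Gm, dotProduct]
      exact Finset.sum_nonneg fun i _ => mul_self_nonneg _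
    by_cases h8 : x₂ = 0
    · have h9 : q = 0 := by
        refine tendsto_nhds_unique hq ?_
        simp [h8, Gm]
      have h10 : Gm C A D 0 x₁ 0 x₁ ≠ 0 := by
        intro h11
        simp only [Gm, Matrix.mulVec_zero, zero_add] at h11
        have h12 := (ha _).mp (dotProduct_self_eq_zero.mp h11)
        apply hx
        ext i
        rcases i with i | i
        · simpa [hx₁] using h12 i
        · simpa [hx₂] using congrFun h8 (Sum.inr i)
      have := lt_of_le_of_ne h7 h10.symm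
      linarith
    · have := h.jacb_second_pos hk h8 hq
      linarith

/-- The rows of the second block of `Aᵀ C` vanish at `D` and are differentiable. -/
theorem Jac.tendsto_scaled_AC (h : Jac D C A) (ha : Adapted (A D)) :
    ∃ H₀ : Matrix (α ⊕ β) (α ⊕ β) ℝ, Tendsto
      (fun t => Dg α β (t - D)⁻¹ * ((A t)ᵀ * C t)) (𝓝[≠] D) (𝓝 H₀) := by
  have hex : ∀ i j : α ⊕ β, ∃ q : ℝ, Tendsto
      (fun t => (Dg α β (t - D)⁻¹ * ((A t)ᵀ * C t)) i j) (𝓝[≠] D) (𝓝 q) := by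
    intro i j
    simp only [jacb_Dg_eq, Matrix.diagonal_mul]
    rcases i with i | i
    · refine ⟨((A D)ᵀ * C D) (Sum.inl i) j, ?_⟩
      simp only [Sum.elim_inl, one_mul]
      exact ((h.contDiff_AC _ _).continuous.tendsto D).mono_left nhdsWithin_le_nhds
    · obtain ⟨h0, h1⟩ := h.jacb_first (jacb_single_ker ha i) (Pi.single j 1) 0
      refine ⟨_, (jacb_slope h0 h1).congr fun t => ?_⟩
      simp only [Sum.elim_inr]
      rw [jacb_AC_apply]
  choose H₀ hH₀ using hex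
  exact ⟨Matrix.of H₀, tendsto_pi_nhds.mpr fun i => tendsto_pi_nhds.mpr fun j => hH₀ i j⟩

lemma jacb_contAt_inv {n : Type} [Fintype n] [DecidableEq n] {G : Matrix n n ℝ} (hG : G.det ≠ 0) :
    ContinuousAt (fun M : Matrix n n ℝ => M⁻¹) G := by
  refine continuousAt_matrix_inv G ?_
  have : (Ring.inverse : ℝ → ℝ) = fun x => x⁻¹ := funext fun x => Ring.inverse_eq_inv x
  rw [this]
  exact continuousAt_inv₀ hG

lemma jacb_Dg_mul {x : ℝ} (hx : x ≠ 0) : Dg α β x * Dg α β x⁻¹ = 1 := by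
  rw [jacb_Dg_eq, jacb_Dg_eq, Matrix.diagonal_mul_diagonal, ← Matrix.diagonal_one]
  congr 1
  ext i
  rcases i with i | i <;> simp [hx]

lemma jacb_inv_eq {x : ℝ} (hx : x ≠ 0) (G : Matrix (α ⊕ β) (α ⊕ β) ℝ) :
    G⁻¹ = Dg α β x⁻¹ * (Dg α β x⁻¹ * G * Dg α β x⁻¹)⁻¹ * Dg α β x⁻¹ := by
  have h1 : (Dg α β x⁻¹)⁻¹ = Dg α β x := Matrix.inv_eq_left_inv (jacb_Dg_mul hx)
  have h2 : Dg α β x⁻¹ * Dg α β x = 1 := by
    have := jacb_Dg_mul (α := α) (β := β) (inv_ne_zero hx)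
    rwa [inv_inv] at this
  rw [Matrix.mul_inv_rev, Matrix.mul_inv_rev, h1]
  simp only [← Matrix.mul_assoc]
  rw [h2, Matrix.one_mul, Matrix.mul_assoc, jacb_Dg_mul hx, Matrix.mul_one]

lemma jacb_block_left (x : ℝ) (M : Matrix (α ⊕ β) (α ⊕ β) ℝ) :
    (Dg α β x * M).toBlocks₁₁ = M.toBlocks₁₁ := by
  ext i j
  simp [jacb_Dg_eq, Matrix.toBlocks₁₁, Matrix.diagonal_mul]

lemma jacb_block_right (x : ℝ) (M : Matrix (α ⊕ β) (α ⊕ β) ℝ) :
    (M * Dg α β x).toBlocks₁₁ = M.toBlocks₁₁ := by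
  ext i j
  simp [jacb_Dg_eq, Matrix.toBlocks₁₁, Matrix.mul_diagonal]

lemma jacb_block_22 (x : ℝ) (M : Matrix (α ⊕ β) (α ⊕ β) ℝ) :
    (Dg α β x * M * Dg α β x).toBlocks₂₂ = x ^ 2 • M.toBlocks₂₂ := by
  ext i j
  simp only [jacb_Dg_eq, Matrix.toBlocks₂₂, Matrix.mul_diagonal, Matrix.diagonal_mul,
    Matrix.of_apply, Sum.elim_inr, Matrix.smul_apply, smul_eq_mul]
  ring

omit [Fintype α] [DecidableEq α] [Fintype β] [DecidableEq β] in
lemma jacb_cont11 : Continuous fun M : Matrix (α ⊕ β) (α ⊕ β) ℝ => M.toBlocks₁₁ :=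
  continuous_matrix fun i j => continuous_id.matrix_elem (Sum.inl i) (Sum.inl j)

omit [Fintype α] [DecidableEq α] [Fintype β] [DecidableEq β] in
lemma jacb_cont22 : Continuous fun M : Matrix (α ⊕ β) (α ⊕ β) ℝ => M.toBlocks₂₂ :=
  continuous_matrix fun i j => continuous_id.matrix_elem (Sum.inr i) (Sum.inr j)

lemma jacb_gm_pd {n : Type} [Fintype n] [DecidableEq n] {A : ℝ → Matrix n n ℝ} {t : ℝ}
    (ht : (A t).det ≠ 0) : (gm A t).PosDef := by
  have h1 : IsUnit (A t) := (Matrix.isUnit_iff_isUnit_det _).mpr (Ne.isUnit ht)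
  have := Matrix.PosDef.conjTranspose_mul_self (A t) (Matrix.mulVec_injective_iff_isUnit.mpr h1)
  simpa [gm] using this

/-- With `Ĝ t = Dg⁻¹ g Dg⁻¹`: `g⁻¹ = Dg⁻¹ Ĝ⁻¹ Dg⁻¹` so `(g⁻¹)₁₁ = (Ĝ⁻¹)₁₁ → (G₀⁻¹)₁₁`, and
`(Sl)₁₁ = -(Ĝ⁻¹ (Dg⁻¹ Aᵀ C))₁₁`. Define `P`, `S₁` by `Function.update` at `D`. -/
theorem Jac.exists_sdata (h : Jac D C A) (ha : Adapted (A D)) :
    ∃ P S₁ : ℝ → Matrix α α ℝ, SData D (gm A) (Sl C A) P S₁ := by
  obtain ⟨G₀, hG₀, hT⟩ := h.tendsto_scaled ha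
  obtain ⟨H₀, hH⟩ := h.tendsto_scaled_AC ha
  have hD := h.pos
  have hpd : ∀ t ∈ Ioo 0 (2 * D), t ≠ D → (gm A t).PosDef := fun t ht htD =>
    jacb_gm_pd (h.det_ne ht htD)
  have hcont : Continuous (gm A) := continuous_matrix fun i j => (h.contDiff_gm i j).continuous
  have hTi := (jacb_contAt_inv hG₀.det_pos.ne').tendsto.comp hT
  have hev : ∀ᶠ t in 𝓝[≠] D, t ∈ Ioo 0 (2 * D) ∧ t ≠ D := by
    have h1 : Ioo 0 (2 * D) ∈ 𝓝 D := Ioo_mem_nhds hD (by linarith)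
    filter_upwards [nhdsWithin_le_nhds h1, self_mem_nhdsWithin] with t h2 h3
    exact ⟨h2, h3⟩
  refine ⟨Function.update (fun t => (gm A t)⁻¹.toBlocks₁₁) D G₀⁻¹.toBlocks₁₁,
    Function.update (fun t => (Sl C A t).toBlocks₁₁) D (-(G₀⁻¹ * H₀)).toBlocks₁₁,
    hD, hpd, hcont, fun t ht htD => h.Sl_symm (h.det_ne ht htD),
    fun t ht htD => h.hasDerivAt_Sl (h.det_ne ht htD), fun t ht => by simp [ht],
    fun t ht => by simp [ht], fun t ht => ?_, fun t ht => ?_, fun t ht => ?_,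
    h.tendsto_gm.mono_left (nhdsGT_le_nhdsNE 0), ?_, ?_⟩
  · by_cases htD : t = D
    · subst htD
      simpa using (posDef_blocks hG₀.inv).1
    · simpa [htD] using (posDef_blocks (hpd t ht htD).inv).1
  · refine ContinuousAt.continuousWithinAt ?_
    by_cases htD : t = D
    · subst htD
      rw [continuousAt_update_same]
      refine ((jacb_cont11.tendsto _).comp hTi).congr' ?_
      filter_upwards [self_mem_nhdsWithin] with σ hσ
      have h1 : σ - t ≠ 0 := sub_ne_zero.mpr hσ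
      simp only [Function.comp]
      rw [jacb_inv_eq h1 (gm A σ), jacb_block_right, jacb_block_left]
    · rw [continuousAt_update_of_ne htD]
      exact jacb_cont11.continuousAt.comp
        ((jacb_contAt_inv (hpd t ht htD).det_pos.ne').comp hcont.continuousAt)
  · refine ContinuousAt.continuousWithinAt ?_
    by_cases htD : t = D
    · subst htD
      rw [continuousAt_update_same]
      refine ((jacb_cont11.tendsto _).comp (hTi.mul hH).neg).congr' ?_
      filter_upwards [hev] with σ hσ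
      have h1 : σ - t ≠ 0 := sub_ne_zero.mpr hσ.2
      simp only [Function.comp]
      rw [Sl_eq (h.det_ne hσ.1 hσ.2), jacb_inv_eq h1 (gm A σ)]
      generalize (Dg α β (σ - t)⁻¹ * gm A σ * Dg α β (σ - t)⁻¹)⁻¹ = M
      rw [Matrix.mul_assoc (_ * M), Matrix.mul_assoc _ M, ← Matrix.mul_neg (Dg α β (σ - t)⁻¹),
        jacb_block_left]
    · rw [continuousAt_update_of_ne htD]
      refine jacb_cont11.continuousAt.comp ?_
      exact continuousAt_pi.mpr fun i => continuousAt_pi.mpr fun j =>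
        (h.hasDerivAt_Sl (h.det_ne ht htD) i j).continuousAt
  · have h1 : Tendsto (fun t : ℝ => t - 2 * D) (𝓝[<] (2 * D)) (𝓝[≠] 0) := by
      refine tendsto_nhdsWithin_iff.mpr ⟨?_, ?_⟩
      · have : Tendsto (fun t : ℝ => t - 2 * D) (𝓝 (2 * D)) (𝓝 (2 * D - 2 * D)) :=
          (continuous_id.sub continuous_const).tendsto _
        rw [sub_self] at this
        exact this.mono_left nhdsWithin_le_nhds
      · filter_upwards [self_mem_nhdsWithin] with t ht
        exact sub_ne_zero.mpr (ne_of_lt ht)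
    refine (h.tendsto_gm.comp h1).congr fun t => ?_
    simp only [Function.comp]
    rw [← h.gm_per (t - 2 * D), sub_add_cancel, ← neg_sub t, neg_sq]
  · refine ⟨G₀.toBlocks₂₂.det, (posDef_blocks hG₀).2.det_pos, ?_⟩
    have hc : Continuous fun M : Matrix (α ⊕ β) (α ⊕ β) ℝ => M.toBlocks₂₂.det :=
      jacb_cont22.matrix_det
    refine ((hc.tendsto _).comp hT).congr fun t => ?_
    simp only [Function.comp]
    rw [jacb_block_22, Matrix.det_smul, ← pow_mul, inv_pow, div_eq_inv_mul]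

end Vale.Agent.P231
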