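import Vale.Agent.P231.MatB

/-! Roots of the two determinants. -/

open scoped ContDiff Topology Matrix
open Filter Set

noncomputable section

namespace Vale.Agent.P231

variable {α β : Type} [Fintype α] [DecidableEq α] [Fintype β] [DecidableEq β] {D : ℝ}
  {g S : ℝ → Matrix (α ⊕ β) (α ⊕ β) ℝ} {P S₁ : ℝ → Matrix α α ℝ}

theorem root_congr {φ ψ : ℝ → ℝ} {l a b : ℝ} (h : Good φ l a b)
    (e : ∀ t ∈ Ioo 0 l, ψ t = φ t) : Good ψ l a b where
  lpos := h.lpos
  pos0 := h.pos0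
  pos1 := h.pos1
  cont := h.cont.congr e
  pos := fun t ht => by
    rw [e t ht]
    exact h.pos t ht
  left := h.left.congr' (by
    filter_upwards [Ioo_mem_nhdsGT h.lpos] with t ht
    rw [e t ht])
  right := h.right.congr' (by
    filter_upwards [Ioo_mem_nhdsLT h.lpos] with t ht
    rw [e t ht])

theorem root_refl (l : ℝ) : Tendsto (fun t => l - t) (𝓝[<] l) (𝓝[>] 0) := by
  refine tendsto_nhdsWithin_iff.mpr ⟨?_, ?_⟩
  · have : Tendsto (fun t => l - t) (𝓝 l) (𝓝 (l - l)) :=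
      (continuous_const.sub continuous_id).tendsto l
    rw [sub_self] at this
    exact this.mono_left nhdsWithin_le_nhds
  · filter_upwards [self_mem_nhdsWithin] with t ht
    exact sub_pos.mpr (show t < l from ht)

theorem root_sin {l : ℝ} (hl : 0 < l) :
    Good (fun t => l / Real.pi * Real.sin (Real.pi * t / l)) l 1 1 := by
  have hπ := Real.pi_pos
  have hleft : Tendsto (fun t => l / Real.pi * Real.sin (Real.pi * t / l) / t) (𝓝[>] 0) (𝓝 1) := by
    have h1 : HasDerivAt (fun t => l / Real.pi * Real.sin (Real.pi * t / l))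
        (l / Real.pi * (Real.cos (Real.pi * 0 / l) * (Real.pi * 1 / l))) 0 :=
      (((hasDerivAt_id (0 : ℝ)).const_mul Real.pi).div_const l).sin.const_mul _
    have e : l / Real.pi * (Real.cos (Real.pi * 0 / l) * (Real.pi * 1 / l)) = 1 := by
      rw [mul_zero, zero_div, Real.cos_zero]
      field_simp
    rw [e, hasDerivAt_iff_tendsto_slope] at h1
    refine (h1.mono_left (nhdsGT_le_nhdsNE 0)).congr fun t => ?_
    simp [slope_def_field]
  refine ⟨hl, one_pos, one_pos, by fun_prop, fun t ht => ?_, hleft, ?_⟩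
  · refine mul_pos (div_pos hl hπ) (Real.sin_pos_of_pos_of_lt_pi (div_pos (mul_pos hπ ht.1) hl) ?_)
    rw [div_lt_iff₀ hl]
    exact mul_lt_mul_of_pos_left ht.2 hπ
  · refine (hleft.comp (root_refl l)).congr fun t => ?_
    have e : Real.pi * (l - t) / l = Real.pi - Real.pi * t / l := by field_simp
    simp only [Function.comp_apply, e, Real.sin_pi_sub]

theorem root_pow {n : ℕ} (hn : 0 < n) {x : ℝ} (hx : 0 ≤ x) :
    ((x ^ (((2 * n : ℕ) : ℝ)⁻¹)) ^ 2) ^ n = x := by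
  rw [← pow_mul]
  exact Real.rpow_inv_natCast_pow hx (by omega)

theorem root_good {f : ℝ → ℝ} {l a b : ℝ} {n : ℕ} (hn : 0 < n) (hl : 0 < l) (ha : 0 < a)
    (hb : 0 < b) (hc : ContinuousOn f (Ioo 0 l)) (hp : ∀ t ∈ Ioo 0 l, 0 < f t)
    (h0 : Tendsto (fun t => f t / t ^ (2 * n)) (𝓝[>] 0) (𝓝 a))
    (h1 : Tendsto (fun t => f t / (l - t) ^ (2 * n)) (𝓝[<] l) (𝓝 b)) :
    Good (fun t => f t ^ (((2 * n : ℕ) : ℝ)⁻¹)) l (a ^ (((2 * n : ℕ) : ℝ)⁻¹))
      (b ^ (((2 * n : ℕ) : ℝ)⁻¹)) := by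
  have key : ∀ x τ : ℝ, 0 < x → 0 < τ →
      (x / τ ^ (2 * n)) ^ (((2 * n : ℕ) : ℝ)⁻¹) = x ^ (((2 * n : ℕ) : ℝ)⁻¹) / τ := by
    intro x τ hx hτ
    rw [Real.div_rpow hx.le (pow_pos hτ _).le, Real.pow_rpow_inv_natCast hτ.le (by omega)]
  refine ⟨hl, Real.rpow_pos_of_pos ha _, Real.rpow_pos_of_pos hb _,
    hc.rpow_const fun t ht => Or.inl (hp t ht).ne', fun t ht => Real.rpow_pos_of_pos (hp t ht) _,
    (h0.rpow_const (Or.inl ha.ne')).congr' ?_, (h1.rpow_const (Or.inl hb.ne')).congr' ?_⟩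
  · filter_upwards [Ioo_mem_nhdsGT hl] with t ht
    exact key _ _ (hp t ht) ht.1
  · filter_upwards [Ioo_mem_nhdsLT hl] with t ht
    exact key _ _ (hp t ht) (sub_pos.mpr ht.2)

theorem root_lim11 {F : Filter ℝ} {m : ℝ → Matrix (α ⊕ β) (α ⊕ β) ℝ} (h : Tendsto m F (𝓝 1)) :
    Tendsto (fun t => (((m t)⁻¹).toBlocks₁₁.det)⁻¹) F (𝓝 1) := by
  have h1 : ContinuousAt (fun M : Matrix (α ⊕ β) (α ⊕ β) ℝ => M⁻¹) 1 := by
    refine continuousAt_matrix_inv _ ?_
    rw [Ring.inverse_eq_inv', Matrix.det_one]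
    exact continuousAt_inv₀ one_ne_zero
  have h2 : Continuous fun M : Matrix (α ⊕ β) (α ⊕ β) ℝ => M.toBlocks₁₁.det :=
    (continuous_matrix fun i j => continuous_apply_apply (Sum.inl i) (Sum.inl j)).matrix_det
  have h3 := ((h2.tendsto _).comp (h1.tendsto.comp h)).inv₀ (by
    rw [inv_one, ← Matrix.fromBlocks_one, Matrix.toBlocks_fromBlocks₁₁, Matrix.det_one]
    exact one_ne_zero)
  rw [inv_one, ← Matrix.fromBlocks_one, Matrix.toBlocks_fromBlocks₁₁, Matrix.det_one,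
    inv_one] at h3
  exact h3

theorem root_cont22 : Continuous fun M : Matrix (α ⊕ β) (α ⊕ β) ℝ => M.toBlocks₂₂.det :=
  (continuous_matrix fun i j => continuous_apply_apply (Sum.inr i) (Sum.inr j)).matrix_det

theorem root_lim22 {F : Filter ℝ} {τ : ℝ → ℝ} (h : Tendsto (fun t => (τ t ^ 2)⁻¹ • g t) F (𝓝 1)) :
    Tendsto (fun t => (g t).toBlocks₂₂.det / τ t ^ (2 * Fintype.card β)) F (𝓝 1) := by
  have h3 := (root_cont22.tendsto _).comp h
  rw [← Matrix.fromBlocks_one, Matrix.toBlocks_fromBlocks₂₂, Matrix.det_one] at h3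
  refine h3.congr fun t => ?_
  have e : ((τ t ^ 2)⁻¹ • g t).toBlocks₂₂ = (τ t ^ 2)⁻¹ • (g t).toBlocks₂₂ := rfl
  rw [Function.comp_apply, e, Matrix.det_smul, inv_pow, ← pow_mul, div_eq_inv_mul]



/-- If `α` is nonempty `φ₂ = (det P) ^ (-1 / (2 card α))`, otherwise
`φ₂ t = 2 D / π sin (π t / (2 D))`. Near `0`, `t² P t = ((t⁻² g)⁻¹)₁₁ → 1`; the same near `2 D`. -/
theorem SData.exists_root2 (h : SData D g S P S₁) : ∃ φ₂ : ℝ → ℝ, Good φ₂ (2 * D) 1 1 ∧
    ∀ t ∈ Ioo 0 (2 * D), ((φ₂ t ^ 2)⁻¹) ^ Fintype.card α = (P t).det := by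
  have hD := h.pos
  rcases Nat.eq_zero_or_pos (Fintype.card α) with h0 | h0
  · have : IsEmpty α := Fintype.card_eq_zero_iff.1 h0
    exact ⟨_, root_sin (by linarith), fun t _ => by rw [h0, pow_zero, Matrix.det_isEmpty]⟩
  have hp : ∀ t ∈ Ioo 0 (2 * D), 0 < (P t).det := fun t ht => (h.P_pd t ht).det_pos
  have key : ∀ t τ : ℝ, t ≠ D → τ ≠ 0 → t ∈ Ioo 0 (2 * D) →
      ((((τ ^ 2)⁻¹ • g t)⁻¹).toBlocks₁₁.det)⁻¹ = ((P t).det)⁻¹ / τ ^ (2 * Fintype.card α) := by
    intro t τ ht hτ ht'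
    have hu : IsUnit (g t).det := isUnit_iff_ne_zero.mpr (h.pd t ht' ht).det_pos.ne'
    have hτ2 : τ ^ 2 ≠ 0 := pow_ne_zero 2 hτ
    have e : ((τ ^ 2)⁻¹ • g t)⁻¹ = τ ^ 2 • (g t)⁻¹ := by
      refine Matrix.inv_eq_left_inv ?_
      rw [Matrix.smul_mul, Matrix.mul_smul, smul_smul, mul_inv_cancel₀ hτ2, one_smul,
        Matrix.nonsing_inv_mul _ hu]
    have e2 : (τ ^ 2 • (g t)⁻¹).toBlocks₁₁ = τ ^ 2 • P t := by
      rw [h.P_eq t ht]
      rfl
    rw [e, e2, Matrix.det_smul, ← pow_mul, mul_inv, div_eq_mul_inv, mul_comm]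
  have hg := root_good (l := 2 * D) (f := fun t => ((P t).det)⁻¹) (a := 1) (b := 1) h0
    (by linarith) one_pos one_pos
    ((continuous_id.matrix_det.comp_continuousOn h.P_cont).inv₀ fun t ht => (hp t ht).ne')
    (fun t ht => inv_pos.mpr (hp t ht)) ?_ ?_
  · rw [Real.one_rpow] at hg
    refine ⟨_, hg, fun t ht => ?_⟩
    rw [inv_pow, root_pow h0 (inv_pos.mpr (hp t ht)).le, inv_inv]
  · refine (root_lim11 h.asym0).congr' ?_
    filter_upwards [Ioo_mem_nhdsGT hD] with t ht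
    exact key t t ht.2.ne ht.1.ne' ⟨ht.1, by linarith [ht.2]⟩
  · refine (root_lim11 h.asym2).congr' ?_
    filter_upwards [Ioo_mem_nhdsLT (show D < 2 * D by linarith)] with t ht
    exact key t (2 * D - t) ht.1.ne' (sub_pos.mpr ht.2).ne' ⟨by linarith [ht.1], ht.2⟩

/-- If `β` is nonempty `φ₁ = (det g₂₂) ^ (1 / (2 card β))`, otherwise
`φ₁ t = |D / π sin (π t / D)|` and `c = 1`. -/
theorem SData.exists_root1 (h : SData D g S P S₁) : ∃ (φ₁ : ℝ → ℝ) (c : ℝ), Good φ₁ D 1 c ∧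
    Good (fun σ => φ₁ (σ + D)) D c 1 ∧
    ∀ t ∈ Ioo 0 (2 * D), t ≠ D → (φ₁ t ^ 2) ^ Fintype.card β = (g t).toBlocks₂₂.det := by
  have hD := h.pos
  rcases Nat.eq_zero_or_pos (Fintype.card β) with h0 | h0
  · have : IsEmpty β := Fintype.card_eq_zero_iff.1 h0
    have h1 : Good (fun t => |D / Real.pi * Real.sin (Real.pi * t / D)|) D 1 1 :=
      root_congr (root_sin hD) fun t ht => abs_of_pos ((root_sin hD).pos t ht)
    refine ⟨_, 1, h1, root_congr h1 fun t _ => ?_,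
      fun t _ _ => by rw [h0, pow_zero, Matrix.det_isEmpty]⟩
    have e : Real.pi * (t + D) / D = Real.pi * t / D + Real.pi := by field_simp
    simp only [e, Real.sin_add_pi, mul_neg, abs_neg]
  obtain ⟨c, hc, hcD⟩ := h.asymD
  have hp : ∀ t ∈ Ioo 0 (2 * D), t ≠ D → 0 < (g t).toBlocks₂₂.det := fun t ht ht' =>
    (posDef_blocks (h.pd t ht ht')).2.det_pos
  have hcont : Continuous fun t => (g t).toBlocks₂₂.det := root_cont22.comp h.cont
  have hsh : ∀ x : ℝ, Tendsto (fun σ => σ + D) (𝓝 x) (𝓝 (x + D)) := fun x =>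
    (continuous_id.add continuous_const).tendsto x
  have g1 := root_good (l := D) (f := fun t => (g t).toBlocks₂₂.det) (a := 1) (b := c) h0 hD
    one_pos hc hcont.continuousOn
    (fun t ht => hp t ⟨ht.1, by linarith [ht.2]⟩ ht.2.ne) (root_lim22 (τ := fun t => t) h.asym0)
    ((hcD.mono_left (nhdsLT_le_nhdsNE D)).congr fun t => by
      rw [← neg_sub D t, Even.neg_pow (even_two_mul _)])
  have g2 := root_good (l := D) (f := fun σ => (g (σ + D)).toBlocks₂₂.det) (a := c) (b := 1) h0 hD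
    hc one_pos (hcont.comp (continuous_id.add continuous_const)).continuousOn
    (fun t ht => hp (t + D) ⟨by linarith [ht.1], by linarith [ht.2]⟩ (by linarith [ht.1])) ?_ ?_
  · rw [Real.one_rpow] at g1 g2
    exact ⟨_, _, g1, g2, fun t ht ht' => root_pow h0 (hp t ht ht').le⟩
  · have h1 : Tendsto (fun σ => σ + D) (𝓝[>] 0) (𝓝[≠] D) := by
      refine tendsto_nhdsWithin_iff.mpr ⟨?_, ?_⟩
      · have := hsh 0
        rw [zero_add] at this
        exact this.mono_left nhdsWithin_le_nhds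
      · filter_upwards [self_mem_nhdsWithin] with t ht
        have : 0 < t := ht
        exact (by linarith : D < t + D).ne'
    refine (hcD.comp h1).congr fun t => ?_
    simp only [Function.comp_apply, add_sub_cancel_right]
  · have h1 : Tendsto (fun σ => σ + D) (𝓝[<] D) (𝓝[<] (2 * D)) := by
      refine tendsto_nhdsWithin_iff.mpr ⟨?_, ?_⟩
      · have := hsh D
        rw [← two_mul] at this
        exact this.mono_left nhdsWithin_le_nhds
      · filter_upwards [self_mem_nhdsWithin] with t ht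
        have : t < D := ht
        exact (by linarith : t + D < 2 * D)
    refine ((root_lim22 (τ := fun t => 2 * D - t) h.asym2).comp h1).congr fun t => ?_
    have e : 2 * D - (t + D) = D - t := by ring
    simp only [Function.comp_apply, e]

/-- `det_blocks`. -/
theorem SData.exists_roots (h : SData D g S P S₁) :
    ∃ (φ₁ φ₂ : ℝ → ℝ) (c : ℝ), Roots D g P φ₁ φ₂ c := by
  obtain ⟨φ₂, g2, d2⟩ := h.exists_root2
  obtain ⟨φ₁, c, g1, g1', d1⟩ := h.exists_root1
  refine ⟨φ₁, φ₂, c, g2, g1, g1', d2, d1, fun t ht ht' => ?_⟩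
  have h1 := det_blocks (h.pd t ht ht')
  rw [← h.P_eq t ht', ← d2 t ht, ← d1 t ht ht', inv_pow] at h1
  have h2 : (φ₂ t ^ 2) ^ Fintype.card α ≠ 0 := pow_ne_zero _ (pow_ne_zero _ (g2.pos t ht).ne')
  rw [mul_inv_eq_iff_eq_mul₀ h2] at h1
  rw [h1]
  ring

end Vale.Agent.P231
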