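import Vale.Agent.P231.ScalB

/-! The maximum principle. -/

open scoped ContDiff Topology Matrix
open Filter Set

noncomputable section

namespace Vale.Agent.P231

variable {χ κ : ℝ → ℝ} {l : ℝ}

/-- Jensen. With `F s = log (κ s κ (s + u) / sin² Δ)`, `∫ F = -2 (Psi - K)` by periodicity of `κ`;
integrate `exp F ≥ exp a (1 + F - a)` for the mean value `a`. Equality forces `F = a` a.e. -/
theorem Circ.jensen (h : Circ χ κ l) {u : ℝ} (hu : u ∈ Ioo 0 l) :
    l * Real.exp (-2 * (Psi χ l u - ∫ s in (0 : ℝ)..l, Real.log (κ s)) / l) ≤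
      ∫ s in (0 : ℝ)..l, κ s * κ (s + u) / Real.sin (χ (s + u) - χ s) ^ 2 ∧
    (l * Real.exp (-2 * (Psi χ l u - ∫ s in (0 : ℝ)..l, Real.log (κ s)) / l) =
      ∫ s in (0 : ℝ)..l, κ s * κ (s + u) / Real.sin (χ (s + u) - χ s) ^ 2 →
      ∀ᵐ s, s ∈ Ioo 0 l → Real.sin (χ (s + u) - χ s) / √(κ s * κ (s + u)) =
        Real.exp ((Psi χ l u - ∫ s in (0 : ℝ)..l, Real.log (κ s)) / l)) := by
  obtain ⟨k₁, k₂, hk, hb⟩ := h.bdd
  obtain ⟨M, hM0, hM⟩ := h.scalB_abs
  have hl := h.lpos
  have hκ : ∀ s, 0 < κ s := fun s => hk.trans_le (hb s).1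
  have hs : ∀ x ∈ Ioo 0 Real.pi, Real.sin x ≠ 0 := fun x hx =>
    (Real.sin_pos_of_pos_of_lt_pi hx.1 hx.2).ne'
  have hsin : ∀ s, 0 < Real.sin (χ (s + u) - χ s) := fun s =>
    Real.sin_pos_of_pos_of_lt_pi (h.scalB_mem s hu).1 (h.scalB_mem s hu).2
  have hlog : ∀ s, |Real.log (κ s)| ≤ |Real.log k₁| + |Real.log k₂| := by
    intro s
    have h1 := Real.log_le_log hk (hb s).1
    have h2 := Real.log_le_log (hκ s) (hb s).2
    rw [abs_le]
    constructor
    · linarith [neg_abs_le (Real.log k₁), abs_nonneg (Real.log k₂)]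
    · linarith [le_abs_self (Real.log k₂), abs_nonneg (Real.log k₁)]
  have hm' : Measurable fun s => κ (s + u) := h.meas.comp (measurable_add_const u)
  have i1 := scalB_int h.meas.log hlog 0 l
  have i2 := scalB_int hm'.log (fun s => hlog (s + u)) 0 l
  have i3 := (h.scalB_cont (g := fun x => Real.log (Real.sin x))
    (Real.continuous_sin.continuousOn.log hs) hu).intervalIntegrable
      (μ := MeasureTheory.volume) 0 l
  have i4 : IntervalIntegrable (fun s => κ s * κ (s + u) / Real.sin (χ (s + u) - χ s) ^ 2)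
      MeasureTheory.volume 0 l := by
    have h1 := scalB_int (f := fun s => κ s * κ (s + u)) (h.meas.mul hm') (M := M * M) (fun s => by
      rw [abs_mul]
      exact mul_le_mul (hM _) (hM _) (abs_nonneg _) hM0.le) 0 l
    have h2 := h.scalB_cont (g := fun x => (Real.sin x ^ 2)⁻¹)
      ((Real.continuous_sin.continuousOn.pow 2).inv₀ fun x hx => pow_ne_zero 2 (hs x hx)) hu
    simpa only [div_eq_mul_inv] using h1.mul_continuousOn h2.continuousOn
  have e2 : ∫ s in (0 : ℝ)..l, Real.log (κ (s + u)) = ∫ s in (0 : ℝ)..l, Real.log (κ s) := by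
    have hp : Function.Periodic (fun s => Real.log (κ s)) l := fun s => by simp only [h.per s]
    have h1 := hp.intervalIntegral_add_eq 0 u
    rw [intervalIntegral.integral_comp_add_right (fun s => Real.log (κ s)) u, zero_add,
      add_comm l u, ← h1, zero_add]
  obtain ⟨a, ha⟩ : ∃ a, a = -2 * (Psi χ l u - ∫ s in (0 : ℝ)..l, Real.log (κ s)) / l := ⟨_, rfl⟩
  obtain ⟨F, hF⟩ : ∃ F : ℝ → ℝ, F = fun s => Real.log (κ s) + Real.log (κ (s + u)) -
    2 * Real.log (Real.sin (χ (s + u) - χ s)) := ⟨_, rfl⟩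
  have iF : IntervalIntegrable F MeasureTheory.volume 0 l :=
    hF ▸ (i1.add i2).sub (i3.const_mul 2)
  have eF : ∫ s in (0 : ℝ)..l, F s = l * a := by
    rw [hF, intervalIntegral.integral_sub (i1.add i2) (i3.const_mul 2),
      intervalIntegral.integral_add i1 i2, intervalIntegral.integral_const_mul, e2, ha, Psi]
    field_simp
    ring
  have hE : ∀ s, κ s * κ (s + u) / Real.sin (χ (s + u) - χ s) ^ 2 =
      Real.exp a * Real.exp (F s - a) := by
    intro s
    rw [← Real.exp_add, add_sub_cancel, hF]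
    simp only
    rw [Real.exp_sub, Real.exp_add, two_mul, Real.exp_add, Real.exp_log (hκ _), Real.exp_log (hκ _),
      Real.exp_log (hsin _), sq]
  have iG := (iF.add (intervalIntegrable_const (c := 1 - a))).const_mul (Real.exp a)
  have eG : ∫ s in (0 : ℝ)..l, (κ s * κ (s + u) / Real.sin (χ (s + u) - χ s) ^ 2 -
      Real.exp a * (F s + (1 - a))) =
      (∫ s in (0 : ℝ)..l, κ s * κ (s + u) / Real.sin (χ (s + u) - χ s) ^ 2) - l * Real.exp a := by
    rw [intervalIntegral.integral_sub i4 iG, intervalIntegral.integral_const_mul,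
      intervalIntegral.integral_add iF intervalIntegrable_const, eF,
      intervalIntegral.integral_const, smul_eq_mul]
    ring
  have hG : ∀ s, 0 ≤ κ s * κ (s + u) / Real.sin (χ (s + u) - χ s) ^ 2 -
      Real.exp a * (F s + (1 - a)) := by
    intro s
    rw [hE, ← mul_sub]
    exact mul_nonneg (Real.exp_pos a).le (by linarith [Real.add_one_le_exp (F s - a)])
  rw [← ha]
  refine ⟨?_, fun he => ?_⟩
  · have h1 := intervalIntegral.integral_nonneg_of_forall (μ := MeasureTheory.volume) hl.le hG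
    linarith
  · rw [← he, sub_self, intervalIntegral.integral_eq_zero_iff_of_le_of_nonneg_ae hl.le
      (Eventually.of_forall hG) (i4.sub iG), EventuallyEq,
      MeasureTheory.ae_restrict_iff' measurableSet_Ioc] at eG
    filter_upwards [eG] with s h0 hs0
    have h1 := h0 (Ioo_subset_Ioc_self hs0)
    rw [hE, ← mul_sub, Pi.zero_apply] at h1
    have h2 := (mul_eq_zero.1 h1).resolve_left (Real.exp_pos a).ne'
    have h3 : F s - a = 0 := by
      by_contra hne
      linarith [Real.add_one_lt_exp hne]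
    have h4 := mul_pos (hκ s) (hκ (s + u))
    have h5 := Real.sqrt_pos.2 h4
    rw [← Real.exp_log (div_pos (hsin s) h5), Real.log_div (hsin s).ne' h5.ne',
      Real.log_sqrt h4.le, Real.log_mul (hκ _).ne' (hκ _).ne']
    congr 1
    rw [hF, ha, mul_div_assoc] at h3
    simp only at h3
    linarith

theorem scalC_second {f f₁ : ℝ → ℝ} {m c : ℝ} (hf : ∀ᶠ v in 𝓝 m, HasDerivAt f (f₁ v) v)
    (h1 : HasDerivAt f₁ c m) (hmin : IsLocalMin f m) : 0 ≤ c := by
  by_contra hc
  have e1 : deriv f =ᶠ[𝓝 m] f₁ := hf.mono fun v hv => hv.deriv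
  have e2 : deriv (deriv f) m = c := by rw [e1.deriv_eq, h1.deriv]
  have hmax := isLocalMax_of_deriv_deriv_neg (e2 ▸ not_le.1 hc) hmin.deriv_eq_zero
    hf.self_of_nhds.continuousAt
  have e3 : f =ᶠ[𝓝 m] fun _ => f m := by
    filter_upwards [hmin, hmax] with v h2 h3 using le_antisymm h3 h2
  have e4 := e3.deriv.deriv_eq
  rw [e2] at e4
  simp at e4
  exact hc e4.ge

theorem scalC_pos {u : ℝ} (hu : u ∈ Ioo 0 l) : 0 < Real.sin (Real.pi * u / l) := by
  have hl : 0 < l := hu.1.trans hu.2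
  have hπ := Real.pi_pos
  refine Real.sin_pos_of_pos_of_lt_pi (div_pos (mul_pos hπ hu.1) hl) ?_
  rw [div_lt_iff₀ hl]
  exact mul_lt_mul_of_pos_left hu.2 hπ

theorem scalC_model {u : ℝ} (hu : u ∈ Ioo 0 l) :
    HasDerivAt (fun v => l * Real.log (l / Real.pi * Real.sin (Real.pi * v / l)))
      (Real.pi * (Real.cos (Real.pi * u / l) / Real.sin (Real.pi * u / l))) u ∧
    HasDerivAt (fun v => Real.pi * (Real.cos (Real.pi * v / l) / Real.sin (Real.pi * v / l)))
      (-(l * Real.exp (-2 * (l * Real.log (l / Real.pi * Real.sin (Real.pi * u / l))) / l))) u := by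
  have hl : 0 < l := hu.1.trans hu.2
  have hπ := Real.pi_pos
  have hs := scalC_pos hu
  have h0 : HasDerivAt (fun v => Real.pi * v / l) (Real.pi * 1 / l) u :=
    ((hasDerivAt_id u).const_mul Real.pi).div_const l
  have hp : 0 < l / Real.pi * Real.sin (Real.pi * u / l) := by positivity
  constructor
  · refine (((h0.sin.const_mul (l / Real.pi)).log hp.ne').const_mul l).congr_deriv ?_
    field_simp
  · refine ((h0.cos.div h0.sin hs.ne').const_mul Real.pi).congr_deriv ?_
    have e : -2 * (l * Real.log (l / Real.pi * Real.sin (Real.pi * u / l))) / l =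
        -(Real.log (l / Real.pi * Real.sin (Real.pi * u / l)) +
          Real.log (l / Real.pi * Real.sin (Real.pi * u / l))) := by
      field_simp
      ring
    rw [e, Real.exp_neg, Real.exp_add, Real.exp_log hp]
    have h1 := Real.sin_sq_add_cos_sq (Real.pi * u / l)
    generalize Real.sin (Real.pi * u / l) = S at *
    generalize Real.cos (Real.pi * u / l) = C at *
    field_simp
    linear_combination (-1 : ℝ) * h1

theorem scalC_lim (hl : 0 < l) : Tendsto (fun u =>
    l * Real.log (l / Real.pi * Real.sin (Real.pi * u / l)) - l * Real.log u) (𝓝[>] 0) (𝓝 0) := by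
  have hπ := Real.pi_pos
  have h0 : HasDerivAt (fun v => Real.pi * v / l) (Real.pi * 1 / l) 0 :=
    ((hasDerivAt_id 0).const_mul Real.pi).div_const l
  have h1 := (h0.sin.const_mul (l / Real.pi)).tendsto_slope_zero_right
  simp only [zero_add, mul_zero, zero_div, Real.sin_zero, Real.cos_zero, one_mul, mul_one, sub_zero,
    smul_eq_mul] at h1
  rw [show l / Real.pi * (Real.pi / l) = 1 by field_simp] at h1
  have h2 := ((Real.continuousAt_log one_ne_zero).tendsto.comp h1).const_mul l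
  rw [Real.log_one, mul_zero] at h2
  refine h2.congr' ?_
  filter_upwards [Ioo_mem_nhdsGT hl] with u hu
  have hs := scalC_pos hu
  rw [Function.comp_apply, Real.log_mul (inv_ne_zero hu.1.ne') (by positivity), Real.log_inv]
  ring

/-- `Φ = (Psi - K) / l`, `Φ₀ u = log (l / π sin (π u / l))`, `Φ₀'' = -exp (-2 Φ₀)`,
`Φ'' ≤ -exp (-2 Φ)`. `Φ - Φ₀ → 0` at both ends (`tendsto_Psi`, `Psi_symm`); at a negative interior
minimum the second derivative would be negative. -/
theorem Circ.main (h : Circ χ κ l) {u : ℝ} (hu : u ∈ Ioo 0 l) :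
    l * Real.log (l / Real.pi * Real.sin (Real.pi * u / l)) ≤
      Psi χ l u - ∫ s in (0 : ℝ)..l, Real.log (κ s) := by
  have hl := h.lpos
  obtain ⟨Ψ₁, hΨ⟩ := h.deriv2
  obtain ⟨K, hK⟩ : ∃ K, K = ∫ s in (0 : ℝ)..l, Real.log (κ s) := ⟨_, rfl⟩
  obtain ⟨f, hf⟩ : ∃ f : ℝ → ℝ, f = fun v => Psi χ l v - K -
    l * Real.log (l / Real.pi * Real.sin (Real.pi * v / l)) := ⟨_, rfl⟩
  have hd : ∀ v ∈ Ioo 0 l, HasDerivAt f (Ψ₁ v -
      Real.pi * (Real.cos (Real.pi * v / l) / Real.sin (Real.pi * v / l))) v := fun v hv =>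
    hf ▸ ((hΨ v hv).1.sub_const K).sub (scalC_model hv).1
  have hsym : ∀ v, f (l - v) = f v := by
    intro v
    rw [hf]
    simp only
    rw [h.Psi_symm, show Real.pi * (l - v) / l = Real.pi - Real.pi * v / l by field_simp,
      Real.sin_pi_sub]
  have hlim : Tendsto f (𝓝[>] 0) (𝓝 0) := by
    have h1 := (h.tendsto_Psi.sub_const K).sub (scalC_lim hl)
    rw [← hK, sub_self, sub_self] at h1
    refine h1.congr fun v => ?_
    rw [hf]
    ring
  by_contra hn
  have hneg : f u < 0 := by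
    rw [hf, hK]
    simp only
    linarith
  obtain ⟨δ, hδ, hδ'⟩ := mem_nhdsGT_iff_exists_Ioo_subset.1 (hlim.eventually (lt_mem_nhds hneg))
  have hδ0 : 0 < δ := hδ
  have hδ1 : ∀ v, 0 < v → v < δ → f u < f v := fun v h1 h2 => hδ' ⟨h1, h2⟩
  have hu' : u ∈ Icc δ (l - δ) := by
    constructor
    · by_contra h1
      exact lt_irrefl _ (hδ1 u hu.1 (not_le.1 h1))
    · by_contra h1
      have h2 := hδ1 (l - u) (sub_pos.2 hu.2) (by linarith)
      rw [hsym] at h2
      exact lt_irrefl _ h2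
  have hsub : Icc δ (l - δ) ⊆ Ioo 0 l := Icc_subset_Ioo hδ0 (by linarith)
  obtain ⟨m, hm, hmin⟩ := isCompact_Icc.exists_isMinOn ⟨u, hu'⟩
    (fun v hv => (hd v (hsub hv)).continuousAt.continuousWithinAt)
  have hmu : f m ≤ f u := hmin hu'
  have hm' := hsub hm
  have hloc : IsLocalMin f m := by
    filter_upwards [Ioo_mem_nhds hm'.1 hm'.2] with v hv
    rcases lt_or_ge v δ with h1 | h1
    · exact hmu.trans (hδ1 v hv.1 h1).le
    rcases lt_or_ge (l - δ) v with h2 | h2
    · have h3 := hδ1 (l - v) (sub_pos.2 hv.2) (by linarith)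
      rw [hsym] at h3
      exact hmu.trans h3.le
    · exact hmin ⟨h1, h2⟩
  have h1 := scalC_second (Filter.eventually_of_mem (Ioo_mem_nhds hm'.1 hm'.2) hd)
    ((hΨ m hm').2.sub (scalC_model hm').2) hloc
  have h2 := (h.jensen hm').1
  rw [← hK] at h2
  have h3 : f m < 0 := hmu.trans_lt hneg
  rw [hf] at h3
  simp only at h3
  have h4 : -2 * (l * Real.log (l / Real.pi * Real.sin (Real.pi * m / l))) / l <
      -2 * (Psi χ l m - K) / l := div_lt_div_of_pos_right (by linarith) hl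
  have h5 := mul_lt_mul_of_pos_left (Real.exp_lt_exp.2 h4) hl
  linarith

/-- If `Φ = Φ₀` on an open interval, the second derivatives agree there: equality in `jensen`. -/
theorem Circ.eq_case (h : Circ χ κ l) {u₀ : ℝ} (h₀ : u₀ ≤ l)
    (he : ∀ u ∈ Ioo 0 u₀, l * Real.log (l / Real.pi * Real.sin (Real.pi * u / l)) =
      Psi χ l u - ∫ s in (0 : ℝ)..l, Real.log (κ s)) {u : ℝ} (hu : u ∈ Ioo 0 u₀) :
    ∀ᵐ s, s ∈ Ioo 0 l → Real.sin (χ (s + u) - χ s) / √(κ s * κ (s + u)) =
      l / Real.pi * Real.sin (Real.pi * u / l) := by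
  have hl := h.lpos
  have hπ := Real.pi_pos
  obtain ⟨Ψ₁, hΨ⟩ := h.deriv2
  have hsub : Ioo 0 u₀ ⊆ Ioo 0 l := Ioo_subset_Ioo_right h₀
  have h1 : ∀ v ∈ Ioo 0 u₀,
      Real.pi * (Real.cos (Real.pi * v / l) / Real.sin (Real.pi * v / l)) = Ψ₁ v := by
    intro v hv
    refine (scalC_model (hsub hv)).1.unique (((hΨ v (hsub hv)).1.sub_const
      (∫ s in (0 : ℝ)..l, Real.log (κ s))).congr_of_eventuallyEq ?_)
    exact Filter.eventually_of_mem (Ioo_mem_nhds hv.1 hv.2) he
  have h2 := (scalC_model (hsub hu)).2.unique ((hΨ u (hsub hu)).2.congr_of_eventuallyEq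
    (Filter.eventually_of_mem (Ioo_mem_nhds hu.1 hu.2) h1))
  rw [neg_inj, he u hu] at h2
  have h3 := (h.jensen (hsub hu)).2 h2
  have hs := scalC_pos (hsub hu)
  rwa [← he u hu, mul_div_cancel_left₀ _ hl.ne', Real.exp_log (by positivity)] at h3

end Vale.Agent.P231
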