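import Vale.Agent.P231.ScalA
import Vale.Agent.P231.ScalC

/-! The scalar logarithmic inequality. -/

open scoped ContDiff Topology Matrix
open Filter Set

noncomputable section

namespace Vale.Agent.P231

variable {φ : ℝ → ℝ} {l c₀ c₁ : ℝ}

theorem scald_freq {p : ℝ → Prop} (h : ∀ᵐ s, p s) {U : Set ℝ} (hU : IsOpen U) {a : ℝ}
    (ha : a ∈ closure U) : ∃ᶠ s in 𝓝[U] a, p s := by
  have h1 := closure_minimal ((MeasureTheory.Measure.dense_of_ae h).open_subset_closure_inter hU)
    isClosed_closure ha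
  rw [frequently_nhdsWithin_iff]
  exact (mem_closure_iff_frequently.1 h1).mono fun s hs => ⟨hs.2, hs.1⟩

/-- The logarithm of the density in terms of the circle map. -/
def scaldG (χ κ : ℝ → ℝ) (u s : ℝ) : ℝ :=
  Real.log (Real.sin (χ (s + u) - χ s)) - (Real.log (κ s) + Real.log (κ (s + u))) / 2

section circ

variable {χ κ : ℝ → ℝ}

theorem Circ.scald_pos (h : Circ χ κ l) (t : ℝ) : 0 < κ t := by
  obtain ⟨k₁, k₂, hk, hb⟩ := h.bdd
  exact hk.trans_le (hb t).1

theorem Circ.scald_int (h : Circ χ κ l) (u a b : ℝ) :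
    IntervalIntegrable (fun s => Real.log (κ (s + u))) MeasureTheory.volume a b := by
  obtain ⟨k₁, k₂, hk, hb⟩ := h.bdd
  refine (intervalIntegrable_const (c := |Real.log k₁| + |Real.log k₂|)).mono_fun'
    (h.meas.comp (measurable_add_const u)).log.aestronglyMeasurable
    (Eventually.of_forall fun s => ?_)
  have h1 := Real.log_le_log hk (hb (s + u)).1
  have h2 := Real.log_le_log (hk.trans_le (hb (s + u)).1) (hb (s + u)).2
  exact abs_le.2 ⟨by linarith [neg_abs_le (Real.log k₁), abs_nonneg (Real.log k₂)],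
    by linarith [le_abs_self (Real.log k₂), abs_nonneg (Real.log k₁)]⟩

theorem Circ.scald_sin (h : Circ χ κ l) {u : ℝ} (hu : u ∈ Ioo 0 l) (s : ℝ) :
    0 < Real.sin (χ (s + u) - χ s) := by
  obtain ⟨k, hk, hi⟩ := h.incr
  obtain ⟨h1, h2⟩ := hi s u ⟨hu.1.le, hu.2.le⟩
  exact Real.sin_pos_of_pos_of_lt_pi ((mul_pos hk hu.1).trans_le h1)
    (h2.trans_lt (sub_lt_self _ (mul_pos hk (sub_pos.2 hu.2))))

theorem Circ.scald_cont (h : Circ χ κ l) {u : ℝ} (hu : u ∈ Ioo 0 l) :
    Continuous fun s => Real.log (Real.sin (χ (s + u) - χ s)) :=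
  (Real.continuous_sin.comp ((h.continuous.comp (continuous_add_const u)).sub h.continuous)).log
    fun s => (h.scald_sin hu s).ne'

theorem Circ.scald_int0 (h : Circ χ κ l) (a b : ℝ) :
    IntervalIntegrable (fun s => Real.log (κ s)) MeasureTheory.volume a b := by
  simpa using h.scald_int 0 a b

theorem Circ.scald_intG (h : Circ χ κ l) {u : ℝ} (hu : u ∈ Ioo 0 l) (a b : ℝ) :
    IntervalIntegrable (scaldG χ κ u) MeasureTheory.volume a b :=
  ((h.scald_cont hu).intervalIntegrable a b).sub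
    (((h.scald_int0 a b).add (h.scald_int u a b)).div_const 2)

theorem Circ.scald_log (h : Circ χ κ l) {u : ℝ} (hu : u ∈ Ioo 0 l) (s : ℝ) :
    Real.log (Real.sin (χ (s + u) - χ s) / √(κ s * κ (s + u))) = scaldG χ κ u s := by
  have h1 := h.scald_pos s
  have h2 := h.scald_pos (s + u)
  rw [Real.log_div (h.scald_sin hu s).ne' (Real.sqrt_pos.2 (mul_pos h1 h2)).ne',
    Real.log_sqrt (mul_pos h1 h2).le, Real.log_mul h1.ne' h2.ne', scaldG]

theorem Circ.scald_shift (h : Circ χ κ l) (u s : ℝ) :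
    scaldG χ κ (l - u) s = scaldG χ κ u (s + (l - u)) := by
  have e : s + (l - u) + u = s + l := by ring
  have e2 : χ s + Real.pi - χ (s + (l - u)) = Real.pi - (χ (s + (l - u)) - χ s) := by ring
  rw [scaldG, scaldG, e, h.add_period, h.per, e2, Real.sin_pi_sub, add_comm (Real.log (κ s))]

theorem Circ.scald_total (h : Circ χ κ l) {u : ℝ} (hu : u ∈ Ioo 0 l) :
    ∫ s in (0 : ℝ)..l, scaldG χ κ u s = Psi χ l u - ∫ s in (0 : ℝ)..l, Real.log (κ s) := by
  have h1 : ∫ s in (0 : ℝ)..l, Real.log (κ (s + u)) = ∫ s in (0 : ℝ)..l, Real.log (κ s) := by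
    have h2 : Function.Periodic (fun s => Real.log (κ s)) l := h.per.comp Real.log
    rw [intervalIntegral.integral_comp_add_right (fun s => Real.log (κ s)), zero_add, add_comm l u,
      h2.intervalIntegral_add_eq u 0, zero_add]
  simp only [scaldG]
  rw [intervalIntegral.integral_sub ((h.scald_cont hu).intervalIntegrable _ _)
      (((h.scald_int0 _ _).add (h.scald_int u _ _)).div_const 2), intervalIntegral.integral_div,
    intervalIntegral.integral_add (h.scald_int0 _ _) (h.scald_int u _ _), h1, Psi]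
  ring

theorem Circ.scald_sI (h : Circ χ κ l)
    (hs : ∀ s t, 0 < s → s < t → t < l → sth φ s t = Real.sin (χ t - χ s) / √(κ s * κ t))
    {u : ℝ} (hu : u ∈ Ioo 0 l) :
    sI φ l u = Psi χ l u - ∫ s in (0 : ℝ)..l, Real.log (κ s) := by
  have key : ∀ v ∈ Ioo 0 l, ∫ s in (0 : ℝ)..(l - v), Real.log (sth φ s (s + v)) =
      ∫ s in (0 : ℝ)..(l - v), scaldG χ κ v s := by
    intro v hv
    refine intervalIntegral.integral_congr_Ioo_of_le (sub_pos.2 hv.2).le fun s hs' => ?_
    rw [hs s (s + v) hs'.1 (lt_add_of_pos_right _ hv.1) (lt_sub_iff_add_lt.1 hs'.2),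
      h.scald_log hv]
  have h1 := key (l - u) ⟨sub_pos.2 hu.2, sub_lt_self _ hu.1⟩
  rw [sub_sub_cancel] at h1
  rw [sI, key u hu, h1, ← h.scald_total hu]
  simp only [h.scald_shift]
  rw [intervalIntegral.integral_comp_add_right (scaldG χ κ u), zero_add, add_sub_cancel,
    intervalIntegral.integral_add_adjacent_intervals (h.scald_intG hu _ _) (h.scald_intG hu _ _)]

end circ

/-- On `(0, l - u)` the function is `log sin Δ - (log κ s + log κ (s + u)) / 2`, bounded and
measurable. -/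
theorem Good.integrable_log (h : Good φ l c₀ c₁) {u : ℝ} (hu : u ∈ Ioo 0 l) :
    IntervalIntegrable (fun s => Real.log (sth φ s (s + u))) MeasureTheory.volume 0 (l - u) := by
  obtain ⟨χ, κ, hc, -, -, -, hs⟩ := h.exists_circ
  have h1 := hc.scald_intG hu 0 (l - u)
  rw [intervalIntegrable_iff_integrableOn_Ioo_of_le (sub_pos.2 hu.2).le] at h1 ⊢
  refine h1.congr_fun (fun s hs' => ?_) measurableSet_Ioo
  rw [hs s (s + u) hs'.1 (lt_add_of_pos_right _ hu.1) (lt_sub_iff_add_lt.1 hs'.2),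
    hc.scald_log hu]

/-- `sI φ l u = Psi χ l u - ∫ log κ`: in the second integral substitute `s ↦ s + (l - u)` and use
`χ (s + l) = χ s + π`. -/
theorem Good.sI_ge (h : Good φ l c₀ c₁) {u : ℝ} (hu : u ∈ Ioo 0 l) :
    l * Real.log (l / Real.pi * Real.sin (Real.pi * u / l)) ≤ sI φ l u := by
  obtain ⟨χ, κ, hc, -, -, -, hs⟩ := h.exists_circ
  rw [hc.scald_sI hs hu]
  exact hc.main hu

/-- By `eq_case` and continuity `sth φ s (s + u)` is constant on `(0, l - u)`; let `s → 0` and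
`s → l - u`. -/
theorem Good.eq_of_sI (h : Good φ l c₀ c₁) {u₀ : ℝ} (h₀ : u₀ ≤ l)
    (he : ∀ u ∈ Ioo 0 u₀, l * Real.log (l / Real.pi * Real.sin (Real.pi * u / l)) = sI φ l u)
    {u : ℝ} (hu : u ∈ Ioo 0 u₀) :
    φ u = c₀ * (l / Real.pi * Real.sin (Real.pi * u / l)) ∧
      φ (l - u) = c₁ * (l / Real.pi * Real.sin (Real.pi * u / l)) := by
  obtain ⟨χ, κ, hc, t0, t1, hφ, hs⟩ := h.exists_circ
  have hu' : u ∈ Ioo 0 l := ⟨hu.1, hu.2.trans_le h₀⟩
  have hv : l - u ∈ Ioo 0 l := ⟨sub_pos.2 hu'.2, sub_lt_self _ hu.1⟩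
  have h1 := hc.eq_case h₀ (fun v hv => (he v hv).trans
    (hc.scald_sI hs ⟨hv.1, hv.2.trans_le h₀⟩)) hu
  generalize l / Real.pi * Real.sin (Real.pi * u / l) = A at h1 ⊢
  have cs : Continuous fun s => Real.sin (χ (s + u) - χ s) :=
    Real.continuous_sin.comp ((hc.continuous.comp (continuous_add_const u)).sub hc.continuous)
  have ck : ∀ t ∈ Ioo 0 l, ContinuousAt κ t := fun t ht =>
    hc.cont.continuousAt (isOpen_Ioo.mem_nhds ht)
  constructor
  · have a1 : Tendsto (fun s => κ (s + u)) (𝓝[>] 0) (𝓝 (κ u)) :=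
      (ck u hu').tendsto.comp
        (((continuous_add_const u).tendsto' 0 u (zero_add u)).mono_left nhdsWithin_le_nhds)
    have a2 := hc.scald_pos u
    have a3 := h.pos0
    have a4 := ((cs.tendsto 0).mono_left (nhdsWithin_le_nhds (s := Ioi 0))).div (t0.mul a1).sqrt
      (Real.sqrt_pos.2 (by positivity)).ne'
    have a5 : ∃ᶠ s in 𝓝[>] (0 : ℝ), Real.sin (χ (s + u) - χ s) / √(κ s * κ (s + u)) = A :=
      ((scald_freq h1 isOpen_Ioi (by simp)).and_eventually (Ioo_mem_nhdsGT h.lpos)).mono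
        fun s hs => hs.1 hs.2
    have a6 := tendsto_nhds_unique_of_frequently_eq a4 tendsto_const_nhds a5
    have a7 : χ 0 = 0 := by rw [hc.eq, intervalIntegral.integral_same]
    rw [zero_add, a7, sub_zero, Real.sqrt_mul (sq_nonneg _), Real.sqrt_sq a3.le] at a6
    rw [hφ u hu', ← a6]
    field_simp
  · have a1 : Tendsto (fun s => κ (s + u)) (𝓝[<] (l - u)) (𝓝 (c₁ ^ 2)) := by
      refine t1.comp (tendsto_nhdsWithin_iff.2 ⟨((continuous_add_const u).tendsto' _ l
        (sub_add_cancel l u)).mono_left nhdsWithin_le_nhds, ?_⟩)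
      filter_upwards [self_mem_nhdsWithin] with s hs
      exact lt_sub_iff_add_lt.1 (mem_Iio.1 hs)
    have a2 := hc.scald_pos (l - u)
    have a3 := h.pos1
    have a4 := ((cs.tendsto (l - u)).mono_left (nhdsWithin_le_nhds (s := Iio (l - u)))).div
      (((ck _ hv).tendsto.mono_left nhdsWithin_le_nhds).mul a1).sqrt
      (Real.sqrt_pos.2 (by positivity)).ne'
    have a5 : ∃ᶠ s in 𝓝[<] (l - u), Real.sin (χ (s + u) - χ s) / √(κ s * κ (s + u)) = A :=
      ((scald_freq h1 isOpen_Iio (by simp)).and_eventually (Ioo_mem_nhdsLT hv.1)).mono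
        fun s hs => hs.1 ⟨hs.2.1, hs.2.2.trans hv.2⟩
    have a6 := tendsto_nhds_unique_of_frequently_eq a4 tendsto_const_nhds a5
    rw [sub_add_cancel, hc.total, Real.sin_pi_sub, Real.sqrt_mul a2.le, Real.sqrt_sq a3.le] at a6
    rw [hφ _ hv, ← a6]
    field_simp

end Vale.Agent.P231
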