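import Vale.Agent.P231.CoreA
import Vale.Agent.P231.JacB
import Vale.Agent.P231.Root
import Vale.Agent.P231.ScalD

/-! The logarithmic inequality along one geodesic. -/

open scoped ContDiff Topology Matrix
open Filter Set

noncomputable section

namespace Vale.Agent.P231

variable {α β : Type} [Fintype α] [DecidableEq α] [Fintype β] [DecidableEq β] {D c : ℝ}
  {C A : ℝ → Matrix (α ⊕ β) (α ⊕ β) ℝ} {P S₁ : ℝ → Matrix α α ℝ} {φ₁ φ₂ : ℝ → ℝ}

/-- The defect on one side of the conjugate time. -/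
def dfc (C A : ℝ → Matrix (α ⊕ β) (α ⊕ β) ℝ) (φ₁ φ₂ : ℝ → ℝ) (u s : ℝ) : ℝ :=
  Real.log |(Wm C A s (s + u)).det| - (Fintype.card α * Real.log (sth φ₂ s (s + u)) +
    Fintype.card β * Real.log (sth φ₁ s (s + u)))

lemma coreb_iv_shift (φ : ℝ → ℝ) (D s t : ℝ) :
    iv (fun σ => φ (σ + D)) s t = iv φ (s + D) (t + D) :=
  intervalIntegral.integral_comp_add_right (fun σ => (φ σ ^ 2)⁻¹) D

lemma coreb_sth_shift (φ : ℝ → ℝ) (D s t : ℝ) :
    sth (fun σ => φ (σ + D)) s t = sth φ (s + D) (t + D) := by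
  simp only [sth, coreb_iv_shift]

lemma Roots.coreb_pos1 {g : ℝ → Matrix (α ⊕ β) (α ⊕ β) ℝ} (hR : Roots D g P φ₁ φ₂ c) {t : ℝ}
    (ht : t ∈ Ioo 0 (2 * D)) (hD : t ≠ D) : 0 < φ₁ t := by
  rcases lt_or_gt_of_ne hD with h1 | h1
  · exact hR.good1.pos t ⟨ht.1, h1⟩
  · have := hR.good1'.pos (t - D) ⟨by linarith, by linarith [ht.2]⟩
    simpa using this

lemma coreb_same_mem {s t : ℝ} (_hD : 0 < D) (hs : Same D s t) :
    (s ∈ Ioo 0 (2 * D) ∧ s ≠ D) ∧ (t ∈ Ioo 0 (2 * D) ∧ t ≠ D) ∧ s < t := by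
  rcases hs with ⟨h1, h2, h3⟩ | ⟨h1, h2, h3⟩
  · exact ⟨⟨⟨h1, by linarith⟩, by linarith⟩, ⟨⟨by linarith, by linarith⟩, h3.ne⟩, h2⟩
  · exact ⟨⟨⟨by linarith, by linarith⟩, h1.ne'⟩, ⟨⟨by linarith, h3⟩, by linarith⟩, h2⟩

lemma Roots.coreb_sth1_pos {g : ℝ → Matrix (α ⊕ β) (α ⊕ β) ℝ} (hR : Roots D g P φ₁ φ₂ c)
    {s t : ℝ} (hs : Same D s t) : 0 < sth φ₁ s t := by
  rcases hs with ⟨h1, h2, h3⟩ | ⟨h1, h2, h3⟩
  · exact hR.good1.sth_pos h1 h2 h3
  · have := hR.good1'.sth_pos (s := s - D) (t := t - D) (by linarith) (by linarith) (by linarith)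
    simpa [coreb_sth_shift] using this

theorem Jac.ker_le (h : Jac D C A) (ha : Adapted (A D)) {s : ℝ} (hs : s ∈ Ioo 0 D) :
    Module.finrank ℝ (LinearMap.ker (Wm C A s (s + D)).mulVecLin) ≤ Fintype.card β := by
  obtain ⟨P, S₁, hS⟩ := h.exists_sdata ha
  have hD := h.pos
  rw [h.ker_eq (h.det_ne ⟨hs.1, by linarith [hs.2]⟩ hs.2.ne)
    (h.det_ne ⟨by linarith [hs.1], by linarith [hs.2]⟩ (by linarith [hs.1]))]
  exact hS.ker_le hs

/-- `|det (A t)| = φ₂ ^ a φ₁ ^ b` from `Roots.det`. -/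
theorem Jac.abs_detA (h : Jac D C A) (hR : Roots D (gm A) P φ₁ φ₂ c) {t : ℝ}
    (ht : t ∈ Ioo 0 (2 * D)) (hD : t ≠ D) :
    |(A t).det| = φ₂ t ^ Fintype.card α * φ₁ t ^ Fintype.card β := by
  have h1 := hR.det t ht hD
  have h2 : 0 < φ₂ t ^ Fintype.card α * φ₁ t ^ Fintype.card β :=
    mul_pos (pow_pos (hR.good2.pos t ht) _) (pow_pos (hR.coreb_pos1 ht hD) _)
  have h3 : (gm A t).det = (A t).det ^ 2 := by
    rw [gm, Matrix.det_mul, Matrix.det_transpose, sq]
  have _ := h.pos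
  rw [h3] at h1
  rw [← abs_of_pos h2]
  exact (sq_eq_sq_iff_abs_eq_abs _ _).mp h1

lemma Jac.coreb_abs_det (h : Jac D C A) (hR : Roots D (gm A) P φ₁ φ₂ c) {s t : ℝ}
    (hs : s ∈ Ioo 0 (2 * D)) (hsD : s ≠ D) (ht : t ∈ Ioo 0 (2 * D)) (htD : t ≠ D) :
    |(Wm C A s t).det| = (φ₂ s * φ₂ t) ^ Fintype.card α * (φ₁ s * φ₁ t) ^ Fintype.card β *
      |(Sl C A t - Sl C A s).det| := by
  rw [h.abs_det (h.det_ne hs hsD) (h.det_ne ht htD), h.abs_detA hR hs hsD, h.abs_detA hR ht htD]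
  ring

lemma Jac.coreb_lower (h : Jac D C A) (hR : Roots D (gm A) P φ₁ φ₂ c) {s t x : ℝ}
    (hs : s ∈ Ioo 0 (2 * D)) (hsD : s ≠ D) (ht : t ∈ Ioo 0 (2 * D)) (htD : t ≠ D)
    (hx : iv φ₂ s t ^ Fintype.card α * x ^ Fintype.card β ≤ |(Sl C A t - Sl C A s).det|) :
    sth φ₂ s t ^ Fintype.card α * (φ₁ s * φ₁ t * x) ^ Fintype.card β ≤ |(Wm C A s t).det| := by
  rw [h.coreb_abs_det hR hs hsD ht htD]
  have h1 : 0 ≤ (φ₂ s * φ₂ t) ^ Fintype.card α * (φ₁ s * φ₁ t) ^ Fintype.card β :=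
    mul_nonneg (pow_pos (mul_pos (hR.good2.pos s hs) (hR.good2.pos t ht)) _).le
      (pow_pos (mul_pos (hR.coreb_pos1 hs hsD) (hR.coreb_pos1 ht htD)) _).le
  refine le_trans (le_of_eq ?_) (mul_le_mul_of_nonneg_left hx h1)
  simp only [sth, mul_pow]
  ring

lemma coreb_log_le {x y z : ℝ} {a b : ℕ} (hx : 0 < x) (hy : 0 < y) (h : x ^ a * y ^ b ≤ z) :
    a * Real.log x + b * Real.log y ≤ Real.log z := by
  rw [← Real.log_pow, ← Real.log_pow, ← Real.log_mul (pow_pos hx a).ne' (pow_pos hy b).ne']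
  exact Real.log_le_log (mul_pos (pow_pos hx a) (pow_pos hy b)) h

theorem Jac.dfc_nonneg (h : Jac D C A) (hS : SData D (gm A) (Sl C A) P S₁)
    (hR : Roots D (gm A) P φ₁ φ₂ c) {u s : ℝ} (hs : Same D s (s + u)) :
    0 ≤ dfc C A φ₁ φ₂ u s := by
  obtain ⟨⟨h1, h2⟩, ⟨h3, h4⟩, h5⟩ := coreb_same_mem h.pos hs
  have h6 := h.coreb_lower hR h1 h2 h3 h4 (hS.same hR hs).1
  exact sub_nonneg.mpr (coreb_log_le (hR.good2.sth_pos h1.1 h5 h3.2) (hR.coreb_sth1_pos hs) h6)

lemma Jac.coreb_cont_log (h : Jac D C A) {u : ℝ} (hu : u ∈ Ioo 0 D)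
    (hc : Continuous fun s => |(Wm C A s (s + u)).det|) :
    Continuous fun s => Real.log |(Wm C A s (s + u)).det| :=
  hc.log fun s => abs_ne_zero.mpr (h.nc s (s + u) (by linarith [hu.1]) (by linarith [hu.2]))

/-- The two crossing pieces, added. -/
lemma Jac.coreb_cross (h : Jac D C A) (hS : SData D (gm A) (Sl C A) P S₁)
    (hR : Roots D (gm A) P φ₁ φ₂ c) (hk : ∀ s ∈ Ioo 0 D, Fintype.card β ≤
      Module.finrank ℝ (LinearMap.ker (Wm C A s (s + D)).mulVecLin)) {u : ℝ} (hu : u ∈ Ioo 0 D)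
    {r : ℝ} (hr : r ∈ Ioo 0 u) :
    Fintype.card α * (Real.log (sth φ₂ (r + (D - u)) (r + (D - u) + u)) +
        Real.log (sth φ₂ r (r + (2 * D - u)))) +
      Fintype.card β * (Real.log (sth φ₁ r (r + (D - u))) +
        Real.log (sth (fun σ => φ₁ (σ + D)) r (r + (D - u)))) ≤
      Real.log |(Wm C A (r + (D - u)) (r + (D - u) + u)).det| +
        Real.log |(Wm C A (r + (2 * D - u)) (r + (2 * D - u) + u)).det| := by
  obtain ⟨hu0, huD⟩ := hu
  obtain ⟨hr0, hru⟩ := hr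
  have e1 : r + (D - u) + u = r + D := by ring
  have e2 : r + (2 * D - u) = r + (D - u) + D := by ring
  have e3 : r + (D - u) + D + u = r + 2 * D := by ring
  rw [e1, e2, e3, coreb_sth_shift]
  have hr'0 : r < r + (D - u) := by linarith
  have hr'D : r + (D - u) < D := by linarith
  have hr'1 : r + D < r + (D - u) + D := by linarith
  have hr'2 : D - u < r + (D - u) := by linarith
  generalize r + (D - u) = r' at *
  have m1 : r ∈ Ioo 0 (2 * D) := ⟨hr0, by linarith⟩
  have n1 : r ≠ D := by linarith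
  have m2 : r' ∈ Ioo 0 (2 * D) := ⟨by linarith, by linarith⟩
  have n2 : r' ≠ D := hr'D.ne
  have m3 : r + D ∈ Ioo 0 (2 * D) := ⟨by linarith, by linarith⟩
  have n3 : r + D ≠ D := by linarith
  have m4 : r' + D ∈ Ioo 0 (2 * D) := ⟨by linarith, by linarith⟩
  have n4 : r' + D ≠ D := by linarith
  have hk' := hk r' ⟨m2.1, hr'D⟩
  rw [h.ker_eq (h.det_ne m2 n2) (h.det_ne m4 n4)] at hk'
  have c1 := h.coreb_lower hR m2 n2 m3 n3
    (hS.cross1 hR m2.1 hr'D (by linarith) hr'1 hk')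
  have c2 := h.coreb_lower hR m1 n1 m4 n4 (hS.cross2 hR hr0 hr'0 hr'D hk')
  have e4 : |(Wm C A (r' + D) (r + 2 * D)).det| = |(Wm C A r (r' + D)).det| := by
    rw [h.det_per, Wm_swap, Matrix.det_neg, Matrix.det_transpose, abs_mul, abs_pow, abs_neg,
      abs_one, one_pow, one_mul]
  rw [e4]
  have p1 := hR.coreb_pos1 m1 n1
  have p2 := hR.coreb_pos1 m2 n2
  have p3 := hR.coreb_pos1 m3 n3
  have p4 := hR.coreb_pos1 m4 n4
  have i1 : 0 < iv φ₁ r r' := hR.good1.iv_pos hr0 hr'0 hr'D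
  have i2 : 0 < iv φ₁ (r + D) (r' + D) := by
    rw [← coreb_iv_shift]
    exact hR.good1'.iv_pos hr0 hr'0 hr'D
  have l1 := coreb_log_le (hR.good2.sth_pos m2.1 (by linarith) m3.2)
    (mul_pos (mul_pos p2 p3) i2) c1
  have l2 := coreb_log_le (hR.good2.sth_pos m1.1 (by linarith) m4.2)
    (mul_pos (mul_pos p1 p4) i1) c2
  have e5 : Real.log (sth φ₁ r r') + Real.log (sth φ₁ (r + D) (r' + D)) =
      Real.log (φ₁ r' * φ₁ (r + D) * iv φ₁ (r + D) (r' + D)) +
        Real.log (φ₁ r * φ₁ (r' + D) * iv φ₁ r r') := by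
    simp only [sth]
    rw [← Real.log_mul (mul_pos (mul_pos p1 p2) i1).ne' (mul_pos (mul_pos p3 p4) i2).ne',
      ← Real.log_mul (mul_pos (mul_pos p2 p3) i2).ne' (mul_pos (mul_pos p1 p4) i1).ne']
    congr 1
    ring
  rw [e5]
  linarith

lemma Roots.coreb_int2 {g : ℝ → Matrix (α ⊕ β) (α ⊕ β) ℝ} (hR : Roots D g P φ₁ φ₂ c) {u : ℝ}
    (hu : u ∈ Ioo 0 D) {a b : ℝ} (h0 : 0 ≤ a) (hab : a ≤ b) (h1 : b ≤ 2 * D - u) :
    IntervalIntegrable (fun s => Real.log (sth φ₂ s (s + u))) MeasureTheory.volume a b := by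
  refine (hR.good2.integrable_log (u := u) ⟨hu.1, by linarith [hu.1, hu.2]⟩).mono_set ?_
  rw [uIcc_of_le hab, uIcc_of_le (by linarith)]
  exact Icc_subset_Icc h0 h1

lemma Roots.coreb_int1 {g : ℝ → Matrix (α ⊕ β) (α ⊕ β) ℝ} (hR : Roots D g P φ₁ φ₂ c) {u : ℝ}
    (hu : u ∈ Ioo 0 D) :
    IntervalIntegrable (fun s => Real.log (sth φ₁ s (s + u))) MeasureTheory.volume D
      (2 * D - u) := by
  have h1 := (hR.good1'.integrable_log hu).comp_sub_right D
  have e1 : D - u + D = 2 * D - u := by ring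
  rw [zero_add, e1] at h1
  refine h1.congr fun s _ => ?_
  simp only [coreb_sth_shift]
  congr 2 <;> ring

lemma Jac.coreb_int_dfc (h : Jac D C A) (hR : Roots D (gm A) P φ₁ φ₂ c) {u : ℝ} (hu : u ∈ Ioo 0 D)
    (hc : Continuous fun s => |(Wm C A s (s + u)).det|) :
    IntervalIntegrable (dfc C A φ₁ φ₂ u) MeasureTheory.volume 0 (D - u) ∧
      IntervalIntegrable (dfc C A φ₁ φ₂ u) MeasureTheory.volume D (2 * D - u) := by
  have hL := h.coreb_cont_log hu hc
  have hD := h.pos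
  obtain ⟨hu0, huD⟩ := hu
  constructor
  · exact (hL.intervalIntegrable _ _).sub
      (((hR.coreb_int2 ⟨hu0, huD⟩ le_rfl (by linarith) (by linarith)).const_mul _).add
        ((hR.good1.integrable_log ⟨hu0, huD⟩).const_mul _))
  · exact (hL.intervalIntegrable _ _).sub
      (((hR.coreb_int2 ⟨hu0, huD⟩ hD.le (by linarith) le_rfl).const_mul _).add
        ((hR.coreb_int1 ⟨hu0, huD⟩).const_mul _))

lemma Jac.coreb_dfc_int_nonneg (h : Jac D C A) (hS : SData D (gm A) (Sl C A) P S₁)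
    (hR : Roots D (gm A) P φ₁ φ₂ c) {u : ℝ} (hu : u ∈ Ioo 0 D)
    (hc : Continuous fun s => |(Wm C A s (s + u)).det|) :
    0 ≤ (∫ s in (0 : ℝ)..(D - u), dfc C A φ₁ φ₂ u s) ∧
      0 ≤ ∫ s in D..(2 * D - u), dfc C A φ₁ φ₂ u s := by
  obtain ⟨h1, h2⟩ := h.coreb_int_dfc hR hu hc
  obtain ⟨hu0, huD⟩ := hu
  constructor
  · have := intervalIntegral.integral_mono_on_of_le_Ioo (by linarith : (0 : ℝ) ≤ D - u)
      (intervalIntegrable_const (c := (0 : ℝ))) h1 fun s hs =>
        h.dfc_nonneg hS hR (Or.inl ⟨hs.1, by linarith, by linarith [hs.2]⟩)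
    simpa using this
  · have := intervalIntegral.integral_mono_on_of_le_Ioo (by linarith : D ≤ 2 * D - u)
      (intervalIntegrable_const (c := (0 : ℝ))) h2 fun s hs =>
        h.dfc_nonneg hS hR (Or.inr ⟨hs.1, by linarith, by linarith [hs.2]⟩)
    simpa using this

/-- Split `(0, 2 D)` at `D - u`, `D`, `2 D - u`. Write `a φ = φ₁`, `b φ = φ₁ (· + D)`,
`r' = r + (D - u)` for `r ∈ (0, u)`. On the second piece `s = r'`, `t = r + D`, `cross1` gives
`|det W| ≥ sth φ₂ s t ^ a * (φ₁ r' * φ₁ (r + D) * iv φ₁ (r + D) (r' + D)) ^ b`. On the fourth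
piece `s = r' + D`, `s + u = r + 2 D`, `det_per`, `Wm_swap` and `cross2` give
`|det W| ≥ sth φ₂ r s ^ a * (φ₁ r * φ₁ (r' + D) * iv φ₁ r r') ^ b`. The sum of the logarithms of
the two `φ₁` factors is `log (sth φ₁ r r') + log (sth (φ₁ (· + D)) r r')`. It is simplest to add
the second and the fourth piece as one integral over `r ∈ (0, u)` before comparing. -/
theorem Jac.core_ref (h : Jac D C A) (hS : SData D (gm A) (Sl C A) P S₁)
    (hR : Roots D (gm A) P φ₁ φ₂ c) (hk : ∀ s ∈ Ioo 0 D, Fintype.card β ≤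
      Module.finrank ℝ (LinearMap.ker (Wm C A s (s + D)).mulVecLin)) {u : ℝ} (hu : u ∈ Ioo 0 D)
    (hc : Continuous fun s => |(Wm C A s (s + u)).det|) :
    Fintype.card α * sI φ₂ (2 * D) u +
        Fintype.card β * (sI φ₁ D u + sI (fun σ => φ₁ (σ + D)) D u) +
        (∫ s in (0 : ℝ)..(D - u), dfc C A φ₁ φ₂ u s) + ∫ s in D..(2 * D - u), dfc C A φ₁ φ₂ u s ≤
      ∫ s in (0 : ℝ)..(2 * D), Real.log |(Wm C A s (s + u)).det| := by
  have hL := h.coreb_cont_log hu hc
  have hD := h.pos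
  have hcross := fun r hr => h.coreb_cross hS hR hk hu (r := r) hr
  obtain ⟨hu0, huD⟩ := hu
  have hu : u ∈ Ioo 0 D := ⟨hu0, huD⟩
  set L : ℝ → ℝ := fun s => Real.log |(Wm C A s (s + u)).det| with hLdef
  set F₂ : ℝ → ℝ := fun s => Real.log (sth φ₂ s (s + u)) with hF₂
  set F₁ : ℝ → ℝ := fun s => Real.log (sth φ₁ s (s + u)) with hF₁
  have iA : IntervalIntegrable F₂ MeasureTheory.volume 0 (D - u) :=
    hR.coreb_int2 hu le_rfl (by linarith) (by linarith)
  have iB : IntervalIntegrable F₂ MeasureTheory.volume (D - u) D :=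
    hR.coreb_int2 hu (by linarith) (by linarith) (by linarith)
  have iC : IntervalIntegrable F₂ MeasureTheory.volume D (2 * D - u) :=
    hR.coreb_int2 hu hD.le (by linarith) le_rfl
  have jA : IntervalIntegrable F₁ MeasureTheory.volume 0 (D - u) := hR.good1.integrable_log hu
  have jC : IntervalIntegrable F₁ MeasureTheory.volume D (2 * D - u) := hR.coreb_int1 hu
  have iB' : IntervalIntegrable (fun r => F₂ (r + (D - u))) MeasureTheory.volume 0 u := by
    have := iB.comp_add_right (D - u)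
    rwa [sub_self, sub_sub_cancel] at this
  have iG : IntervalIntegrable (fun r => Real.log (sth φ₂ r (r + (2 * D - u))))
      MeasureTheory.volume 0 u := by
    have := hR.good2.integrable_log (u := 2 * D - u) ⟨by linarith, by linarith⟩
    rwa [sub_sub_cancel] at this
  have jG : IntervalIntegrable (fun r => Real.log (sth φ₁ r (r + (D - u))))
      MeasureTheory.volume 0 u := by
    have := hR.good1.integrable_log (u := D - u) ⟨by linarith, by linarith⟩
    rwa [sub_sub_cancel] at this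
  have jG' : IntervalIntegrable (fun r => Real.log (sth (fun σ => φ₁ (σ + D)) r (r + (D - u))))
      MeasureTheory.volume 0 u := by
    have := hR.good1'.integrable_log (u := D - u) ⟨by linarith, by linarith⟩
    rwa [sub_sub_cancel] at this
  have kB : IntervalIntegrable (fun r => L (r + (D - u))) MeasureTheory.volume 0 u :=
    (hL.comp (continuous_id.add continuous_const)).intervalIntegrable _ _
  have kD : IntervalIntegrable (fun r => L (r + (2 * D - u))) MeasureTheory.volume 0 u :=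
    (hL.comp (continuous_id.add continuous_const)).intervalIntegrable _ _
  have main := intervalIntegral.integral_mono_on_of_le_Ioo hu0.le
    (((iB'.add iG).const_mul (Fintype.card α : ℝ)).add
      ((jG.add jG').const_mul (Fintype.card β : ℝ))) (kB.add kD) hcross
  rw [intervalIntegral.integral_add ((iB'.add iG).const_mul _) ((jG.add jG').const_mul _),
    intervalIntegral.integral_const_mul, intervalIntegral.integral_const_mul,
    intervalIntegral.integral_add iB' iG, intervalIntegral.integral_add jG jG',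
    intervalIntegral.integral_add kB kD, intervalIntegral.integral_comp_add_right F₂,
    intervalIntegral.integral_comp_add_right L, intervalIntegral.integral_comp_add_right L,
    zero_add, zero_add, add_sub_cancel, add_sub_cancel] at main
  have s1 : ∫ s in (0 : ℝ)..(2 * D), L s = (∫ s in (0 : ℝ)..(D - u), L s) +
      (∫ s in (D - u)..D, L s) + (∫ s in D..(2 * D - u), L s) +
        ∫ s in (2 * D - u)..(2 * D), L s := by
    rw [intervalIntegral.integral_add_adjacent_intervals (hL.intervalIntegrable _ _)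
      (hL.intervalIntegrable _ _), intervalIntegral.integral_add_adjacent_intervals
      (hL.intervalIntegrable _ _) (hL.intervalIntegrable _ _),
      intervalIntegral.integral_add_adjacent_intervals (hL.intervalIntegrable _ _)
      (hL.intervalIntegrable _ _)]
  have s2 : ∫ s in (0 : ℝ)..(2 * D - u), F₂ s = (∫ s in (0 : ℝ)..(D - u), F₂ s) +
      (∫ s in (D - u)..D, F₂ s) + ∫ s in D..(2 * D - u), F₂ s := by
    rw [intervalIntegral.integral_add_adjacent_intervals iA iB,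
      intervalIntegral.integral_add_adjacent_intervals (iA.trans iB) iC]
  have s3 : ∫ s in (0 : ℝ)..(D - u), Real.log (sth (fun σ => φ₁ (σ + D)) s (s + u)) =
      ∫ s in D..(2 * D - u), F₁ s := by
    have e1 : D - u + D = 2 * D - u := by ring
    have := intervalIntegral.integral_comp_add_right (a := 0) (b := D - u) F₁ D
    rw [zero_add, e1] at this
    rw [← this]
    refine intervalIntegral.integral_congr fun s _ => ?_
    simp only [hF₁, coreb_sth_shift]
    congr 2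
    ring
  have s4 : ∫ s in (0 : ℝ)..(D - u), dfc C A φ₁ φ₂ u s = (∫ s in (0 : ℝ)..(D - u), L s) -
      (Fintype.card α * (∫ s in (0 : ℝ)..(D - u), F₂ s) +
        Fintype.card β * ∫ s in (0 : ℝ)..(D - u), F₁ s) := by
    rw [← intervalIntegral.integral_const_mul, ← intervalIntegral.integral_const_mul,
      ← intervalIntegral.integral_add (iA.const_mul _) (jA.const_mul _),
      ← intervalIntegral.integral_sub (hL.intervalIntegrable _ _)
        ((iA.const_mul _).add (jA.const_mul _))]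
    rfl
  have s5 : ∫ s in D..(2 * D - u), dfc C A φ₁ φ₂ u s = (∫ s in D..(2 * D - u), L s) -
      (Fintype.card α * (∫ s in D..(2 * D - u), F₂ s) +
        Fintype.card β * ∫ s in D..(2 * D - u), F₁ s) := by
    rw [← intervalIntegral.integral_const_mul, ← intervalIntegral.integral_const_mul,
      ← intervalIntegral.integral_add (iC.const_mul _) (jC.const_mul _),
      ← intervalIntegral.integral_sub (hL.intervalIntegrable _ _)
        ((iC.const_mul _).add (jC.const_mul _))]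
    rfl
  rw [s1, s4, s5]
  simp only [sI]
  rw [s2, s3]
  linarith

theorem log_mdl {D u : ℝ} (hu : u ∈ Ioo 0 D) (a b : ℕ) : Real.log (mdl D (a + b) b u) =
    a * Real.log (2 * D / Real.pi * Real.sin (Real.pi * u / (2 * D))) +
      b * Real.log (D / Real.pi * Real.sin (Real.pi * u / D)) := by
  obtain ⟨hu0, huD⟩ := hu
  have hD : 0 < D := hu0.trans huD
  have hx0 : 0 < Real.pi * u / (2 * D) := by positivity
  have hx1 : Real.pi * u / (2 * D) < Real.pi / 2 := by
    rw [div_lt_div_iff₀ (by positivity) (by positivity)]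
    nlinarith [Real.pi_pos]
  have hs : 0 < Real.sin (Real.pi * u / (2 * D)) :=
    Real.sin_pos_of_pos_of_lt_pi hx0 (by linarith [Real.pi_pos])
  have hc : 0 < Real.cos (Real.pi * u / (2 * D)) :=
    Real.cos_pos_of_mem_Ioo ⟨by linarith [Real.pi_pos], hx1⟩
  have e1 : Real.pi * u / D = 2 * (Real.pi * u / (2 * D)) := by field_simp
  have e2 : mdl D (a + b) b u = (2 * D / Real.pi * Real.sin (Real.pi * u / (2 * D))) ^ a *
      (D / Real.pi * Real.sin (Real.pi * u / D)) ^ b := by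
    rw [mdl, e1, Real.sin_two_mul, pow_add, mul_assoc, ← mul_pow]
    congr 2
    ring
  have p1 : 0 < 2 * D / Real.pi * Real.sin (Real.pi * u / (2 * D)) := by positivity
  have p2 : 0 < D / Real.pi * Real.sin (Real.pi * u / D) := by
    rw [e1, Real.sin_two_mul]
    positivity
  rw [e2, Real.log_mul (pow_pos p1 a).ne' (pow_pos p2 b).ne', Real.log_pow, Real.log_pow]

theorem Jac.core (h : Jac D C A) (ha : Adapted (A D)) (hk : ∀ s ∈ Ioo 0 D, Fintype.card β ≤
      Module.finrank ℝ (LinearMap.ker (Wm C A s (s + D)).mulVecLin)) {u : ℝ} (hu : u ∈ Ioo 0 D)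
    (hc : Continuous fun s => |(Wm C A s (s + u)).det|) :
    2 * D * Real.log (mdl D (Fintype.card α + Fintype.card β) (Fintype.card β) u) ≤
      ∫ s in (0 : ℝ)..(2 * D), Real.log |(Wm C A s (s + u)).det| := by
  obtain ⟨P, S₁, hS⟩ := h.exists_sdata ha
  obtain ⟨φ₁, φ₂, c, hR⟩ := hS.exists_roots
  have h1 := h.core_ref hS hR hk hu hc
  obtain ⟨h2, h3⟩ := h.coreb_dfc_int_nonneg hS hR hu hc
  have h4 := hR.good2.sI_ge (u := u) ⟨hu.1, by linarith [hu.1, hu.2]⟩
  have h5 := hR.good1.sI_ge hu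
  have h6 := hR.good1'.sI_ge hu
  have h7 := mul_le_mul_of_nonneg_left h4 (Nat.cast_nonneg (α := ℝ) (Fintype.card α))
  have h8 := mul_le_mul_of_nonneg_left (add_le_add h5 h6)
    (Nat.cast_nonneg (α := ℝ) (Fintype.card β))
  rw [log_mdl hu]
  linarith

end Vale.Agent.P231
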