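import Vale.Agent.P231.HurA

/-! Hurwitz theorem. -/

open scoped Quaternion

noncomputable section

namespace Vale.Agent.P231

variable {A : Type*} [NormedAddCommGroup A] [InnerProductSpace ℝ A] {o : A}
  {m : A →L[ℝ] A →L[ℝ] A}

section Dbl

variable {K : Type} [NormedRing K] [Star K] [NormedSpace ℝ K]

/-- The doubling of an embedding. -/
def hurDbl (m : A →L[ℝ] A →L[ℝ] A) (f : K →ₗ[ℝ] A) (l : A) : K × K →ₗ[ℝ] A where
  toFun x := f x.1 + m (f x.2) l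
  map_add' x y := by
    simp only [Prod.fst_add, Prod.snd_add, map_add, add_apply]
    abel
  map_smul' c x := by
    simp only [Prod.smul_fst, Prod.smul_snd, map_smul, smul_apply,
      RingHom.id_apply, smul_add]

omit [Star K] in
theorem hurDbl_apply (f : K →ₗ[ℝ] A) (l : A) (a b : K) :
    hurDbl m f l (a, b) = f a + m (f b) l := rfl

variable {f : K →ₗ[ℝ] A} {l : A}

theorem Emb.hur_one (hf : Emb o m f) : o ∈ LinearMap.range f := ⟨1, hf.one⟩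

theorem Emb.hur_clos (hf : Emb o m f) :
    ∀ x ∈ LinearMap.range f, ∀ y ∈ LinearMap.range f, m x y ∈ LinearMap.range f := by
  rintro _ ⟨x, rfl⟩ _ ⟨y, rfl⟩
  exact ⟨x * y, hf.mul x y⟩

theorem hurDbl_one (hf : Emb o m f) : hurDbl m f l (1, 0) = o := by
  rw [hurDbl_apply, hf.one, map_zero, map_zero, zero_apply, add_zero]

theorem hurDbl_mul (h : Comp o m) (hf : Emb o m f) (hl : l ∈ (LinearMap.range f)ᗮ)
    (h1 : ‖l‖ = 1) (a b c d : K) :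
    hurDbl m f l (a * c - star d * b, d * a + b * star c) =
      m (hurDbl m f l (a, b)) (hurDbl m f l (c, d)) := by
  rw [hurDbl_apply, hurDbl_apply, hurDbl_apply,
    h.double_mul hf.hur_one hf.hur_clos hl h1 ⟨a, rfl⟩ ⟨b, rfl⟩ ⟨c, rfl⟩ ⟨d, rfl⟩,
    map_sub, map_add f, hf.mul, hf.mul, hf.mul, hf.mul, hf.star, hf.star]

theorem hurDbl_star (h : Comp o m) (hf : Emb o m f) (hl : l ∈ (LinearMap.range f)ᗮ) (a b : K) :
    hurDbl m f l (star a, -b) = cj o (hurDbl m f l (a, b)) := by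
  rw [hurDbl_apply, hurDbl_apply,
    h.double_cj hf.hur_one hf.hur_clos hl ⟨a, rfl⟩ ⟨b, rfl⟩, hf.star, map_neg f]

theorem hurDbl_inner (h : Comp o m) (hf : Emb o m f) (hl : l ∈ (LinearMap.range f)ᗮ)
    (h1 : ‖l‖ = 1) (a b c d : K) :
    inner ℝ (hurDbl m f l (a, b)) (hurDbl m f l (c, d)) =
      inner ℝ (f a) (f c) + inner ℝ (f b) (f d) := by
  rw [hurDbl_apply, hurDbl_apply,
    h.double_inner hf.hur_one hf.hur_clos hl h1 ⟨a, rfl⟩ ⟨b, rfl⟩ ⟨c, rfl⟩ ⟨d, rfl⟩]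

theorem hurDbl_norm (h : Comp o m) (hf : Emb o m f) (hl : l ∈ (LinearMap.range f)ᗮ)
    (h1 : ‖l‖ = 1) (a b : K) :
    ‖hurDbl m f l (a, b)‖ ^ 2 = ‖a‖ ^ 2 + ‖b‖ ^ 2 := by
  rw [← real_inner_self_eq_norm_sq, hurDbl_inner h hf hl h1, real_inner_self_eq_norm_sq,
    real_inner_self_eq_norm_sq, hf.norm, hf.norm]

end Dbl

theorem Comp.emb_real (h : Comp o m) : ∃ f : ℝ →ₗ[ℝ] A, Emb o m f := by
  refine ⟨LinearMap.toSpanSingleton ℝ A o, ?_, ?_, ?_, ?_⟩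
  · simp
  · intro x y
    simp only [LinearMap.toSpanSingleton_apply, map_smul, smul_apply, h.left,
      smul_smul, mul_comm]
  · intro x
    simp only [LinearMap.toSpanSingleton_apply, norm_smul, h.unit, mul_one]
  · intro x
    simp only [LinearMap.toSpanSingleton_apply, star_trivial, cj, real_inner_smul_left,
      real_inner_self_eq_norm_sq, h.unit, one_pow, mul_one]
    rw [← sub_smul]
    congr 1
    ring

/-- The real and imaginary parts of a complex number. -/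
def hurC : ℂ →ₗ[ℝ] ℝ × ℝ where
  toFun z := (z.re, z.im)
  map_add' x y := by simp
  map_smul' c x := by simp

/-- The two complex coordinates of a quaternion. -/
def hurH : ℍ[ℝ] →ₗ[ℝ] ℂ × ℂ where
  toFun z := (⟨z.re, z.imI⟩, ⟨z.imJ, z.imK⟩)
  map_add' x y := by
    refine Prod.ext (Complex.ext ?_ ?_) (Complex.ext ?_ ?_) <;> simp
  map_smul' c x := by
    refine Prod.ext (Complex.ext ?_ ?_) (Complex.ext ?_ ?_) <;> simp

/-- `z ↦ f z.re + m (f z.im) l`, with `double_mul` for the range of `f`. -/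
theorem Comp.emb_complex (h : Comp o m) {f : ℝ →ₗ[ℝ] A} (hf : Emb o m f) {l : A}
    (hl : l ∈ (LinearMap.range f)ᗮ) (h1 : ‖l‖ = 1) : ∃ g : ℂ →ₗ[ℝ] A, Emb o m g := by
  refine ⟨(hurDbl m f l).comp hurC, ?_, ?_, ?_, ?_⟩
  · exact hurDbl_one hf
  · intro x y
    refine Eq.trans ?_ (hurDbl_mul h hf hl h1 x.re x.im y.re y.im)
    refine congrArg (hurDbl m f l) (Prod.ext ?_ ?_)
    · show (x * y).re = _
      simp only [Complex.mul_re, star_trivial]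
      ring
    · show (x * y).im = _
      simp only [Complex.mul_im, star_trivial]
      ring
  · intro x
    refine (sq_eq_sq₀ (norm_nonneg _) (norm_nonneg _)).mp ?_
    refine (hurDbl_norm h hf hl h1 x.re x.im).trans ?_
    rw [Complex.sq_norm, Complex.normSq_apply, Real.norm_eq_abs, Real.norm_eq_abs, sq_abs, sq_abs]
    ring
  · intro x
    exact hurDbl_star h hf hl x.re x.im

/-- `q ↦ f ⟨q.re, q.imI⟩ + m (f ⟨q.imJ, q.imK⟩) l`. -/
theorem Comp.emb_quat (h : Comp o m) {f : ℂ →ₗ[ℝ] A} (hf : Emb o m f) {l : A}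
    (hl : l ∈ (LinearMap.range f)ᗮ) (h1 : ‖l‖ = 1) : ∃ g : ℍ[ℝ] →ₗ[ℝ] A, Emb o m g := by
  refine ⟨(hurDbl m f l).comp hurH, ?_, ?_, ?_, ?_⟩
  · exact hurDbl_one hf
  · intro x y
    refine Eq.trans ?_
      (hurDbl_mul h hf hl h1 ⟨x.re, x.imI⟩ ⟨x.imJ, x.imK⟩ ⟨y.re, y.imI⟩ ⟨y.imJ, y.imK⟩)
    refine congrArg (hurDbl m f l) (Prod.ext (Complex.ext ?_ ?_) (Complex.ext ?_ ?_))
    · show (x * y).re = _
      simp [Quaternion.re_mul]
      ring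
    · show (x * y).imI = _
      simp [Quaternion.imI_mul]
      ring
    · show (x * y).imJ = _
      simp [Quaternion.imJ_mul]
      ring
    · show (x * y).imK = _
      simp [Quaternion.imK_mul]
      ring
  · intro x
    refine (sq_eq_sq₀ (norm_nonneg _) (norm_nonneg _)).mp ?_
    refine (hurDbl_norm h hf hl h1 ⟨x.re, x.imI⟩ ⟨x.imJ, x.imK⟩).trans ?_
    rw [Complex.sq_norm, Complex.sq_norm, Complex.normSq_apply, Complex.normSq_apply, sq ‖x‖,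
      ← Quaternion.normSq_eq_norm_mul_self, Quaternion.normSq_def']
    ring
  · intro x
    refine Eq.trans ?_ (hurDbl_star h hf hl ⟨x.re, x.imI⟩ ⟨x.imJ, x.imK⟩)
    refine congrArg (hurDbl m f l) (Prod.ext (Complex.ext ?_ ?_) (Complex.ext ?_ ?_))
    · show (star x).re = _
      simp
    · show (star x).imI = _
      simp
    · show (star x).imJ = _
      simp
    · show (star x).imK = _
      simp

/-- `x ↦ f x.1 + m (f x.2) l`. -/
theorem Comp.emb_oct (h : Comp o m) {f : ℍ[ℝ] →ₗ[ℝ] A} (hf : Emb o m f) {l : A}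
    (hl : l ∈ (LinearMap.range f)ᗮ) (h1 : ‖l‖ = 1) :
    ∃ g : Oct →ₗ[ℝ] A, EmbO o m g ∧ g (1, 0) = o := by
  have hi : ∀ a b : ℍ[ℝ], inner ℝ (f a) (f b) = inner ℝ a b := fun a b =>
    (⟨f, hf.norm⟩ : ℍ[ℝ] →ₗᵢ[ℝ] A).inner_map_map a b
  refine ⟨hurDbl m f l, ⟨?_, ?_, ?_⟩, hurDbl_one hf⟩
  · intro x y
    exact hurDbl_mul h hf hl h1 x.1 x.2 y.1 y.2
  · intro x y
    refine (hurDbl_inner h hf hl h1 x.1 x.2 y.1 y.2).trans ?_
    rw [hi, hi, odot]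
  · intro x
    exact hurDbl_star h hf hl x.1 x.2

/-- For instance `x = (i, 0)`, `y = (j, 0)`, `z = (0, 1)`. -/
theorem omul_not_assoc : ∃ x y z : Oct, omul (omul x y) z ≠ omul x (omul y z) := by
  obtain ⟨i, hi⟩ : ∃ i : ℍ[ℝ], i.re = 0 ∧ i.imI = 1 ∧ i.imJ = 0 ∧ i.imK = 0 :=
    ⟨⟨0, 1, 0, 0⟩, rfl, rfl, rfl, rfl⟩
  obtain ⟨j, hj⟩ : ∃ j : ℍ[ℝ], j.re = 0 ∧ j.imI = 0 ∧ j.imJ = 1 ∧ j.imK = 0 :=
    ⟨⟨0, 0, 1, 0⟩, rfl, rfl, rfl, rfl⟩
  refine ⟨(i, 0), (j, 0), (0, 1), fun hh => ?_⟩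
  have h1 : i * j = j * i := by
    have := congrArg Prod.snd hh
    simpa [omul] using this
  have h2 := congrArg (fun w : ℍ[ℝ] => w.imK) h1
  simp only [Quaternion.imK_mul, hi.1, hi.2.1, hi.2.2.1, hi.2.2.2, hj.1, hj.2.1, hj.2.2.1,
    hj.2.2.2] at h2
  norm_num at h2

theorem EmbO.hur_inj {g : Oct →ₗ[ℝ] A} (hg : EmbO o m g) : Function.Injective g := by
  refine (injective_iff_map_eq_zero g).mpr fun x hx => ?_
  have h0 := hg.dot x x
  rw [hx, inner_zero_left, odot, real_inner_self_eq_norm_sq, real_inner_self_eq_norm_sq] at h0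
  have h1 : ‖x.1‖ = 0 := by nlinarith [sq_nonneg ‖x.1‖, sq_nonneg ‖x.2‖]
  have h2 : ‖x.2‖ = 0 := by nlinarith [sq_nonneg ‖x.1‖, sq_nonneg ‖x.2‖]
  exact Prod.ext (norm_eq_zero.mp h1) (norm_eq_zero.mp h2)

theorem EmbO.not_assoc {g : Oct →ₗ[ℝ] A} (hg : EmbO o m g) :
    ∃ x y z : Oct, m (m (g x) (g y)) (g z) ≠ m (g x) (m (g y) (g z)) := by
  obtain ⟨x, y, z, hne⟩ := omul_not_assoc
  refine ⟨x, y, z, fun hh => hne (hg.hur_inj ?_)⟩
  rw [hg.mul, hg.mul, hg.mul, hg.mul, hh]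

theorem hur_unit [FiniteDimensional ℝ A] {K : Type*} [AddCommGroup K] [Module ℝ K]
    {f : K →ₗ[ℝ] A} (hf : ¬ Function.Surjective f) :
    ∃ l ∈ (LinearMap.range f)ᗮ, ‖l‖ = 1 := by
  have hne : (LinearMap.range f)ᗮ ≠ ⊥ := fun hb =>
    hf (LinearMap.range_eq_top.mp (Submodule.orthogonal_eq_bot_iff.mp hb))
  obtain ⟨v, hv, hv0⟩ := Submodule.exists_mem_ne_zero_of_ne_bot hne
  refine ⟨‖v‖⁻¹ • v, Submodule.smul_mem _ _ hv, ?_⟩
  rw [norm_smul, norm_inv, norm_norm, inv_mul_cancel₀ (norm_ne_zero_iff.mpr hv0)]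

/-- If an embedding is not onto, the orthogonal of its range contains a unit vector. The last
step is excluded by `double_assoc` and `EmbO.not_assoc`. -/
theorem Comp.hurwitz [FiniteDimensional ℝ A] (h : Comp o m) :
    (∃ f : ℝ →ₗ[ℝ] A, Emb o m f ∧ Function.Surjective f) ∨
      (∃ f : ℂ →ₗ[ℝ] A, Emb o m f ∧ Function.Surjective f) ∨
      (∃ f : ℍ[ℝ] →ₗ[ℝ] A, Emb o m f ∧ Function.Surjective f) ∨
      ∃ f : Oct →ₗ[ℝ] A, EmbO o m f ∧ Function.Surjective f := by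
  obtain ⟨f1, hf1⟩ := h.emb_real
  by_cases s1 : Function.Surjective f1
  · exact Or.inl ⟨f1, hf1, s1⟩
  obtain ⟨l1, hl1, n1⟩ := hur_unit s1
  obtain ⟨f2, hf2⟩ := h.emb_complex hf1 hl1 n1
  by_cases s2 : Function.Surjective f2
  · exact Or.inr (Or.inl ⟨f2, hf2, s2⟩)
  obtain ⟨l2, hl2, n2⟩ := hur_unit s2
  obtain ⟨f3, hf3⟩ := h.emb_quat hf2 hl2 n2
  by_cases s3 : Function.Surjective f3
  · exact Or.inr (Or.inr (Or.inl ⟨f3, hf3, s3⟩))
  obtain ⟨l3, hl3, n3⟩ := hur_unit s3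
  obtain ⟨f4, hf4, ho⟩ := h.emb_oct hf3 hl3 n3
  by_cases s4 : Function.Surjective f4
  · exact Or.inr (Or.inr (Or.inr ⟨f4, hf4, s4⟩))
  obtain ⟨l4, hl4, n4⟩ := hur_unit s4
  obtain ⟨x, y, z, hne⟩ := hf4.not_assoc
  refine absurd (h.double_assoc (B := LinearMap.range f4) ⟨_, ho⟩ ?_ hl4 n4
    ⟨x, rfl⟩ ⟨y, rfl⟩ ⟨z, rfl⟩) hne
  rintro _ ⟨a, rfl⟩ _ ⟨b, rfl⟩
  exact ⟨omul a b, hf4.mul a b⟩

end Vale.Agent.P231
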