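import Vale.Agent.P231.ModS
import Vale.Agent.P231.AlgE

/-! The projective spaces. -/

open scoped ContDiff Topology
open Filter Set

noncomputable section

namespace Vale.Agent.P231

variable {V : Type*} [NormedAddCommGroup V] [InnerProductSpace ℝ V]
  {P : V →L[ℝ] V →L[ℝ] V →L[ℝ] V}

variable {N : Type*} [MetricSpace N]

/-- Relate `(C, S)` to the unit vectors `z` such that `z i * l = Fin.cons (C • 1) (J S) i` for a
unit scalar `l`. For given `z` take `l = ‖z 0‖ • (z 0)⁻¹`, or `l = 1` if `z 0 = 0`. Apply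
`transfer` with constant `1`. -/
theorem modelled_K {K : Type} [NormedDivisionRing K] [StarRing K] [NormedStarGroup K]
    [NormedAlgebra ℝ K] (hs : ∀ r : ℝ, star (r • (1 : K)) = r • (1 : K)) {n : ℕ}
    {J : V → Fin n → K} (hJ : Function.Surjective J) (h1 : ∀ S, ∑ i, ‖J S i‖ ^ 2 = ‖S‖ ^ 2)
    (hF : ∀ C S C' S', Fq P C S C' S' =
      ‖(C * C') • (1 : K) + ∑ i, star (J S i) * J S' i‖ ^ 2)
    (hM : ModelledOn N (Hemi V) (hemiDist P)) : ModelledOn N (USph K n) projDist := by
  refine hM.transfer (fun p z => ∃ l : K, ‖l‖ = 1 ∧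
    ∀ i, z.1 i * l = (Fin.cons (p.1.1 • (1 : K)) (J p.1.2) : Fin (n + 1) → K) i) ?_ ?_ one_pos ?_
  · intro p
    refine ⟨⟨(Fin.cons (p.1.1 • (1 : K)) (J p.1.2) : Fin (n + 1) → K), ?_⟩, 1, norm_one,
      fun i => mul_one _⟩
    rw [Fin.sum_univ_succ]
    simp only [Fin.cons_zero, Fin.cons_succ]
    rw [h1, norm_smul, norm_one, mul_one, Real.norm_eq_abs, sq_abs]
    exact p.2.2
  · intro z
    obtain ⟨l, hl, h0⟩ : ∃ l : K, ‖l‖ = 1 ∧ z.1 0 * l = ‖z.1 0‖ • (1 : K) := by
      by_cases h : z.1 0 = 0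
      · exact ⟨1, norm_one, by simp [h]⟩
      · refine ⟨‖z.1 0‖ • (z.1 0)⁻¹, ?_, ?_⟩
        · rw [norm_smul, norm_norm, norm_inv, mul_inv_cancel₀ (norm_ne_zero_iff.2 h)]
        · rw [mul_smul_comm, mul_inv_cancel₀ h]
    obtain ⟨S, hS⟩ := hJ (fun i => z.1 i.succ * l)
    refine ⟨⟨(‖z.1 0‖, S), norm_nonneg _, ?_⟩, l, hl, ?_⟩
    · have h2 := z.2
      rw [Fin.sum_univ_succ] at h2
      rw [← h1, hS]
      simp only [norm_mul, hl, mul_one]
      exact h2
    · intro i
      refine Fin.cases ?_ (fun j => ?_) i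
      · simpa using h0
      · simp only [Fin.cons_succ, hS]
  · rintro p q z w ⟨l, hl, hz⟩ ⟨l', hl', hw⟩
    have key : star l * (∑ i, star (z.1 i) * w.1 i) * l' =
        (p.1.1 * q.1.1) • (1 : K) + ∑ i, star (J p.1.2 i) * J q.1.2 i := by
      have e : star l * (∑ i, star (z.1 i) * w.1 i) * l' =
          ∑ i, star (z.1 i * l) * (w.1 i * l') := by
        rw [Finset.mul_sum, Finset.sum_mul]
        refine Finset.sum_congr rfl fun i _ => ?_
        rw [star_mul]
        simp only [mul_assoc]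
      rw [e, Fin.sum_univ_succ]
      simp only [hz, hw, Fin.cons_zero, Fin.cons_succ]
      rw [hs, smul_mul_assoc, one_mul, smul_smul]
    rw [one_mul, projDist, hemiDist, hF, ← key, Real.sqrt_sq (norm_nonneg _), norm_mul, norm_mul,
      norm_star, hl, hl', one_mul, mul_one]

/-- `f` is bijective (it preserves the norm), so `m` is associative; transport `Fq_assoc` along
the inverse of `f` and apply `modelled_K`. -/
theorem Comp.modelled {K : Type} [NormedDivisionRing K] [StarRing K] [NormedStarGroup K]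
    [NormedAlgebra ℝ K] {A : Type*} [NormedAddCommGroup A] [InnerProductSpace ℝ A] {o : A}
    {m : A →L[ℝ] A →L[ℝ] A} (h : Comp o m) {f : K →ₗ[ℝ] A} (hf : Emb o m f)
    (hs : Function.Surjective f) {n : ℕ} {J : V → Fin (n + 2) → A} (hJ : Function.Surjective J)
    (h1 : ∀ S S', inner ℝ S S' = ∑ i, inner ℝ (J S i) (J S' i))
    (h2 : ∀ S S', inner ℝ (P S S S') S' = ‖J S 0‖ ^ 2 * ‖J S' 0‖ ^ 2 +
      2 * ∑ i : Fin (n + 1), inner ℝ (m (m (J S i.succ) (cj o (J S 0))) (J S' 0)) (J S' i.succ) +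
      ‖∑ i : Fin (n + 1), m (cj o (J S i.succ)) (J S' i.succ)‖ ^ 2)
    (hM : ModelledOn N (Hemi V) (hemiDist P)) : ModelledOn N (USph K (n + 2)) projDist := by
  have hi : Function.Injective f := by
    intro x y hxy
    have h0 : ‖x - y‖ = 0 := by rw [← hf.norm, map_sub, hxy, sub_self, norm_zero]
    exact sub_eq_zero.1 (norm_eq_zero.1 h0)
  choose g hg using hs
  have hgf : ∀ x, g (f x) = x := fun x => hi (hg _)
  have ha : ∀ x y z, m (m x y) z = m x (m y z) := by
    intro x y z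
    rw [← hg x, ← hg y, ← hg z, ← hf.mul, ← hf.mul, ← hf.mul, ← hf.mul, mul_assoc]
  refine modelled_K (J := fun S i => g (J S i)) ?_ ?_ ?_ ?_ hM
  · intro r
    apply hi
    rw [hf.star, map_smul, hf.one, cj, real_inner_smul_left, real_inner_self_eq_norm_sq, h.unit,
      ← sub_smul]
    congr 1
    ring
  · intro y
    obtain ⟨S, hS⟩ := hJ (fun i => f (y i))
    exact ⟨S, funext fun i => by simp only [hS, hgf]⟩
  · intro S
    rw [← real_inner_self_eq_norm_sq S, h1]
    refine Finset.sum_congr rfl fun i _ => ?_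
    rw [← hf.norm, hg, real_inner_self_eq_norm_sq]
  · intro C S C' S'
    rw [h.Fq_assoc ha h1 h2, ← hf.norm, map_add, map_smul, hf.one, map_sum]
    simp only [hf.mul, hf.star, hg]

end Vale.Agent.P231
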