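import Vale.Agent.P231.ModS
import Vale.Agent.P231.HurA

/-! The Cayley plane. -/

open scoped ContDiff Topology
open Filter Set

noncomputable section

namespace Vale.Agent.P231

variable {V : Type*} [NormedAddCommGroup V] [InnerProductSpace ℝ V]
  {P : V →L[ℝ] V →L[ℝ] V →L[ℝ] V}

variable {N : Type*} [MetricSpace N]

theorem modo_odot (x y : Oct) : odot x y = x.1.re * y.1.re + x.1.imI * y.1.imI + x.1.imJ * y.1.imJ +
    x.1.imK * y.1.imK + (x.2.re * y.2.re + x.2.imI * y.2.imI + x.2.imJ * y.2.imJ +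
    x.2.imK * y.2.imK) := by
  simp [odot, Quaternion.inner_def]

/-- In coordinates (`Quaternion.inner_def` or `real_inner` in components, then `ring`). -/
theorem odot_omul (x y : Oct) : odot (omul x y) (omul x y) = odot x x * odot y y := by
  simp only [modo_odot, omul]
  simp
  ring

theorem oconj_omul (x y : Oct) : oconj (omul x y) = omul (oconj y) (oconj x) := by
  refine Prod.ext ?_ ?_ <;> ext <;> simp [omul, oconj] <;> ring

theorem omul_left_alt (x y : Oct) : omul (oconj x) (omul x y) = odot x x • y := by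
  rw [modo_odot]
  refine Prod.ext ?_ ?_ <;> ext <;> simp [omul, oconj] <;> ring

theorem omul_right_alt (x y : Oct) : omul (omul x (oconj y)) y = odot y y • x := by
  rw [modo_odot]
  refine Prod.ext ?_ ?_ <;> ext <;> simp [omul, oconj] <;> ring

theorem modo_smul_dot (a b : ℝ) (x y : Oct) : odot (a • x) (b • y) = a * b * odot x y := by
  simp only [modo_odot]
  simp
  ring

theorem modo_conj_dot (x y : Oct) : odot (oconj x) (oconj y) = odot x y := by
  simp only [modo_odot, oconj]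
  simp

theorem modo_conj_conj (x : Oct) : oconj (oconj x) = x := by
  simp [oconj]

theorem modo_conj_smul (a : ℝ) (x : Oct) : oconj (a • x) = a • oconj x := by
  refine Prod.ext ?_ ?_ <;> ext <;> simp [oconj]

theorem modo_smul_mul (a : ℝ) (x y : Oct) : omul (a • x) y = a • omul x y := by
  refine Prod.ext ?_ ?_ <;> ext <;> simp [omul] <;> ring

theorem modo_mul_smul (a : ℝ) (x y : Oct) : omul x (a • y) = a • omul x y := by
  refine Prod.ext ?_ ?_ <;> ext <;> simp [omul] <;> ring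

theorem modo_one_mul (x : Oct) : omul (1, 0) x = x := by
  simp [omul]

theorem modo_one_dot : odot (1, 0) (1, 0) = 1 := by
  simp [odot]

theorem modo_nonneg (x : Oct) : 0 ≤ odot x x :=
  add_nonneg real_inner_self_nonneg real_inner_self_nonneg

theorem modo_eq_zero {x : Oct} (h : odot x x = 0) : x = 0 := by
  have h1 : 0 ≤ inner ℝ x.1 x.1 := real_inner_self_nonneg
  have h2 : 0 ≤ inner ℝ x.2 x.2 := real_inner_self_nonneg
  rw [odot] at h
  exact Prod.ext (inner_self_eq_zero.1 (by linarith : inner ℝ x.1 x.1 = 0))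
    (inner_self_eq_zero.1 (by linarith : inner ℝ x.2 x.2 = 0))

theorem modo_mem (C : ℝ) (u w : Oct) (h : C ^ 2 + odot u u + odot w w = 1) :
    ∑ i, (![C ^ 2, odot u u, odot w w] : Fin 3 → ℝ) i = 1 ∧ ∀ i : Fin 3,
      odot ((![omul u (oconj w), C • w, C • oconj u] : Fin 3 → Oct) i)
          ((![omul u (oconj w), C • w, C • oconj u] : Fin 3 → Oct) i) =
        (![C ^ 2, odot u u, odot w w] : Fin 3 → ℝ) (i + 1) *
          (![C ^ 2, odot u u, odot w w] : Fin 3 → ℝ) (i + 2) ∧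
      omul ((![omul u (oconj w), C • w, C • oconj u] : Fin 3 → Oct) (i + 1))
          ((![omul u (oconj w), C • w, C • oconj u] : Fin 3 → Oct) (i + 2)) =
        (![C ^ 2, odot u u, odot w w] : Fin 3 → ℝ) i •
          oconj ((![omul u (oconj w), C • w, C • oconj u] : Fin 3 → Oct) i) := by
  refine ⟨by rw [Fin.sum_univ_three]; exact h, fun i => ?_⟩
  fin_cases i
  · refine ⟨?_, ?_⟩
    · change odot (omul u (oconj w)) (omul u (oconj w)) = odot u u * odot w w
      rw [odot_omul, modo_conj_dot]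
    · change omul (C • w) (C • oconj u) = C ^ 2 • oconj (omul u (oconj w))
      rw [modo_smul_mul, modo_mul_smul, oconj_omul, modo_conj_conj, smul_smul, sq]
  · refine ⟨?_, ?_⟩
    · change odot (C • w) (C • w) = odot w w * C ^ 2
      rw [modo_smul_dot]
      ring
    · change omul (C • oconj u) (omul u (oconj w)) = odot u u • oconj (C • w)
      rw [modo_smul_mul, omul_left_alt, modo_conj_smul, smul_comm]
  · refine ⟨?_, ?_⟩
    · change odot (C • oconj u) (C • oconj u) = C ^ 2 * odot u u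
      rw [modo_smul_dot, modo_conj_dot, sq]
    · change omul (omul u (oconj w)) (C • w) = odot w w • oconj (C • oconj u)
      rw [modo_mul_smul, omul_right_alt, modo_conj_smul, modo_conj_conj, smul_comm]

theorem modo_onto (ξ : Fin 3 → ℝ) (x : Fin 3 → Oct) (hs : ∑ i, ξ i = 1)
    (hx : ∀ i, odot (x i) (x i) = ξ (i + 1) * ξ (i + 2) ∧
      omul (x (i + 1)) (x (i + 2)) = ξ i • oconj (x i)) :
    ∃ (C : ℝ) (u w : Oct), 0 ≤ C ∧ ξ 0 = C ^ 2 ∧ ξ 1 = odot u u ∧ ξ 2 = odot w w ∧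
      x 0 = omul u (oconj w) ∧ x 1 = C • w ∧ x 2 = C • oconj u := by
  rw [Fin.sum_univ_three] at hs
  have a0 : odot (x 0) (x 0) = ξ 1 * ξ 2 := (hx 0).1
  have a1 : odot (x 1) (x 1) = ξ 2 * ξ 0 := (hx 1).1
  have a2 : odot (x 2) (x 2) = ξ 0 * ξ 1 := (hx 2).1
  have b0 : omul (x 1) (x 2) = ξ 0 • oconj (x 0) := (hx 0).2
  have n0 := modo_nonneg (x 0)
  have n1 := modo_nonneg (x 1)
  have n2 := modo_nonneg (x 2)
  have p0 : 0 ≤ ξ 0 := by
    by_contra hc
    have hc' := not_le.1 hc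
    nlinarith
  have p1 : 0 ≤ ξ 1 := by
    by_contra hc
    have hc' := not_le.1 hc
    nlinarith
  rcases p0.eq_or_lt with h0 | h0
  · have z1 : x 1 = 0 := modo_eq_zero (by rw [a1, ← h0, mul_zero])
    have z2 : x 2 = 0 := modo_eq_zero (by rw [a2, ← h0, zero_mul])
    rcases p1.eq_or_lt with h1 | h1
    · have z0 : x 0 = 0 := modo_eq_zero (by rw [a0, ← h1, zero_mul])
      refine ⟨0, 0, (1, 0), le_rfl, by rw [← h0]; ring, by rw [← h1]; simp [odot],
        by rw [modo_one_dot]; linarith,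
        by rw [z0]; exact Prod.ext (by simp [omul]) (by simp [omul]), by rw [z1, zero_smul],
        by rw [z2, zero_smul]⟩
    · obtain ⟨t, ht0, ht⟩ : ∃ t : ℝ, 0 < t ∧ ξ 1 = t * t :=
        ⟨√(ξ 1), Real.sqrt_pos.2 h1, (Real.mul_self_sqrt p1).symm⟩
      refine ⟨0, t • (1, 0), t⁻¹ • oconj (x 0), le_rfl, by rw [← h0]; ring, ?_, ?_, ?_,
        by rw [z1, zero_smul], by rw [z2, zero_smul]⟩
      · rw [modo_smul_dot, modo_one_dot, mul_one, ht]
      · rw [modo_smul_dot, modo_conj_dot, a0, ht]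
        field_simp
      · rw [modo_conj_smul, modo_conj_conj, modo_smul_mul, modo_one_mul, smul_smul,
          mul_inv_cancel₀ ht0.ne', one_smul]
  · obtain ⟨t, ht0, ht⟩ : ∃ t : ℝ, 0 < t ∧ ξ 0 = t * t :=
      ⟨√(ξ 0), Real.sqrt_pos.2 h0, (Real.mul_self_sqrt p0).symm⟩
    refine ⟨t, t⁻¹ • oconj (x 2), t⁻¹ • x 1, ht0.le, by rw [ht, sq], ?_, ?_, ?_, ?_, ?_⟩
    · rw [modo_smul_dot, modo_conj_dot, a2, ht]
      field_simp
    · rw [modo_smul_dot, a1, ht]
      field_simp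
    · rw [modo_conj_smul, modo_smul_mul, modo_mul_smul, ← oconj_omul, b0, modo_conj_smul,
        modo_conj_conj, smul_smul, smul_smul, ht]
      have : t⁻¹ * t⁻¹ * (t * t) = 1 := by field_simp
      rw [this, one_smul]
    · rw [smul_smul, mul_inv_cancel₀ ht0.ne', one_smul]
    · rw [modo_conj_smul, modo_conj_conj, smul_smul, mul_inv_cancel₀ ht0.ne', one_smul]

/-- The point of the Cayley plane attached to `(C, u, w)` has diagonal `(C², |u|², |w|²)` and
entries `x 0 = u w̄`, `x 1 = C w`, `x 2 = C ū`. Onto: the diagonal entries are nonnegative (the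
pairwise products are, and the sum is one). If `ξ 0 > 0` take `C = √(ξ 0)`, `u = conj (x 2) / C`,
`w = x 1 / C`. If `ξ 0 = 0 < ξ 1` take `C = 0`, `u = √(ξ 1) • (1, 0)`, `w = conj (x 0) / √(ξ 1)`.
Otherwise `C = 0`, `u = 0`, `w = (1, 0)`. Apply `transfer` with constant `1`. -/
theorem modelled_O {U W : V → Oct} (hJ : ∀ u w, ∃ S, U S = u ∧ W S = w)
    (h1 : ∀ S S', inner ℝ S S' = odot (U S) (U S') + odot (W S) (W S'))
    (h2 : ∀ S S', inner ℝ (P S S S') S' = odot (U S) (U S) * odot (U S') (U S') +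
      2 * odot (omul (U S) (oconj (W S))) (omul (U S') (oconj (W S'))) +
      odot (W S) (W S) * odot (W S') (W S'))
    (hM : ModelledOn N (Hemi V) (hemiDist P)) : ModelledOn N CayleyPlane cayDist := by
  have hn : ∀ S : V, ‖S‖ ^ 2 = odot (U S) (U S) + odot (W S) (W S) := fun S => by
    rw [← real_inner_self_eq_norm_sq, h1]
  refine hM.transfer (fun p q => q.1.1 0 = p.1.1 ^ 2 ∧ q.1.1 1 = odot (U p.1.2) (U p.1.2) ∧
    q.1.1 2 = odot (W p.1.2) (W p.1.2) ∧ q.1.2 0 = omul (U p.1.2) (oconj (W p.1.2)) ∧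
    q.1.2 1 = p.1.1 • W p.1.2 ∧ q.1.2 2 = p.1.1 • oconj (U p.1.2)) ?_ ?_ (l := 1) one_pos ?_
  · rintro ⟨⟨C, S⟩, h0, hS⟩
    rw [hn] at hS
    exact ⟨⟨(![C ^ 2, odot (U S) (U S), odot (W S) (W S)],
      ![omul (U S) (oconj (W S)), C • W S, C • oconj (U S)]),
      modo_mem C (U S) (W S) (by simp only at hS; linarith)⟩, rfl, rfl, rfl, rfl, rfl, rfl⟩
  · rintro ⟨⟨ξ, x⟩, hs, hx⟩
    obtain ⟨C, u, w, h0, e0, e1, e2, e3, e4, e5⟩ := modo_onto ξ x hs hx
    obtain ⟨S, rfl, rfl⟩ := hJ u w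
    refine ⟨⟨(C, S), h0, ?_⟩, e0, e1, e2, e3, e4, e5⟩
    simp only [Fin.sum_univ_three] at hs
    simp only
    rw [hn, ← e0, ← e1, ← e2]
    linarith
  · rintro ⟨⟨C, S⟩, h0, hS⟩ ⟨⟨C', S'⟩, h0', hS'⟩ q q' ⟨a0, a1, a2, a3, a4, a5⟩
      ⟨b0, b1, b2, b3, b4, b5⟩
    simp only at a0 a1 a2 a3 a4 a5 b0 b1 b2 b3 b4 b5
    rw [one_mul, cayDist]
    change _ = Real.arccos √(Fq P C S C' S')
    simp only [Fin.sum_univ_three]
    rw [a0, a1, a2, a3, a4, a5, b0, b1, b2, b3, b4, b5, Fq, h1, h2, modo_smul_dot, modo_smul_dot,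
      modo_conj_dot]
    congr 2
    ring

/-- `f` is bijective; `U S`, `W S` are the preimages of `J S 0`, `J S 1`, and
`⟪(w ū) u', w'⟫ = ⟪w ū, w' ū'⟫ = ⟪u w̄, u' w̄'⟫` (`adj_right`, `inner_cj`, `cj_mul`). -/
theorem Comp.modelled_oct {A : Type*} [NormedAddCommGroup A] [InnerProductSpace ℝ A] {o : A}
    {m : A →L[ℝ] A →L[ℝ] A} (h : Comp o m) {f : Oct →ₗ[ℝ] A} (hf : EmbO o m f)
    (hs : Function.Surjective f) {J : V → Fin (0 + 2) → A} (hJ : Function.Surjective J)
    (h1 : ∀ S S', inner ℝ S S' = ∑ i, inner ℝ (J S i) (J S' i))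
    (h2 : ∀ S S', inner ℝ (P S S S') S' = ‖J S 0‖ ^ 2 * ‖J S' 0‖ ^ 2 +
      2 * ∑ i : Fin (0 + 1), inner ℝ (m (m (J S i.succ) (cj o (J S 0))) (J S' 0)) (J S' i.succ) +
      ‖∑ i : Fin (0 + 1), m (cj o (J S i.succ)) (J S' i.succ)‖ ^ 2)
    (hM : ModelledOn N (Hemi V) (hemiDist P)) : ModelledOn N CayleyPlane cayDist := by
  have hinj : Function.Injective f := by
    intro x y hxy
    have h0 : f (x - y) = 0 := by rw [map_sub, hxy, sub_self]
    have h3 := hf.dot (x - y) (x - y)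
    rw [h0, inner_zero_left] at h3
    exact sub_eq_zero.1 (modo_eq_zero h3.symm)
  choose g hg using hs
  have hgf : ∀ x, g (f x) = x := fun x => hinj (hg _)
  have hd : ∀ a b : A, odot (g a) (g b) = inner ℝ a b := fun a b => by rw [← hf.dot, hg, hg]
  refine modelled_O (U := fun S => g (J S 0)) (W := fun S => g (J S 1)) ?_ ?_ ?_ hM
  · intro u w
    obtain ⟨S, hS⟩ := hJ ![f u, f w]
    refine ⟨S, ?_, ?_⟩
    · rw [hS]
      exact hgf u
    · rw [hS]
      exact hgf w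
  · intro S S'
    rw [h1, hd, hd]
    exact Fin.sum_univ_two _
  · intro S S'
    have e1 : (Fin.succ (0 : Fin (0 + 1)) : Fin (0 + 2)) = 1 := rfl
    rw [h2, hd, hd, hd, hd, ← hf.dot, hf.mul, hf.mul, hf.star, hf.star, hg, hg, hg, hg,
      Fin.sum_univ_succ, Fin.sum_univ_succ, Fin.sum_univ_zero, Fin.sum_univ_zero, add_zero,
      add_zero, e1, h.norm, real_inner_self_eq_norm_sq, real_inner_self_eq_norm_sq,
      real_inner_self_eq_norm_sq, real_inner_self_eq_norm_sq, mul_pow]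
    have e2 : ‖cj o (J S 1)‖ ^ 2 = ‖J S 1‖ ^ 2 := by
      rw [← real_inner_self_eq_norm_sq, inner_cj h.unit, real_inner_self_eq_norm_sq]
    have e3 : inner ℝ (m (m (J S 1) (cj o (J S 0))) (J S' 0)) (J S' 1) =
        inner ℝ (m (J S 0) (cj o (J S 1))) (m (J S' 0) (cj o (J S' 1))) := by
      rw [h.adj_right, ← inner_cj h.unit, h.cj_mul, h.cj_mul, cj_cj h.unit, cj_cj h.unit]
    rw [e2, e3]

end Vale.Agent.P231
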