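import Vale.Agent.P231.Bi
import Vale.Agent.P231.AbsB

/-! The projections depend quadratically on the direction. -/

open scoped ContDiff Topology Matrix
open Filter Set

noncomputable section

namespace Vale.Agent.P231

open Vale.Agent.P234

variable {M : Type*} [MetricSpace M] [CompactSpace M] {T : M → Type*}
  [∀ x, NormedAddCommGroup (T x)] [∀ x, InnerProductSpace ℝ (T x)]
  [∀ x, FiniteDimensional ℝ (T x)] {e : ∀ x, T x → M} {r D : ℝ}

theorem quad_step {g g' : ℝ → ℝ} (hg : ∀ t, HasDerivAt g (g' t) t) (h0 : ∀ t ∈ Ioo 0 D, g t = 0) :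
    ∀ t ∈ Ioo 0 D, g' t = 0 := by
  intro t ht
  have h1 : (fun _ : ℝ => (0 : ℝ)) =ᶠ[𝓝 t] g := by
    filter_upwards [isOpen_Ioo.mem_nhds ht] with s hs
    exact (h0 s hs).symm
  exact ((hg t).congr_of_eventuallyEq h1).unique (hasDerivAt_const t 0)

theorem quad_sin (a t : ℝ) : HasDerivAt (fun t => Real.sin (a * t)) (Real.cos (a * t) * a) t := by
  simpa using ((hasDerivAt_id t).const_mul a).sin

theorem quad_cos (a t : ℝ) :
    HasDerivAt (fun t => Real.cos (a * t)) (-Real.sin (a * t) * a) t := by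
  simpa using ((hasDerivAt_id t).const_mul a).cos

theorem quad_four {f : ℝ → ℝ} (hf : ContDiff ℝ ∞ f) (hD : 0 < D) {a b A B C E : ℝ}
    (he : ∀ t ∈ Ioo 0 D, t ^ 2 * f t - A * t ^ 2 - E + B * Real.cos (a * t) +
      C * Real.cos (b * t) = 0) : 12 * deriv (deriv f) 0 + B * a ^ 4 + C * b ^ 4 = 0 := by
  have s1 : ContDiff ℝ ∞ (deriv f) := (contDiff_infty_iff_deriv.1 hf).2
  have s2 : ContDiff ℝ ∞ (deriv (deriv f)) := (contDiff_infty_iff_deriv.1 s1).2
  have s3 : ContDiff ℝ ∞ (deriv (deriv (deriv f))) := (contDiff_infty_iff_deriv.1 s2).2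
  have s4 : ContDiff ℝ ∞ (deriv (deriv (deriv (deriv f)))) := (contDiff_infty_iff_deriv.1 s3).2
  have d0 := fun t => ((contDiff_infty_iff_deriv.1 hf).1 t).hasDerivAt
  have d1 := fun t => ((contDiff_infty_iff_deriv.1 s1).1 t).hasDerivAt
  have d2 := fun t => ((contDiff_infty_iff_deriv.1 s2).1 t).hasDerivAt
  have d3 := fun t => ((contDiff_infty_iff_deriv.1 s3).1 t).hasDerivAt
  have c2 := s2.continuous
  have c3 := s3.continuous
  have c4 := s4.continuous
  generalize deriv (deriv (deriv (deriv f))) = f4 at *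
  generalize deriv (deriv (deriv f)) = f3 at *
  generalize deriv (deriv f) = f2 at *
  generalize deriv f = f1 at *
  have p2 : ∀ t : ℝ, HasDerivAt (fun t : ℝ => t ^ 2) (2 * t) t := fun t => by
    simpa using hasDerivAt_pow 2 t
  have e1 := quad_step (D := D) (g' := fun t => 2 * (t * f t) + t ^ 2 * f1 t - 2 * A * t -
      B * a * Real.sin (a * t) - C * b * Real.sin (b * t)) (fun t => by
    convert ((((((p2 t).mul (d0 t)).sub ((p2 t).const_mul A)).sub_const E).add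
      ((quad_cos a t).const_mul B)).add ((quad_cos b t).const_mul C)) using 1
    all_goals first | rfl | ring) he
  have e2 := quad_step (D := D) (g' := fun t => 2 * f t + 4 * (t * f1 t) + t ^ 2 * f2 t - 2 * A -
      B * a ^ 2 * Real.cos (a * t) - C * b ^ 2 * Real.cos (b * t)) (fun t => by
    convert (((((((hasDerivAt_id' t).mul (d0 t)).const_mul 2).add ((p2 t).mul (d1 t))).sub
      ((hasDerivAt_id' t).const_mul (2 * A))).sub
      ((quad_sin a t).const_mul (B * a))).sub ((quad_sin b t).const_mul (C * b))) using 1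
    all_goals first | rfl | ring) e1
  have e3 := quad_step (D := D) (g' := fun t => 6 * f1 t + 6 * (t * f2 t) + t ^ 2 * f3 t +
      B * a ^ 3 * Real.sin (a * t) + C * b ^ 3 * Real.sin (b * t)) (fun t => by
    convert (((((((d0 t).const_mul 2).add (((hasDerivAt_id' t).mul (d1 t)).const_mul 4)).add
      ((p2 t).mul (d2 t))).sub_const (2 * A)).sub
      ((quad_cos a t).const_mul (B * a ^ 2))).sub ((quad_cos b t).const_mul (C * b ^ 2))) using 1
    all_goals first | rfl | ring) e2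
  have e4 := quad_step (D := D) (g' := fun t => 12 * f2 t + 8 * (t * f3 t) + t ^ 2 * f4 t +
      B * a ^ 4 * Real.cos (a * t) + C * b ^ 4 * Real.cos (b * t)) (fun t => by
    convert ((((((d1 t).const_mul 6).add (((hasDerivAt_id' t).mul (d2 t)).const_mul 6)).add
      ((p2 t).mul (d3 t))).add
      ((quad_sin a t).const_mul (B * a ^ 3))).add ((quad_sin b t).const_mul (C * b ^ 3))) using 1
    all_goals first | rfl | ring) e3
  have hc : Continuous fun t => 12 * f2 t + 8 * (t * f3 t) + t ^ 2 * f4 t +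
      B * a ^ 4 * Real.cos (a * t) + C * b ^ 4 * Real.cos (b * t) := by fun_prop
  have h0 : (0 : ℝ) ∈ closure (Ioo 0 D) := by
    rw [closure_Ioo hD.ne]
    exact left_mem_Icc.2 hD.le
  have := (isClosed_eq hc continuous_const).closure_subset_iff.2 e4 h0
  simpa using this

/-- Taylor expansion at order two for `t → 0+`. By `Real.sin_bound`,
`(sin (κ t) / (κ t)) ^ 2 = 1 - κ² t² / 3 + o (t²)`, and `sin * cos = sin (2 ·) / 2`. So
`f t = ‖ξ‖² - κ² t² (‖ξ‖² / 3 + q - 4 / 3 ⟪ξ, v⟫²) + o (t²)`; compare with the Taylor formula of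
`f` (one may instead differentiate `t² f t = Gq` four times on `(0, D)` and let `t → 0`). -/
theorem quad_taylor {V : Type*} [NormedAddCommGroup V] [InnerProductSpace ℝ V] {f : ℝ → ℝ}
    (hf : ContDiff ℝ ∞ f) {κ q : ℝ} (hκ : 0 < κ) (hD : 0 < D) {v ξ : V}
    (he : ∀ t ∈ Ioo 0 D, t ^ 2 * f t = Gq κ t v ξ q) :
    deriv (deriv f) 0 = -2 * κ ^ 2 * (‖ξ‖ ^ 2 / 3 + q - 4 / 3 * inner ℝ ξ v ^ 2) := by
  have h := quad_four hf hD (a := 2 * κ) (b := 4 * κ) (A := inner ℝ ξ v ^ 2)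
    (B := (‖ξ‖ ^ 2 - q) / (2 * κ ^ 2)) (C := (q - inner ℝ ξ v ^ 2) / (8 * κ ^ 2))
    (E := (‖ξ‖ ^ 2 - q) / (2 * κ ^ 2) + (q - inner ℝ ξ v ^ 2) / (8 * κ ^ 2)) fun t ht => by
      have h1 : Real.cos (2 * κ * t) = 1 - 2 * Real.sin (κ * t) ^ 2 := by
        rw [mul_assoc, Real.cos_two_mul, Real.cos_sq']
        ring
      have h2 : Real.cos (4 * κ * t) = 1 - 8 * (Real.sin (κ * t) * Real.cos (κ * t)) ^ 2 := by
        rw [show 4 * κ * t = 2 * (2 * (κ * t)) by ring, Real.cos_two_mul, Real.cos_sq',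
          Real.sin_two_mul]
        ring
      rw [he t ht, Gq, h1, h2]
      field_simp
      ring
  have h1 : (‖ξ‖ ^ 2 - q) / (2 * κ ^ 2) * (2 * κ) ^ 4 = 8 * κ ^ 2 * (‖ξ‖ ^ 2 - q) := by
    field_simp
    ring
  have h2 : (q - inner ℝ ξ v ^ 2) / (8 * κ ^ 2) * (4 * κ) ^ 4 =
      32 * κ ^ 2 * (q - inner ℝ ξ v ^ 2) := by
    field_simp
    ring
  rw [h1, h2] at h
  linarith

theorem quad_line {V W : Type*} [NormedAddCommGroup V] [NormedSpace ℝ V] [NormedAddCommGroup W]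
    [NormedSpace ℝ W] {G : V → W} (hG : ContDiff ℝ ∞ G) (L : W →L[ℝ] ℝ) (v : V) :
    deriv (deriv fun t : ℝ => L (G (t • v))) 0 = L (fderiv ℝ (fderiv ℝ G) 0 v v) := by
  have hl : ∀ t : ℝ, HasDerivAt (fun t : ℝ => t • v) v t := fun t => by
    simpa using (hasDerivAt_id t).smul_const v
  have h1 : deriv (fun t : ℝ => L (G (t • v))) = fun t : ℝ => L (fderiv ℝ G (t • v) v) := by
    funext t
    exact (L.hasFDerivAt.comp_hasDerivAt t
      (((hG.differentiable (by simp)) (t • v)).hasFDerivAt.comp_hasDerivAt t (hl t))).deriv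
  have h2 : Differentiable ℝ (fderiv ℝ G) :=
    (hG.fderiv_right (m := ∞) (by simp)).differentiable (by simp)
  have h3 : HasDerivAt (fun t : ℝ => fderiv ℝ G (t • v)) (fderiv ℝ (fderiv ℝ G) 0 v) 0 := by
    have := (h2 ((0 : ℝ) • v)).hasFDerivAt.comp_hasDerivAt (0 : ℝ) (hl 0)
    rwa [zero_smul] at this
  have h4 := h3.clm_apply (hasDerivAt_const (0 : ℝ) v)
  rw [h1]
  refine (L.hasFDerivAt.comp_hasDerivAt (0 : ℝ) h4).deriv.trans ?_
  simp

theorem quad_hess {V W : Type*} [NormedAddCommGroup V] [NormedSpace ℝ V] [NormedAddCommGroup W]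
    [NormedSpace ℝ W] {G : V → W} (hG : ContDiff ℝ ∞ G) : ∃ H : V →L[ℝ] V →L[ℝ] W,
    (∀ u v, H u v = H v u) ∧ ∀ (L : W →L[ℝ] ℝ) (v : V),
      deriv (deriv fun t : ℝ => L (G (t • v))) 0 = L (H v v) :=
  ⟨fderiv ℝ (fderiv ℝ G) 0,
    fun u v => (hG.contDiffAt.isSymmSndFDerivAt (by simpa using hess_two)).eq u v, quad_line hG⟩

theorem quad_dual {V : Type*} [NormedAddCommGroup V] [InnerProductSpace ℝ V]
    [FiniteDimensional ℝ V] {G : V → V →L[ℝ] V →L[ℝ] ℝ} (hG : ContDiff ℝ ∞ G) :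
    ∃ G' : V → V →L[ℝ] V, ContDiff ℝ ∞ G' ∧ ∀ a ξ η, inner ℝ (G' a ξ) η = G a ξ η := by
  have := FiniteDimensional.complete ℝ V
  let Φ : (V →L[ℝ] ℝ) →L[ℝ] V := LinearMap.toContinuousLinearMap
    { toFun := fun φ => (InnerProductSpace.toDual ℝ V).symm φ
      map_add' := fun φ ψ => map_add _ φ ψ
      map_smul' := fun c φ => by simp }
  have hΦ : ∀ φ η, inner ℝ (Φ φ) η = φ η := fun φ η => InnerProductSpace.toDual_symm_apply
  exact ⟨fun a => Φ.comp (G a), contDiff_const.clm_comp hG, fun a ξ η => hΦ _ _⟩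

theorem quad_riesz {V : Type*} [NormedAddCommGroup V] [InnerProductSpace ℝ V]
    (H : V →L[ℝ] V →L[ℝ] V →L[ℝ] V) (α β γ : ℝ) :
    ∃ P : V →L[ℝ] V →L[ℝ] V →L[ℝ] V, ∀ u v ξ η, inner ℝ (P u v ξ) η =
      α * inner ℝ (H u v ξ) η + β * (inner ℝ u v * inner ℝ ξ η) +
        γ * (inner ℝ u ξ * inner ℝ v η + inner ℝ v ξ * inner ℝ u η) := by
  let I : V →L[ℝ] V →L[ℝ] ℝ := innerSL ℝ
  have hI : ∀ u v, I u v = inner ℝ u v := fun u v => rfl
  let P1 : V →L[ℝ] V →L[ℝ] V →L[ℝ] V :=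
    ((ContinuousLinearMap.smulRightL ℝ V (V →L[ℝ] V)).flip (ContinuousLinearMap.id ℝ V)).comp I
  have h1 : ∀ u v ξ, P1 u v ξ = I u v • ξ := fun u v ξ => rfl
  let P2 : V →L[ℝ] V →L[ℝ] V →L[ℝ] V := (ContinuousLinearMap.smulRightL ℝ V V).comp I
  have h2 : ∀ u v ξ, P2 u v ξ = I u ξ • v := fun u v ξ => rfl
  refine ⟨α • H + β • P1 + γ • (P2 + P2.flip), fun u v ξ η => ?_⟩
  simp only [add_apply, smul_apply,
    ContinuousLinearMap.flip_apply, h1, h2, hI, inner_add_left, real_inner_smul_left]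

theorem quad_ext {V : Type*} [NormedAddCommGroup V] [InnerProductSpace ℝ V] {A B : V →L[ℝ] V}
    (hA : ∀ x y, inner ℝ (A x) y = inner ℝ x (A y))
    (hB : ∀ x y, inner ℝ (B x) y = inner ℝ x (B y))
    (h : ∀ x, inner ℝ (A x) x = inner ℝ (B x) x) : A = B := by
  ext x
  refine ext_inner_right ℝ fun y => ?_
  have h1 := h (x + y)
  simp only [map_add, inner_add_left, inner_add_right] at h1
  have h2 : inner ℝ (A y) x = inner ℝ (A x) y := by rw [hA, real_inner_comm]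
  have h3 : inner ℝ (B y) x = inner ℝ (B x) y := by rw [hB, real_inner_comm]
  linarith [h x, h y]

theorem quad_scale {V : Type*} [NormedAddCommGroup V] [InnerProductSpace ℝ V]
    (P : V →L[ℝ] V →L[ℝ] V →L[ℝ] V) (hs : ∀ u v, P u v = P v u)
    (ha : ∀ u v x y, inner ℝ (P u v x) y = inner ℝ x (P u v y))
    (hu : ∀ v, ‖v‖ = 1 → (∀ x, P v v (P v v x) = P v v x) ∧ P v v v = v) : Pre P := by
  have key : ∀ v, (∀ x, P v v (P v v x) = ‖v‖ ^ 2 • P v v x) ∧ P v v v = ‖v‖ ^ 2 • v := by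
    intro v
    rcases eq_or_ne v 0 with rfl | hv
    · simp
    have hn : ‖v‖ ≠ 0 := norm_ne_zero_iff.2 hv
    obtain ⟨u, hu1, hu2⟩ : ∃ u : V, ‖u‖ = 1 ∧ v = ‖v‖ • u :=
      ⟨‖v‖⁻¹ • v, by rw [norm_smul, norm_inv, norm_norm, inv_mul_cancel₀ hn],
        by rw [smul_smul, mul_inv_cancel₀ hn, one_smul]⟩
    obtain ⟨h1, h2⟩ := hu u hu1
    generalize ‖v‖ = n at hu2 ⊢
    subst hu2
    refine ⟨fun x => ?_, ?_⟩
    · simp only [map_smul, smul_apply, h1, smul_smul]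
      congr 1
      ring
    · simp only [map_smul, smul_apply, h2, smul_smul]
      congr 1
      ring
  exact ⟨hs, ha, fun v => (key v).1, fun v => (key v).2⟩

/-- Let `G` be given by `exists_metric` and `H = fderiv (fderiv G) 0` (symmetric in the first two
and in the last two slots). Define `P` by `⟪P u v ξ, η⟫ = - H u v ξ η / (2 κ²) - ⟪u, v⟫ ⟪ξ, η⟫ / 3 +
2 / 3 (⟪u, ξ⟫ ⟪v, η⟫ + ⟪v, ξ⟫ ⟪u, η⟫)` (`InnerProductSpace.toDual`, finite dimension).
`quad_taylor` for `f t = G (t • v) ξ ξ` gives `⟪P v v ξ, ξ⟫ = ⟪π ξ, ξ⟫`, so `P v v = π` for unit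
`v` (both are symmetric). `idem` and `self` follow by scaling. -/
theorem Bl.exists_pre (h : Bl e r D) (x : M) {c : ℝ}
    (hr : ∀ v : T x, ‖v‖ = 1 → ∃ π : T x →L[ℝ] T x, Prj π v c ∧
      ∀ t ∈ Ioo 0 D, ∀ ξ : T x, t ^ 2 * ‖Lmap e x (t • v) (e x (t • v)) ξ‖ ^ 2 =
        Gq (Real.pi / (2 * D)) t v ξ (inner ℝ (π ξ) ξ)) :
    ∃ P : T x →L[ℝ] T x →L[ℝ] T x →L[ℝ] T x, Pre P ∧ RigP e D x P ∧
      ∀ v : T x, ‖v‖ = 1 → LinearMap.trace ℝ (T x) (P v v).toLinearMap = c := by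
  obtain ⟨G, hG, hG'⟩ := exists_metric h.toGeo x
  have hD := h.dpos
  have hκ : 0 < Real.pi / (2 * D) := by positivity
  generalize hκ' : Real.pi / (2 * D) = κ at hr hκ
  obtain ⟨G', hG1, hG2⟩ := quad_dual hG
  obtain ⟨H, hs, hl0⟩ := quad_hess hG1
  have hl : ∀ ξ η v : T x, deriv (deriv fun t : ℝ => G (t • v) ξ η) 0 = inner ℝ (H v v ξ) η := by
    intro ξ η v
    have h1 := hl0 ((innerSL ℝ η).comp (ContinuousLinearMap.apply ℝ (T x) ξ)) v
    simp only [ContinuousLinearMap.comp_apply, ContinuousLinearMap.apply_apply, innerSL_apply_apply,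
      real_inner_comm _ η, hG2] at h1
    exact h1
  have hs1 : ∀ v ξ η, inner ℝ (H v v ξ) η = inner ℝ (H v v η) ξ := fun v ξ η => by
    rw [← hl, ← hl]
    simp only [hG', real_inner_comm]
  have hs2 : ∀ u v ξ η, inner ℝ (H u v ξ) η = inner ℝ (H u v η) ξ := fun u v ξ η => by
    have h1 := hs1 (u + v) ξ η
    simp only [map_add, add_apply, hs v u, inner_add_left] at h1
    linarith [hs1 u ξ η, hs1 v ξ η]
  obtain ⟨P, hP⟩ := quad_riesz H (-(2 * κ ^ 2)⁻¹) (-1 / 3) (2 / 3)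
  have ha : ∀ u v ξ η, inner ℝ (P u v ξ) η = inner ℝ ξ (P u v η) := fun u v ξ η => by
    rw [real_inner_comm (P u v η), hP, hP, hs2, real_inner_comm ξ η]
    ring
  have hπ : ∀ v : T x, ‖v‖ = 1 → Prj (P v v) v c ∧
      ∀ t ∈ Ioo 0 D, ∀ ξ : T x, t ^ 2 * ‖Lmap e x (t • v) (e x (t • v)) ξ‖ ^ 2 =
        Gq κ t v ξ (inner ℝ (P v v ξ) ξ) := by
    intro v hv
    obtain ⟨π, h1, h2⟩ := hr v hv
    have h3 : P v v = π := by
      refine quad_ext (ha v v) h1.adj fun ξ => ?_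
      have h4 : ContDiff ℝ ∞ fun t : ℝ => G (t • v) ξ ξ :=
        ((hG.comp (contDiff_id.smul contDiff_const)).clm_apply contDiff_const).clm_apply
          contDiff_const
      have h5 := quad_taylor h4 hκ hD (v := v) (ξ := ξ) (q := inner ℝ (π ξ) ξ) fun t ht => by
        rw [hG', real_inner_self_eq_norm_sq]
        exact h2 t ht ξ
      rw [hl] at h5
      rw [hP, h5, real_inner_self_eq_norm_sq, real_inner_self_eq_norm_sq, hv,
        real_inner_comm v ξ]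
      field_simp
      ring
    rw [h3]
    exact ⟨h1, h2⟩
  refine ⟨P, quad_scale P (fun u v => ?_) ha fun v hv => ⟨(hπ v hv).1.idem, (hπ v hv).1.self⟩,
    fun v hv => ?_, fun v hv => (hπ v hv).1.tr⟩
  · ext ξ
    refine ext_inner_right ℝ fun η => ?_
    rw [hP, hP, hs u v, real_inner_comm u v]
    ring
  · rw [hκ']
    exact (hπ v hv).2

end Vale.Agent.P231
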