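import Vale.Agent.P231.GeoA
import Vale.Agent.P231.AbsB

/-! Rigidity: the metric along every geodesic is the model metric. -/

open scoped ContDiff Topology Matrix
open Filter Set

noncomputable section

namespace Vale.Agent.P231

open Vale.Agent.P234

variable {M : Type*} [MetricSpace M] [CompactSpace M] {T : M → Type*}
  [∀ x, NormedAddCommGroup (T x)] [∀ x, InnerProductSpace ℝ (T x)]
  [∀ x, FiniteDimensional ℝ (T x)] {e : ∀ x, T x → M} {r D : ℝ}

/-- Copy the first half of the proof of `Jac.core_eq` (`key`, `hsame`), then `SData.diag`. If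
`α` is nonempty `Good.eq_of_sI` gives `φ₂ t = 2 D / π * sin (π t / (2 D))`. The hypothesis
`he 0 t` with `Wm_zero`, `abs_detA` gives the power of `φ₁ t`; conclude with `corec_smul_eq`. -/
theorem Jac.core_diag {α β : Type} [Fintype α] [DecidableEq α] [Fintype β] [DecidableEq β]
    {C A : ℝ → Matrix (α ⊕ β) (α ⊕ β) ℝ} (h : Jac D C A) (ha : Adapted (A D))
    (hk : ∀ s ∈ Ioo 0 D, Fintype.card β ≤
      Module.finrank ℝ (LinearMap.ker (Wm C A s (s + D)).mulVecLin))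
    (he : ∀ s, ∀ u ∈ Ioo 0 D, |(Wm C A s (s + u)).det| =
      mdl D (Fintype.card α + Fintype.card β) (Fintype.card β) u) {t : ℝ} (ht : t ∈ Ioo 0 D) :
    gm A t = Matrix.fromBlocks
      ((Real.sin (Real.pi / (2 * D) * t) / (Real.pi / (2 * D))) ^ 2 • 1) 0 0
      ((Real.sin (Real.pi / (2 * D) * t) * Real.cos (Real.pi / (2 * D) * t) /
        (Real.pi / (2 * D))) ^ 2 • 1) := by
  obtain ⟨P, S₁, hS⟩ := h.exists_sdata ha
  obtain ⟨φ₁, φ₂, c, hR⟩ := hS.exists_roots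
  have hD := h.pos
  have hc : ∀ u ∈ Ioo 0 D, Continuous fun s => |(Wm C A s (s + u)).det| := fun u hu => by
    simp only [he _ u hu]
    exact continuous_const
  have key : ∀ u ∈ Ioo 0 D, (∫ s in (0 : ℝ)..(D - u), dfc C A φ₁ φ₂ u s) = 0 ∧
      (∫ s in D..(2 * D - u), dfc C A φ₁ φ₂ u s) = 0 ∧ Fintype.card α * (2 * D *
        Real.log (2 * D / Real.pi * Real.sin (Real.pi * u / (2 * D)))) =
          Fintype.card α * sI φ₂ (2 * D) u := by
    intro u hu
    have h1 := h.core_ref hS hR hk hu (hc u hu)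
    obtain ⟨h2, h3⟩ := h.coreb_dfc_int_nonneg hS hR hu (hc u hu)
    have h4 := hR.good2.sI_ge (u := u) ⟨hu.1, by linarith [hu.1, hu.2]⟩
    have h5 := hR.good1.sI_ge hu
    have h6 := hR.good1'.sI_ge hu
    have h7 := mul_le_mul_of_nonneg_left h4 (Nat.cast_nonneg (α := ℝ) (Fintype.card α))
    have h8 := mul_le_mul_of_nonneg_left (add_le_add h5 h6)
      (Nat.cast_nonneg (α := ℝ) (Fintype.card β))
    simp only [he _ u hu, intervalIntegral.integral_const, sub_zero, smul_eq_mul] at h1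
    rw [log_mdl hu] at h1
    exact ⟨by linarith, by linarith, by linarith⟩
  have hsame : ∀ s t, Same D s t → iv φ₂ s t ^ Fintype.card α * iv φ₁ s t ^ Fintype.card β =
      |(Sl C A t - Sl C A s).det| := by
    intro s t hs
    refine h.corec_of_dfc hR hs ?_
    have hu : t - s ∈ Ioo 0 D := by
      rcases hs with ⟨a1, a2, a3⟩ | ⟨a1, a2, a3⟩ <;> exact ⟨by linarith, by linarith⟩
    obtain ⟨c1, c2⟩ := h.corec_cont hR hu (hc _ hu)
    obtain ⟨i1, i2⟩ := h.coreb_int_dfc hR hu (hc _ hu)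
    obtain ⟨k1, k2, -⟩ := key _ hu
    rcases hs with ⟨a1, a2, a3⟩ | ⟨a1, a2, a3⟩
    · exact corec_vanish (by linarith [hu.2]) c1 (fun σ hσ => h.dfc_nonneg hS hR
        (Or.inl ⟨hσ.1, by linarith, by linarith [hσ.2]⟩)) i1 k1 ⟨a1, by linarith⟩
    · exact corec_vanish (by linarith [hu.2]) c2 (fun σ hσ => h.dfc_nonneg hS hR
        (Or.inr ⟨hσ.1, by linarith, by linarith [hσ.2]⟩)) i2 k2 ⟨a1, by linarith⟩
  have m1 : t ∈ Ioo 0 (2 * D) := ⟨ht.1, by linarith [ht.2]⟩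
  have n1 : t ≠ D := ht.2.ne
  obtain ⟨t1, t2, t3, -⟩ := geoa_trig ht
  have e2 : φ₂ t ^ Fintype.card α =
      (2 * D / Real.pi * Real.sin (Real.pi * t / (2 * D))) ^ Fintype.card α := by
    rcases Nat.eq_zero_or_pos (Fintype.card α) with h0 | h0
    · rw [h0, pow_zero, pow_zero]
    · have h1 : (Fintype.card α : ℝ) ≠ 0 := Nat.cast_ne_zero.mpr h0.ne'
      obtain ⟨h2, -⟩ := hR.good2.eq_of_sI (u₀ := D) (by linarith)
        (fun u hu => mul_left_cancel₀ h1 (key u hu).2.2) ht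
      rw [h2, one_mul]
  have e1 : φ₁ t ^ Fintype.card β = (2 * D / Real.pi * Real.sin (Real.pi * t / (2 * D)) *
      Real.cos (Real.pi * t / (2 * D))) ^ Fintype.card β := by
    have h1 := he 0 t ht
    rw [zero_add, h.Wm_zero, h.abs_detA hR m1 n1, e2, mdl, pow_add, mul_assoc, ← mul_pow] at h1
    exact mul_left_cancel₀ (pow_pos (mul_pos t1 t2) _).ne' h1
  have a1 : Real.pi / (2 * D) * t = Real.pi * t / (2 * D) := by ring
  have a2 : ∀ y : ℝ, y / (Real.pi / (2 * D)) = 2 * D / Real.pi * y := fun y => by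
    rw [div_div_eq_mul_div]
    ring
  rw [a1, a2, a2, ← mul_assoc, hS.diag hR hsame m1 n1,
    corec_smul_eq (hR.good2.pos _ m1) (mul_pos t1 t2) e2,
    corec_smul_eq (hR.coreb_pos1 m1 n1) (mul_pos (mul_pos t1 t2) t3) e1]

theorem rig_prj {V : Type*} [NormedAddCommGroup V] [InnerProductSpace ℝ V]
    [FiniteDimensional ℝ V] {α β : Type} [Fintype α] [DecidableEq α] [Fintype β] [DecidableEq β]
    {v : V} {b : α ⊕ β → V} (hv : ‖v‖ = 1) (hb : Frame v b) :
    ∃ π : V →L[ℝ] V, Prj π v (Fintype.card β + 1) ∧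
      ∀ ξ, inner ℝ (π ξ) ξ = inner ℝ ξ v ^ 2 + ∑ i, inner ℝ (b (Sum.inr i)) ξ ^ 2 := by
  obtain ⟨π, hπ⟩ : ∃ π : V →L[ℝ] V, ∀ ξ, π ξ =
      inner ℝ v ξ • v + ∑ i, inner ℝ (b (Sum.inr i)) ξ • b (Sum.inr i) :=
    ⟨(innerSL ℝ v).smulRight v + ∑ i, (innerSL ℝ (b (Sum.inr i))).smulRight (b (Sum.inr i)),
      fun ξ => by simp⟩
  have hvv : inner ℝ v v = (1 : ℝ) := by rw [real_inner_self_eq_norm_sq, hv, one_pow]
  have hp : ∀ i, inner ℝ v (b i) = (0 : ℝ) := fun i => by rw [real_inner_comm, hb.perp]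
  have hon := orthonormal_iff_ite.1 hb.on
  have p0 : π v = v := by simp [hπ, hv, hb.perp]
  have p1 : ∀ i, π (b (Sum.inl i)) = 0 := fun i => by simp [hπ, hp, hon]
  have p2 : ∀ i, π (b (Sum.inr i)) = b (Sum.inr i) := fun i => by simp [hπ, hp, hon]
  have hin : ∀ x y, inner ℝ (π x) y = inner ℝ v x * inner ℝ v y +
      ∑ i, inner ℝ (b (Sum.inr i)) x * inner ℝ (b (Sum.inr i)) y := fun x y => by
    rw [hπ, inner_add_left, sum_inner, real_inner_smul_left]
    simp only [real_inner_smul_left]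
  refine ⟨π, ⟨fun x y => ?_, fun x => ?_, p0, ?_⟩, fun ξ => ?_⟩
  · rw [real_inner_comm (π y) x, hin, hin, mul_comm]
    simp only [mul_comm]
  · conv_lhs => rw [hπ x]
    rw [map_add, map_smul, map_sum, p0, hπ x]
    simp only [map_smul, p2]
  · obtain ⟨B, hB1, hB2⟩ := hb.red_basis hv
    rw [LinearMap.trace_eq_sum_inner _ B]
    simp only [Fintype.sum_sum_type, hB1, hB2, ContinuousLinearMap.coe_coe, p0, p1, p2, hvv, hon]
    simp [add_comm]
  · rw [hin, real_inner_comm v ξ]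
    simp only [sq]

/-- Follow the proof of `Bl.geo_eq`, with `core_diag` in place of `core_eq`. The projection is
`ξ ↦ ⟪v, ξ⟫ v + ∑ i, ⟪b (inr i), ξ⟫ b (inr i)`; trace by `LinearMap.trace_eq_sum_inner` in the
basis `Frame.red_basis`. -/
theorem Bl.rig (h : Bl e r D) {m k : ℕ} (hm : ∀ x, Module.finrank ℝ (T x) = m + 1)
    (hk : ∀ x (v : T x), ‖v‖ = D → kap e x v = k)
    (he : ∀ x y, 0 < dist x y → dist x y < D → dens e m D x y = mdl D m k (dist x y))
    (x : M) {v : T x} (hv : ‖v‖ = 1) : ∃ π : T x →L[ℝ] T x, Prj π v (k + 1) ∧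
      ∀ t ∈ Ioo 0 D, ∀ ξ : T x, t ^ 2 * ‖Lmap e x (t • v) (e x (t • v)) ξ‖ ^ 2 =
        Gq (Real.pi / (2 * D)) t v ξ (inner ℝ (π ξ) ξ) := by
  have hD := h.dpos
  obtain ⟨γ, ρ, hl, rfl, h0⟩ := exists_line h.toGeo x hv
  obtain rfl := eq_of_heq h0
  have e1 : ∀ s, ∀ u ∈ Ioo 0 D, dens e m D (γ s) (γ (s + u)) = mdl D m k u := fun s u hu => by
    have : |s - (s + u)| = u := by rw [sub_add_cancel_left, abs_neg, abs_of_pos hu.1]
    have h1 := (hl.dist_eq h (by rw [this]; exact hu.2.le)).trans this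
    rw [he _ _ (by rw [h1]; exact hu.1) (by rw [h1]; exact hu.2), h1]
  have e2 : kap e (γ 0) (D • ρ 0) = k :=
    hk _ _ (by rw [norm_smul, hv, mul_one, Real.norm_of_nonneg hD.le])
  obtain ⟨a, b, C, A, hb, h1, h2, h3, h4, h5⟩ := h.geoa_data hl
  have hc := hb.card (hl.norm 0)
  rw [hm, Fintype.card_sum, Fintype.card_fin, Fintype.card_fin, add_left_inj] at hc
  obtain ⟨π, hπ, hq⟩ := rig_prj hv hb
  rw [Fintype.card_fin, e2] at hπ
  refine ⟨π, hπ, fun t ht ξ => ?_⟩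
  have h6 := h1.core_diag h2 (fun s _ => by rw [h4, h.kap_line hl s, Fintype.card_fin])
    (fun s u hu => by rw [h3 s u hu, Fintype.card_fin, Fintype.card_fin, hc, e1 s u hu, e2]) ht
  have h7 : ∀ (s : ℝ) w, (A s *ᵥ w) ⬝ᵥ (A s *ᵥ w) = w ⬝ᵥ gm A s *ᵥ w := fun s w => by
    rw [gm, ← Matrix.mulVec_mulVec, Matrix.dotProduct_mulVec w, Matrix.vecMul_transpose]
  obtain ⟨c, η, hη, rfl⟩ : ∃ (c : ℝ) (η : T (γ 0)), inner ℝ η (ρ 0) = 0 ∧ ξ = c • ρ 0 + η :=
    ⟨inner ℝ ξ (ρ 0), ξ - inner ℝ ξ (ρ 0) • ρ 0, by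
      rw [inner_sub_left, real_inner_smul_left, real_inner_self_eq_norm_sq, hv]; ring, by abel⟩
  have h8 : ∀ s : ℝ, ‖Lmap e (γ 0) (s • ρ 0) (e (γ 0) (s • ρ 0)) (c • ρ 0 + η)‖ ^ 2 =
      c ^ 2 + ‖Lmap e (γ 0) (s • ρ 0) (γ s) η‖ ^ 2 := fun s => by
    have k1 := Lmap_radial h.toGeo hl 0 s
    have k2 := h.gauss hl 0 s η
    rw [sub_zero] at k1 k2
    rw [← hl.flow, zero_add, map_add, map_smul, k1, norm_add_sq_real, real_inner_smul_left,
      real_inner_comm, k2, hη, norm_smul, hl.norm, Real.norm_eq_abs, mul_one, sq_abs]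
    ring
  have h9 := h5 t fun i => inner ℝ (b i) η
  rw [h7, h6, hb.span η hη] at h9
  have k1 : inner ℝ (c • ρ 0 + η) (ρ 0) = c := by
    rw [inner_add_left, real_inner_smul_left, real_inner_self_eq_norm_sq, hv, hη]
    ring
  have k2 : ∀ i, inner ℝ (b i) (c • ρ 0 + η) = inner ℝ (b i) η := fun i => by
    rw [inner_add_right, real_inner_smul_right, hb.perp, mul_zero, zero_add]
  have k3 : ‖c • ρ 0 + η‖ ^ 2 = c ^ 2 + (∑ i, inner ℝ (b (Sum.inl i)) η ^ 2 +
      ∑ i, inner ℝ (b (Sum.inr i)) η ^ 2) := by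
    have k4 := hb.red_inner (fun i => inner ℝ (b i) η) fun i => inner ℝ (b i) η
    rw [hb.span η hη, real_inner_self_eq_norm_sq, dotProduct, Fintype.sum_sum_type] at k4
    rw [norm_add_sq_real, real_inner_smul_left, real_inner_comm, hη, norm_smul, hv,
      Real.norm_eq_abs, mul_one, sq_abs, k4]
    simp only [sq]
    ring
  rw [h8, mul_add, ← h9, Gq, hq, k1, k3]
  simp only [k2]
  simp only [Matrix.fromBlocks_mulVec, dotProduct, Fintype.sum_sum_type, Sum.elim_inl,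
    Sum.elim_inr, Matrix.smul_mulVec, Matrix.one_mulVec, Matrix.zero_mulVec, add_zero, zero_add,
    Pi.smul_apply, Function.comp_apply, smul_eq_mul, mul_left_comm (inner ℝ (b _) η),
    ← Finset.mul_sum, ← sq]
  ring

end Vale.Agent.P231
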