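import Vale.Agent.P231.Main
import Vale.Agent.P231.Rig
import Vale.Agent.P231.Quad
import Vale.Agent.P231.AvgB
import Vale.Agent.P231.ModK
import Vale.Agent.P231.ModO
import Vale.Agent.P231.HurB

/-! Assembly of the classification. -/

open scoped ContDiff Topology Bundle Manifold Quaternion
open Filter Set Metric MeasureTheory

noncomputable section

namespace Vale.Agent.P231

open Vale.Agent.P234

theorem Spr.cross {N V : Type*} [MetricSpace N] [NormedAddCommGroup V] [InnerProductSpace ℝ V]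
    [FiniteDimensional ℝ V] {P : V →L[ℝ] V →L[ℝ] V →L[ℝ] V} (hP : Spr P)
    (hV : 0 < Module.finrank ℝ V) (hM : ModelledOn N (Hemi V) (hemiDist P)) : IsCROSS N := by
  rcases hP.coord hV with h | ⟨A, o, m, n, J, hc, ha, h1, h2⟩
  · exact Or.inl ⟨_, hV, modelled_S hV h hM⟩
  rcases hc.hurwitz with ⟨f, hf, hs⟩ | ⟨f, hf, hs⟩ | ⟨f, hf, hs⟩ | ⟨f, hf, hs⟩
  · exact Or.inr (Or.inl ⟨n + 2, by omega, hc.modelled hf hs J.surjective h1 h2 hM⟩)
  · exact Or.inr (Or.inr (Or.inl ⟨n + 2, by omega, hc.modelled hf hs J.surjective h1 h2 hM⟩))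
  · exact Or.inr (Or.inr (Or.inr (Or.inl
      ⟨n + 2, by omega, hc.modelled hf hs J.surjective h1 h2 hM⟩)))
  · rcases ha with rfl | ha
    · exact Or.inr (Or.inr (Or.inr (Or.inr (hc.modelled_oct hf hs J.surjective h1 h2 hM))))
    · obtain ⟨x, y, z, hne⟩ := hf.not_assoc
      exact absurd (ha _ _ _) hne

theorem Bl.cross {M : Type*} [MetricSpace M] [CompactSpace M] [Nonempty M] {T : M → Type*}
    [∀ x, NormedAddCommGroup (T x)] [∀ x, InnerProductSpace ℝ (T x)]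
    [∀ x, FiniteDimensional ℝ (T x)] {e : ∀ x, T x → M} {r D : ℝ}
    [MeasurableSpace M] [BorelSpace M] [∀ x, MeasurableSpace (T x)] [∀ x, BorelSpace (T x)]
    (h : Bl e r D) {m k : ℕ} (hm : ∀ x, Module.finrank ℝ (T x) = m + 1)
    (hk : ∀ x (v : T x), ‖v‖ = D → kap e x v = k)
    (hv : μHE[m + 1] (univ : Set M) ≤
      ENNReal.ofReal (sphA (m + 1) * ∫ u in (0 : ℝ)..D, mdl D m k u)) : IsCROSS M := by
  obtain ⟨x⟩ := ‹Nonempty M›
  have he := (h.vol hm fun x v hv => (hk x v hv).le).2 hv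
  obtain ⟨P, hP, hR, ht⟩ := h.exists_pre x fun v hv => h.rig hm hk he x hv
  have hS := h.spr hP hR
  exact hS.cross (by rw [hm]; omega)
    (h.modelled_hemi fun a b ha hb => h.cos_eq hm he hS hR ht ha hb)

variable {E : Type*} [NormedAddCommGroup E] [NormedSpace ℝ E] [FiniteDimensional ℝ E]
  {M : Type*} [MetricSpace M] [ChartedSpace E M]
  [Bundle.RiemannianBundle fun x : M => TangentSpace 𝓘(ℝ, E) x] [IsManifold 𝓘(ℝ, E) ∞ M]
  [IsContMDiffRiemannianBundle 𝓘(ℝ, E) ∞ E fun x : M => TangentSpace 𝓘(ℝ, E) x]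
  [IsRiemannianManifold 𝓘(ℝ, E) M] [CompactSpace M]

theorem blaschke_cross [Nonempty M] [MeasurableSpace M] [BorelSpace M]
    (hn : 0 < Module.finrank ℝ E) (hB : IsBlaschke E M) : ∃ k : ℕ,
      (∀ (x : M) (v : TangentSpace 𝓘(ℝ, E) x), ‖v‖ = diam (univ : Set M) →
        conjMult E x v = k ∧ expMap E x (-v) = expMap E x v) ∧
      ENNReal.ofReal (modelVolume (Module.finrank ℝ E) k (diam (univ : Set M))) ≤
        μHE[Module.finrank ℝ E] (univ : Set M) ∧
      (μHE[Module.finrank ℝ E] (univ : Set M) ≤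
          ENNReal.ofReal (modelVolume (Module.finrank ℝ E) k (diam (univ : Set M))) →
        IsCROSS M) := by
  obtain ⟨r, h⟩ := exists_bl hn hB
  have : ∀ x : M, FiniteDimensional ℝ (TangentSpace 𝓘(ℝ, E) x) := fun _ =>
    inferInstanceAs (FiniteDimensional ℝ E)
  let _ : ∀ x : M, MeasurableSpace (TangentSpace 𝓘(ℝ, E) x) := fun _ => borel _
  have : ∀ x : M, BorelSpace (TangentSpace 𝓘(ℝ, E) x) := fun _ => ⟨rfl⟩
  obtain ⟨k, hk⟩ := h.kap_const
  obtain ⟨m, hm⟩ : ∃ m, Module.finrank ℝ E = m + 1 := ⟨_, (Nat.succ_pred_eq_of_pos hn).symm⟩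
  have hm' : ∀ x : M, Module.finrank ℝ (TangentSpace 𝓘(ℝ, E) x) = m + 1 := fun _ => hm
  have hk' := fun x v hv => (hk x v hv).le
  obtain ⟨h1, -⟩ := h.vol hm' hk'
  rw [hm]
  exact ⟨k, fun x v hv => ⟨(conjMult_eq x v).trans (hk x v hv), h.closed x hv⟩, h1,
    fun h3 => h.cross hm' hk h3⟩

end Vale.Agent.P231
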