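import Vale.Agent.P231.AbsM

/-! Normal Jacobi fields seen from the base point. -/

open scoped ContDiff Topology Matrix
open Filter Set

noncomputable section

namespace Vale.Agent.P231

variable {ι : Type} [Fintype ι] [DecidableEq ι] {D : ℝ} {C A : ℝ → Matrix ι ι ℝ}

theorem jaca_entry (M N : Matrix ι ι ℝ) (i j : ι) :
    (Mᵀ * N) i j = (M *ᵥ Pi.single i 1) ⬝ᵥ (N *ᵥ Pi.single j 1) := by
  simp [Matrix.mul_apply, dotProduct]

theorem jaca_mulVec (C A : ℝ → Matrix ι ι ℝ) (s t : ℝ) (x : ι → ℝ) :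
    Wm C A s t *ᵥ x = C t *ᵥ (-((A s)ᵀ *ᵥ x)) + A t *ᵥ ((C s)ᵀ *ᵥ x) := by
  rw [Wm, Matrix.sub_mulVec, Matrix.mulVec_neg, Matrix.mulVec_mulVec, Matrix.mulVec_mulVec]
  abel

theorem jaca_mul {f g : ℝ → ℝ} {t g' : ℝ} (hf : ContinuousAt f t) (hg : HasDerivAt g g' t)
    (h0 : g t = 0) : HasDerivAt (fun σ => f σ * g σ) (f t * g') t := by
  rw [hasDerivAt_iff_tendsto_slope] at hg ⊢
  refine ((hf.tendsto.mono_left nhdsWithin_le_nhds).mul hg).congr fun σ => ?_
  simp only [slope_def_field, h0, mul_zero, sub_zero]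
  ring

theorem jaca_inv {X : Type*} [TopologicalSpace X] {f : X → Matrix ι ι ℝ} {x : X}
    (hf : ContinuousAt f x) (h : (f x).det ≠ 0) : ContinuousAt (fun y => (f y)⁻¹) x := by
  refine (continuousAt_matrix_inv (f x) ?_).comp hf
  rw [Ring.inverse_eq_inv']
  exact continuousAt_inv₀ h



theorem Wm_swap (C A : ℝ → Matrix ι ι ℝ) (s t : ℝ) : Wm C A t s = -(Wm C A s t)ᵀ := by
  simp only [Wm, Matrix.transpose_sub, Matrix.transpose_mul, Matrix.transpose_transpose, neg_sub]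

theorem Jac.Wm_zero (h : Jac D C A) (t : ℝ) : Wm C A 0 t = A t := by
  simp [Wm, h.C0, h.A0]

/-- `Wm s t *ᵥ x = C t *ᵥ (-(A s)ᵀ *ᵥ x) + A t *ᵥ ((C s)ᵀ *ᵥ x)`, so the Gram matrix
`(Wm s t)ᵀ * Wm s t` is periodic in `t`. -/
theorem Jac.gram_per (h : Jac D C A) (s t : ℝ) :
    (Wm C A s (t + 2 * D))ᵀ * Wm C A s (t + 2 * D) = (Wm C A s t)ᵀ * Wm C A s t := by
  ext i j
  rw [jaca_entry, jaca_entry, jaca_mulVec, jaca_mulVec, jaca_mulVec, jaca_mulVec]
  exact h.per t _ _ _ _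

theorem Jac.det_per (h : Jac D C A) (s t : ℝ) :
    |(Wm C A s (t + 2 * D)).det| = |(Wm C A s t).det| := by
  have := congrArg Matrix.det (h.gram_per s t)
  rw [Matrix.det_mul, Matrix.det_mul, Matrix.det_transpose, Matrix.det_transpose, ← sq, ← sq] at this
  exact (sq_eq_sq_iff_abs_eq_abs _ _).mp this

theorem Jac.gm_per (h : Jac D C A) (t : ℝ) : gm A (t + 2 * D) = gm A t := by
  have := h.gram_per 0 t
  rwa [h.Wm_zero, h.Wm_zero] at this

/-- On `(D, 2 D)` use `nc t (2 D)`, `det_per`, `Wm_swap`. -/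
theorem Jac.det_ne (h : Jac D C A) {t : ℝ} (ht : t ∈ Ioo 0 (2 * D)) (hD : t ≠ D) :
    (A t).det ≠ 0 := by
  rcases lt_or_gt_of_ne hD with h1 | h1
  · have := h.nc 0 t ht.1 (by rwa [zero_add])
    rwa [h.Wm_zero] at this
  · have h2 := h.nc t (0 + 2 * D) (by rw [zero_add]; exact ht.2) (by linarith)
    rw [← abs_pos, h.det_per t 0, Wm_swap, h.Wm_zero, abs_pos, Matrix.det_neg,
      Matrix.det_transpose] at h2
    exact right_ne_zero_of_mul h2

theorem Jac.Sl_symm (h : Jac D C A) {t : ℝ} (ht : (A t).det ≠ 0) : (Sl C A t)ᵀ = Sl C A t := by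
  have hu : IsUnit (A t).det := isUnit_iff_ne_zero.mpr ht
  have hu' : IsUnit (A t)ᵀ.det := by rwa [Matrix.det_transpose]
  have h1 : A t * (C t)ᵀ = C t * (A t)ᵀ := sub_eq_zero.mp (h.lag t)
  rw [Sl, Matrix.transpose_neg, Matrix.transpose_mul, Matrix.transpose_nonsing_inv, neg_inj]
  calc (C t)ᵀ * (A t)ᵀ⁻¹ = (A t)⁻¹ * (A t * (C t)ᵀ) * (A t)ᵀ⁻¹ := by
        rw [Matrix.nonsing_inv_mul_cancel_left _ _ hu]
    _ = (A t)⁻¹ * C t := by
        rw [h1, ← Matrix.mul_assoc, Matrix.mul_nonsing_inv_cancel_right _ _ hu']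

theorem Jac.Wm_eq (h : Jac D C A) {s t : ℝ} (hs : (A s).det ≠ 0) (ht : (A t).det ≠ 0) :
    Wm C A s t = A t * (Sl C A t - Sl C A s) * (A s)ᵀ := by
  have hu : IsUnit (A t).det := isUnit_iff_ne_zero.mpr ht
  have hu' : IsUnit (A s).det := isUnit_iff_ne_zero.mpr hs
  have h1 : A t * Sl C A t = -C t := by
    rw [Sl, Matrix.mul_neg, Matrix.mul_nonsing_inv_cancel_left _ _ hu]
  have h2 : Sl C A s * (A s)ᵀ = -(C s)ᵀ := by
    rw [← h.Sl_symm hs, ← Matrix.transpose_mul, Sl, Matrix.mul_neg,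
      Matrix.mul_nonsing_inv_cancel_left _ _ hu', Matrix.transpose_neg]
  rw [Matrix.mul_sub, Matrix.sub_mul, h1, Matrix.mul_assoc, h2, Wm, Matrix.neg_mul, Matrix.mul_neg]
  abel

theorem Jac.abs_det (h : Jac D C A) {s t : ℝ} (hs : (A s).det ≠ 0) (ht : (A t).det ≠ 0) :
    |(Wm C A s t).det| = |(A s).det| * |(A t).det| * |(Sl C A t - Sl C A s).det| := by
  rw [h.Wm_eq hs ht, Matrix.det_mul, Matrix.det_mul, Matrix.det_transpose, abs_mul, abs_mul]
  ring

theorem Jac.ker_eq (h : Jac D C A) {s t : ℝ} (hs : (A s).det ≠ 0) (ht : (A t).det ≠ 0) :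
    Module.finrank ℝ (LinearMap.ker (Wm C A s t).mulVecLin) =
      Module.finrank ℝ (LinearMap.ker (Sl C A t - Sl C A s).mulVecLin) := by
  have hu : IsUnit (A t).det := isUnit_iff_ne_zero.mpr ht
  have hu' : IsUnit (A s)ᵀ.det := by
    rw [Matrix.det_transpose]
    exact isUnit_iff_ne_zero.mpr hs
  have h1 : (Wm C A s t).rank = (Sl C A t - Sl C A s).rank := by
    rw [h.Wm_eq hs ht, Matrix.rank_mul_eq_left_of_isUnit_det _ _ hu',
      Matrix.rank_mul_eq_right_of_isUnit_det _ _ hu]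
  have h2 := LinearMap.finrank_range_add_finrank_ker (Wm C A s t).mulVecLin
  have h3 := LinearMap.finrank_range_add_finrank_ker (Sl C A t - Sl C A s).mulVecLin
  unfold Matrix.rank at h1
  omega

theorem Jac.contDiff_gm (h : Jac D C A) (i j : ι) : ContDiff ℝ ∞ fun t => gm A t i j := by
  have := h.smooth 0 (Pi.single i 1) 0 (Pi.single j 1)
  simpa only [Gm, gm, Matrix.mulVec_zero, zero_add, ← jaca_entry] using this

theorem Jac.contDiff_AC (h : Jac D C A) (i j : ι) :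
    ContDiff ℝ ∞ fun t => ((A t)ᵀ * C t) i j := by
  have := h.smooth 0 (Pi.single i 1) (Pi.single j 1) 0
  simpa only [Gm, Matrix.mulVec_zero, zero_add, add_zero, ← jaca_entry] using this

theorem Sl_eq {t : ℝ} (ht : (A t).det ≠ 0) : Sl C A t = -((gm A t)⁻¹ * ((A t)ᵀ * C t)) := by
  have hu' : IsUnit (A t)ᵀ.det := by
    rw [Matrix.det_transpose]
    exact isUnit_iff_ne_zero.mpr ht
  rw [Sl, gm, Matrix.mul_inv_rev, Matrix.mul_assoc, Matrix.nonsing_inv_mul_cancel_left _ _ hu']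

/-- Near `t`, `gm A σ * Sl σ + (A σ)ᵀ C σ = 0`. Without differentiating the inverse: with
`S₀ = Sl t`, `Sl σ - S₀ = -(gm σ)⁻¹ (gm σ S₀ + Aᵀ C σ)`, the entries of the last factor are
`Gm σ y (S₀ y) 0 w'`, which vanish at `t` with derivative `-y ⬝ w'` (`deriv`), and `(gm σ)⁻¹` is
continuous at `t`. -/
theorem Jac.hasDerivAt_Sl (h : Jac D C A) {t : ℝ} (ht : (A t).det ≠ 0) (i j : ι) :
    HasDerivAt (fun σ => Sl C A σ i j) ((gm A t)⁻¹ i j) t := by
  have hu : IsUnit (A t).det := isUnit_iff_ne_zero.mpr ht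
  have hdet : ∀ σ, (gm A σ).det = (A σ).det ^ 2 := fun σ => by
    rw [gm, Matrix.det_mul, Matrix.det_transpose, sq]
  have hc : Continuous (gm A) :=
    continuous_matrix fun i j => (h.contDiff_gm i j).continuous
  have hg : (gm A t).det ≠ 0 := by
    rw [hdet]
    exact pow_ne_zero 2 ht
  have hinv : ContinuousAt (fun σ => (gm A σ)⁻¹) t := jaca_inv hc.continuousAt hg
  have hev : ∀ᶠ σ in 𝓝 t, (A σ).det ≠ 0 := by
    filter_upwards [hc.matrix_det.continuousAt.eventually_ne hg] with σ hσ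
    rw [hdet] at hσ
    exact fun h0 => hσ (by rw [h0]; ring)
  set N : ℝ → Matrix ι ι ℝ := fun σ => (A σ)ᵀ * (C σ + A σ * Sl C A t) with hN
  have hz : C t + A t * Sl C A t = 0 := by
    rw [Sl, Matrix.mul_neg, Matrix.mul_nonsing_inv_cancel_left _ _ hu, add_neg_cancel]
  have hN0 : N t = 0 := by simp only [hN, hz, Matrix.mul_zero]
  have hNd : ∀ k, HasDerivAt (fun σ => N σ k j) (-(if k = j then 1 else 0)) t := by
    intro k
    have h1 := h.deriv t (Pi.single j 1) (Sl C A t *ᵥ Pi.single j 1)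
      (by rw [Matrix.mulVec_mulVec, ← Matrix.add_mulVec, hz, Matrix.zero_mulVec]) 0 (Pi.single k 1)
    have e1 : (fun σ => N σ k j) = fun σ =>
        Gm C A σ (Pi.single j 1) (Sl C A t *ᵥ Pi.single j 1) 0 (Pi.single k 1) := by
      funext σ
      rw [Gm, Matrix.mulVec_zero, zero_add, Matrix.mulVec_mulVec, ← Matrix.add_mulVec,
        dotProduct_comm, ← jaca_entry]
    rw [e1]
    refine h1.congr_deriv ?_
    simp [Pi.single_apply]
  have hsum : HasDerivAt (fun σ => Sl C A t i j - ∑ k, (gm A σ)⁻¹ i k * N σ k j)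
      (-∑ k, (gm A t)⁻¹ i k * -(if k = j then 1 else 0)) t := by
    refine HasDerivAt.const_sub _ (HasDerivAt.fun_sum fun k _ => ?_)
    refine jaca_mul (f := fun σ => (gm A σ)⁻¹ i k) ?_ (hNd k) (by rw [hN0]; rfl)
    exact (continuous_apply_apply i k).continuousAt.comp hinv
  refine (hsum.congr_deriv (by simp)).congr_of_eventuallyEq ?_
  filter_upwards [hev] with σ hσ
  have hgσ : IsUnit (gm A σ).det := by
    rw [hdet]
    exact isUnit_iff_ne_zero.mpr (pow_ne_zero 2 hσ)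
  have e : Sl C A σ = Sl C A t - (gm A σ)⁻¹ * N σ := by
    rw [Sl_eq hσ, hN]
    simp only
    rw [Matrix.mul_add, ← Matrix.mul_assoc (A σ)ᵀ (A σ), Matrix.mul_add]
    change _ = _ - (_ + (gm A σ)⁻¹ * (gm A σ * Sl C A t))
    rw [Matrix.nonsing_inv_mul_cancel_left _ _ hgσ]
    abel
  rw [e, Matrix.sub_apply, Matrix.mul_apply]

theorem Jac.tendsto_gm (h : Jac D C A) :
    Tendsto (fun t => (t ^ 2)⁻¹ • gm A t) (𝓝[≠] 0) (𝓝 1) := by
  refine tendsto_pi_nhds.mpr fun i => tendsto_pi_nhds.mpr fun j => ?_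
  have h1 := h.asym (Pi.single i 1) (Pi.single j 1)
  have e : Pi.single i (1 : ℝ) ⬝ᵥ Pi.single j 1 = (1 : Matrix ι ι ℝ) i j := by
    simp [Matrix.one_apply, Pi.single_apply, eq_comm]
  rw [e] at h1
  refine h1.congr fun t => ?_
  rw [Gm, Matrix.mulVec_zero, zero_add, zero_add, ← jaca_entry, Matrix.smul_apply, smul_eq_mul,
    div_eq_inv_mul, gm]

end Vale.Agent.P231
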