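import Vale.Agent.P231.Fam
import Vale.Agent.P231.Bi

/-! Jacobi fields: values. -/

open scoped ContDiff Topology Matrix
open Filter Set

noncomputable section

namespace Vale.Agent.P231

open Vale.Agent.P234

variable {M : Type*} [MetricSpace M] [CompactSpace M] {T : M → Type*}
  [∀ x, NormedAddCommGroup (T x)] [∀ x, InnerProductSpace ℝ (T x)]
  [∀ x, FiniteDimensional ℝ (T x)] {e : ∀ x, T x → M} {r D : ℝ}

variable {γ : ℝ → M} {ρ : ∀ s, T (γ s)} {τ : ℝ}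

theorem jacg1_comp {A B C : Type*} [NormedAddCommGroup A] [NormedSpace ℝ A]
    [NormedAddCommGroup B] [NormedSpace ℝ B] [NormedAddCommGroup C] [NormedSpace ℝ C] {g : B → C}
    {g' : B →L[ℝ] C} {b : B} (hg : HasFDerivAt g g' b) {f : A → B} {f' : A →L[ℝ] B} {a : A}
    (hf : HasFDerivAt f f' a) (hb : f a = b) : HasFDerivAt (fun z => g (f z)) (g'.comp f') a := by
  subst hb
  exact hg.comp a hf

theorem jacg1_has {A B : Type*} [NormedAddCommGroup A] [NormedSpace ℝ A]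
    [NormedAddCommGroup B] [NormedSpace ℝ B] {f : A → B} {a : A} (hf : ContDiffAt ℝ ∞ f a) :
    HasFDerivAt f (fderiv ℝ f a) a := (hf.differentiableAt (by simp)).hasFDerivAt

theorem Gam_zero (h : Geo e r) (hl : Line e γ ρ) (h0 : 0 < τ) (h1 : τ < r) (s : ℝ) :
    Gam e γ τ 0 s = γ s := by
  have hτ : |0 - τ| < r := by rwa [zero_sub, abs_neg, abs_of_pos h0]
  change ln e (e (γ 0) 0) (e (γ τ) 0) (s / τ) = _
  rw [h.zero, h.zero, ln, hl.lg_short h hτ, smul_smul, hl.eq 0 s, sub_zero, sub_zero,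
    div_mul_cancel₀ _ h0.ne']

theorem sm_Gam (h : Geo e r) (hl : Line e γ ρ) (h0 : 0 < τ) (h1 : τ < r) (s : ℝ) :
    Sm e (fun w : (T (γ 0) × T (γ τ)) × ℝ => Gam e γ τ w.1 w.2) (0, s) := by
  have hτ : |0 - τ| < r := by rwa [zero_sub, abs_neg, abs_of_pos h0]
  have hf : Sm e (fun w : (T (γ 0) × T (γ τ)) × ℝ => e (γ 0) w.1.1) (0, s) :=
    Sm.comp (k := fun w : (T (γ 0) × T (γ τ)) × ℝ => w.1.1) (sm_exp h (γ 0) _) (by fun_prop)
  have hg : Sm e (fun w : (T (γ 0) × T (γ τ)) × ℝ => e (γ τ) w.1.2) (0, s) :=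
    Sm.comp (k := fun w : (T (γ 0) × T (γ τ)) × ℝ => w.1.2) (sm_exp h (γ τ) _) (by fun_prop)
  refine Sm.ln h hf hg ?_ (l := fun w => w.2 / τ) (by fun_prop)
  change dist (e (γ 0) 0) (e (γ τ) 0) < r
  rwa [h.zero, h.zero, hl.dist_short h hτ]

theorem contDiffAt_lg_Gam (h : Geo e r) (hl : Line e γ ρ) (h0 : 0 < τ) (h1 : τ < r) {s t : ℝ}
    (hst : |s - t| < r) : ContDiffAt ℝ ∞
      (fun w : (T (γ 0) × T (γ τ)) × ℝ => lg e (γ s) (Gam e γ τ w.1 w.2)) (0, t) := by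
  refine (sm_Gam h hl h0 h1 t).lg h (h.sp_short ?_)
  change dist (γ s) (Gam e γ τ 0 t) < r
  rwa [Gam_zero h hl h0 h1, hl.dist_short h hst]

theorem par_base (h : Geo e r) (hl : Line e γ ρ) (s : ℝ) : par e γ τ s (ρ s) = 0 := by
  rw [par, ← hl.eq s 0, ← hl.eq s τ, h.lg_self, h.lg_self]
  rfl

theorem jacg1_lg (h : Geo e r) (hl : Line e γ ρ) (s t : ℝ) :
    ContDiffAt ℝ ∞ (fun a => lg e (γ t) (e (γ s) a)) ((t - s) • ρ s) :=
  h.contDiffAt_lg (h.sp_short (by rw [dist_self]; exact h.pos)) (hl.eq s t).symm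

theorem jacg1_L (h : Geo e r) (hl : Line e γ ρ) (s t : ℝ) :
    HasFDerivAt (fun a => lg e (γ t) (e (γ s) a)) (Lmap e (γ s) ((t - s) • ρ s) (γ t))
      ((t - s) • ρ s) := jacg1_has (jacg1_lg h hl s t)

theorem contDiffAt_par (h : Geo e r) (hl : Line e γ ρ) (s : ℝ) :
    ContDiffAt ℝ ∞ (par e γ τ s) (ρ s) := by
  exact (smooth_comp (jacg1_lg h hl s 0) (fun w : T (γ s) => (0 - s) • w) (ρ s) (by fun_prop)
    rfl).prodMk
    (smooth_comp (jacg1_lg h hl s τ) (fun w : T (γ s) => (τ - s) • w) (ρ s) (by fun_prop) rfl)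

/-- `ln_exp`. -/
theorem Gam_par (h : Geo e r) (h0 : 0 < τ) {s : ℝ} {w : T (γ s)} (hw : τ * ‖w‖ < r) (t : ℝ) :
    Gam e γ τ (par e γ τ s w) t = e (γ s) ((t - s) • w) := by
  have hab : |(τ - s) - (0 - s)| * ‖w‖ < r := by
    rwa [show τ - s - (0 - s) = τ by ring, abs_of_pos h0]
  rw [Gam, par, h.exp_lg, h.exp_lg, ln_exp h w hab]
  congr 2
  field_simp
  ring

/-- Every geodesic of the family is an exponential ray from each of its points. -/
theorem Gam_flow (h : Geo e r) (h0 : 0 < τ) (z : T (γ 0) × T (γ τ)) (s : ℝ) :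
    ∃ w : T (Gam e γ τ z s), ‖w‖ = spd e γ τ z ∧
      ∀ u : ℝ, Gam e γ τ z (s + u) = e (Gam e γ τ z s) (u • w) := by
  obtain ⟨u, h1, h2⟩ := h.flow (x := e (γ 0) z.1) (v := lg e (e (γ 0) z.1) (e (γ τ) z.2))
    (θ := s / τ) (m := Gam e γ τ z s) rfl
  refine ⟨τ⁻¹ • u, ?_, fun t => ?_⟩
  · rw [norm_smul, h1, h.norm_lg, spd, Real.norm_of_nonneg (inv_pos.2 h0).le, div_eq_inv_mul]
  · rw [smul_smul, ← div_eq_mul_inv, ← h2, ← add_div]
    rfl

theorem jacg1_cY (h : Geo e r) (hl : Line e γ ρ) (h0 : 0 < τ) (h1 : τ < r) {s t : ℝ}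
    (hst : |s - t| < r) : ContDiffAt ℝ ∞ (fun z => lg e (γ s) (Gam e γ τ z t)) 0 :=
  smooth_comp (contDiffAt_lg_Gam h hl h0 h1 hst) (fun z : T (γ 0) × T (γ τ) => (z, t)) 0
    (by fun_prop) rfl

theorem jacg1_Y (h : Geo e r) (hl : Line e γ ρ) (h0 : 0 < τ) (h1 : τ < r) {s t : ℝ}
    (hst : |s - t| < r) : HasFDerivAt (fun z => lg e (γ s) (Gam e γ τ z t))
      (fderiv ℝ (fun z => lg e (γ s) (Gam e γ τ z t)) 0) 0 := jacg1_has (jacg1_cY h hl h0 h1 hst)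

theorem Ym_io (h : Geo e r) (hl : Line e γ ρ) (h0 : 0 < τ) (h1 : τ < r) (s t : ℝ) (w : T (γ s)) :
    Ym e γ τ t (io e γ ρ τ s w) = (t - s) • Lmap e (γ s) ((t - s) • ρ s) (γ t) w := by
  have a1 := jacg1_comp (jacg1_Y h hl h0 h1 (s := t) (t := t) (by simpa using h.pos))
    (jacg1_has (contDiffAt_par (τ := τ) h hl s)) (par_base h hl s)
  have a2 := jacg1_comp (jacg1_L h hl s t)
    ((hasFDerivAt_id (𝕜 := ℝ) (ρ s)).const_smul (t - s)) rfl
  have ev : ∀ᶠ w' : T (γ s) in 𝓝 (ρ s), τ * ‖w'‖ < r := by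
    refine ContinuousAt.eventually_lt (by fun_prop) continuousAt_const ?_
    rwa [hl.norm, mul_one]
  have a3 := a1.unique (a2.congr_of_eventuallyEq (ev.mono fun w' hw' => by
    simp only [Gam_par h h0 hw' t]; rfl))
  have a4 := congrArg (fun L : T (γ s) →L[ℝ] T (γ t) => L w) a3
  simpa [Ym, io] using a4

/-- Derivative of `ε ↦ lg (γ t) (γ (t + ε)) = ε • ρ t`. -/
theorem Lmap_radial (h : Geo e r) (hl : Line e γ ρ) (s t : ℝ) :
    Lmap e (γ s) ((t - s) • ρ s) (γ t) (ρ s) = ρ t := by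
  have a1 : HasDerivAt (fun ε : ℝ => (t - s + ε) • ρ s) (ρ s) 0 := by
    simpa using ((hasDerivAt_id (0 : ℝ)).const_add (t - s)).smul_const (ρ s)
  have a2 := (jacg1_L h hl s t).comp_hasDerivAt_of_eq 0 a1 (by rw [add_zero])
  have a3 : HasDerivAt (fun ε : ℝ => ε • ρ t) (ρ t) 0 := by
    simpa using (hasDerivAt_id (0 : ℝ)).smul_const (ρ t)
  have ev : ∀ᶠ ε : ℝ in 𝓝 0, |ε| < r := by
    refine ContinuousAt.eventually_lt (by fun_prop) continuousAt_const ?_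
    simpa using h.pos
  refine a2.unique (a3.congr_of_eventuallyEq (ev.mono fun ε hε => ?_))
  have b1 : |t - (t + ε)| < r := by simpa using hε
  have b2 := hl.lg_short h b1
  rw [add_sub_cancel_left] at b2
  rw [hl.eq s (t + ε), add_sub_right_comm] at b2
  exact b2

theorem jacg1_fac (h : Geo e r) (hl : Line e γ ρ) (h0 : 0 < τ) (h1 : τ < r) {s t : ℝ}
    (hst : |s - t| < r) (j : T (γ 0) × T (γ τ)) :
    Ym e γ τ t j = Lmap e (γ s) ((t - s) • ρ s) (γ t)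
      (fderiv ℝ (fun z => lg e (γ s) (Gam e γ τ z t)) 0 j) := by
  have a1 := jacg1_comp (jacg1_L h hl s t) (jacg1_Y h hl h0 h1 hst)
    (by rw [Gam_zero h hl h0 h1, hl.lg_short h hst])
  simp only [h.exp_lg] at a1
  rw [Ym, a1.fderiv]
  rfl

theorem jacg1_metric (h : Geo e r) (x : M) : ∃ G : T x → T x →L[ℝ] T x →L[ℝ] ℝ,
    ContDiff ℝ ∞ G ∧ ∀ a y, e x a = y → ∀ ξ η,
      G a ξ η = inner ℝ (Lmap e x a y ξ) (Lmap e x a y η) := by
  obtain ⟨G, hG, hG'⟩ := exists_metric h x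
  refine ⟨G, hG, ?_⟩
  rintro a y rfl
  exact hG' a

theorem jacg1_cG (_h : Geo e r) (_hl : Line e γ ρ) {s : ℝ}
    {G : T (γ s) → T (γ s) →L[ℝ] T (γ s) →L[ℝ] ℝ} (hG : ContDiff ℝ ∞ G) :
    ContDiffAt ℝ ∞ (fun t : ℝ => G ((t - s) • ρ s)) s :=
  hG.contDiffAt.comp s (by fun_prop)

theorem jacg1_cYt (h : Geo e r) (hl : Line e γ ρ) (h0 : 0 < τ) (h1 : τ < r) (s : ℝ) :
    ContDiffAt ℝ ∞ (fun t : ℝ => fderiv ℝ (fun z => lg e (γ s) (Gam e γ τ z t)) 0) s :=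
  smooth_comp (contDiffAt_fderiv_fst
    (contDiffAt_lg_Gam h hl h0 h1 (s := s) (t := s) (by simpa using h.pos)))
    (fun t : ℝ => ((0 : T (γ 0) × T (γ τ)), t)) s (by fun_prop) rfl

theorem jacg1_ev (h : Geo e r) (s : ℝ) : ∀ᶠ t in 𝓝 s, |s - t| < r := by
  refine ContinuousAt.eventually_lt (by fun_prop) continuousAt_const ?_
  simpa using h.pos

/-- The scalar product is `D2 (fun z => cost (Gam 0 s) (Gam z s)) 0 j j'` because
`cost x y = ‖lg x y‖ ^ 2 / 2`; `contDiffAt_D2_fst`. -/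
theorem smooth_Ym (h : Geo e r) (hl : Line e γ ρ) (h0 : 0 < τ) (h1 : τ < r)
    (j j' : T (γ 0) × T (γ τ)) :
    ContDiff ℝ ∞ fun s => inner ℝ (Ym e γ τ s j) (Ym e γ τ s j') := by
  refine contDiff_iff_contDiffAt.2 fun s => ?_
  obtain ⟨G, hG, hG'⟩ := jacg1_metric h (γ s)
  have a1 := jacg1_cG h hl hG
  have a2 := jacg1_cYt h hl h0 h1 s
  refine ((a1.clm_apply (a2.clm_apply (contDiffAt_const (c := j)))).clm_apply
    (a2.clm_apply (contDiffAt_const (c := j')))).congr_of_eventuallyEq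
      ((jacg1_ev h s).mono fun t ht => ?_)
  simp only [jacg1_fac h hl h0 h1 ht, hG' _ _ (hl.eq s t).symm]

/-- For `t` near `s`: `Ym t = Lmap (γ s) ((t - s) • ρ s) (γ t) ∘ Ŷ t` with
`Ŷ t = fderiv (fun z => lg (γ s) (Gam z t)) 0` continuous in `t`. So the function is
`(t - s) * G ((t - s) • ρ s) w (Ŷ t j)` with `G` from `exists_metric`. -/
theorem deriv_Ym (h : Geo e r) (hl : Line e γ ρ) (h0 : 0 < τ) (h1 : τ < r) (s : ℝ) (w : T (γ s))
    (j : T (γ 0) × T (γ τ)) : HasDerivAt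
      (fun t => inner ℝ (Ym e γ τ t (io e γ ρ τ s w)) (Ym e γ τ t j))
      (inner ℝ w (Ym e γ τ s j)) s := by
  obtain ⟨G, hG, hG'⟩ := jacg1_metric h (γ s)
  have a1 := jacg1_cG h hl hG
  have a2 := jacg1_cYt h hl h0 h1 s
  have a3 := (((a1.clm_apply (contDiffAt_const (c := w))).clm_apply
    (a2.clm_apply (contDiffAt_const (c := j)))).differentiableAt (by simp)).hasDerivAt
  have a4 := ((hasDerivAt_id s).sub_const s).mul a3
  have a5 : G ((s - s) • ρ s) w (fderiv ℝ (fun z => lg e (γ s) (Gam e γ τ z s)) 0 j) =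
      inner ℝ w (Ym e γ τ s j) := by
    rw [sub_self, zero_smul, hG' 0 _ (h.zero _), h.Lmap_zero]
    rfl
  rw [a5, id, sub_self, zero_mul, add_zero, one_mul] at a4
  refine a4.congr_of_eventuallyEq ((jacg1_ev h s).mono fun t ht => ?_)
  simp only [Ym_io h hl h0 h1, jacg1_fac h hl h0 h1 ht j, Pi.mul_apply, id,
    hG' _ _ (hl.eq s t).symm, real_inner_smul_left]

end Vale.Agent.P231
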