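import Vale.Agent.P231.JacG1
import Vale.Agent.P231.ClB

/-! Jacobi fields: radial part and periodicity. -/

open scoped ContDiff Topology Matrix
open Filter Set

noncomputable section

namespace Vale.Agent.P231

open Vale.Agent.P234

variable {M : Type*} [MetricSpace M] [CompactSpace M] {T : M → Type*}
  [∀ x, NormedAddCommGroup (T x)] [∀ x, InnerProductSpace ℝ (T x)]
  [∀ x, FiniteDimensional ℝ (T x)] {e : ∀ x, T x → M} {r D : ℝ}

variable {γ : ℝ → M} {ρ : ∀ s, T (γ s)} {τ : ℝ}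

theorem spd_zero (h : Geo e r) (hl : Line e γ ρ) (h0 : 0 < τ) (h1 : τ < r) :
    spd e γ τ 0 = 1 := by
  have hτ : |0 - τ| < r := by rwa [zero_sub, abs_neg, abs_of_pos h0]
  change dist (e (γ 0) 0) (e (γ τ) 0) / τ = 1
  rw [h.zero, h.zero, hl.dist_short h hτ, zero_sub, abs_neg, abs_of_pos h0, div_self h0.ne']

theorem contDiffAt_spd (h : Geo e r) (hl : Line e γ ρ) (h0 : 0 < τ) (h1 : τ < r) :
    ContDiffAt ℝ ∞ (spd e γ τ) 0 := by
  have hτ : |0 - τ| < r := by rwa [zero_sub, abs_neg, abs_of_pos h0]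
  have hs : SP e (γ 0) (γ τ) := h.sp_short (by rwa [hl.dist_short h hτ])
  have a1 : ContDiffAt ℝ ∞
      (fun z : T (γ 0) × T (γ τ) => 2 * cost (e (γ 0) z.1) (e (γ τ) z.2)) 0 :=
    contDiffAt_const.mul hs
  have a2 : 2 * cost (e (γ 0) (0 : T (γ 0) × T (γ τ)).1) (e (γ τ) (0 : T (γ 0) × T (γ τ)).2) ≠
      0 := by
    change 2 * cost (e (γ 0) 0) (e (γ τ) 0) ≠ 0
    rw [h.zero, h.zero, cost, hl.dist_short h hτ, zero_sub, abs_neg, abs_of_pos h0]
    positivity
  refine ((a1.sqrt a2).div_const τ).congr_of_eventuallyEq (Eventually.of_forall fun z => ?_)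
  simp only [spd, cost]
  rw [mul_div_cancel₀ _ two_ne_zero, Real.sqrt_sq dist_nonneg]

theorem jacg2_fv (h : Geo e r) {p q : M} (hd : dist p q < r) (ξ : T p) (η : T q) :
    fderiv ℝ (fun z : T p × T q => cost (e p z.1) (e q z.2)) (0, 0) (ξ, η) =
      -inner ℝ (lg e p q) ξ - inner ℝ (lg e q p) η := by
  have hC := jacg1_has (h.sp_short hd)
  have a1 := jacg1_comp hC (hasFDerivAt_prodMk_left (𝕜 := ℝ) (0 : T p) (0 : T q)) rfl
  have a2 := jacg1_comp hC (hasFDerivAt_prodMk_right (𝕜 := ℝ) (0 : T p) (0 : T q)) rfl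
  simp only [h.zero] at a1 a2
  simp only [cost_comm p] at a2
  have b1 := a1.fderiv.symm.trans (h.smooth_fderiv_eq a1.differentiableAt)
  have b2 := a2.fderiv.symm.trans (h.smooth_fderiv_eq a2.differentiableAt)
  have c1 := congrArg (fun L : T p →L[ℝ] ℝ => L ξ) b1
  have c2 := congrArg (fun L : T q →L[ℝ] ℝ => L η) b2
  simp only [ContinuousLinearMap.comp_apply, ContinuousLinearMap.inl_apply,
    ContinuousLinearMap.inr_apply, ContinuousLinearMap.neg_apply, innerSL_apply_apply] at c1 c2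
  have e1 : ((ξ, η) : T p × T q) = (ξ, 0) + (0, η) := by simp
  rw [e1, map_add, c1, c2, sub_eq_add_neg]

theorem jacg2_sg (h : Geo e r) (hl : Line e γ ρ) (h0 : 0 < τ) (h1 : τ < r) :
    HasFDerivAt (spd e γ τ) (sg e γ τ) 0 := jacg1_has (contDiffAt_spd h hl h0 h1)

theorem jacg2_Y (h : Geo e r) (hl : Line e γ ρ) (h0 : 0 < τ) (h1 : τ < r) (s : ℝ) :
    HasFDerivAt (fun z => lg e (γ s) (Gam e γ τ z s)) (Ym e γ τ s) 0 :=
  jacg1_Y h hl h0 h1 (s := s) (t := s) (by simpa using h.pos)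

theorem jacg2_rad (h : Geo e r) (hl : Line e γ ρ) (h0 : 0 < τ) (h1 : τ < r) {s t : ℝ}
    (hst : |s - t| < r) (j : T (γ 0) × T (γ τ)) : inner ℝ (Ym e γ τ t j) (ρ t) =
      inner ℝ (Ym e γ τ s j) (ρ s) + (t - s) * sg e γ τ j := by
  rcases eq_or_ne t s with rfl | hne
  · simp
  have hd : dist (γ s) (γ t) < r := by rwa [hl.dist_short h hst]
  have hσ := jacg2_sg h hl h0 h1
  have a1 := jacg1_comp (jacg1_has (h.sp_short hd))
    ((jacg2_Y h hl h0 h1 s).prodMk (jacg2_Y h hl h0 h1 t))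
    (by simp only [Gam_zero h hl h0 h1, h.lg_self])
  simp only [h.exp_lg] at a1
  have a2 := ((hσ.mul hσ).const_mul ((t - s) ^ 2 / 2))
  have ev : ∀ᶠ z in 𝓝 (0 : T (γ 0) × T (γ τ)), |t - s| * spd e γ τ z < r := by
    refine ContinuousAt.eventually_lt (continuousAt_const.mul hσ.continuousAt)
      continuousAt_const ?_
    rwa [spd_zero h hl h0 h1, mul_one, abs_sub_comm]
  have a3 := a1.unique (a2.congr_of_eventuallyEq (ev.mono fun z hz => by
    obtain ⟨w, hw, hw'⟩ := Gam_flow h h0 z s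
    have b1 := hw' (t - s)
    rw [add_sub_cancel] at b1
    have b2 : ‖(t - s) • w‖ = |t - s| * spd e γ τ z := by rw [norm_smul, hw, Real.norm_eq_abs]
    have b3 := h.toLoc.dist_exp (b2 ▸ hz : ‖(t - s) • w‖ < r)
    rw [← b1, b2] at b3
    simp only [cost, b3, mul_pow, sq_abs, Pi.mul_apply]
    ring))
  have a4 := congrArg (fun L : T (γ 0) × T (γ τ) →L[ℝ] ℝ => L j) a3
  simp only [ContinuousLinearMap.comp_apply, ContinuousLinearMap.prod_apply, jacg2_fv h hd,
    hl.lg_short h hst, hl.lg_short h (abs_sub_comm s t ▸ hst), real_inner_smul_left,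
    spd_zero h hl h0 h1, ContinuousLinearMap.smul_apply, ContinuousLinearMap.add_apply,
    smul_eq_mul] at a4
  rw [real_inner_comm, real_inner_comm (ρ s)]
  refine mul_left_cancel₀ (sub_ne_zero.2 hne) ?_
  linarith

/-- For `|t - s| < r`, `cost (Gam z s) (Gam z t) = (t - s)² spd² / 2` for `z` near `0`; first
variation (`fv`, `smooth_fderiv_eq`) in both variables. So `t ↦ ⟪Y t j, ρ t⟫ - t σ j` is locally
constant. -/
theorem rad_Ym (h : Geo e r) (hl : Line e γ ρ) (h0 : 0 < τ) (h1 : τ < r) (s t : ℝ)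
    (j : T (γ 0) × T (γ τ)) : inner ℝ (Ym e γ τ t j) (ρ t) =
      inner ℝ (Ym e γ τ s j) (ρ s) + (t - s) * sg e γ τ j := by
  have lc : IsLocallyConstant fun t => inner ℝ (Ym e γ τ t j) (ρ t) - t * sg e γ τ j := by
    refine (IsLocallyConstant.iff_eventually_eq _).2 fun s => (jacg1_ev h s).mono fun t ht => ?_
    rw [jacg2_rad h hl h0 h1 ht j]
    ring
  have := lc.apply_eq_of_preconnectedSpace t s
  linarith

/-- `spd (par s w) = ‖w‖` near `ρ s`. -/
theorem sg_io (h : Geo e r) (hl : Line e γ ρ) (h0 : 0 < τ) (h1 : τ < r) (s : ℝ) (w : T (γ s)) :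
    sg e γ τ (io e γ ρ τ s w) = inner ℝ w (ρ s) := by
  have a1 := jacg1_comp (jacg2_sg h hl h0 h1) (jacg1_has (contDiffAt_par (τ := τ) h hl s))
    (par_base h hl s)
  have ev : ∀ᶠ w' : T (γ s) in 𝓝 (ρ s), τ * ‖w'‖ < r := by
    refine ContinuousAt.eventually_lt (by fun_prop) continuousAt_const ?_
    rwa [hl.norm, mul_one]
  have a2 : HasFDerivAt (fun w' : T (γ s) => ‖w'‖) ((sg e γ τ).comp (io e γ ρ τ s)) (ρ s) := by
    refine a1.congr_of_eventuallyEq (ev.mono fun w' hw' => ?_)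
    have b1 : |(0 - s) - (τ - s)| = τ := by
      rw [show 0 - s - (τ - s) = -τ by ring, abs_neg, abs_of_pos h0]
    have b2 := h.ugeo (γ s) w' (0 - s) (τ - s) (by rwa [b1])
    simp only [spd, par, h.exp_lg]
    rw [b2, b1, mul_div_cancel_left₀ _ h0.ne']
  have a3 := (a2.mul a2).unique ((hasStrictFDerivAt_norm_sq (ρ s)).hasFDerivAt.congr_of_eventuallyEq
    (Eventually.of_forall fun w' => (sq ‖w'‖).symm))
  have a4 := congrArg (fun L : T (γ s) →L[ℝ] ℝ => L w) a3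
  simp only [ContinuousLinearMap.comp_apply, ContinuousLinearMap.smul_apply,
    ContinuousLinearMap.add_apply, smul_eq_mul, hl.norm, innerSL_apply_apply, nsmul_eq_mul,
    Nat.cast_ofNat] at a4
  rw [real_inner_comm]
  linarith

theorem jacg2_bij (h : Geo e r) (hl : Line e γ ρ) {s t : ℝ} (hst : |s - t| < r) :
    Function.Bijective (Lmap e (γ s) ((t - s) • ρ s) (γ t)) := by
  have hn : ‖(t - s) • ρ s‖ < r := by
    rwa [norm_smul, hl.norm, mul_one, Real.norm_eq_abs, abs_sub_comm]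
  have key : ∀ y, e (γ s) ((t - s) • ρ s) = y →
      Function.Bijective (Lmap e (γ s) ((t - s) • ρ s) y) := by
    rintro y rfl
    exact Lmap_bij h (h.short_mem_inj hn)
  exact key _ (hl.eq s t).symm

/-- `Ym_io` from the time `s - τ`, `Lmap_bij`, `rad_Ym`. -/
theorem surj_Ym (h : Geo e r) (hl : Line e γ ρ) (h0 : 0 < τ) (h1 : τ < r) (s : ℝ) :
    Function.Surjective (Ym e γ τ s) ∧
      ∀ w, inner ℝ w (ρ s) = 0 → ∃ j, sg e γ τ j = 0 ∧ Ym e γ τ s j = w := by
  have hst : |s - τ - s| < r := by rwa [sub_sub_cancel_left, abs_neg, abs_of_pos h0]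
  have hne : s - (s - τ) ≠ 0 := by rw [sub_sub_cancel]; exact h0.ne'
  have key : ∀ w, ∃ w', Ym e γ τ s (io e γ ρ τ (s - τ) w') = w := fun w => by
    obtain ⟨w', hw'⟩ := (jacg2_bij h hl hst).2 ((s - (s - τ))⁻¹ • w)
    exact ⟨w', by rw [Ym_io h hl h0 h1, hw', smul_inv_smul₀ hne]⟩
  refine ⟨fun w => ⟨_, (key w).choose_spec⟩, fun w hw => ?_⟩
  obtain ⟨w', hw'⟩ := key w
  refine ⟨_, ?_, hw'⟩
  have a1 := rad_Ym h hl h0 h1 (s - τ) s (io e γ ρ τ (s - τ) w')
  rw [hw', hw, Ym_io h hl h0 h1, sub_self, zero_smul, inner_zero_left, zero_add] at a1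
  exact (mul_eq_zero.1 a1.symm).resolve_left hne

/-- `io s` is injective (`Ym_io` at a close time) with range in the kernel; count dimensions. -/
theorem ker_Ym (h : Geo e r) (hl : Line e γ ρ) (h0 : 0 < τ) (h1 : τ < r) (s : ℝ)
    (j : T (γ 0) × T (γ τ)) (hj : Ym e γ τ s j = 0) : ∃ w, io e γ ρ τ s w = j := by
  have hst : |s - (s + τ)| < r := by rwa [sub_add_cancel_left, abs_neg, abs_of_pos h0]
  have hne : s + τ - s ≠ 0 := by rw [add_sub_cancel_left]; exact h0.ne'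
  have hi : Function.Injective (io e γ ρ τ s).toLinearMap := fun w w' hw => by
    have a1 := congrArg (Ym e γ τ (s + τ)) hw
    simp only [ContinuousLinearMap.coe_coe, Ym_io h hl h0 h1] at a1
    exact (jacg2_bij h hl hst).1 (smul_right_injective _ hne a1)
  have hle : LinearMap.range (io e γ ρ τ s).toLinearMap ≤
      LinearMap.ker (Ym e γ τ s).toLinearMap := by
    rintro _ ⟨w, rfl⟩
    simp only [LinearMap.mem_ker, ContinuousLinearMap.coe_coe, Ym_io h hl h0 h1, sub_self,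
      zero_smul]
  have a1 := LinearMap.finrank_range_add_finrank_ker (Ym e γ τ s).toLinearMap
  rw [LinearMap.range_eq_top.2 (surj_Ym h hl h0 h1 s).1, finrank_top, Module.finrank_prod,
    h.rank (γ 0) (γ s), h.rank (γ τ) (γ s)] at a1
  have a2 := LinearMap.finrank_range_of_inj hi
  have a3 := Submodule.eq_of_le_of_finrank_eq hle (by omega)
  have a4 : j ∈ LinearMap.range (io e γ ρ τ s).toLinearMap := by
    rw [a3]; exact hj
  exact a4

theorem jacg2_per (h : Bl e r D) (hl : Line e γ ρ) (h0 : 0 < τ) (h1 : τ < r) (s : ℝ)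
    {j : T (γ 0) × T (γ τ)} (hj : sg e γ τ j = 0) :
    fderiv ℝ (fun z => lg e (γ (s + 2 * D)) (Gam e γ τ z s)) 0 j = Ym e γ τ (s + 2 * D) j := by
  have hg := h.toGeo
  have hσ := jacg2_sg hg hl h0 h1
  have h00 := spd_zero hg hl h0 h1
  have hΦ := jacg1_has (contDiffAt_lg_Gam hg hl h0 h1 (s := s + 2 * D) (t := s + 2 * D)
    (by simpa using h.pos))
  have hψ : HasDerivAt (fun y : ℝ => s + 2 * D * y⁻¹) (2 * D * (-(1 ^ 2)⁻¹)) 1 :=
    ((hasDerivAt_inv one_ne_zero).const_mul (2 * D)).const_add s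
  have a1 := jacg1_comp hΦ ((hasFDerivAt_id (0 : T (γ 0) × T (γ τ))).prodMk
    (hψ.comp_hasFDerivAt_of_eq 0 hσ h00.symm)) (by simp [h00])
  have a2 := jacg1_comp hΦ
    (hasFDerivAt_prodMk_left (𝕜 := ℝ) (0 : T (γ 0) × T (γ τ)) (s + 2 * D)) rfl
  have ev : ∀ᶠ z in 𝓝 (0 : T (γ 0) × T (γ τ)), 0 < spd e γ τ z := by
    refine ContinuousAt.eventually_lt continuousAt_const hσ.continuousAt ?_
    rw [h00]; exact one_pos
  have a3 : HasFDerivAt (fun z => lg e (γ (s + 2 * D)) (Gam e γ τ z s)) _ 0 :=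
    a1.congr_of_eventuallyEq (ev.mono fun z hz => by
      obtain ⟨w, hw, hw'⟩ := Gam_flow hg h0 z s
      have b1 : ‖(spd e γ τ z)⁻¹ • w‖ = 1 := by
        rw [norm_smul, hw, Real.norm_of_nonneg (inv_pos.2 hz).le, inv_mul_cancel₀ hz.ne']
      have b2 := h.periodic _ b1 0
      rw [zero_add, zero_smul, h.zero, smul_smul, ← hw'] at b2
      exact congrArg (lg e (γ (s + 2 * D))) b2.symm)
  rw [a3.fderiv, Ym, a2.fderiv]
  simp [hj]

/-- `Gam z (s + 2 D / spd z) = Gam z s` for `z` near `0` (`Bl.periodic`); differentiate at `z = 0`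
in a direction `j` with `sg j = 0`. To avoid casts prove first, for a point `x` with `x = γ s` and
`x = γ (s + 2 D)`, the equality of the derivatives of `z ↦ lg x (Gam z s)` and
`z ↦ lg x (Gam z (s + 2 D))` on `j`. -/
theorem per_Ym (h : Bl e r D) (hl : Line e γ ρ) (h0 : 0 < τ) (h1 : τ < r) (s : ℝ)
    (j j' : T (γ 0) × T (γ τ)) (hj : sg e γ τ j = 0) (hj' : sg e γ τ j' = 0) :
    inner ℝ (Ym e γ τ (s + 2 * D) j) (Ym e γ τ (s + 2 * D) j') =
      inner ℝ (Ym e γ τ s j) (Ym e γ τ s j') := by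
  rw [← jacg2_per h hl h0 h1 s hj, ← jacg2_per h hl h0 h1 s hj']
  have hx : γ (s + 2 * D) = γ s := by
    have a1 := h.periodic (γ s) (hl.norm s) 0
    rwa [zero_add, zero_smul, h.zero, ← hl.flow] at a1
  exact congrArg (fun x => inner ℝ (fderiv ℝ (fun z => lg e x (Gam e γ τ z s)) 0 j)
    (fderiv ℝ (fun z => lg e x (Gam e γ τ z s)) 0 j')) hx

end Vale.Agent.P231
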