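import Vale.Agent.P231.JacG2

/-! Jacobi fields: the symplectic form. -/

open scoped ContDiff Topology Matrix
open Filter Set

noncomputable section

namespace Vale.Agent.P231

open Vale.Agent.P234

variable {M : Type*} [MetricSpace M] [CompactSpace M] {T : M → Type*}
  [∀ x, NormedAddCommGroup (T x)] [∀ x, InnerProductSpace ℝ (T x)]
  [∀ x, FiniteDimensional ℝ (T x)] {e : ∀ x, T x → M} {r D : ℝ}

variable {γ : ℝ → M} {ρ : ∀ s, T (γ s)} {τ : ℝ}

theorem jacg3_c (h : Geo e r) (hl : Line e γ ρ) (h0 : 0 < τ) (h1 : τ < r) (s : ℝ) :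
    ContDiffAt ℝ ∞ (fun z => lg e (γ s) (Gam e γ τ z s)) 0 :=
  smooth_comp (contDiffAt_lg_Gam h hl h0 h1 (s := s) (t := s)
    (by rw [sub_self, abs_zero]; exact h.pos)) (fun z => (z, s)) 0
    (contDiffAt_id.prodMk contDiffAt_const) rfl

theorem jacg3_c0 (h : Geo e r) (hl : Line e γ ρ) (h0 : 0 < τ) (h1 : τ < r) (s : ℝ) :
    lg e (γ s) (Gam e γ τ 0 s) = 0 := by rw [Gam_zero h hl h0 h1, h.lg_self]

theorem contDiffAt_mom (h : Geo e r) (hl : Line e γ ρ) (h0 : 0 < τ) (h1 : τ < r) (s : ℝ) {u : ℝ}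
    (hu : |u| < r) : ContDiffAt ℝ ∞ (mom e γ τ s u) 0 := by
  have h2 : Sm e (fun w : T (γ s) × T (γ 0) × T (γ τ) => e (γ s) w.1) (0, 0) :=
    Sm.comp (k := Prod.fst) (sm_exp h _ _) contDiffAt_fst
  have h3 : Sm e (fun w : T (γ s) × T (γ 0) × T (γ τ) => Gam e γ τ w.2 (s + u)) (0, 0) :=
    Sm.comp (f := fun w : (T (γ 0) × T (γ τ)) × ℝ => Gam e γ τ w.1 w.2)
      (k := fun w : T (γ s) × T (γ 0) × T (γ τ) => (w.2, s + u)) (sm_Gam h hl h0 h1 _)
      (contDiffAt_snd.prodMk contDiffAt_const)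
  have h4 : |s - (s + u)| < r := by rwa [sub_add_cancel_left, abs_neg]
  have h5 := contDiffAt_fderiv_fst (h2.cost h h3 (h.sp_short (by
    rwa [h.zero, Gam_zero h hl h0 h1, hl.dist_short h h4])))
  exact (smooth_comp h5 _ 0 ((jacg3_c h hl h0 h1 s).prodMk contDiffAt_id)
    (by rw [jacg3_c0 h hl h0 h1]; rfl)).const_smul _

theorem jacg3_mom (h : Geo e r) {z : T (γ 0) × T (γ τ)} {s u : ℝ} {w : T (Gam e γ τ z s)}
    (hw : ∀ u : ℝ, Gam e γ τ z (s + u) = e (Gam e γ τ z s) (u • w)) (hu0 : u ≠ 0)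
    (hu : |u| * ‖w‖ < r) : mom e γ τ s u z = (innerSL ℝ w).comp
      (Lmap e (γ s) (lg e (γ s) (Gam e γ τ z s)) (Gam e γ τ z s)) := by
  have h2 : ‖u • w‖ < r := by rwa [norm_smul]
  rw [mom, hw, (h.fv_move (h.exp_lg _ _) (h.short_mem_min h2)
    (h.sp_short ((h.dist_exp_le _ _).trans_lt h2))).fderiv]
  ext v
  simp [hu0]

/-- `fv_move` and `Gam_flow`: both sides are `⟪w, Lmap (γ s) a (Gam z s) ·⟫`. -/
theorem mom_step (h : Geo e r) (hl : Line e γ ρ) (h0 : 0 < τ) (h1 : τ < r) (s : ℝ) {u : ℝ}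
    (hu0 : u ≠ 0) (hu : |u| < r) : mom e γ τ s u =ᶠ[𝓝 0] mom e γ τ s τ := by
  have h2 : ∀ {v : ℝ}, |v| < r → ∀ᶠ z in 𝓝 0, |v| * spd e γ τ z < r := fun hv =>
    (continuousAt_const.mul (contDiffAt_spd h hl h0 h1).continuousAt).eventually_lt
      continuousAt_const (by rwa [Pi.mul_apply, spd_zero h hl h0 h1, mul_one])
  filter_upwards [h2 hu, h2 ((abs_of_pos h0).trans_lt h1)] with z h3 h4
  obtain ⟨w, hw, hw'⟩ := Gam_flow h h0 z s
  rw [jacg3_mom h hw' hu0 (hw ▸ h3), jacg3_mom h hw' h0.ne' (hw ▸ h4)]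

theorem jacg3_D2 {V W Z : Type*} [NormedAddCommGroup V] [NormedSpace ℝ V] [NormedAddCommGroup W]
    [NormedSpace ℝ W] [NormedAddCommGroup Z] [NormedSpace ℝ Z] {F : V → ℝ} {K : Z → V}
    {K' : Z →L[ℝ] V} {m : Z → W →L[ℝ] ℝ} (c : ℝ) (L : W →L[ℝ] V) (hF : ContDiffAt ℝ 2 F (K 0))
    (hK : HasFDerivAt K K' 0) (hm : ∀ᶠ z in 𝓝 0, m z = c • (fderiv ℝ F (K z)).comp L) (j : Z)
    (v : W) : fderiv ℝ m 0 j v = c * D2 F (K 0) (K' j) (L v) := by
  have h1 := ((((ContinuousLinearMap.compL ℝ W V ℝ).flip L).hasFDerivAt.comp 0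
    ((Calc_has hF).comp 0 hK)).const_smul c).congr_of_eventuallyEq hm
  rw [h1.fderiv]
  rfl

theorem jacg3_loc (h : Geo e r) (hl : Line e γ ρ) (h0 : 0 < τ) (h1 : τ < r) {s t : ℝ}
    (hne : t - s ≠ 0) (hst : |t - s| < r) (j j' : T (γ 0) × T (γ τ)) :
    om e γ τ t j j' = om e γ τ s j j' := by
  let F : T (γ s) × T (γ t) → ℝ := fun z => cost (e (γ s) z.1) (e (γ t) z.2)
  let K : T (γ 0) × T (γ τ) → T (γ s) × T (γ t) := fun z =>
    (lg e (γ s) (Gam e γ τ z s), lg e (γ t) (Gam e γ τ z t))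
  have hst' : |s - t| < r := by rwa [abs_sub_comm]
  have hF : ContDiffAt ℝ ∞ F (K 0) := by
    rw [show K 0 = (0, 0) from Prod.ext (jacg3_c0 h hl h0 h1 s) (jacg3_c0 h hl h0 h1 t)]
    exact h.sp_short (by rwa [hl.dist_short h hst'])
  have hK : HasFDerivAt K ((Ym e γ τ s).prod (Ym e γ τ t)) 0 :=
    ((jacg3_c h hl h0 h1 s).differentiableAt (by simp)).hasFDerivAt.prodMk
      ((jacg3_c h hl h0 h1 t).differentiableAt (by simp)).hasFDerivAt
  have hd := hK.continuousAt.eventually (smooth_ev_diff hF)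
  have hF2 : ContDiffAt ℝ 2 F (K 0) := hF.of_le (by norm_cast)
  have h2 := jacg3_D2 (m := mom e γ τ s τ) (-(t - s)⁻¹) (ContinuousLinearMap.inl ℝ _ _) hF2 hK (by
    filter_upwards [mom_step h hl h0 h1 s hne hst, hd] with z h3 h4
    rw [← h3, mom, add_sub_cancel,
      ← (h4.hasFDerivAt.comp (K z).1 (hasFDerivAt_prodMk_left (K z).1 (K z).2)).fderiv]
    simp only [F, K, Function.comp_def, h.exp_lg])
  have h3 := jacg3_D2 (m := mom e γ τ t τ) (-(s - t)⁻¹) (ContinuousLinearMap.inr ℝ _ _) hF2 hK (by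
    filter_upwards [mom_step h hl h0 h1 t (sub_ne_zero.2 (sub_ne_zero.1 hne).symm) hst', hd]
      with z h3 h4
    rw [← h3, mom, add_sub_cancel,
      ← (h4.hasFDerivAt.comp (K z).2 (hasFDerivAt_prodMk_right (K z).1 (K z).2)).fderiv]
    simp only [F, K, Function.comp_def, h.exp_lg, cost_comm (Gam e γ τ z s)])
  have h4 : ∀ a b, D2 F (K 0) a (((Ym e γ τ s).prod (Ym e γ τ t)) b) =
      D2 F (K 0) a (ContinuousLinearMap.inl ℝ _ _ (Ym e γ τ s b)) +
        D2 F (K 0) a (ContinuousLinearMap.inr ℝ _ _ (Ym e γ τ t b)) := fun a b => by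
    rw [← map_add]
    simp
  have h5 := D2_symm hF2 (((Ym e γ τ s).prod (Ym e γ τ t)) j) (((Ym e γ τ s).prod (Ym e γ τ t)) j')
  rw [h4, h4] at h5
  rw [om, om, h2, h2, h3, h3, ← neg_sub t s, inv_neg]
  linear_combination (t - s)⁻¹ * h5

/-- For `0 < |t - s| < r` let `F (a, b) = cost (e (γ s) a) (e (γ t) b)`. By `mom_step` the momenta
at `s` and `t` are `∓ (t - s)⁻¹` times the two derivatives of `F` at the point
`(lg (γ s) (Gam z s), lg (γ t) (Gam z t))`; `om t - om s` is the antisymmetric part of `D2 F`.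
So `om` is locally constant in `s`. -/
theorem om_const (h : Geo e r) (hl : Line e γ ρ) (h0 : 0 < τ) (h1 : τ < r) (s t : ℝ)
    (j j' : T (γ 0) × T (γ τ)) : om e γ τ s j j' = om e γ τ t j j' := by
  refine ((IsLocallyConstant.iff_eventually_eq fun s => om e γ τ s j j').2
    fun a => ?_).apply_eq_of_preconnectedSpace s t
  filter_upwards [Metric.ball_mem_nhds a h.pos] with b hb
  by_cases hab : b - a = 0
  · rw [sub_eq_zero.1 hab]
  · exact jacg3_loc h hl h0 h1 hab hb j j'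

/-- `mom s τ (par s w) = ⟪w, ·⟫` near `ρ s`, and `Ym s (io s w) = 0`. -/
theorem om_io (h : Geo e r) (hl : Line e γ ρ) (h0 : 0 < τ) (h1 : τ < r) (s : ℝ) (w : T (γ s))
    (j : T (γ 0) × T (γ τ)) : om e γ τ s (io e γ ρ τ s w) j = inner ℝ w (Ym e γ τ s j) := by
  rw [om, Ym_io h hl h0 h1, sub_self, zero_smul, map_zero, sub_zero]
  have h2 := ((contDiffAt_mom h hl h0 h1 s ((abs_of_pos h0).trans_lt h1)).differentiableAt
    (by simp)).hasFDerivAt
  have h3 := ((contDiffAt_par (τ := τ) h hl s).differentiableAt (by simp)).hasFDerivAt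
  have h4 := (ContinuousLinearMap.apply ℝ ℝ (Ym e γ τ s j)).hasFDerivAt.comp _
    ((par_base (τ := τ) h hl s ▸ h2 :).comp (ρ s) h3)
  have h5 : ∀ᶠ v in 𝓝 (ρ s), τ * ‖v‖ < r :=
    (continuousAt_const.mul continuous_norm.continuousAt).eventually_lt continuousAt_const
      (by rwa [Pi.mul_apply, hl.norm, mul_one])
  have h6 := (innerSL ℝ (Ym e γ τ s j)).hasFDerivAt.unique (h4.congr_of_eventuallyEq
    (h5.mono fun v hv => by
      have h7 : ‖τ • v‖ < r := by rwa [norm_smul, Real.norm_of_nonneg h0.le]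
      simp only [Function.comp_apply, mom, Gam_par h h0 hv, sub_self, zero_smul, h.zero, h.lg_self,
        add_sub_cancel_left, (h.toLoc.fv h7).fderiv]
      simp [h0.ne', real_inner_comm]))
  rw [par_base h hl] at h6
  rw [real_inner_comm]
  exact (congrArg (fun L => L w) h6).symm

theorem Bl.jdata (h : Bl e r D) (hl : Line e γ ρ) (h0 : 0 < τ) (h1 : τ < r) :
    ∃ Ω : T (γ 0) × T (γ τ) →ₗ[ℝ] T (γ 0) × T (γ τ) →ₗ[ℝ] ℝ,
      (∀ s j j', Ω j j' = om e γ τ s j j') ∧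
      JData e D γ ρ (Ym e γ τ) (io e γ ρ τ) Ω (sg e γ τ) := by
  have hg := h.toGeo
  refine ⟨LinearMap.mk₂ ℝ (om e γ τ 0) (fun a b c => ?_) (fun a b c => ?_) (fun a b c => ?_)
    fun a b c => ?_, fun s => om_const hg hl h0 h1 0 s, fun j j' => (neg_sub _ _).symm,
    fun s w j => (om_const hg hl h0 h1 0 s _ _).trans (om_io hg hl h0 h1 s w j),
    ker_Ym hg hl h0 h1, fun s => (surj_Ym hg hl h0 h1 s).2, Ym_io hg hl h0 h1, Lmap_radial hg hl,
    smooth_Ym hg hl h0 h1, deriv_Ym hg hl h0 h1, rad_Ym hg hl h0 h1, sg_io hg hl h0 h1,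
    per_Ym h hl h0 h1⟩
  all_goals
    simp only [om, map_add, map_smul, add_apply, smul_apply, smul_eq_mul]
    ring

end Vale.Agent.P231
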