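import Vale.Agent.P231.Abs

/-! Elementary facts on lines. -/

open scoped ContDiff Topology Matrix
open Filter Set

noncomputable section

namespace Vale.Agent.P231

open Vale.Agent.P234

variable {M : Type*} [MetricSpace M] [CompactSpace M] {T : M → Type*}
  [∀ x, NormedAddCommGroup (T x)] [∀ x, InnerProductSpace ℝ (T x)]
  [∀ x, FiniteDimensional ℝ (T x)] {e : ∀ x, T x → M} {r D : ℝ}

variable {γ : ℝ → M} {ρ : ∀ s, T (γ s)}

theorem Bl.mem_inj (h : Bl e r D) {x : M} {v : T x} (hv : ‖v‖ < D) : v ∈ Inj e x := by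
  rcases eq_or_ne v 0 with rfl | h0
  · exact h.toGeo.short_mem_inj (by simpa using h.pos)
  have hp : 0 < ‖v‖ := norm_pos_iff.2 h0
  have hD := h.dpos
  refine ⟨D / ‖v‖, (one_lt_div hp).2 hv, ?_⟩
  have hn : ‖(D / ‖v‖) • v‖ = D := by
    rw [norm_smul, Real.norm_of_nonneg (by positivity), div_mul_cancel₀ _ hp.ne']
  rw [h.min x _ hn.le, hn, div_mul_cancel₀ _ hp.ne']

theorem Bl.lg_exp' (h : Bl e r D) {x : M} {v : T x} (hv : ‖v‖ < D) : lg e x (e x v) = v := by
  exact h.toGeo.lg_exp (h.mem_inj hv)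

theorem Bl.lg_mem_inj (h : Bl e r D) {x y : M} (hd : dist x y < D) : lg e x y ∈ Inj e x := by
  exact h.mem_inj (by rwa [h.toGeo.norm_lg])

theorem Bl.sp (h : Bl e r D) {x y : M} (hd : dist x y < D) : SP e x y := by
  have := h.toGeo.sp_of_inj (h.lg_mem_inj hd)
  rwa [h.toGeo.exp_lg] at this

theorem exists_line (h : Geo e r) (p : M) {v : T p} (hv : ‖v‖ = 1) :
    ∃ (γ : ℝ → M) (ρ : ∀ s, T (γ s)), Line e γ ρ ∧ γ 0 = p ∧ HEq (ρ 0) v := by
  classical
  have key : ∀ s : ℝ, ∃ ρ : T (e p (s • v)), ‖ρ‖ = 1 ∧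
      (∀ t : ℝ, e p ((s + t) • v) = e (e p (s • v)) (t • ρ)) ∧ (s = 0 → HEq ρ v) := by
    intro s
    obtain ⟨ρ, h1, h2⟩ := h.flow (x := p) (v := v) (θ := s) rfl
    refine ⟨ρ, h1.trans hv, h2, ?_⟩
    rintro rfl
    have h0 : e p ((0 : ℝ) • v) = p := by rw [zero_smul, h.zero]
    have aux : ∀ (m : M) (_ : m = p) (ρ : T m), ‖ρ‖ = ‖v‖ →
        (∀ t : ℝ, e p ((0 + t) • v) = e m (t • ρ)) → HEq ρ v := by
      rintro m rfl ρ a1 a2
      obtain ⟨c, hc, hr⟩ := h.Lim_small ‖v‖ (norm_nonneg _)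
      have b1 : ‖c • v‖ < r := by rw [norm_smul, Real.norm_of_nonneg hc.le]; exact hr
      have b2 : ‖c • ρ‖ < r := by rw [norm_smul, Real.norm_of_nonneg hc.le, a1]; exact hr
      have := h.toLoc.inj b2 b1 (by rw [← a2, zero_add])
      exact heq_of_eq (smul_right_injective _ hc.ne' this)
    exact aux _ h0 ρ h1 h2
  choose ρ h1 h2 h3 using key
  exact ⟨fun s => e p (s • v), ρ, ⟨h1, h2⟩, by simp only [zero_smul, h.zero], h3 0 rfl⟩

theorem Line.eq (hl : Line e γ ρ) (s t : ℝ) : γ t = e (γ s) ((t - s) • ρ s) := by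
  rw [← hl.flow]; congr 1; ring

theorem Line.shift (hl : Line e γ ρ) (a : ℝ) :
    Line e (fun s => γ (a + s)) (fun s => ρ (a + s)) := by
  refine ⟨fun s => hl.norm _, fun s t => ?_⟩
  rw [← hl.flow, add_assoc]

theorem Line.continuous (h : Geo e r) (hl : Line e γ ρ) : Continuous γ := by
  have : γ = fun t => e (γ 0) ((t - 0) • ρ 0) := funext fun t => hl.eq 0 t
  rw [this]
  exact (h.continuous_exp _).comp (by fun_prop)

theorem Line.dist_short (h : Geo e r) (hl : Line e γ ρ) {s t : ℝ} (hst : |s - t| < r) :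
    dist (γ s) (γ t) = |s - t| := by
  have hn : ‖(t - s) • ρ s‖ = |s - t| := by
    rw [norm_smul, hl.norm, mul_one, Real.norm_eq_abs, abs_sub_comm]
  conv_lhs => rw [hl.eq s t]
  rw [h.toLoc.dist_exp (hn ▸ hst), hn]

theorem Line.lg_short (h : Geo e r) (hl : Line e γ ρ) {s t : ℝ} (hst : |s - t| < r) :
    lg e (γ s) (γ t) = (t - s) • ρ s := by
  have hn : ‖(t - s) • ρ s‖ = |s - t| := by
    rw [norm_smul, hl.norm, mul_one, Real.norm_eq_abs, abs_sub_comm]
  conv_lhs => rw [hl.eq s t]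
  exact h.lg_exp (h.short_mem_inj (hn ▸ hst))

theorem Line.dist_eq (h : Bl e r D) (hl : Line e γ ρ) {s t : ℝ} (hst : |s - t| ≤ D) :
    dist (γ s) (γ t) = |s - t| := by
  have hn : ‖(t - s) • ρ s‖ = |s - t| := by
    rw [norm_smul, hl.norm, mul_one, Real.norm_eq_abs, abs_sub_comm]
  conv_lhs => rw [hl.eq s t]
  rw [h.min _ _ (hn ▸ hst), hn]

theorem Line.lg_eq (h : Bl e r D) (hl : Line e γ ρ) {s t : ℝ} (hst : |s - t| < D) :
    lg e (γ s) (γ t) = (t - s) • ρ s := by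
  have hn : ‖(t - s) • ρ s‖ = |s - t| := by
    rw [norm_smul, hl.norm, mul_one, Real.norm_eq_abs, abs_sub_comm]
  conv_lhs => rw [hl.eq s t]
  exact h.lg_exp' (hn ▸ hst)

/-- Two vectors with the same geodesic are equal. -/
theorem vel_unique (h : Geo e r) {x : M} {v w : T x} (he : ∀ t : ℝ, e x (t • v) = e x (t • w)) :
    v = w := by
  obtain ⟨c, hc, hr⟩ := h.Lim_small (‖v‖ + ‖w‖) (by positivity)
  have a1 := norm_nonneg v
  have a2 := norm_nonneg w
  have b1 : ‖c • v‖ < r := by rw [norm_smul, Real.norm_of_nonneg hc.le]; nlinarith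
  have b2 : ‖c • w‖ < r := by rw [norm_smul, Real.norm_of_nonneg hc.le]; nlinarith
  exact smul_right_injective _ hc.ne' (h.toLoc.inj b1 b2 (he c))

/-- The line through two points of a geodesic is the geodesic (`Geo.flow`, `Geo.lg_exp`). -/
theorem ln_exp (h : Geo e r) {x : M} (w : T x) {a b : ℝ} (hab : |b - a| * ‖w‖ < r) (s : ℝ) :
    ln e (e x (a • w)) (e x (b • w)) s = e x ((a + s * (b - a)) • w) := by
  obtain ⟨u, h1, h2⟩ := h.flow (x := x) (v := w) (θ := a) rfl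
  have hb : e x (b • w) = e (e x (a • w)) ((b - a) • u) := by rw [← h2]; congr 2; ring
  have hn : ‖(b - a) • u‖ < r := by rw [norm_smul, h1]; exact hab
  rw [ln, hb, h.lg_exp (h.short_mem_inj hn), smul_smul, h2]

theorem Bl.ln_exp (h : Bl e r D) {x : M} (w : T x) {a b : ℝ} (hab : |b - a| * ‖w‖ < D) (s : ℝ) :
    ln e (e x (a • w)) (e x (b • w)) s = e x ((a + s * (b - a)) • w) := by
  obtain ⟨u, h1, h2⟩ := h.toGeo.flow (x := x) (v := w) (θ := a) rfl
  have hb : e x (b • w) = e (e x (a • w)) ((b - a) • u) := by rw [← h2]; congr 2; ring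
  have hn : ‖(b - a) • u‖ < D := by rw [norm_smul, h1]; exact hab
  rw [ln, hb, h.lg_exp' hn, smul_smul, h2]

theorem Bl.ln_swap (h : Bl e r D) {x y : M} (hd : dist x y < D) (s : ℝ) :
    ln e y x s = ln e x y (1 - s) := by
  have := h.ln_exp (lg e x y) (a := 1) (b := 0) (by simpa [h.toGeo.norm_lg] using hd) s
  rw [one_smul, zero_smul, h.toGeo.exp_lg, h.zero] at this
  rw [this, ln]
  congr 2; ring

theorem jac_eq {x y : M} {a : T x} (he : e x a = y) :
    jac e x a = (Lmap e x a y).toLinearMap.normDet := by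
  subst he; rfl

theorem kap_eq {x y : M} {a : T x} (he : e x a = y) :
    kap e x a = Module.finrank ℝ (LinearMap.ker (Lmap e x a y).toLinearMap) := by
  subst he; rfl

/-- `conv_lg`, `conv_tendsto`. -/
theorem continuousAt_ln (h : Geo e r) {x y : M} (hd : lg e x y ∈ Inj e x) (s : ℝ) :
    ContinuousAt (fun w : (M × M) × ℝ => ln e w.1.1 w.1.2 w.2) ((x, y), s) := by
  have h1 : Tendsto (fun w : (M × M) × ℝ => w.1.1) (𝓝 ((x, y), s)) (𝓝 x) :=
    (continuous_fst.comp continuous_fst).continuousAt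
  have h2 : Tendsto (fun w : (M × M) × ℝ => w.1.2) (𝓝 ((x, y), s)) (𝓝 (e x (lg e x y))) := by
    rw [h.exp_lg]; exact (continuous_snd.comp continuous_fst).continuousAt
  exact h.conv_tendsto (h.conv_lg hd h1 h2) continuous_snd.continuousAt

end Vale.Agent.P231
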