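import Vale.Agent.P231.MultB

/-! The multiplicity is constant. -/

open scoped ContDiff Topology Matrix
open Filter Set

noncomputable section

namespace Vale.Agent.P231

open Vale.Agent.P234

variable {M : Type*} [MetricSpace M] [CompactSpace M] {T : M → Type*}
  [∀ x, NormedAddCommGroup (T x)] [∀ x, InnerProductSpace ℝ (T x)]
  [∀ x, FiniteDimensional ℝ (T x)] {e : ∀ x, T x → M} {r D : ℝ}

/-- `(z, v) ↦ Ff x θ (e x ((D + δ) • v)) z` is smooth (`Sm.cost`); `contDiffAt_D2_fst`. -/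
theorem Bl.exists_Qf (h : Bl e r D) {δ : ℝ} (h0 : 0 < δ) (h1 : 2 * δ < r) (h2 : 2 * δ < D)
    (x : M) : ∃ Q : T x → T x →L[ℝ] T x →L[ℝ] ℝ, (∀ v, ‖v‖ = 1 → ContinuousAt Q v) ∧
      ∀ v ξ η, Q v ξ η = Qf e D δ x v ξ η := by
  have hg := h.toGeo
  have hD := h.dpos
  refine ⟨fun v => ((ContinuousLinearMap.compL ℝ (T x) (T x × T x) ℝ).flip
    (ContinuousLinearMap.inr ℝ (T x) (T x))).comp ((D2 (Ff e x ((D - δ) / (D + δ))
      (e x ((D + δ) • v))) (0, (D + δ) • v)).comp (ContinuousLinearMap.inr ℝ (T x) (T x))),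
    fun v hv => ?_, fun v ξ η => rfl⟩
  refine continuousAt_const.clm_comp (ContinuousAt.clm_comp ?_ continuousAt_const)
  have e1 : ((D - δ) / (D + δ)) • (D + δ) • v = (D - δ) • v := by
    rw [smul_smul, div_mul_cancel₀ _ (by positivity)]
  have n1 : ‖(D - δ) • v‖ = D - δ := by
    rw [norm_smul, hv, mul_one, Real.norm_of_nonneg (by linarith)]
  have s1 : Sm e (fun z : (T x × T x) × T x => e x z.1.1) ((0, (D + δ) • v), v) :=
    Sm.comp (k := fun z : (T x × T x) × T x => z.1.1) (sm_exp hg x _) (by fun_prop)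
  have s2 : Sm e (fun z : (T x × T x) × T x => e x (((D - δ) / (D + δ)) • z.1.2))
      ((0, (D + δ) • v), v) :=
    Sm.comp (k := fun z : (T x × T x) × T x => ((D - δ) / (D + δ)) • z.1.2) (sm_exp hg x _)
      (by fun_prop)
  have s3 : Sm e (fun z : (T x × T x) × T x => e x ((D + δ) • z.2)) ((0, (D + δ) • v), v) :=
    Sm.comp (k := fun z : (T x × T x) × T x => (D + δ) • z.2) (sm_exp hg x _) (by fun_prop)
  have c1 := s1.cost hg s2 (h.sp (by
    simp only [e1, h.zero]
    rw [h.min x _ (by linarith), n1]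
    linarith))
  have c2 := s2.cost hg s3 (hg.sp_short (by
    simp only [e1]
    refine (hg.dist_le x v _ _).trans_lt ?_
    rw [hv, mul_one, abs_sub_comm, abs_of_pos (by linarith)]
    linarith))
  have c3 : ContDiffAt ℝ ∞ (fun z : (T x × T x) × T x =>
      Ff e x ((D - δ) / (D + δ)) (e x ((D + δ) • z.2)) z.1) ((0, (D + δ) • v), v) :=
    (c1.div_const _).add (c2.div_const _)
  exact ContinuousAt.comp (f := fun w : T x => (((0 : T x), (D + δ) • w), w))
    (contDiffAt_D2_fst c3).continuousAt (by fun_prop)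

theorem multc_pos {V : Type*} [NormedAddCommGroup V] [InnerProductSpace ℝ V]
    [FiniteDimensional ℝ V] {Q : V → V →L[ℝ] V →L[ℝ] ℝ} {v : V} (hQ : ContinuousAt Q v)
    (P : Submodule ℝ V) (ε : ℝ) (hP : ∀ ξ ∈ P, ξ ≠ 0 → 0 < ε * Q v ξ ξ) :
    ∀ᶠ w in 𝓝 v, ∀ ξ ∈ P, ξ ≠ 0 → 0 < ε * Q w ξ ξ := by
  have hK : IsCompact (Metric.sphere (0 : V) 1 ∩ P) :=
    (isCompact_sphere 0 1).inter_right P.closed_of_finiteDimensional
  have := hK.eventually_forall_of_forall_eventually (x₀ := v) (P := fun w ξ => 0 < ε * Q w ξ ξ)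
    fun ξ hξ => by
      have c : ContinuousAt (fun z : V × V => ε * Q z.1 z.2 z.2) (v, ξ) :=
        continuousAt_const.mul (((hQ.comp_of_eq continuousAt_fst rfl).clm_apply
          continuousAt_snd).clm_apply continuousAt_snd)
      refine c.eventually (lt_mem_nhds (hP ξ hξ.2 fun h0 => ?_))
      simpa [h0] using hξ.1
  filter_upwards [this] with w hw ξ hξ h0
  have hn : 0 < ‖ξ‖ := norm_pos_iff.2 h0
  have := hw (‖ξ‖⁻¹ • ξ) ⟨by simp [norm_smul, hn.ne'], P.smul_mem _ hξ⟩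
  simp only [map_smul, smul_apply, smul_eq_mul, mul_left_comm ε] at this
  exact (mul_pos_iff_of_pos_left (inv_pos.2 hn)).1 ((mul_pos_iff_of_pos_left (inv_pos.2 hn)).1 this)

theorem multc_dim {V : Type*} [AddCommGroup V] [Module ℝ V] [FiniteDimensional ℝ V] {q : V → ℝ}
    {N P : Submodule ℝ V} (hN : ∀ ξ ∈ N, ξ ≠ 0 → q ξ < 0) (hP : ∀ ξ ∈ P, ξ ≠ 0 → 0 < q ξ) :
    Module.finrank ℝ N + Module.finrank ℝ P ≤ Module.finrank ℝ V :=
  Submodule.finrank_add_finrank_le_of_disjoint (Submodule.disjoint_def.2 fun ξ a b => by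
    by_contra h0
    exact (hN ξ a h0).not_gt (hP ξ b h0))

/-- A form close to `Q v` is still negative on `N` and positive on `P`; two subspaces on which a
form has opposite signs are disjoint, so the dimensions agree. -/
theorem Bl.kap_loc (h : Bl e r D) (x : M) {v : T x} (hv : ‖v‖ = 1) :
    ∀ᶠ w in 𝓝 v, ‖w‖ = 1 → kap e x (D • w) = kap e x (D • v) := by
  obtain ⟨δ, h0, h1, h2⟩ : ∃ δ : ℝ, 0 < δ ∧ 2 * δ < r ∧ 2 * δ < D := by
    have a := lt_min h.pos h.dpos
    exact ⟨Min.min r D / 4, by linarith, by linarith [min_le_left r D],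
      by linarith [min_le_right r D]⟩
  obtain ⟨Q, hQ, hq⟩ := h.exists_Qf h0 h1 h2 x
  obtain ⟨N, P, a1, a2, a3, a4⟩ := h.signature h0 h1 h2 x hv
  filter_upwards [multc_pos (hQ v hv) P 1 (by simpa only [hq, one_mul] using a4),
    multc_pos (hQ v hv) N (-1) (by simpa [hq] using a3)] with w b4 b3 hw
  obtain ⟨N', P', c1, c2, c3, c4⟩ := h.signature h0 h1 h2 x hw
  have d1 := multc_dim c3 (P := P) (by simpa only [hq, one_mul] using b4)
  have d2 := multc_dim (N := N) (by simpa [hq] using b3) c4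
  omega

theorem multc_pt (h : Bl e r D) (x : M) {v w : T x} (hv : ‖v‖ = 1) (hw : ‖w‖ = 1) :
    kap e x (D • v) = kap e x (D • w) := by
  rcases lt_or_ge 1 (Module.finrank ℝ (T x)) with hd | hd
  · have hc := isPreconnected_sphere (E := T x) (Module.one_lt_rank_of_one_lt_finrank hd) 0 1
    have := Subtype.preconnectedSpace hc
    have lc : IsLocallyConstant fun u : Metric.sphere (0 : T x) 1 => kap e x (D • u.1) := by
      refine (IsLocallyConstant.iff_eventually_eq _).2 fun u => ?_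
      filter_upwards [continuous_subtype_val.continuousAt.eventually
        (h.kap_loc x (mem_sphere_zero_iff_norm.1 u.2))] with u' hu'
      exact hu' (mem_sphere_zero_iff_norm.1 u'.2)
    exact lc.apply_eq_of_preconnectedSpace ⟨v, mem_sphere_zero_iff_norm.2 hv⟩
      ⟨w, mem_sphere_zero_iff_norm.2 hw⟩
  · have key : ∀ u : T x, ‖u‖ = 1 → kap e x (D • u) = 0 := fun u hu => by
      obtain ⟨γ, ρ, hl, rfl, e1⟩ := exists_line h.toGeo x hu
      obtain rfl := eq_of_heq e1
      obtain ⟨a, b, hb, -⟩ := h.exists_adapted hl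
      have := hb.card hu
      rw [Fintype.card_sum, Fintype.card_fin, Fintype.card_fin] at this
      omega
    rw [key v hv, key w hw]

theorem multc_all (h : Bl e r D) {x y : M} {v : T x} {w : T y} (hv : ‖v‖ = 1) (hw : ‖w‖ = 1) :
    kap e x (D • v) = kap e y (D • w) := by
  rcases eq_or_ne x y with rfl | hne
  · exact multc_pt h x hv hw
  have hd : 0 < dist x y := dist_pos.2 hne
  have hu : ‖(dist x y)⁻¹ • lg e x y‖ = 1 := by
    rw [norm_smul, h.toGeo.norm_lg, norm_inv, Real.norm_of_nonneg hd.le, inv_mul_cancel₀ hd.ne']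
  obtain ⟨γ, ρ, hl, rfl, e1⟩ := exists_line h.toGeo x hu
  have e2 : γ (dist (γ 0) y) = y := by
    rw [hl.eq 0, eq_of_heq e1, sub_zero, smul_smul, mul_inv_cancel₀ hd.ne', one_smul,
      h.toGeo.exp_lg]
  obtain ⟨s, rfl⟩ : ∃ s, γ s = y := ⟨_, e2⟩
  rw [multc_pt h _ hv (hl.norm 0), multc_pt h _ hw (hl.norm s), h.kap_line hl s]

/-- Connectedness of the sphere if the dimension is at least two (`isConnected_sphere`); in
dimension one the multiplicity is `0` by `signature` and `gauss` (or `exists_adapted`,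
`Frame.card`). Two points are joined by a line, `kap_line`. -/
theorem Bl.kap_const (h : Bl e r D) : ∃ k : ℕ, ∀ x (v : T x), ‖v‖ = D → kap e x v = k := by
  have hD := h.dpos
  by_cases hx : ∃ x, ∃ v : T x, ‖v‖ = D
  · obtain ⟨y, w, hw⟩ := hx
    have n : ∀ {x} {v : T x}, ‖v‖ = D → ‖D⁻¹ • v‖ = 1 := fun hv => by
      rw [norm_smul, hv, norm_inv, Real.norm_of_nonneg hD.le, inv_mul_cancel₀ hD.ne']
    refine ⟨kap e y w, fun x v hv => ?_⟩
    simpa only [smul_inv_smul₀ hD.ne'] using multc_all h (n hv) (n hw)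
  · exact ⟨0, fun x v hv => (hx ⟨x, v, hv⟩).elim⟩

end Vale.Agent.P231
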