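import Vale.Agent.P234.Defs

/-! The objects of the statement. -/

open scoped Bundle Manifold

noncomputable section

namespace Vale.Agent.P231

open Vale.Agent.P234

/-- Volume of the model space of dimension `n`, diameter `D` and conjugate multiplicity `k`:
area of the unit sphere of Euclidean `n`-space times the integral of the radial density. -/
def modelVolume (n k : ℕ) (D : ℝ) : ℝ :=
  n * (√Real.pi ^ n / Real.Gamma (n / 2 + 1)) *
    ∫ u in (0 : ℝ)..D, (2 * D / Real.pi * Real.sin (Real.pi * u / (2 * D))) ^ (n - 1) *
      Real.cos (Real.pi * u / (2 * D)) ^ k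

/-- Dimension of the kernel of a continuous linear map. -/
def kerDim {V W : Type*} [NormedAddCommGroup V] [NormedSpace ℝ V] [NormedAddCommGroup W]
    [NormedSpace ℝ W] (L : V →L[ℝ] W) : ℕ := Module.finrank ℝ (LinearMap.ker L.toLinearMap)

variable (E : Type*) [NormedAddCommGroup E] [NormedSpace ℝ E]

/-- Dimension of the kernel of the differential at `v` of a map from a vector space to a
manifold. -/
def nullity {V N : Type*} [NormedAddCommGroup V] [NormedSpace ℝ V] [TopologicalSpace N]
    [ChartedSpace E N] (f : V → N) (v : V) : ℕ :=
  kerDim (V := V) (W := E) (mfderiv 𝓘(ℝ, V) 𝓘(ℝ, E) f v)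

variable {M : Type*} [MetricSpace M] [ChartedSpace E M]
  [Bundle.RiemannianBundle fun x : M => TangentSpace 𝓘(ℝ, E) x]

/-- The multiplicity of the conjugate point: dimension of the kernel of the differential of the
exponential map. -/
def conjMult (x : M) (v : TangentSpace 𝓘(ℝ, E) x) : ℕ := nullity E (expMap E x) v

variable (M)

/-- Every exponential map is injective on the open ball whose radius is the diameter. -/
def IsBlaschke : Prop :=
  ∀ x : M, Set.InjOn (expMap E x) (Metric.ball 0 (Metric.diam (Set.univ : Set M)))

/-- Riemannian globally symmetric space: every geodesic symmetry is a global isometry. -/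
def IsSymmetricSpace : Prop :=
  ∀ x : M, ∃ σ : M ≃ᵢ M, ∀ v : TangentSpace 𝓘(ℝ, E) x, σ (expMap E x v) = expMap E x (-v)

end Vale.Agent.P231
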