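import Vale.Agent.P231.ClB

/-! The geodesic symmetry. -/

open scoped ContDiff Topology Matrix
open Filter Set

noncomputable section

namespace Vale.Agent.P231

open Vale.Agent.P234

variable {M : Type*} [MetricSpace M] [CompactSpace M] {T : M → Type*}
  [∀ x, NormedAddCommGroup (T x)] [∀ x, InnerProductSpace ℝ (T x)]
  [∀ x, FiniteDimensional ℝ (T x)] {e : ∀ x, T x → M} {r D : ℝ}

/-- The geodesic symmetry. -/
def sym (e : ∀ x, T x → M) (p y : M) : M := e p (-lg e p y)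

variable {p : M}

theorem sym_unit {V : Type*} [NormedAddCommGroup V] [NormedSpace ℝ V] {v : V} (hv : v ≠ 0) :
    ∃ u : V, ‖u‖ = 1 ∧ v = ‖v‖ • u :=
  ⟨‖v‖⁻¹ • v, norm_smul_inv_norm hv, (smul_inv_smul₀ (norm_ne_zero_iff.2 hv) v).symm⟩

theorem Bl.sym_far (h : Bl e r D) {p y : M} (hy : dist p y = D) : sym e p y = y :=
  (h.closed p ((h.toGeo.norm_lg p y).trans hy)).trans (h.toGeo.exp_lg p y)

theorem sym_short (h : Bl e r D) (p : M) {v : T p} (hv : ‖v‖ ≤ D) :
    sym e p (e p v) = e p (-v) := by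
  rcases hv.lt_or_eq with hv' | hv'
  · rw [sym, h.lg_exp' hv']
  · rw [h.sym_far ((h.min p v hv).trans hv'), h.closed p hv']

/-- Write `v = t • v₀` with a unit vector `v₀` and reduce `t` to `[-D, D]` by `periodic`. -/
theorem Bl.sym_exp (h : Bl e r D) (p : M) (v : T p) : sym e p (e p v) = e p (-v) := by
  by_cases hv : v = 0
  · exact sym_short h p (by rw [hv, norm_zero]; exact h.dpos.le)
  obtain ⟨u, hu, hv⟩ := sym_unit hv
  have h1 : Function.Periodic (fun s : ℝ => e p (s • u)) (2 * D) := h.periodic p hu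
  have h2 : 0 < 2 * D := mul_pos two_pos h.dpos
  have h3 := toIcoMod_mem_Ico h2 (-D) ‖v‖
  have h4 := h1.sub_zsmul_eq (x := ‖v‖) (toIcoDiv h2 (-D) ‖v‖)
  have h5 := h1.sub_zsmul_eq (x := -toIcoMod h2 (-D) ‖v‖) (toIcoDiv h2 (-D) ‖v‖)
  rw [← neg_add', toIcoMod_add_toIcoDiv_zsmul] at h5
  rw [self_sub_toIcoDiv_zsmul] at h4
  beta_reduce at h4 h5
  rw [neg_smul, neg_smul, ← hv] at h5
  rw [← hv] at h4
  rw [← h4, h5]
  refine sym_short h p ?_
  rw [norm_smul, hu, mul_one, Real.norm_eq_abs, abs_le]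
  exact ⟨h3.1, by linarith [h3.2]⟩

theorem Bl.sym_sym (h : Bl e r D) (p y : M) : sym e p (sym e p y) = y := by
  have h1 := h.sym_exp p (-lg e p y)
  rwa [neg_neg, h.toGeo.exp_lg] at h1

theorem sym_dist (h : Bl e r D) (p y : M) : dist (sym e p y) y ≤ 2 * (D - dist p y) := by
  have h1 := h.le p y
  by_cases hv : lg e p y = 0
  · have h2 := h.toGeo.exp_lg p y
    rw [hv] at h2
    rw [sym, hv, neg_zero, h2, dist_self]
    linarith [h.le p y]
  obtain ⟨u, hu, hv⟩ := sym_unit hv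
  have h2 := h.toGeo.dist_le p u (-dist p y + 2 * D) (dist p y)
  rw [h.toGeo.norm_lg] at hv
  rw [h.periodic p hu, neg_smul, ← hv, h.toGeo.exp_lg, hu, abs_of_nonneg (by linarith)] at h2
  exact h2.trans_eq (by ring)

theorem sym_lg (h : Bl e r D) {p y : M} (hy : dist p y < D) : ContinuousAt (lg e p) y := by
  have h1 := h.toGeo.continuousAt_lg (h.lg_mem_inj hy)
  rwa [h.toGeo.exp_lg] at h1

/-- At a point `z` with `dist p z = D`: `dist (sym y) z ≤ 3 dist y z`. Elsewhere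
`continuousAt_lg`, `continuous_exp`. -/
theorem Bl.continuous_sym (h : Bl e r D) (p : M) : Continuous (sym e p) := by
  refine continuous_iff_continuousAt.2 fun z => ?_
  rcases (h.le p z).lt_or_eq with hz | hz
  · exact (h.toGeo.continuous_exp p).continuousAt.comp (sym_lg h hz).neg
  · refine Metric.continuousAt_iff.2 fun ε hε => ⟨ε / 3, by positivity, fun y hy => ?_⟩
    rw [h.sym_far hz]
    linarith [dist_triangle (sym e p y) y z, sym_dist h p y, dist_triangle p y z]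

/-- `bi` at `a` and `-a`, and `‖Lmap ξ‖ ≥ c ‖ξ‖` (`Lmap_bij`). -/
theorem Bl.sym_loc (h : Bl e r D) (hL : ∀ a : T p, ‖a‖ < D → ∀ ξ : T p,
      ‖Lmap e p (-a) (e p (-a)) ξ‖ = ‖Lmap e p a (e p a) ξ‖) {y : M} (hy : dist p y < D) {η : ℝ}
    (hη : 0 < η) : ∀ᶠ z : M × M in 𝓝 (y, y),
      dist (sym e p z.1) (sym e p z.2) ≤ (1 + η) * dist z.1 z.2 := by
  have hg := h.toGeo
  obtain ⟨c, hc, h1⟩ : ∃ c : ℝ, 0 < c ∧
      ∀ ξ, ‖ξ‖ ≤ c * ‖Lmap e p (lg e p y) (e p (lg e p y)) ξ‖ :=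
    ⟨‖Lmap e (e p (lg e p y)) 0 p‖ + 1, by positivity, fun ξ =>
      ((congrArg norm (Lmap_inv hg (h.lg_mem_inj hy) ξ).symm).trans_le
        (ContinuousLinearMap.le_opNorm _ _)).trans
        (mul_le_mul_of_nonneg_right (le_add_of_nonneg_right zero_le_one) (norm_nonneg _))⟩
  have h2 : 0 < η / (2 + η) / c := by positivity
  have h3 : Tendsto (fun z : M × M => (lg e p z.1, lg e p z.2)) (𝓝 (y, y))
      (𝓝 (lg e p y, lg e p y)) := (sym_lg h hy).tendsto.prodMap_nhds (sym_lg h hy).tendsto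
  filter_upwards [h3.eventually (bi hg p _ h2), h3.neg.eventually (bi hg p _ h2)] with z h4 h5
  simp only [Prod.fst_neg, Prod.snd_neg, hg.exp_lg] at h4 h5
  rw [neg_sub_neg, hL _ ((hg.norm_lg p y).trans_lt hy), ← neg_sub (lg e p z.1), map_neg, norm_neg,
    norm_neg] at h5
  have h6 := mul_le_mul_of_nonneg_left (h1 (lg e p z.1 - lg e p z.2)) h2.le
  rw [← mul_assoc, div_mul_cancel₀ _ hc.ne'] at h6
  have h7 := (abs_le.1 (h4.trans h6)).1
  have h8 := (abs_le.1 (h5.trans h6)).2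
  have h9 : η / (2 + η) * (2 + η) = η := div_mul_cancel₀ _ (by positivity)
  refine (sub_le_iff_le_add.1 h8).trans (le_trans (le_of_eq ?_) (mul_le_mul_of_nonneg_left
    (le_sub_iff_add_le.1 h7) (by positivity)))
  linear_combination ‖Lmap e p (lg e p y) (e p (lg e p y)) (lg e p z.1 - lg e p z.2)‖ * h9

theorem sym_piece (h : Bl e r D) (hL : ∀ a : T p, ‖a‖ < D → ∀ ξ : T p,
      ‖Lmap e p (-a) (e p (-a)) ξ‖ = ‖Lmap e p a (e p a) ξ‖) {c : ℝ → M} {l : ℝ} (hl : 0 ≤ l)
    (hc : ∀ s t, dist (c s) (c t) ≤ |s - t| * l) (hc' : Continuous c) {a b : ℝ} (hab : a ≤ b)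
    (hD : ∀ t ∈ Ioo a b, dist p (c t) < D) :
    dist (sym e p (c a)) (sym e p (c b)) ≤ (b - a) * l := by
  have h1 := (h.continuous_sym p).comp hc'
  rcases hab.eq_or_lt with rfl | hab
  · rw [dist_self, sub_self, zero_mul]
  have h2 : ∀ a' ∈ Ioo a b, dist (sym e p (c a')) (sym e p (c b)) ≤ (b - a') * l := fun a' ha' => by
    refine image_le_of_liminf_slope_right_le_deriv_boundary
      (f := fun t => dist (sym e p (c a')) (sym e p (c t))) (B := fun t => (t - a') * l)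
      (B' := fun _ => l) (continuous_const.dist h1).continuousOn
      (by rw [dist_self, sub_self, zero_mul]) (by fun_prop) (fun x _ => ?_) (fun x hx k hk => ?_)
      ⟨ha'.2.le, le_rfl⟩
    · simpa using (((hasDerivAt_id x).sub_const a').mul_const l).hasDerivWithinAt
    have h3 : 0 < (k - l) / (l + 1) := div_pos (sub_pos.2 hk) (by positivity)
    have h4 : Tendsto (fun z => (c z, c x)) (𝓝 x) (𝓝 (c x, c x)) :=
      hc'.continuousAt.prodMk continuousAt_const
    refine Eventually.frequently ?_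
    filter_upwards [nhdsWithin_le_nhds (h4.eventually
      (h.sym_loc hL (hD x ⟨ha'.1.trans_le hx.1, hx.2⟩) h3)), self_mem_nhdsWithin] with z h5 hz
    have h6 : 0 < z - x := sub_pos.2 hz
    have h7 := mul_le_mul_of_nonneg_left (hc z x) (add_pos one_pos h3).le
    have h8 : (k - l) / (l + 1) * (l + 1) = k - l := div_mul_cancel₀ _ (by positivity)
    rw [abs_of_pos h6] at h7
    rw [slope_def_field, div_lt_iff₀ h6]
    nlinarith [dist_triangle_right (sym e p (c a')) (sym e p (c z)) (sym e p (c x)),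
      mul_pos h3 h6]
  refine le_of_tendsto_of_tendsto (b := 𝓝[>] a)
    ((h1.dist continuous_const).continuousAt.tendsto.mono_left nhdsWithin_le_nhds)
    (((continuous_const.sub continuous_id).mul continuous_const).continuousAt.tendsto.mono_left
      nhdsWithin_le_nhds) ?_
  filter_upwards [Ioo_mem_nhdsGT hab] with t ht using h2 t ht

/-- Along a minimal geodesic `c` from `x` to `y`. On an interval whose interior avoids the set
`dist p · = D`, `t ↦ dist (sym (c a)) (sym (c t))` has upper Dini derivative at most the speed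
(`image_le_of_liminf_slope_right_le_deriv_boundary` or a supremum argument). Otherwise cut at the
first and the last time in this closed set, where `sym` is the identity. -/
theorem Bl.sym_le (h : Bl e r D) (hL : ∀ a : T p, ‖a‖ < D → ∀ ξ : T p,
      ‖Lmap e p (-a) (e p (-a)) ξ‖ = ‖Lmap e p a (e p a) ξ‖) (x y : M) :
    dist (sym e p x) (sym e p y) ≤ dist x y := by
  have hg := h.toGeo
  let c : ℝ → M := fun t => e x (t • lg e x y)
  have hc : ∀ s t, dist (c s) (c t) ≤ |s - t| * dist x y := fun s t =>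
    hg.norm_lg x y ▸ hg.dist_le x _ s t
  have hc' : Continuous c := (hg.continuous_exp x).comp (continuous_id.smul continuous_const)
  have h0 : c 0 = x := by simp only [c, zero_smul, hg.zero]
  have h1 : c 1 = y := by simp only [c, one_smul, hg.exp_lg]
  have h2 := @sym_piece _ _ _ _ _ _ _ _ _ _ _ h hL c _ dist_nonneg hc hc'
  have h3 : IsCompact (Icc 0 1 ∩ {t | dist p (c t) = D}) :=
    isCompact_Icc.inter_right (isClosed_eq (continuous_const.dist hc') continuous_const)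
  rcases (Icc 0 1 ∩ {t | dist p (c t) = D}).eq_empty_or_nonempty with h4 | h4
  · have h5 := h2 zero_le_one fun t ht => (h.le _ _).lt_of_ne fun h6 =>
      (eq_empty_iff_forall_notMem.1 h4) t ⟨Ioo_subset_Icc_self ht, h6⟩
    rwa [h0, h1, sub_zero, one_mul] at h5
  obtain ⟨a, ha, ha'⟩ := h3.exists_isLeast h4
  obtain ⟨b, hb, hb'⟩ := h3.exists_isGreatest h4
  have h5 := h2 ha.1.1 fun t ht => (h.le _ _).lt_of_ne fun h6 =>
    (ha' ⟨⟨ht.1.le, ht.2.le.trans ha.1.2⟩, h6⟩).not_gt ht.2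
  have h6 := h2 hb.1.2 fun t ht => (h.le _ _).lt_of_ne fun h6 =>
    (hb' ⟨⟨hb.1.1.trans ht.1.le, ht.2.le⟩, h6⟩).not_gt ht.1
  have h7 := hc b a
  rw [abs_of_nonneg (sub_nonneg.2 (ha' hb)), dist_comm] at h7
  rw [h0, h.sym_far ha.2] at h5
  rw [h1, h.sym_far hb.2] at h6
  linarith [dist_triangle4 (sym e p x) (c a) (c b) (sym e p y)]

theorem Bl.symmetric (h : Bl e r D) (hL : ∀ a : T p, ‖a‖ < D → ∀ ξ : T p,
      ‖Lmap e p (-a) (e p (-a)) ξ‖ = ‖Lmap e p a (e p a) ξ‖) :
    ∃ σ : M ≃ᵢ M, ∀ v : T p, σ (e p v) = e p (-v) := by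
  refine ⟨⟨⟨sym e p, sym e p, h.sym_sym p, h.sym_sym p⟩, Isometry.of_dist_eq fun x y =>
    le_antisymm (h.sym_le hL x y) ?_⟩, h.sym_exp p⟩
  have h1 := h.sym_le hL (sym e p x) (sym e p y)
  rwa [h.sym_sym, h.sym_sym] at h1

end Vale.Agent.P231
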