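import Vale.Agent.P234.Main
import Vale.Agent.P231.Stmt
import Vale.Agent.P231.Vol
import Vale.Agent.P231.Sym
import Vale.Agent.P231.MultC

/-! Assembly. -/

open scoped ContDiff Topology Bundle Manifold
open Filter Set Metric MeasureTheory

noncomputable section

namespace Vale.Agent.P231

open Vale.Agent.P234

variable {E : Type*} [NormedAddCommGroup E] [NormedSpace ℝ E] [FiniteDimensional ℝ E]
  {M : Type*} [MetricSpace M] [ChartedSpace E M]
  [Bundle.RiemannianBundle fun x : M => TangentSpace 𝓘(ℝ, E) x] [IsManifold 𝓘(ℝ, E) ∞ M]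
  [IsContMDiffRiemannianBundle 𝓘(ℝ, E) ∞ E fun x : M => TangentSpace 𝓘(ℝ, E) x]
  [IsRiemannianManifold 𝓘(ℝ, E) M] [CompactSpace M]

theorem main_mf {V W : Type*} [NormedAddCommGroup V] [NormedSpace ℝ V] [NormedAddCommGroup W]
    [NormedSpace ℝ W] {f : V → W} {L : V →L[ℝ] W} {a : V} (h : HasFDerivAt f L a) :
    HasMFDerivAt 𝓘(ℝ, V) 𝓘(ℝ, W) f a L := h.hasMFDerivAt

theorem main_ker {V W N : Type*} [NormedAddCommGroup V] [NormedSpace ℝ V] [NormedAddCommGroup W]
    [NormedSpace ℝ W] [TopologicalSpace N] [ChartedSpace E N] {f : V → W} {g : W → N} {a : V}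
    {L : W →L[ℝ] E} (hL : Function.Injective L) (hf : DifferentiableAt ℝ f a)
    (hg : HasMFDerivAt 𝓘(ℝ, W) 𝓘(ℝ, E) g (f a) L) {k : V → N} (hk : g ∘ f = k) :
    Module.finrank ℝ (LinearMap.ker (mfderiv 𝓘(ℝ, V) 𝓘(ℝ, E) k a).toLinearMap) =
      Module.finrank ℝ (LinearMap.ker (fderiv ℝ f a).toLinearMap) := by
  subst hk
  have h2 := (hg.comp a hf.hasFDerivAt.hasMFDerivAt).mfderiv
  have h3 : LinearMap.ker (mfderiv 𝓘(ℝ, V) 𝓘(ℝ, E) (g ∘ f) a).toLinearMap =
      LinearMap.ker (fderiv ℝ f a).toLinearMap := by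
    rw [h2]
    ext w
    exact map_eq_zero_iff L hL
  exact congrArg (fun S : Submodule ℝ V => Module.finrank ℝ S) h3

theorem exists_geo_exp : ∃ r : ℝ, Geo (expMap E (M := M)) r := by
  obtain ⟨e, r, he, hγ⟩ := exists_geo_vel (E := E) (M := M)
  have hexp : expMap E = e := by
    funext x v
    have h : ∃ γ : ℝ → M, IsGeodesicFrom E x v γ := ⟨_, (hγ x v _).2 rfl⟩
    rw [expMap, dif_pos h, (hγ x v _).1 h.choose_spec]
    simp
  exact ⟨r, hexp ▸ he⟩

theorem hasVel_exp (x : M) : HasVel (expMap E (M := M)) x := by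
  obtain ⟨e, r, he, hγ⟩ := exists_geo_vel (E := E) (M := M)
  have hexp : expMap E = e := by
    funext x v
    have h : ∃ γ : ℝ → M, IsGeodesicFrom E x v γ := ⟨_, (hγ x v _).2 rfl⟩
    rw [expMap, dif_pos h, (hγ x v _).1 h.choose_spec]
    simp
  rw [hexp]
  intro v
  obtain ⟨-, h1, h2⟩ := (hγ x v _).2 rfl
  rw [main_mk_eq (by simp only [zero_smul, he.zero])] at h2
  have h3 : mfderiv 𝓘(ℝ, ℝ) 𝓘(ℝ, E) (fun t : ℝ => e x (t • v)) 0 =
      ContinuousLinearMap.toSpanSingleton ℝ (show E from v) := by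
    refine ContinuousLinearMap.ext_ring ?_
    refine h2.trans ?_
    exact (one_smul ℝ (show E from v)).symm
  exact h3 ▸ h1.hasMFDerivAt

/-- `exists_local` at `x` gives `l x` smooth at `0` with `HasVel`, hence with derivative the
identity; `l x = expMap x` near `0` (`hr`, `between`, and the velocity at `0` from
`exists_geo_vel`). -/
theorem hasMFDerivAt_exp_zero (x : M) : ∃ L : TangentSpace 𝓘(ℝ, E) x →L[ℝ] E,
    Function.Injective L ∧
      HasMFDerivAt 𝓘(ℝ, TangentSpace 𝓘(ℝ, E) x) 𝓘(ℝ, E) (expMap E x) 0 L := by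
  obtain ⟨l, R, hR, h0, hvel, hray, -, hsm, -⟩ := exists_local (E := E) x
  obtain ⟨r, he⟩ := exists_geo_exp (E := E) (M := M)
  have hx : x ∈ ball x R := mem_ball_self hR
  have key : ∀ v : TangentSpace 𝓘(ℝ, E) x, ‖v‖ < R → ‖v‖ < r → expMap E x v = l x v := by
    intro v h1 h2
    have hd : dist x (l x v) = ‖v‖ := by
      have := hray x hx v h1 0 1 le_rfl zero_le_one le_rfl
      rwa [zero_smul, one_smul, h0 x hx, sub_zero, one_mul] at this
    obtain ⟨u, hu, hue⟩ := he.surj x (l x v) (hd ▸ h2)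
    rw [hd] at hu
    have hb : ∀ τ ∈ Icc (0 : ℝ) 1, l x (τ • v) = expMap E x (τ • u) := by
      intro τ hτ
      refine he.toLoc.between (hu ▸ h2) hτ.1 hτ.2 ?_ ?_
      · have := hray x hx v h1 0 τ le_rfl hτ.1 hτ.2
        rwa [zero_smul, h0 x hx, sub_zero, ← hu] at this
      · have := hray x hx v h1 τ 1 hτ.1 hτ.2 le_rfl
        rwa [one_smul, ← hue, ← hu] at this
    have a1 := (hvel x hx v).hasMFDerivWithinAt (s := Icc 0 1)
    have a2 := ((hasVel_exp (E := E) x u).hasMFDerivWithinAt (s := Icc 0 1)).congr_of_eventuallyEq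
      (f₁ := fun t : ℝ => l x (t • v)) (eventually_nhdsWithin_of_forall hb)
      (hb 0 ⟨le_rfl, zero_le_one⟩)
    have hU : UniqueMDiffWithinAt 𝓘(ℝ, ℝ) (Icc (0 : ℝ) 1) 0 :=
      (uniqueDiffOn_Icc zero_lt_one 0 ⟨le_rfl, zero_le_one⟩).uniqueMDiffWithinAt
    have a3 := hU.eq a1 a2
    have a4 : (1 : ℝ) • (show E from v) = (1 : ℝ) • (show E from u) :=
      congrArg (fun L : ℝ →L[ℝ] E => L 1) a3
    rw [one_smul, one_smul] at a4
    have a5 : v = u := a4
    rw [← hue, a5]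
  have hd := ((hsm x hx 0 (by simpa using hR)).mdifferentiableAt (by simp)).hasMFDerivAt
  set L := mfderiv 𝓘(ℝ, TangentSpace 𝓘(ℝ, E) x) 𝓘(ℝ, E) (l x) 0
  have hL : ∀ v : TangentSpace 𝓘(ℝ, E) x, (show E from L v) = (show E from v) := by
    intro v
    have b1 : HasMFDerivAt 𝓘(ℝ, ℝ) 𝓘(ℝ, TangentSpace 𝓘(ℝ, E) x) (fun t : ℝ => t • v) 0
        (ContinuousLinearMap.toSpanSingleton ℝ v) :=
      main_mf (W := TangentSpace 𝓘(ℝ, E) x) (ContinuousLinearMap.toSpanSingleton ℝ v).hasFDerivAt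
    have hd' : HasMFDerivAt 𝓘(ℝ, TangentSpace 𝓘(ℝ, E) x) 𝓘(ℝ, E) (l x) ((0 : ℝ) • v) L := by
      rw [zero_smul]; exact hd
    have b2 := hd'.comp 0 b1
    have b3 := hasMFDerivAt_unique b2 (hvel x hx v)
    have b4 : (show E from L ((1 : ℝ) • v)) = (1 : ℝ) • (show E from v) :=
      congrArg (fun L : ℝ →L[ℝ] E => L 1) b3
    rwa [one_smul, one_smul] at b4
  refine ⟨L, fun a b hab => ?_, hd.congr_of_eventuallyEq ?_⟩
  · exact (hL a).symm.trans (hab.trans (hL b))
  · filter_upwards [ball_mem_nhds 0 (lt_min hR he.pos)] with v hv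
    rw [mem_ball_zero_iff, lt_min_iff] at hv
    exact key v hv.1 hv.2

/-- `expMap x = expMap y ∘ (lg y ∘ expMap x)` with `y = expMap x v`; chain rule. -/
theorem conjMult_eq (x : M) (v : TangentSpace 𝓘(ℝ, E) x) :
    conjMult E x v = kap (expMap E) x v := by
  obtain ⟨r, he⟩ := exists_geo_exp (E := E) (M := M)
  have : ∀ x : M, FiniteDimensional ℝ (TangentSpace 𝓘(ℝ, E) x) := fun _ =>
    inferInstanceAs (FiniteDimensional ℝ E)
  obtain ⟨L, hL, hd⟩ := hasMFDerivAt_exp_zero (E := E) (expMap E x v)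
  have h1 := (he.contDiffAt_lg_self x v).differentiableAt (by simp)
  have hd' : HasMFDerivAt 𝓘(ℝ, TangentSpace 𝓘(ℝ, E) (expMap E x v)) 𝓘(ℝ, E)
      (expMap E (expMap E x v)) (lg (expMap E) (expMap E x v) (expMap E x v)) L := by
    rw [he.lg_self]; exact hd
  exact main_ker (V := TangentSpace 𝓘(ℝ, E) x) (W := TangentSpace 𝓘(ℝ, E) (expMap E x v)) hL h1 hd'
    (funext fun a => he.exp_lg _ _)

/-- A minimal vector with the same image lies in the ball, so it is the given vector; pass to the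
closed ball by continuity. -/
theorem exists_bl [Nonempty M] (hn : 0 < Module.finrank ℝ E) (hB : IsBlaschke E M) :
    ∃ r : ℝ, Bl (expMap E (M := M)) r (diam (univ : Set M)) := by
  obtain ⟨r, he⟩ := exists_geo_exp (E := E) (M := M)
  have hb : Bornology.IsBounded (univ : Set M) := isCompact_univ.isBounded
  have hle : ∀ x y : M, dist x y ≤ diam (univ : Set M) := fun x y =>
    dist_le_diam_of_mem hb (mem_univ x) (mem_univ y)
  have : Nontrivial E := Module.finrank_pos_iff.1 hn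
  have hpos : 0 < diam (univ : Set M) := by
    obtain ⟨x⟩ := ‹Nonempty M›
    obtain ⟨v, hv⟩ := exists_ne (0 : E)
    let w : TangentSpace 𝓘(ℝ, E) x := v
    have hw : w ≠ 0 := hv
    have hp : 0 < ‖w‖ := norm_pos_iff.2 hw
    obtain ⟨c, hc, hr⟩ := he.Lim_small ‖w‖ hp.le
    have hn : ‖c • w‖ = c * ‖w‖ := by rw [norm_smul, Real.norm_of_nonneg hc.le]
    have := hle x (expMap E x (c • w))
    rw [he.toLoc.dist_exp (hn ▸ hr), hn] at this
    exact (mul_pos hc hp).trans_le this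
  have key : ∀ (x : M) (v : TangentSpace 𝓘(ℝ, E) x), ‖v‖ < diam (univ : Set M) →
      dist x (expMap E x v) = ‖v‖ := by
    intro x v hv
    obtain ⟨u, hu, hue⟩ := he.hr x (expMap E x v)
    have h1 : ‖u‖ < diam (univ : Set M) := (hu ▸ he.dist_exp_le x v).trans_lt hv
    have := hB x (mem_ball_zero_iff.2 h1) (mem_ball_zero_iff.2 hv) hue
    rw [← hu, this]
  refine ⟨r, he, hpos, hle, fun x v hv => ?_⟩
  have hc : IsClosed {t : ℝ | dist x (expMap E x (t • v)) = ‖t • v‖} :=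
    isClosed_eq (continuous_const.dist ((he.continuous_exp x).comp (by fun_prop))) (by fun_prop)
  have hs : Ico (0 : ℝ) 1 ⊆ {t : ℝ | dist x (expMap E x (t • v)) = ‖t • v‖} := by
    intro t ht
    refine key x _ ?_
    rw [norm_smul, Real.norm_of_nonneg ht.1]
    nlinarith [ht.1, ht.2, norm_nonneg v]
  have h1 := hc.closure_subset_iff.2 hs
    (show (1 : ℝ) ∈ closure (Ico 0 1) by rw [closure_Ico zero_ne_one]; simp)
  simpa using h1

theorem blaschke [Nonempty M] [MeasurableSpace M] [BorelSpace M] (hn : 0 < Module.finrank ℝ E)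
    (hB : IsBlaschke E M) : ∃ k : ℕ,
      (∀ (x : M) (v : TangentSpace 𝓘(ℝ, E) x), ‖v‖ = diam (univ : Set M) →
        conjMult E x v = k ∧ expMap E x (-v) = expMap E x v) ∧
      ENNReal.ofReal (modelVolume (Module.finrank ℝ E) k (diam (univ : Set M))) ≤
        μHE[Module.finrank ℝ E] (univ : Set M) ∧
      (μHE[Module.finrank ℝ E] (univ : Set M) ≤
          ENNReal.ofReal (modelVolume (Module.finrank ℝ E) k (diam (univ : Set M))) →
        IsSymmetricSpace E M) := by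
  obtain ⟨r, h⟩ := exists_bl hn hB
  have : ∀ x : M, FiniteDimensional ℝ (TangentSpace 𝓘(ℝ, E) x) := fun _ =>
    inferInstanceAs (FiniteDimensional ℝ E)
  let _ : ∀ x : M, MeasurableSpace (TangentSpace 𝓘(ℝ, E) x) := fun _ => borel _
  have : ∀ x : M, BorelSpace (TangentSpace 𝓘(ℝ, E) x) := fun _ => ⟨rfl⟩
  obtain ⟨k, hk⟩ := h.kap_const
  obtain ⟨m, hm⟩ : ∃ m, Module.finrank ℝ E = m + 1 := ⟨_, (Nat.succ_pred_eq_of_pos hn).symm⟩
  have hm' : ∀ x : M, Module.finrank ℝ (TangentSpace 𝓘(ℝ, E) x) = m + 1 := fun _ => hm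
  have hk' := fun x v hv => (hk x v hv).le
  obtain ⟨h1, h2⟩ := h.vol hm' hk'
  rw [hm]
  exact ⟨k, fun x v hv => ⟨(conjMult_eq x v).trans (hk x v hv), h.closed x hv⟩, h1,
    fun h3 x => h.symmetric fun a ha ξ => h.geo_eq hm' hk' (h2 h3) x ha ξ⟩

end Vale.Agent.P231
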