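import Vale.Agent.P231.AbsM

/-! Determinant inequalities for positive matrices. -/

open scoped ContDiff Topology Matrix
open Filter Set

noncomputable section

namespace Vale.Agent.P231

variable {N : Type} [Fintype N] [DecidableEq N]

open scoped MatrixOrder in
theorem mata_root {M : Matrix N N ℝ} (hM : M.PosDef) :
    ∃ R : Matrix N N ℝ, M⁻¹ = Rᵀ * R ∧ R * M * Rᵀ = 1 := by
  obtain ⟨R, hR⟩ := CStarAlgebra.nonneg_iff_eq_star_mul_self.1
    (Matrix.nonneg_iff_posSemidef.2 hM.inv.posSemidef)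
  rw [Matrix.star_eq_conjTranspose, Matrix.conjTranspose_eq_transpose_of_trivial] at hR
  refine ⟨R, hR, ?_⟩
  rw [Matrix.mul_assoc, mul_eq_one_comm, Matrix.mul_assoc, ← hR,
    Matrix.mul_nonsing_inv _ (isUnit_iff_ne_zero.2 hM.det_pos.ne')]

theorem mata_inj {M R X Y : Matrix N N ℝ} (h : R * M * Rᵀ = 1) (e : R * X * Rᵀ = R * Y * Rᵀ) :
    X = Y := by
  have h1 : M * Rᵀ * R = 1 := by rw [mul_eq_one_comm, ← Matrix.mul_assoc, h]
  have h2 : Rᵀ * (R * M) = 1 := by rw [mul_eq_one_comm, h]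
  have key : ∀ Z : Matrix N N ℝ, M * Rᵀ * (R * Z * Rᵀ) * (R * M) = Z := fun Z => by
    calc M * Rᵀ * (R * Z * Rᵀ) * (R * M) = M * Rᵀ * R * Z * (Rᵀ * (R * M)) := by
          simp only [Matrix.mul_assoc]
      _ = Z := by rw [h1, h2, Matrix.one_mul, Matrix.mul_one]
  rw [← key X, e, key]

theorem mata_det {M R : Matrix N N ℝ} (h : R * M * Rᵀ = 1) (X : Matrix N N ℝ) :
    (R * X * Rᵀ).det * M.det = X.det := by
  have h1 := congrArg Matrix.det h
  rw [Matrix.det_mul, Matrix.det_mul, Matrix.det_one] at h1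
  rw [Matrix.det_mul, Matrix.det_mul]
  linear_combination X.det * h1

theorem mata_scalar {H : Matrix N N ℝ} (hH : H.IsHermitian) {c : ℝ}
    (h : ∀ i, hH.eigenvalues i = c) : H = c • (1 : Matrix N N ℝ) := by
  have h1 : Matrix.diagonal (RCLike.ofReal ∘ hH.eigenvalues) = c • (1 : Matrix N N ℝ) := by
    rw [Matrix.smul_one_eq_diagonal]
    congr 1
    funext i
    exact h i
  have h2 := hH.spectral_theorem
  rwa [h1, map_smul, map_one] at h2

theorem mata_det_one_add {H : Matrix N N ℝ} (hH : H.IsHermitian) :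
    (1 + H).det = ∏ i, (1 + hH.eigenvalues i) := by
  have h1 := congrArg (Polynomial.eval (-1 : ℝ)) hH.charpoly_eq
  have h2 : Matrix.scalar N (-1 : ℝ) - H = -(1 + H) := by
    rw [map_neg, map_one, neg_add, sub_eq_add_neg]
  have h3 : ∀ i, Polynomial.eval (-1 : ℝ)
      (Polynomial.X - Polynomial.C (RCLike.ofReal (hH.eigenvalues i) : ℝ)) =
      -1 * (1 + hH.eigenvalues i) := fun i => by
    rw [Polynomial.eval_sub, Polynomial.eval_X, Polynomial.eval_C, RCLike.ofReal_real_eq_id, id]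
    ring
  rw [Matrix.eval_charpoly, h2, Matrix.det_neg, Polynomial.eval_prod] at h1
  simp only [h3, Finset.prod_mul_distrib, Finset.prod_const, Finset.card_univ] at h1
  exact mul_left_cancel₀ (pow_ne_zero _ (by norm_num)) h1

omit [DecidableEq N] in
theorem mata_int {P : ℝ → Matrix N N ℝ} {a b : ℝ} (hab : a < b) (hc : ContinuousOn P (Icc a b))
    {Mx : Matrix N N ℝ} (hM : ∀ i j, Mx i j = ∫ t in a..b, P t i j) (B : Matrix N N ℝ) :
    ContinuousOn (fun t => (B * P t).trace) (Icc a b) ∧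
      (B * Mx).trace = ∫ t in a..b, (B * P t).trace := by
  have h1 : ∀ i j, ContinuousOn (fun t => B i j * P t j i) (Icc a b) := fun i j =>
    continuousOn_const.mul (continuousOn_pi.1 (continuousOn_pi.1 hc j) i)
  have h2 : ∀ i, ContinuousOn (fun t => ∑ j, B i j * P t j i) (Icc a b) := fun i =>
    continuousOn_finsetSum _ fun j _ => h1 i j
  simp only [Matrix.trace, Matrix.diag, Matrix.mul_apply]
  refine ⟨continuousOn_finsetSum _ fun i _ => h2 i, ?_⟩
  rw [intervalIntegral.integral_finsetSum fun i _ => (h2 i).intervalIntegrable_of_Icc hab.le]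
  refine Finset.sum_congr rfl fun i _ => ?_
  rw [intervalIntegral.integral_finsetSum fun j _ => (h1 i j).intervalIntegrable_of_Icc hab.le]
  exact Finset.sum_congr rfl fun j _ => by rw [intervalIntegral.integral_const_mul, hM]

omit [DecidableEq N] in
theorem mata_dot (x : N → ℝ) (M : Matrix N N ℝ) :
    star x ⬝ᵥ M *ᵥ x = (Matrix.vecMulVec x x * M).trace := by
  simp only [Matrix.trace, Matrix.diag, Matrix.mul_apply, Matrix.vecMulVec_apply, dotProduct,
    Matrix.mulVec, star_trivial, Finset.mul_sum]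
  rw [Finset.sum_comm]
  exact Finset.sum_congr rfl fun i _ => Finset.sum_congr rfl fun j _ => by ring

/-- Write `M⁻¹ = Rᵀ R` (for example `R = CFC.sqrt M⁻¹`); `H = R P Rᵀ` is positive definite with
`trace H = trace (M⁻¹ P)` and `det H = det P / det M ≥ (f / l) ^ card`. For `f > 0` sum
`1 + log x ≤ x` over `x = eigenvalue / (f / l)`. In the equality case all `x` are `1`, so `H` is
scalar (spectral theorem). The case `f = 0` is trivial since the trace is positive. -/
theorem amgm {M P : Matrix N N ℝ} (hM : M.PosDef) (hP : P.PosDef) (hN : 0 < Fintype.card N)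
    {f l : ℝ} (hf : 0 ≤ f) (hl : 0 < l) (h1 : f ^ Fintype.card N ≤ P.det)
    (h2 : l ^ Fintype.card N = M.det) :
    Fintype.card N * (f / l) ≤ (M⁻¹ * P).trace ∧
      (Fintype.card N * (f / l) = (M⁻¹ * P).trace → ∃ c : ℝ, P = c • M) := by
  obtain ⟨R, hR, hR1⟩ := mata_root hM
  have hu : IsUnit R := by
    rw [Matrix.mul_assoc] at hR1
    exact IsUnit.of_mul_eq_one _ hR1
  have hH : (R * P * Rᵀ).PosDef := by
    have := hP.mul_mul_conjTranspose_same (Matrix.vecMul_injective_of_isUnit hu)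
    rwa [Matrix.conjTranspose_eq_transpose_of_trivial] at this
  have ht : (M⁻¹ * P).trace = ∑ i, hH.1.eigenvalues i := by
    rw [hR, ← Matrix.trace_mul_cycle, hH.1.trace_eq_sum_eigenvalues]
    rfl
  have hd : (∏ i, hH.1.eigenvalues i) * M.det = P.det := by
    rw [← mata_det hR1 P, hH.1.det_eq_prod_eigenvalues]
    rfl
  have hp := hH.eigenvalues_pos
  have : Nonempty N := Fintype.card_pos_iff.1 hN
  rw [ht]
  rcases hf.eq_or_lt with rfl | hf0
  · have h3 : 0 < ∑ i, hH.1.eigenvalues i := Finset.sum_pos (fun i _ => hp i) Finset.univ_nonempty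
    rw [zero_div, mul_zero]
    exact ⟨h3.le, fun h => absurd h h3.ne⟩
  have ha : 0 < f / l := div_pos hf0 hl
  have h3 : (f / l) ^ Fintype.card N ≤ ∏ i, hH.1.eigenvalues i := by
    rw [div_pow, h2, div_le_iff₀ hM.det_pos, hd]
    exact h1
  generalize f / l = a at ha h3 ⊢
  have h4 : 0 ≤ ∑ i, Real.log (hH.1.eigenvalues i / a) := by
    rw [← Real.log_prod fun i _ => (div_pos (hp i) ha).ne', Finset.prod_div_distrib,
      Finset.prod_const, Finset.card_univ]
    exact Real.log_nonneg ((one_le_div (pow_pos ha _)).2 h3)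
  have h5 : ∑ i, (hH.1.eigenvalues i / a - 1) =
      ((∑ i, hH.1.eigenvalues i) - Fintype.card N * a) / a := by
    rw [Finset.sum_sub_distrib, ← Finset.sum_div, Finset.sum_const, Finset.card_univ, nsmul_eq_mul]
    field_simp
  have h6 : ∀ i ∈ Finset.univ, Real.log (hH.1.eigenvalues i / a) ≤ hH.1.eigenvalues i / a - 1 :=
    fun i _ => Real.log_le_sub_one_of_pos (div_pos (hp i) ha)
  refine ⟨?_, fun he => ⟨a, mata_inj hR1 ?_⟩⟩
  · have h7 := h4.trans (Finset.sum_le_sum h6)
    rw [h5, le_div_iff₀ ha] at h7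
    linarith
  · rw [Matrix.mul_smul, Matrix.smul_mul, hR1]
    refine mata_scalar hH.1 fun i => by_contra fun hi => ?_
    have h7 := h4.trans_lt (Finset.sum_lt_sum h6 ⟨i, Finset.mem_univ i,
      Real.log_lt_sub_one_of_pos (div_pos (hp i) ha) fun h => hi ((div_eq_one_iff_eq ha.ne').1 h)⟩)
    rw [h5, he, sub_self, zero_div] at h7
    exact h7.false

/-- `det (P + Q) = det P * det (1 + R Q Rᵀ)` with `P⁻¹ = Rᵀ R`; eigenvalues of the second factor
are `1 + μ`, `μ ≥ 0`. -/
theorem det_mono {P Q : Matrix N N ℝ} (hP : P.PosDef) (hQ : Q.PosSemidef) :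
    P.det ≤ (P + Q).det ∧ (P.det = (P + Q).det → Q = 0) := by
  obtain ⟨R, -, hR1⟩ := mata_root hP
  have hH : (R * Q * Rᵀ).PosSemidef := by
    have := hQ.mul_mul_conjTranspose_same R
    rwa [Matrix.conjTranspose_eq_transpose_of_trivial] at this
  have h1 := mata_det hR1 (P + Q)
  rw [Matrix.mul_add, Matrix.add_mul, hR1, mata_det_one_add hH.1] at h1
  have h2 : ∀ i ∈ Finset.univ, (1 : ℝ) ≤ 1 + hH.1.eigenvalues i := fun i _ =>
    le_add_of_nonneg_right (hH.eigenvalues_nonneg i)
  have h3 := hP.det_pos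
  rw [← h1]
  constructor
  · have h4 := Finset.prod_le_prod (fun _ _ => zero_le_one) h2
    rw [Finset.prod_const_one] at h4
    exact le_mul_of_one_le_left h3.le h4
  · intro he
    refine mata_inj hR1 ?_
    rw [Matrix.mul_zero, Matrix.zero_mul, ← hH.1.eigenvalues_eq_zero_iff]
    funext i
    by_contra hi
    have h4 := Finset.prod_lt_prod (fun _ _ => zero_lt_one) h2 ⟨i, Finset.mem_univ i,
      lt_add_of_pos_right _ (lt_of_le_of_ne (hH.eigenvalues_nonneg i) (Ne.symm hi))⟩
    rw [Finset.prod_const_one] at h4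
    exact (lt_mul_of_one_lt_left h3 h4).ne he

/-- Minkowski inequality for integrals. `Mx` is positive definite since
`x ⬝ Mx x = ∫ x ⬝ P t x`. If `N` is empty everything is trivial. Otherwise let `l > 0`,
`l ^ card = det Mx`; integrate `amgm`: `card * (∫ f) / l ≤ trace (Mx⁻¹ Mx) = card`. In the equality
case `l = ∫ f` and the continuous nonnegative defect has integral zero, so it vanishes. -/
theorem mink {P : ℝ → Matrix N N ℝ} {a b : ℝ} (hab : a < b) (hc : ContinuousOn P (Icc a b))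
    (hP : ∀ t ∈ Icc a b, (P t).PosDef) {Mx : Matrix N N ℝ}
    (hM : ∀ i j, Mx i j = ∫ t in a..b, P t i j) {f : ℝ → ℝ} (hf : ContinuousOn f (Icc a b))
    (hf0 : ∀ t ∈ Icc a b, 0 ≤ f t) (h : ∀ t ∈ Icc a b, f t ^ Fintype.card N ≤ (P t).det) :
    Mx.PosDef ∧ (∫ t in a..b, f t) ^ Fintype.card N ≤ Mx.det ∧
      ((∫ t in a..b, f t) ^ Fintype.card N = Mx.det →
        ∀ t ∈ Icc a b, f t ^ Fintype.card N = (P t).det ∧ ∃ c : ℝ, P t = c • Mx) := by
  have hpd : Mx.PosDef := by
    refine Matrix.PosDef.of_dotProduct_mulVec_pos ?_ fun x hx => ?_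
    · ext i j
      rw [Matrix.conjTranspose_apply, star_trivial, hM, hM]
      refine intervalIntegral.integral_congr fun t ht => ?_
      rw [uIcc_of_le hab.le] at ht
      exact (hP t ht).1.apply i j
    · obtain ⟨h1, h2⟩ := mata_int hab hc hM (Matrix.vecMulVec x x)
      rw [mata_dot, h2]
      refine intervalIntegral.intervalIntegral_pos_of_pos_on (h1.intervalIntegrable_of_Icc hab.le)
        (fun t ht => ?_) hab
      rw [← mata_dot]
      exact (hP t (Ioo_subset_Icc_self ht)).dotProduct_mulVec_pos hx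
  refine ⟨hpd, ?_⟩
  rcases Nat.eq_zero_or_pos (Fintype.card N) with hN | hN
  · have : IsEmpty N := Fintype.card_eq_zero_iff.1 hN
    simp only [hN, pow_zero, Matrix.det_isEmpty, le_refl, true_and, forall_const]
    exact fun t _ => ⟨0, Subsingleton.elim _ _⟩
  obtain ⟨l, hl, hl2⟩ : ∃ l : ℝ, 0 < l ∧ l ^ Fintype.card N = Mx.det :=
    ⟨_, Real.rpow_pos_of_pos hpd.det_pos _, Real.rpow_inv_natCast_pow hpd.det_pos.le hN.ne'⟩
  have hn : (0 : ℝ) < Fintype.card N := by exact_mod_cast hN
  have hI : Mx⁻¹ * Mx = 1 := Matrix.nonsing_inv_mul _ (isUnit_iff_ne_zero.2 hpd.det_pos.ne')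
  have key := fun t ht => amgm hpd (hP t ht) hN (hf0 t ht) hl (h t ht) hl2
  obtain ⟨h1, h2⟩ := mata_int hab hc hM Mx⁻¹
  have h3 : ContinuousOn (fun t => Fintype.card N * (f t / l)) (Icc a b) :=
    continuousOn_const.mul (hf.div_const l)
  have h4 : ∫ t in a..b, ((Mx⁻¹ * P t).trace - Fintype.card N * (f t / l)) =
      Fintype.card N * ((l - ∫ t in a..b, f t) / l) := by
    rw [intervalIntegral.integral_sub (h1.intervalIntegrable_of_Icc hab.le)
      (h3.intervalIntegrable_of_Icc hab.le), ← h2, hI, Matrix.trace_one,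
      intervalIntegral.integral_const_mul, intervalIntegral.integral_div]
    field_simp
  have h5 : 0 ≤ ∫ t in a..b, f t := intervalIntegral.integral_nonneg hab.le hf0
  rw [← hl2]
  constructor
  · have h6 := intervalIntegral.integral_nonneg (μ := MeasureTheory.volume) hab.le
      fun t ht => sub_nonneg.2 (key t ht).1
    rw [h4, mul_nonneg_iff_of_pos_left hn, le_div_iff₀ hl, zero_mul, sub_nonneg] at h6
    exact pow_le_pow_left₀ h5 h6 _
  · intro he t ht
    rw [(pow_left_inj₀ h5 hl.le hN.ne').1 he, sub_self, zero_div, mul_zero] at h4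
    have h6 : Fintype.card N * (f t / l) = (Mx⁻¹ * P t).trace := by
      refine le_antisymm (key t ht).1 (not_lt.1 fun hlt => ?_)
      exact (intervalIntegral.integral_pos hab (h1.sub h3)
        (fun s hs => sub_nonneg.2 (key s (Ioc_subset_Icc_self hs)).1)
        ⟨t, ht, sub_pos.2 hlt⟩).ne' h4
    obtain ⟨c, hc'⟩ := (key t ht).2 h6
    refine ⟨?_, c, hc'⟩
    rw [hc', Matrix.mul_smul, hI, Matrix.trace_smul, Matrix.trace_one, smul_eq_mul, mul_comm c,
      mul_right_inj' hn.ne'] at h6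
    rw [hc', Matrix.det_smul, ← hl2, ← h6, ← mul_pow, div_mul_cancel₀ _ hl.ne']

end Vale.Agent.P231
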