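import Vale.Agent.P231.PartB

/-! The hemisphere model, change of model, and the sphere. -/

open scoped ContDiff Topology Matrix
open Filter Set

noncomputable section

namespace Vale.Agent.P231

open Vale.Agent.P234

variable {M : Type*} [MetricSpace M] [CompactSpace M] {T : M → Type*}
  [∀ x, NormedAddCommGroup (T x)] [∀ x, InnerProductSpace ℝ (T x)]
  [∀ x, FiniteDimensional ℝ (T x)] {e : ∀ x, T x → M} {r D : ℝ}

/-- Choose a partner for each point of the second model. -/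
theorem ModelledOn.transfer {N S S' : Type*} [MetricSpace N] {δ : S → S → ℝ} {δ' : S' → S' → ℝ}
    (h : ModelledOn N S δ) (Rel : S → S' → Prop) (h1 : ∀ s, ∃ s', Rel s s')
    (h2 : ∀ s', ∃ s, Rel s s') {l : ℝ} (hl : 0 < l)
    (h3 : ∀ s t s' t', Rel s s' → Rel t t' → δ' s' t' = l * δ s t) : ModelledOn N S' δ' := by
  obtain ⟨c, hc, Φ, hΦ, hd⟩ := h
  choose g hg using h2
  have key : ∀ s t s' t', Rel s s' → Rel t t' → dist (Φ s) (Φ t) = c / l * δ' s' t' := by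
    intro s t s' t' hs ht
    rw [hd, h3 s t s' t' hs ht]
    field_simp
  refine ⟨c / l, div_pos hc hl, fun s' => Φ (g s'), fun y => ?_,
    fun s' t' => key _ _ _ _ (hg s') (hg t')⟩
  obtain ⟨s, rfl⟩ := hΦ y
  obtain ⟨s', hs⟩ := h1 s
  refine ⟨s', dist_eq_zero.1 ?_⟩
  rw [key _ _ _ _ (hg s') hs, ← key _ _ _ _ hs hs, dist_self]

theorem mods_lift {V : Type*} [NormedAddCommGroup V] [InnerProductSpace ℝ V] {D : ℝ} (hD : 0 < D)
    (p : Hemi V) : ∃ a : V, ‖a‖ ≤ D ∧ Real.cos (Real.pi / (2 * D) * ‖a‖) = p.1.1 ∧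
      Sv (Real.pi / (2 * D)) a = p.1.2 := by
  obtain ⟨⟨C, S⟩, h0, h1⟩ := p
  simp only at h0 h1 ⊢
  have hπ := Real.pi_pos
  by_cases hS : S = 0
  · subst hS
    refine ⟨0, by simpa using hD.le, ?_, by simp [Sv]⟩
    rw [norm_zero, mul_zero, Real.cos_zero]
    rw [norm_zero] at h1
    nlinarith
  have hn : 0 < ‖S‖ := norm_pos_iff.2 hS
  have hC1 : C ≤ 1 := by nlinarith
  have hs : Real.sin (Real.arccos C) = ‖S‖ := by
    rw [Real.sin_arccos, show 1 - C ^ 2 = ‖S‖ ^ 2 by linarith, Real.sqrt_sq hn.le]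
  have hθ0 := Real.arccos_nonneg C
  have hθ : Real.arccos C ≠ 0 := fun h => by
    rw [h, Real.sin_zero] at hs
    exact hn.ne hs
  have hθ1 : Real.arccos C ≤ Real.pi / 2 := Real.arccos_le_pi_div_two.2 h0
  have hna : ‖(Real.arccos C * (2 * D) / (Real.pi * ‖S‖)) • S‖ =
      Real.arccos C * (2 * D) / Real.pi := by
    rw [norm_smul, Real.norm_of_nonneg (by positivity)]
    field_simp
  have hκ : Real.pi / (2 * D) * (Real.arccos C * (2 * D) / Real.pi) = Real.arccos C := by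
    field_simp
  refine ⟨(Real.arccos C * (2 * D) / (Real.pi * ‖S‖)) • S, ?_, ?_, ?_⟩
  · rw [hna, div_le_iff₀ hπ]
    nlinarith
  · rw [hna, hκ, Real.cos_arccos (by linarith) hC1]
  · rw [Sv, hna, hκ, hs, smul_smul]
    have : ‖S‖ / (Real.arccos C * (2 * D) / Real.pi) *
        (Real.arccos C * (2 * D) / (Real.pi * ‖S‖)) = 1 := by field_simp
    rw [this, one_smul]

/-- `Φ (C, S) = e x a` with `a = (arccos C / (κ ‖S‖)) • S`; then `‖a‖ ≤ D`, `cos (κ ‖a‖) = C`,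
`Sv κ a = S`. The constant is `1 / κ`. Onto: `y = e x a` with `a = lg e x y` comes from
`(cos (κ ‖a‖), Sv κ a)`. -/
theorem Bl.modelled_hemi (h : Bl e r D) {x : M} {P : T x →L[ℝ] T x →L[ℝ] T x →L[ℝ] T x}
    (he : ∀ a b : T x, ‖a‖ ≤ D → ‖b‖ ≤ D →
      Real.cos (Real.pi / (2 * D) * dist (e x a) (e x b)) ^ 2 = Fn (Real.pi / (2 * D)) P a b) :
    ModelledOn M (Hemi (T x)) (hemiDist P) := by
  have hD := h.dpos
  have hπ := Real.pi_pos
  have hle : ∀ d : ℝ, d ≤ D → Real.pi / (2 * D) * d ≤ Real.pi / 2 := fun d hd => by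
    rw [div_mul_eq_mul_div, div_le_div_iff₀ (by positivity) (by positivity)]
    nlinarith
  have hcos : ∀ d : ℝ, 0 ≤ d → d ≤ D → 0 ≤ Real.cos (Real.pi / (2 * D) * d) := fun d h0 hd =>
    Real.cos_nonneg_of_neg_pi_div_two_le_of_le
      (le_trans (by linarith) (by positivity : 0 ≤ Real.pi / (2 * D) * d)) (hle d hd)
  have key : ∀ (a b : T x) (p q : Hemi (T x)),
      (‖a‖ ≤ D ∧ Real.cos (Real.pi / (2 * D) * ‖a‖) = p.1.1 ∧
        Sv (Real.pi / (2 * D)) a = p.1.2) →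
      (‖b‖ ≤ D ∧ Real.cos (Real.pi / (2 * D) * ‖b‖) = q.1.1 ∧
        Sv (Real.pi / (2 * D)) b = q.1.2) →
      dist (e x a) (e x b) = 2 * D / Real.pi * hemiDist P p q := by
    intro a b p q ha hb
    have h1 := he a b ha.1 hb.1
    rw [Fn, ha.2.1, ha.2.2, hb.2.1, hb.2.2] at h1
    rw [hemiDist, ← h1, Real.sqrt_sq (hcos _ dist_nonneg (h.le _ _)),
      Real.arccos_cos (by positivity) ((hle _ (h.le _ _)).trans (by linarith))]
    field_simp
  choose A hA using fun p : Hemi (T x) => mods_lift hD p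
  refine ⟨2 * D / Real.pi, by positivity, fun p => e x (A p), fun y => ?_,
    fun p q => key _ _ _ _ (hA p) (hA q)⟩
  have ha : ‖lg e x y‖ ≤ D := by rw [h.toGeo.norm_lg]; exact h.le _ _
  let p : Hemi (T x) := ⟨(Real.cos (Real.pi / (2 * D) * ‖lg e x y‖),
    Sv (Real.pi / (2 * D)) (lg e x y)), hcos _ (norm_nonneg _) ha, cos_sq_add_Sv _ _⟩
  refine ⟨p, dist_eq_zero.1 ?_⟩
  have h1 := key _ _ p p (hA p) ⟨ha, rfl, rfl⟩
  rw [h.toGeo.exp_lg] at h1
  rw [h1, ← key _ _ p p (hA p) (hA p), dist_self]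

theorem mods_arccos {F : ℝ} (h0 : 0 ≤ F) (h1 : F ≤ 1) :
    Real.arccos (2 * F - 1) = 2 * Real.arccos √F := by
  have h2 : Real.cos (2 * Real.arccos √F) = 2 * F - 1 := by
    rw [Real.cos_two_mul, Real.cos_arccos (by linarith [Real.sqrt_nonneg F])
      (Real.sqrt_le_one.2 h1), Real.sq_sqrt h0]
  have h3 : Real.arccos √F ≤ Real.pi / 2 := Real.arccos_le_pi_div_two.2 (Real.sqrt_nonneg F)
  rw [← h2, Real.arccos_cos (by linarith [Real.arccos_nonneg √F]) (by linarith)]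

/-- In an orthonormal basis, relate `(C, S)` to `z = (2 C² - 1, 2 C S)`. Then
`⟪z, z'⟫ = 2 F - 1` with `0 ≤ F ≤ 1`, and `arccos (2 F - 1) = 2 arccos √F`. Every unit vector
`z` is of this form: `C = √((1 + z 0) / 2)`; for `C = 0` take any unit vector `S`. -/
theorem modelled_S {N V : Type*} [MetricSpace N] [NormedAddCommGroup V] [InnerProductSpace ℝ V]
    [FiniteDimensional ℝ V] {P : V →L[ℝ] V →L[ℝ] V →L[ℝ] V} (hV : 0 < Module.finrank ℝ V)
    (hQ : ∀ S S' : V, inner ℝ (P S S S') S' = ‖S‖ ^ 2 * ‖S'‖ ^ 2)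
    (hM : ModelledOn N (Hemi V) (hemiDist P)) :
    ModelledOn N (USph ℝ (Module.finrank ℝ V)) sphDist := by
  let b := stdOrthonormalBasis ℝ V
  have hb : ∀ S S' : V, ∑ i, inner ℝ (b i) S * inner ℝ (b i) S' = inner ℝ S S' := by
    intro S S'
    rw [← b.sum_inner_mul_inner S S']
    exact Finset.sum_congr rfl fun i _ => by rw [real_inner_comm]
  have hz : ∀ z : Fin (Module.finrank ℝ V + 1) → ℝ,
      ∑ i, ‖z i‖ ^ 2 = z 0 ^ 2 + ∑ i : Fin (Module.finrank ℝ V), z i.succ * z i.succ := by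
    intro z
    simp only [Fin.sum_univ_succ, Real.norm_eq_abs, sq_abs]
    simp only [sq]
  refine hM.transfer (fun p z => z.1 0 = 2 * p.1.1 ^ 2 - 1 ∧
    ∀ i, z.1 i.succ = 2 * p.1.1 * inner ℝ (b i) p.1.2) ?_ ?_ (l := 2) two_pos ?_
  · rintro ⟨⟨C, S⟩, h0, h1⟩
    refine ⟨⟨Fin.cons (2 * C ^ 2 - 1) fun i => 2 * C * inner ℝ (b i) S, ?_⟩, rfl, fun i => rfl⟩
    have h2 : ∑ i, 2 * C * inner ℝ (b i) S * (2 * C * inner ℝ (b i) S) = 4 * C ^ 2 * ‖S‖ ^ 2 := by
      rw [← real_inner_self_eq_norm_sq, ← hb, Finset.mul_sum]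
      exact Finset.sum_congr rfl fun i _ => by ring
    rw [hz]
    simp only [Fin.cons_zero, Fin.cons_succ] at h1 ⊢
    rw [h2, show ‖S‖ ^ 2 = 1 - C ^ 2 by linarith]
    ring
  · rintro ⟨z, h1⟩
    rw [hz] at h1
    have h2 : 0 ≤ ∑ i : Fin (Module.finrank ℝ V), z i.succ * z i.succ :=
      Finset.sum_nonneg fun i _ => mul_self_nonneg _
    have h3 : 0 ≤ (1 + z 0) / 2 := by nlinarith
    obtain ⟨C, hC0, hC⟩ : ∃ C : ℝ, 0 ≤ C ∧ C ^ 2 = (1 + z 0) / 2 :=
      ⟨_, Real.sqrt_nonneg _, Real.sq_sqrt h3⟩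
    by_cases h4 : C = 0
    · subst h4
      refine ⟨⟨(0, b ⟨0, hV⟩), le_rfl, by simp⟩, by simp only; linarith, fun i => ?_⟩
      have h5 : ∑ i : Fin (Module.finrank ℝ V), z i.succ * z i.succ = 0 := by
        rw [show z 0 = -1 by linarith] at h1
        linarith
      have h6 := (Finset.sum_eq_zero_iff_of_nonneg fun i _ => mul_self_nonneg _).1 h5 i
        (Finset.mem_univ _)
      simp only [mul_zero, zero_mul]
      exact mul_self_eq_zero.1 h6
    · have h5 : ∀ i, inner ℝ (b i) (∑ j, (z j.succ / (2 * C)) • b j) = z i.succ / (2 * C) :=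
        fun i => by simpa using b.orthonormal.inner_right_fintype (fun j => z j.succ / (2 * C)) i
      refine ⟨⟨(C, ∑ j, (z j.succ / (2 * C)) • b j), hC0, ?_⟩, by simp only; linarith,
        fun i => ?_⟩
      · have h6 : ∑ i : Fin (Module.finrank ℝ V), z i.succ / (2 * C) * (z i.succ / (2 * C)) =
            (1 - z 0 ^ 2) / (4 * C ^ 2) := by
          rw [show 1 - z 0 ^ 2 = ∑ i : Fin (Module.finrank ℝ V), z i.succ * z i.succ by linarith,
            Finset.sum_div]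
          exact Finset.sum_congr rfl fun i _ => by field_simp; ring
        change C ^ 2 + ‖∑ j, (z j.succ / (2 * C)) • b j‖ ^ 2 = 1
        rw [← real_inner_self_eq_norm_sq, ← hb]
        simp only [h5, h6]
        rw [show z 0 = 2 * C ^ 2 - 1 by linarith]
        field_simp
        ring
      · simp only [h5]
        field_simp
  · rintro ⟨⟨C, S⟩, h0, h1⟩ ⟨⟨C', S'⟩, h0', h1'⟩ z z' ⟨a1, a2⟩ ⟨a1', a2'⟩
    simp only at h0 h1 h0' h1' a1 a2 a1' a2'
    have h2 : ∑ i, z.1 i * z'.1 i = 2 * Fq P C S C' S' - 1 := by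
      have h3 : ∑ i : Fin (Module.finrank ℝ V), z.1 i.succ * z'.1 i.succ =
          4 * C * C' * inner ℝ S S' := by
        rw [← hb, Finset.mul_sum]
        exact Finset.sum_congr rfl fun i _ => by rw [a2, a2']; ring
      rw [Fin.sum_univ_succ, h3, a1, a1', Fq, hQ, show ‖S‖ ^ 2 = 1 - C ^ 2 by linarith,
        show ‖S'‖ ^ 2 = 1 - C' ^ 2 by linarith]
      ring
    have h4 := abs_le.1 (abs_real_inner_le_norm S S')
    have h5 := mul_nonneg h0 h0'
    change Real.arccos (∑ i, z.1 i * z'.1 i) = 2 * Real.arccos √(Fq P C S C' S')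
    rw [h2]
    refine mods_arccos ?_ ?_
    · rw [Fq, hQ]
      nlinarith [mul_le_mul_of_nonneg_left h4.1 h5, sq_nonneg (C * C' - ‖S‖ * ‖S'‖)]
    · rw [Fq, hQ]
      have h6 : (C ^ 2 + ‖S‖ ^ 2) * (C' ^ 2 + ‖S'‖ ^ 2) = 1 := by rw [h1, h1', one_mul]
      nlinarith [mul_le_mul_of_nonneg_left h4.2 h5, sq_nonneg (C * ‖S'‖ - ‖S‖ * C')]

end Vale.Agent.P231
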