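import Vale.Agent.P231.JacG3

/-! The index form of broken geodesics. -/

open scoped ContDiff Topology Matrix
open Filter Set

noncomputable section

namespace Vale.Agent.P231

open Vale.Agent.P234

variable {M : Type*} [MetricSpace M] [CompactSpace M] {T : M → Type*}
  [∀ x, NormedAddCommGroup (T x)] [∀ x, InnerProductSpace ℝ (T x)]
  [∀ x, FiniteDimensional ℝ (T x)] {e : ∀ x, T x → M} {r D : ℝ}

variable {γ : ℝ → M} {ρ : ∀ s, T (γ s)} {τ : ℝ}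

/-- The momentum can be computed with any step shorter than the diameter. -/
theorem multa_step (h : Bl e r D) (hl : Line e γ ρ) (h0 : 0 < τ) (h1 : τ < r) (s : ℝ) {u : ℝ}
    (hu0 : u ≠ 0) (hu : |u| < D) : mom e γ τ s u =ᶠ[𝓝 0] mom e γ τ s τ := by
  have hg := h.toGeo
  have h2 : ∀ {v R : ℝ}, |v| < R → ∀ᶠ z in 𝓝 0, |v| * spd e γ τ z < R := fun hv =>
    (continuousAt_const.mul (contDiffAt_spd hg hl h0 h1).continuousAt).eventually_lt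
      continuousAt_const (by rwa [Pi.mul_apply, spd_zero hg hl h0 h1, mul_one])
  filter_upwards [h2 hu, h2 ((abs_of_pos h0).trans_lt h1)] with z h3 h4
  obtain ⟨w, hw, hw'⟩ := Gam_flow hg h0 z s
  have h5 : ‖u • w‖ < D := by rwa [norm_smul, hw]
  rw [jacg3_mom hg hw' h0.ne' (hw ▸ h4), mom, hw', (hg.fv_move (hg.exp_lg _ _) (h.min _ _ h5.le)
    (h.sp ((hg.dist_exp_le _ _).trans_lt h5))).fderiv]
  ext v
  simp [hu0]

/-- Parameters of the geodesics through a moving point at time `t₁` and `γ t₂` at time `t₂`. -/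
theorem multa_z (h : Geo e r) (hl : Line e γ ρ) (h0 : 0 < τ) (h1 : τ < r) {t₁ t₂ : ℝ}
    (a2 : t₁ < t₂) (a3 : t₂ - t₁ < r) : ∃ z : T (γ 0) → T (γ 0) × T (γ τ),
      ContDiffAt ℝ ∞ z (ρ 0) ∧ z (ρ 0) = 0 ∧ ∀ᶠ w in 𝓝 (ρ 0),
        Gam e γ τ (z w) t₁ = e (γ 0) (t₁ • w) ∧ Gam e γ τ (z w) t₂ = γ t₂ := by
  have hu : 0 < t₂ - t₁ := sub_pos.2 a2
  have hst : |t₁ - t₂| < r := by rwa [abs_sub_comm, abs_of_pos hu]
  have hm : e (γ 0) (t₁ • ρ 0) = γ t₁ := by rw [← hl.flow, zero_add]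
  have hf : Sm e (fun w : T (γ 0) => e (γ 0) (t₁ • w)) (ρ 0) :=
    Sm.comp (k := fun w : T (γ 0) => t₁ • w) (sm_exp h _ _) (by fun_prop)
  have hb : ∀ t, ln e (e (γ 0) (t₁ • ρ 0)) (γ t₂) ((t - t₁) / (t₂ - t₁)) = γ t := fun t => by
    rw [hm, ln, hl.lg_short h hst, smul_smul, div_mul_cancel₀ _ hu.ne', ← hl.eq]
  have hs : ∀ t, ContDiffAt ℝ ∞ (fun w : T (γ 0) =>
      lg e (γ t) (ln e (e (γ 0) (t₁ • w)) (γ t₂) ((t - t₁) / (t₂ - t₁)))) (ρ 0) := fun t =>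
    (Sm.ln h hf (sm_const h (γ t₂) _) (by rwa [hm, hl.dist_short h hst])
      (l := fun _ => (t - t₁) / (t₂ - t₁)) contDiffAt_const).lg h
        (h.sp_short (by rw [hb, dist_self]; exact h.pos))
  refine ⟨fun w => (_, _), (hs 0).prodMk (hs τ), ?_, ?_⟩
  · simp only [hb, h.lg_self]
    rfl
  have ev : ∀ᶠ w in 𝓝 (ρ 0), τ / (t₂ - t₁) * dist (e (γ 0) (t₁ • w)) (γ t₂) < r := by
    refine ContinuousAt.eventually_lt
      (continuousAt_const.mul ((hf.continuousAt h).dist continuousAt_const)) continuousAt_const ?_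
    rwa [hm, hl.dist_short h hst, abs_sub_comm, abs_of_pos hu, div_mul_cancel₀ _ hu.ne']
  filter_upwards [ev] with w hw
  have key : ∀ t, Gam e γ τ
      (lg e (γ 0) (ln e (e (γ 0) (t₁ • w)) (γ t₂) ((0 - t₁) / (t₂ - t₁))),
        lg e (γ τ) (ln e (e (γ 0) (t₁ • w)) (γ t₂) ((τ - t₁) / (t₂ - t₁)))) t =
      ln e (e (γ 0) (t₁ • w)) (γ t₂) ((t - t₁) / (t₂ - t₁)) := fun t => by
    have b1 : (τ - t₁) / (t₂ - t₁) - (0 - t₁) / (t₂ - t₁) = τ / (t₂ - t₁) := by ring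
    have b2 := ln_exp h (lg e (e (γ 0) (t₁ • w)) (γ t₂)) (a := (0 - t₁) / (t₂ - t₁))
      (b := (τ - t₁) / (t₂ - t₁)) (by rwa [b1, abs_of_pos (div_pos h0 hu), h.norm_lg]) (t / τ)
    have b3 : (0 - t₁) / (t₂ - t₁) + t / τ * (τ / (t₂ - t₁)) = (t - t₁) / (t₂ - t₁) := by
      field_simp
      ring
    rw [b1, b3] at b2
    rw [Gam, h.exp_lg, h.exp_lg]
    exact b2
  rw [key, key, sub_self, zero_div, div_self hu.ne', ln, ln, zero_smul, one_smul, h.zero, h.exp_lg]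
  exact ⟨rfl, rfl⟩

/-- A field that vanishes at two close times is zero. -/
theorem multa_zero (h : Geo e r) (hl : Line e γ ρ) (h0 : 0 < τ) (h1 : τ < r) {t₁ t₂ : ℝ}
    (a2 : t₁ < t₂) (a3 : t₂ - t₁ < r) {j : T (γ 0) × T (γ τ)} (b1 : Ym e γ τ t₁ j = 0)
    (b2 : Ym e γ τ t₂ j = 0) : j = 0 := by
  have hu : 0 < t₂ - t₁ := sub_pos.2 a2
  have hst : |t₁ - t₂| < r := by rwa [abs_sub_comm, abs_of_pos hu]
  obtain ⟨w, rfl⟩ := ker_Ym h hl h0 h1 t₁ j b1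
  rw [Ym_io h hl h0 h1, smul_eq_zero_iff_right hu.ne'] at b2
  rw [(jacg2_bij h hl hst).1 (b2.trans (map_zero _).symm), map_zero]

theorem multa_E (h : Bl e r D) (hl : Line e γ ρ) (h0 : 0 < τ) (h1 : τ < r) {t₁ t₂ : ℝ}
    (a0 : 0 < t₁) (a1 : t₁ < D) (a2 : t₁ < t₂) (a3 : t₂ - t₁ < r) (c : ℝ) (ξ η : T (γ 0))
    (j : T (γ 0) × T (γ τ)) (hj2 : Ym e γ τ t₂ j = 0)
    (hj1 : Ym e γ τ t₁ j = Ym e γ τ t₁ (io e γ ρ τ 0 ξ)) :
    D2 (fun w : T (γ 0) => c * (t₁⁻¹ * cost (e (γ 0) (t₁ • w)) (γ 0) +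
      (t₂ - t₁)⁻¹ * cost (e (γ 0) (t₁ • w)) (γ t₂))) (ρ 0) ξ η =
      c * om e γ τ t₁ (io e γ ρ τ 0 ξ - j) (io e γ ρ τ 0 η) := by
  have hg := h.toGeo
  have hu : 0 < t₂ - t₁ := sub_pos.2 a2
  have hst : |t₁ - t₂| < r := by rwa [abs_sub_comm, abs_of_pos hu]
  have hm : e (γ 0) (t₁ • ρ 0) = γ t₁ := by rw [← hl.flow, zero_add]
  obtain ⟨z, hz, hz0, hze⟩ := multa_z hg hl h0 h1 a2 a3
  have hp := contDiffAt_par (τ := τ) hg hl 0
  have hp0 := par_base (τ := τ) hg hl 0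
  have hpe : ∀ᶠ w in 𝓝 (ρ 0), Gam e γ τ (par e γ τ 0 w) t₁ = e (γ 0) (t₁ • w) ∧
      Gam e γ τ (par e γ τ 0 w) 0 = γ 0 := by
    have ev : ∀ᶠ w : T (γ 0) in 𝓝 (ρ 0), τ * ‖w‖ < r := by
      refine ContinuousAt.eventually_lt (by fun_prop) continuousAt_const ?_
      rwa [hl.norm, mul_one]
    filter_upwards [ev] with w hw
    rw [Gam_par hg h0 hw, Gam_par hg h0 hw, sub_zero, sub_zero, zero_smul, h.zero]
    exact ⟨rfl, rfl⟩
  have ha : ContDiffAt ℝ ∞ (fun w : T (γ 0) => lg e (γ t₁) (e (γ 0) (t₁ • w))) (ρ 0) :=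
    smooth_comp (jacg1_lg hg hl 0 t₁) (fun w : T (γ 0) => t₁ • w) (ρ 0) (by fun_prop)
      (by rw [sub_zero])
  have ha0 : lg e (γ t₁) (e (γ 0) (t₁ • ρ 0)) = 0 := by rw [hm, hg.lg_self]
  have hY := jacg2_Y hg hl h0 h1
  have e1 := ((jacg1_comp (hY t₁) (jacg1_has hp) hp0).congr_of_eventuallyEq
    (f₁ := fun w : T (γ 0) => lg e (γ t₁) (e (γ 0) (t₁ • w)))
    (hpe.mono fun w hw => by simp only [hw.1])).fderiv
  have e2 := ((jacg1_comp (hY t₁) (jacg1_has hz) hz0).congr_of_eventuallyEq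
    (f₁ := fun w : T (γ 0) => lg e (γ t₁) (e (γ 0) (t₁ • w)))
    (hze.mono fun w hw => by simp only [hw.1])).fderiv
  have e3 := ((jacg1_comp (hY t₂) (jacg1_has hz) hz0).congr_of_eventuallyEq
    (f₁ := fun _ : T (γ 0) => lg e (γ t₂) (γ t₂))
    (hze.mono fun w hw => by simp only [hw.2])).unique (hasFDerivAt_const _ _)
  have e4 : fderiv ℝ z (ρ 0) ξ = j := by
    refine sub_eq_zero.1 (multa_zero hg hl h0 h1 a2 a3 ?_ ?_)
    · rw [map_sub, hj1, sub_eq_zero]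
      exact congrArg (fun L : T (γ 0) →L[ℝ] T (γ t₁) => L ξ) (e2.symm.trans e1)
    · rw [map_sub, hj2, sub_zero]
      exact congrArg (fun L : T (γ 0) →L[ℝ] T (γ t₂) => L ξ) e3
  have hC1 := hg.contDiffAt_cost_left (x := γ t₁) (a := 0) (h.sp (x := γ t₁) (y := γ 0) (by
    rw [hl.dist_eq h (by rw [sub_zero, abs_of_pos a0]; exact a1.le), sub_zero, abs_of_pos a0]
    exact a1)) (h.zero _)
  have hC2 := hg.contDiffAt_cost_left (x := γ t₁) (a := 0) (hg.sp_short (p := γ t₁) (q := γ t₂)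
    (by rwa [hl.dist_short hg hst])) (h.zero _)
  have hat : Tendsto (fun w : T (γ 0) => lg e (γ t₁) (e (γ 0) (t₁ • w))) (𝓝 (ρ 0)) (𝓝 0) :=
    ha0 ▸ ha.continuousAt
  have hpt : Tendsto (par e γ τ 0) (𝓝 (ρ 0)) (𝓝 0) := hp0 ▸ hp.continuousAt
  have hzt : Tendsto z (𝓝 (ρ 0)) (𝓝 0) := hz0 ▸ hz.continuousAt
  have ev : ∀ᶠ w in 𝓝 (ρ 0), fderiv ℝ (fun w : T (γ 0) =>
      c * (t₁⁻¹ * cost (e (γ 0) (t₁ • w)) (γ 0) +
        (t₂ - t₁)⁻¹ * cost (e (γ 0) (t₁ • w)) (γ t₂))) w =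
      (c • (mom e γ τ t₁ τ (par e γ τ 0 w) - mom e γ τ t₁ τ (z w))).comp
        (fderiv ℝ (fun w : T (γ 0) => lg e (γ t₁) (e (γ 0) (t₁ • w))) w) := by
    filter_upwards [hpe, hze, smooth_ev_diff ha, hat.eventually (smooth_ev_diff hC1),
      hat.eventually (smooth_ev_diff hC2),
      hpt.eventually (multa_step h hl h0 h1 t₁ (u := -t₁) (neg_ne_zero.2 a0.ne')
        (by rwa [abs_neg, abs_of_pos a0])),
      hzt.eventually (mom_step hg hl h0 h1 t₁ hu.ne' (by rwa [abs_of_pos hu]))]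
      with w b1 b2 b3 b4 b5 b6 b7
    have b8 := (((b4.hasFDerivAt.const_mul t₁⁻¹).add
      (b5.hasFDerivAt.const_mul (t₂ - t₁)⁻¹)).const_mul c).comp w b3.hasFDerivAt
    simp only [Function.comp_def, Pi.add_apply, hg.exp_lg] at b8
    rw [b8.fderiv, ← b6, ← b7, mom, mom, add_neg_cancel, add_sub_cancel, b1.1, b1.2, b2.1, b2.2,
      inv_neg, neg_neg, neg_smul, sub_neg_eq_add]
  have hM := jacg1_has (contDiffAt_mom hg hl h0 h1 t₁ ((abs_of_pos h0).trans_lt h1))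
  have d1 := (((jacg1_comp hM (jacg1_has hp) hp0).sub
    (jacg1_comp hM (jacg1_has hz) hz0)).const_smul c).clm_comp
      (jacg1_has (ha.fderiv_right (m := ∞) (by simp)))
  rw [D2, (d1.congr_of_eventuallyEq ev).fderiv, om, map_sub (Ym e γ τ t₁), hj1, sub_self, map_zero,
    sub_zero, ← e4, e1]
  simp [hp0, hz0, io, mul_sub]

/-- Let `p = γ 0`, `y = γ t₂`, `a w = lg (γ t₁) (e p (t₁ • w))`,
`E w = cost p (e p (t₁ • w)) / t₁ + cost (e p (t₁ • w)) y / (t₂ - t₁)`, so that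
`Ff (0, u) = t₂ * E (t₂⁻¹ • u)`. For `w` near `ρ 0` the derivative of `E` is
`(mom t₁ (par 0 w) - mom t₁ (z w)) ∘ fderiv a w` (`fv_move` backwards to `p`, `mom_step`), where
`z w` are the parameters of the line through `e p (t₁ • w)` at time `t₁` and `y` at time `t₂`
(`Sm.ln`, `ln_exp`). The two momenta agree at `ρ 0`, and `fderiv z (ρ 0) ξ = j` because a field that
vanishes at `t₁` and `t₂` is zero (`ker_Ym`, `Ym_io`, `Lmap_bij`). -/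
theorem Bl.hess_om (h : Bl e r D) (hl : Line e γ ρ) (h0 : 0 < τ) (h1 : τ < r) {t₁ t₂ : ℝ}
    (a0 : 0 < t₁) (a1 : t₁ < D) (a2 : t₁ < t₂) (a3 : t₂ - t₁ < r) (ξ η : T (γ 0))
    (j : T (γ 0) × T (γ τ)) (hj2 : Ym e γ τ t₂ j = 0)
    (hj1 : Ym e γ τ t₁ j = Ym e γ τ t₁ (io e γ ρ τ 0 ξ)) :
    D2 (Ff e (γ 0) (t₁ / t₂) (γ t₂)) (0, t₂ • ρ 0) (0, ξ) (0, η) =
      om e γ τ t₁ (io e γ ρ τ 0 ξ - j) (io e γ ρ τ 0 η) / t₂ := by
  have hg := h.toGeo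
  have b0 : 0 < t₂ := a0.trans a2
  have hu : 0 < t₂ - t₁ := sub_pos.2 a2
  have hst : |t₁ - t₂| < r := by rwa [abs_sub_comm, abs_of_pos hu]
  have hm : e (γ 0) ((t₁ / t₂) • t₂ • ρ 0) = γ t₁ := by
    rw [smul_smul, div_mul_cancel₀ _ b0.ne', ← hl.flow, zero_add]
  have hF : ContDiffAt ℝ ∞ (Ff e (γ 0) (t₁ / t₂) (γ t₂)) (0, t₂ • ρ 0) := by
    refine hg.hess_ff_smooth ?_ ?_
    · rw [hm]
      refine h.sp ?_
      rw [hl.dist_eq h (by rw [zero_sub, abs_neg, abs_of_pos a0]; exact a1.le), zero_sub, abs_neg,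
        abs_of_pos a0]
      exact a1
    · rw [hm]
      exact hg.sp_short (by rwa [hl.dist_short hg hst])
  have hL : ∀ w : T (γ 0), (t₂ • ContinuousLinearMap.inr ℝ (T (γ 0)) (T (γ 0))) w =
      t₂ • ((0 : T (γ 0)), w) := fun w => rfl
  have hL0 : (t₂ • ContinuousLinearMap.inr ℝ (T (γ 0)) (T (γ 0))) (ρ 0) + 0 = (0, t₂ • ρ 0) := by
    simp
  have c1 := D2_comp_clm (f := Ff e (γ 0) (t₁ / t₂) (γ t₂))
    (t₂ • ContinuousLinearMap.inr ℝ (T (γ 0)) (T (γ 0))) 0 (b := ρ 0)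
    (by rw [hL0]; exact hF.of_le (by norm_cast)) ξ η
  have c2 : (fun w => Ff e (γ 0) (t₁ / t₂) (γ t₂)
      ((t₂ • ContinuousLinearMap.inr ℝ (T (γ 0)) (T (γ 0))) w + 0)) =
      fun w : T (γ 0) => t₂ * (t₁⁻¹ * cost (e (γ 0) (t₁ • w)) (γ 0) +
        (t₂ - t₁)⁻¹ * cost (e (γ 0) (t₁ • w)) (γ t₂)) := by
    funext w
    rw [hL, add_zero, Ff]
    simp only [Prod.smul_mk, smul_zero, smul_smul, div_mul_cancel₀ _ b0.ne', h.zero,
      cost_comm (γ 0)]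
    field_simp
  rw [c2, multa_E h hl h0 h1 a0 a1 a2 a3 t₂ ξ η j hj2 hj1, hL0, hL, hL, map_smul, map_smul,
    ContinuousLinearMap.smul_apply, smul_eq_mul, smul_eq_mul] at c1
  rw [eq_div_iff b0.ne']
  refine mul_left_cancel₀ b0.ne' ?_
  linarith

end Vale.Agent.P231
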