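import Vale.Agent.P231.MultA
import Vale.Agent.P231.GeoA

/-! The signature of the index form. -/

open scoped ContDiff Topology Matrix
open Filter Set

noncomputable section

namespace Vale.Agent.P231

open Vale.Agent.P234

variable {M : Type*} [MetricSpace M] [CompactSpace M] {T : M → Type*}
  [∀ x, NormedAddCommGroup (T x)] [∀ x, InnerProductSpace ℝ (T x)]
  [∀ x, FiniteDimensional ℝ (T x)] {e : ∀ x, T x → M} {r D : ℝ}

/-- The index form of the geodesic `t ↦ e x (t • v)` on `[0, D + δ]`, broken at `D - δ`. -/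
def Qf (e : ∀ x, T x → M) (D δ : ℝ) (x : M) (v ξ η : T x) : ℝ :=
  D2 (Ff e x ((D - δ) / (D + δ)) (e x ((D + δ) • v))) (0, (D + δ) • v) (0, ξ) (0, η)

theorem multb_range {U V : Type*} [AddCommGroup U] [Module ℝ U] [AddCommGroup V] [Module ℝ V]
    (ψ : U →ₗ[ℝ] V) {q : V → ℝ} (h0 : q 0 = 0) (hq : ∀ u, u ≠ 0 → 0 < q (ψ u)) :
    Module.finrank ℝ (LinearMap.range ψ) = Module.finrank ℝ U ∧
      ∀ ξ ∈ LinearMap.range ψ, ξ ≠ 0 → 0 < q ξ := by
  refine ⟨LinearMap.finrank_range_of_inj ((injective_iff_map_eq_zero ψ).2 fun u hu => ?_), ?_⟩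
  · by_contra hne
    have := hq u hne
    rw [hu, h0] at this
    exact this.false
  · rintro _ ⟨u, rfl⟩ hu
    exact hq u fun h => hu (by rw [h, map_zero])

theorem multb_graph {ι : Type} [Fintype ι] [DecidableEq ι] {C A : ℝ → Matrix ι ι ℝ} {t : ℝ}
    (ht : (A t).det ≠ 0) (y : ι → ℝ) : C t *ᵥ y + A t *ᵥ (Sl C A t *ᵥ y) = 0 := by
  rw [Matrix.mulVec_mulVec, Sl, Matrix.mul_neg,
    Matrix.mul_nonsing_inv_cancel_left _ _ (isUnit_iff_ne_zero.2 ht), Matrix.neg_mulVec,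
    add_neg_cancel]

theorem multb_mat {α β : Type} [Fintype α] [DecidableEq α] [Fintype β] [DecidableEq β] {D s t : ℝ}
    {C A : ℝ → Matrix (α ⊕ β) (α ⊕ β) ℝ} (h : Jac D C A) (ha : Adapted (A D)) (h0 : 0 < s)
    (h1 : s < D) (h2 : D < t) (h3 : t < s + D) (hk : Fintype.card β ≤
      Module.finrank ℝ (LinearMap.ker (Wm C A s (s + D)).mulVecLin)) :
    (∀ z : α → ℝ, z ≠ 0 →
      0 < Sum.elim z 0 ⬝ᵥ (Sl C A t - Sl C A s) *ᵥ Sum.elim z (0 : β → ℝ)) ∧
    ∃ X : Matrix α β ℝ, ∀ w : β → ℝ, w ≠ 0 →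
      (Em X *ᵥ w) ⬝ᵥ (Sl C A t - Sl C A s) *ᵥ (Em X *ᵥ w) < 0 := by
  obtain ⟨P, S₁, hS⟩ := h.exists_sdata ha
  obtain ⟨φ₁, φ₂, c, hR⟩ := hS.exists_roots
  have b1 : ∀ u, D < u → u < 2 * D → (Sl C A u - Sl C A s).toBlocks₁₁.PosDef := fun u a1 a2 => by
    have := (hS.first hR h0 (h1.trans a1) a2).1
    rwa [hS.S_eq u a1.ne', hS.S_eq s h1.ne] at this
  refine ⟨fun z hz => ?_, ?_⟩
  · have := (b1 t h2 (by linarith)).dotProduct_mulVec_pos hz
    rw [← Matrix.fromBlocks_toBlocks (Sl C A t - Sl C A s), Matrix.fromBlocks_mulVec,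
      sumElim_dotProduct_sumElim]
    simpa using this
  · rw [h.ker_eq (h.det_ne ⟨h0, by linarith⟩ h1.ne)
      (h.det_ne ⟨by linarith, by linarith⟩ (by linarith : D < s + D).ne')] at hk
    obtain ⟨X, hX⟩ := exists_Em (b1 (s + D) (by linarith) (by linarith)) hk
    refine ⟨X, fun w hw => ?_⟩
    have b2 := (hS.second hR (s := t) (t := s + D) (Or.inr ⟨h2, h3, by linarith⟩) X).1
    have b3 := b2.dotProduct_mulVec_pos hw
    have b4 : (Sl C A t - Sl C A s) * Em X = -((Sl C A (s + D) - Sl C A t) * Em X) := by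
      rw [eq_neg_iff_add_eq_zero, ← Matrix.add_mul, ← hX]
      congr 1
      abel
    rw [Matrix.mulVec_mulVec, b4, Matrix.neg_mulVec, dotProduct_neg, neg_lt_zero]
    rwa [star_trivial, Matrix.mul_assoc, ← Matrix.mulVec_mulVec, Matrix.dotProduct_mulVec,
      Matrix.vecMul_transpose] at b3

theorem multb_rad (h : Bl e r D) {δ : ℝ} (h0 : 0 < δ) (h1 : 2 * δ < r) (h2 : 2 * δ < D)
    (x : M) {v : T x} (hv : ‖v‖ = 1) : ∃ κ : ℝ, 0 < κ ∧ ∀ (c : ℝ) (ν : T x), inner ℝ v ν = 0 →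
      Qf e D δ x v (c • v + ν) (c • v + ν) = κ * c ^ 2 + Qf e D δ x v ν ν := by
  have hg := h.toGeo
  have b0 : 0 < D + δ := by linarith
  have b1 : 0 < (D - δ) / (D + δ) := div_pos (by linarith) b0
  have b2 : (D - δ) / (D + δ) < 1 := (div_lt_one b0).2 (by linarith)
  have b3 : ((D - δ) / (D + δ)) • (D + δ) • v ∈ Inj e x := h.mem_inj (by
    rw [smul_smul, div_mul_cancel₀ _ b0.ne', norm_smul, hv, mul_one, Real.norm_eq_abs,
      abs_of_pos (by linarith)]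
    linarith)
  have b4 : (1 - (D - δ) / (D + δ)) * ‖(D + δ) • v‖ < r := by
    rw [norm_smul, hv, mul_one, Real.norm_of_nonneg b0.le, sub_mul, div_mul_cancel₀ _ b0.ne']
    linarith
  have hF := (hg.hess_ff_smooth (hg.sp_of_inj b3) (hg.hess_sp_short b2 b4)).of_le hess_two
  have hr := hg.ff_radial b1 b2 b3 b4
  have hs := D2_symm hF
  refine ⟨_, div_pos b1 (sub_pos.2 b2), fun c ν hν => ?_⟩
  simp only [Qf]
  generalize D2 (Ff e x ((D - δ) / (D + δ)) (e x ((D + δ) • v))) (0, (D + δ) • v) = B at hr hs ⊢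
  generalize (D - δ) / (D + δ) / (1 - (D - δ) / (D + δ)) = κ at hr ⊢
  have e1 : ((0 : T x), (D + δ) • v) = (D + δ) • ((0 : T x), v) := by simp
  have e2 : ((0 : T x), c • v + ν) = c • ((0 : T x), v) + (0, ν) := by simp
  have c1 : ∀ μ : T x, B (0, v) (0, μ) = κ * inner ℝ v μ := fun μ => by
    have := hr μ
    rw [e1, map_smul, ContinuousLinearMap.smul_apply, real_inner_smul_left, smul_eq_mul] at this
    refine mul_left_cancel₀ b0.ne' ?_
    linarith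
  rw [e2]
  simp only [map_add, map_smul, ContinuousLinearMap.add_apply, ContinuousLinearMap.smul_apply,
    smul_eq_mul]
  rw [hs (0, ν) (0, v), c1, c1, hν, real_inner_self_eq_norm_sq, hv]
  ring

/-- Adapted frame `b`, matrices of `exists_jac`, `Δ = Sl (D + δ) - Sl (D - δ)` (symmetric,
invertible by `nc` and `Wm_eq`). For `ξ y = ∑ (Δ y) i • b i`, `hess_om` with
`j = Ξ (y, Sl (D + δ) y)` gives `Qf (ξ y) (ξ y') = y ⬝ Δ y' / (D + δ)`. It is positive on
`y = Sum.elim z 0` (`SData.first`) and negative on `y = Em X w` (`exists_Em`, `kap_line`,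
`SData.second` as in `cross1`). The radial direction is positive and orthogonal to the rest
(`ff_radial`). -/
theorem Bl.signature (h : Bl e r D) {δ : ℝ} (h0 : 0 < δ) (h1 : 2 * δ < r) (h2 : 2 * δ < D)
    (x : M) {v : T x} (hv : ‖v‖ = 1) : ∃ N P : Submodule ℝ (T x),
      Module.finrank ℝ N = kap e x (D • v) ∧
      Module.finrank ℝ P + kap e x (D • v) = Module.finrank ℝ (T x) ∧
      (∀ ξ ∈ N, ξ ≠ 0 → Qf e D δ x v ξ ξ < 0) ∧ ∀ ξ ∈ P, ξ ≠ 0 → 0 < Qf e D δ x v ξ ξ := by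
  have hg := h.toGeo
  obtain ⟨κ, hκ, hrad⟩ := multb_rad h h0 h1 h2 x hv
  obtain ⟨γ, ρ, hl, rfl, hρ⟩ := exists_line hg x hv
  obtain rfl := eq_of_heq hρ
  have t0 : 0 < r / 2 := half_pos h.pos
  have t1 : r / 2 < r := half_lt_self h.pos
  obtain ⟨Ω, hΩ, hJ⟩ := h.jdata hl t0 t1
  obtain ⟨a, b, hb, hab⟩ := h.exists_adapted hl
  obtain ⟨C, A, Ξ, hCA, -, j3, j4, j5, j6, j7⟩ := hJ.exists_jac h hl hb
  have had : Adapted (A D) := fun w => by
    rw [← hab, ← dotProduct_self_eq_zero, j4, mul_eq_zero, sq_eq_zero_iff, sq_eq_zero_iff,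
      norm_eq_zero, or_iff_right h.dpos.ne']
  have s0 : 0 < D - δ := by linarith
  have s1 : D - δ < D := by linarith
  have s2 : D < D + δ := by linarith
  have s3 : 0 < D + δ := by linarith
  obtain ⟨hpos, X, hneg⟩ := multb_mat hCA had s0 s1 s2 (by linarith) (by
    rw [j3 _ _ (by linarith : D - δ < D - δ + D).ne, add_sub_cancel_left,
      h.kap_line hl (D - δ), Fintype.card_fin])
  have d1 := hCA.det_ne (t := D - δ) ⟨s0, by linarith⟩ s1.ne
  have d2 := hCA.det_ne (t := D + δ) ⟨s3, by linarith⟩ s2.ne'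
  let φ := (Fintype.linearCombination ℝ b).comp (Sl C A (D + δ) - Sl C A (D - δ)).mulVecLin
  have hφ : ∀ y, φ y = ∑ i, ((Sl C A (D + δ) - Sl C A (D - δ)) *ᵥ y) i • b i := fun y => rfl
  have hperp : ∀ y, inner ℝ (ρ 0) (φ y) = 0 := fun y => by
    rw [hφ, inner_sum]
    refine Finset.sum_eq_zero fun i _ => ?_
    rw [real_inner_smul_right, real_inner_comm, hb.perp, mul_zero]
  have hQ : ∀ y, Qf e D δ (γ 0) (ρ 0) (φ y) (φ y) =
      (y ⬝ᵥ (Sl C A (D + δ) - Sl C A (D - δ)) *ᵥ y) / (D + δ) := fun y => by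
    have c1 : Ξ (y, Sl C A (D + δ) *ᵥ y) = Ξ (y, Sl C A (D - δ) *ᵥ y) +
        Ξ (0, (Sl C A (D + δ) - Sl C A (D - δ)) *ᵥ y) := by
      rw [← map_add, Matrix.sub_mulVec]
      simp
    have c2 := h.hess_om hl t0 t1 s0 s1 (s1.trans s2) (by linarith) (φ y) (φ y)
      (Ξ (y, Sl C A (D + δ) *ᵥ y)) ((j5 _ _ _).2 (multb_graph d2 y)) (by
        rw [c1, map_add, (j5 _ _ _).2 (multb_graph d1 y), zero_add, j6, hφ])
    have c3 : e (γ 0) ((D + δ) • ρ 0) = γ (D + δ) := by rw [← hl.flow, zero_add]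
    rw [Qf, c3, c2, ← hΩ, hφ, ← j6, c1, sub_add_cancel_right, map_neg, LinearMap.neg_apply, j7]
    simp
  have q0 : Qf e D δ (γ 0) (ρ 0) 0 0 = 0 := by
    rw [Qf]
    exact map_zero _
  obtain ⟨n1, n2⟩ := multb_range (φ.comp (Em X).mulVecLin)
    (q := fun ξ => -Qf e D δ (γ 0) (ρ 0) ξ ξ) (by rw [q0, neg_zero]) fun w hw => by
      rw [LinearMap.comp_apply, hQ, neg_pos]
      exact div_neg_of_neg_of_pos (hneg w hw) s3
  obtain ⟨p1, p2⟩ := multb_range ((LinearMap.toSpanSingleton ℝ _ (ρ 0)).coprod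
    (φ.comp ((LinearEquiv.sumArrowLequivProdArrow _ _ ℝ ℝ).symm.toLinearMap.comp
      (LinearMap.inl ℝ _ _)))) (q := fun ξ => Qf e D δ (γ 0) (ρ 0) ξ ξ) q0 (by
    rintro ⟨c, z⟩ hne
    change 0 < Qf e D δ (γ 0) (ρ 0) (c • ρ 0 + φ (Sum.elim z 0)) (c • ρ 0 + φ (Sum.elim z 0))
    rw [hrad _ _ (hperp _), hQ]
    by_cases hz : z = 0
    · have hc : c ≠ 0 := fun hc => hne (by rw [hc, hz]; rfl)
      rw [hz, Sum.elim_zero_zero, zero_dotProduct, zero_div, add_zero]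
      positivity
    · exact add_pos_of_nonneg_of_pos (by positivity) (div_pos (hpos z hz) s3))
  refine ⟨_, _, ?_, ?_, fun ξ hξ hne => neg_pos.1 (n2 ξ hξ hne), p2⟩
  · rw [n1]
    simp
  · rw [p1, ← hb.card hv]
    simp only [Module.finrank_prod, Module.finrank_self, Module.finrank_fintype_fun_eq_card,
      Fintype.card_sum, Fintype.card_fin]
    ring

end Vale.Agent.P231
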