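import Vale.Agent.P231.Polar

/-! Integration over pairs of points; invariance of the Liouville measure. -/

open scoped ContDiff Topology ENNReal
open Filter Set MeasureTheory Metric

noncomputable section

namespace Vale.Agent.P231

open Vale.Agent.P234

variable {M : Type*} [MetricSpace M] [CompactSpace M] {T : M → Type*}
  [∀ x, NormedAddCommGroup (T x)] [∀ x, InnerProductSpace ℝ (T x)]
  [∀ x, FiniteDimensional ℝ (T x)] {e : ∀ x, T x → M} {r D : ℝ}

variable [MeasurableSpace M] [BorelSpace M] [∀ x, MeasurableSpace (T x)] [∀ x, BorelSpace (T x)]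

/-- Integral over the unit sphere at `x` of a function of the pair `(γ a, γ b)`. -/
def Hs (e : ∀ x, T x → M) (F : M × M → ℝ≥0∞) (a b : ℝ) (x : M) : ℝ≥0∞ :=
  ∫⁻ v : sphere (0 : T x) 1, F (e x (a • (v : T x)), e x (b • (v : T x)))
    ∂(volume : Measure (T x)).toSphere

/-- A measurable version of the unit speed geodesic from `x` through `y`. -/
theorem Bl.exists_geo_meas (h : Bl e r D) : ∃ c : (M × M) × ℝ → M, Measurable c ∧
    ∀ x y s, 0 < dist x y → dist x y < D → c ((x, y), s) = ln e x y (s / dist x y) := by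
  classical
  obtain ⟨U, hU⟩ : ∃ U : Set ((M × M) × ℝ), U = {w | 0 < dist w.1.1 w.1.2 ∧ dist w.1.1 w.1.2 < D} :=
    ⟨_, rfl⟩
  have h1 : Continuous fun w : (M × M) × ℝ => dist w.1.1 w.1.2 := by fun_prop
  have h2 : IsOpen U := hU ▸ (isOpen_lt continuous_const h1).inter (isOpen_lt h1 continuous_const)
  have h3 : ContinuousOn
      (fun w : (M × M) × ℝ => ln e w.1.1 w.1.2 (w.2 / dist w.1.1 w.1.2)) U := by
    intro w hw
    rw [hU] at hw
    have h4 : ContinuousAt (fun w : (M × M) × ℝ => (w.1, w.2 / dist w.1.1 w.1.2)) w :=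
      continuousAt_fst.prodMk (continuousAt_snd.div h1.continuousAt hw.1.ne')
    exact (ContinuousAt.comp (f := fun w : (M × M) × ℝ => (w.1, w.2 / dist w.1.1 w.1.2))
      (continuousAt_ln h.toGeo (h.lg_mem_inj hw.2) _) h4).continuousWithinAt
  refine ⟨U.piecewise _ fun w => w.1.1, h3.measurable_piecewise (by fun_prop) h2.measurableSet,
    fun x y s h4 h5 => ?_⟩
  exact piecewise_eq_of_mem _ _ _ (hU ▸ ⟨h4, h5⟩)

theorem pair_fin (h : Bl e r D) {n : ℕ} (hn : ∀ x, Module.finrank ℝ (T x) = n) :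
    IsFiniteMeasure (μHE[n] : Measure M) := by
  rcases isEmpty_or_nonempty M with h1 | h1
  · infer_instance
  · exact h.isFiniteMeasure hn

omit [CompactSpace M] [∀ x, FiniteDimensional ℝ (T x)] [MeasurableSpace M] [BorelSpace M]
  [∀ x, MeasurableSpace (T x)] [∀ x, BorelSpace (T x)] in
theorem pair_norm {x : M} (v : sphere (0 : T x) 1) {t : ℝ} (ht : 0 < t) :
    ‖t • (v : T x)‖ = t := by
  rw [norm_smul, norm_eq_of_mem_sphere, Real.norm_of_nonneg ht.le, mul_one]

omit [CompactSpace M] [∀ x, FiniteDimensional ℝ (T x)] [MeasurableSpace M] [BorelSpace M]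
  [∀ x, MeasurableSpace (T x)] [∀ x, BorelSpace (T x)] in
theorem pair_dist (h : Bl e r D) {x : M} (v : sphere (0 : T x) 1) {t : ℝ} (ht : t ∈ Ioo 0 D) :
    dist x (e x (t • (v : T x))) = t := by
  rw [h.min x _ ((pair_norm v ht.1).trans_le ht.2.le), pair_norm v ht.1]

omit [MeasurableSpace M] [BorelSpace M] [∀ x, MeasurableSpace (T x)] [∀ x, BorelSpace (T x)] in
theorem pair_geo (h : Bl e r D) {c : (M × M) × ℝ → M}
    (hc : ∀ x y s, 0 < dist x y → dist x y < D → c ((x, y), s) = ln e x y (s / dist x y))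
    {x : M} (v : sphere (0 : T x) 1) {t : ℝ} (ht : t ∈ Ioo 0 D) (s : ℝ) :
    c ((x, e x (t • (v : T x))), s) = e x (s • (v : T x)) := by
  have h1 := pair_dist h v ht
  rw [hc _ _ _ (h1.symm ▸ ht.1) (h1.symm ▸ ht.2), h1, ln,
    h.lg_exp' ((pair_norm v ht.1).trans_lt ht.2), smul_smul, div_mul_cancel₀ _ ht.1.ne']

omit [∀ x, MeasurableSpace (T x)] [∀ x, BorelSpace (T x)] in
theorem pair_meas (h : Bl e r D) (m : ℕ) {X : Type*} [MeasurableSpace X] {f g : X → M}
    (hf : Measurable f) (hg : Measurable g) {G : X → ℝ≥0∞} (hG : Measurable G) :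
    Measurable fun w => if 0 < dist (f w) (g w) ∧ dist (f w) (g w) < D then
      G w / ENNReal.ofReal (dens e m D (f w) (g w)) else 0 := by
  have h1 : Measurable fun w => dist (f w) (g w) := hf.dist hg
  refine Measurable.ite ((measurableSet_lt measurable_const h1).inter
    (measurableSet_lt h1 measurable_const)) (hG.div ?_) measurable_const
  exact ((h.measurable_dens m).comp (hf.prodMk hg)).ennreal_ofReal

/-- Exchange of the integrals over the sphere and over the time. -/
theorem pair_swap (h : Geo e r) {F : M × M → ℝ≥0∞} (hF : Measurable F) {a b : ℝ → ℝ}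
    (ha : Continuous a) (hb : Continuous b) (x : M) (S : Set ℝ) :
    ∫⁻ v : sphere (0 : T x) 1, (∫⁻ s in S, F (e x (a s • (v : T x)), e x (b s • (v : T x))))
      ∂(volume : Measure (T x)).toSphere = ∫⁻ s in S, Hs e F (a s) (b s) x := by
  have h1 := h.continuous_exp x
  have h2 : Continuous fun w : sphere (0 : T x) 1 × ℝ =>
      (e x (a w.2 • (w.1 : T x)), e x (b w.2 • (w.1 : T x))) := by fun_prop
  exact lintegral_lintegral_swap (hF.comp h2.measurable).aemeasurable

/-- The basic formula: by `polar`, for a measurable `G` and every `x`, the integral over `y` of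
`G (x, y) / dens x y` is the integral over `v` and `t ∈ (0, D)` of `G (x, e x (t • v))`. -/
theorem Bl.polar_div (h : Bl e r D) {m : ℕ} {x : M} (hm : Module.finrank ℝ (T x) = m + 1)
    {G : M → ℝ≥0∞} (hG : Measurable G) :
    ∫⁻ y, (if 0 < dist x y ∧ dist x y < D then G y / ENNReal.ofReal (dens e m D x y) else 0)
        ∂μHE[m + 1] =
      ∫⁻ v : sphere (0 : T x) 1, (∫⁻ t in Ioo 0 D, G (e x (t • (v : T x))))
        ∂(volume : Measure (T x)).toSphere := by
  rw [h.polar hm (pair_meas h m measurable_const measurable_id' hG)]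
  refine lintegral_congr fun v => setLIntegral_congr_fun measurableSet_Ioo fun t ht => ?_
  have h1 := pair_dist h v ht
  have h2 : 0 < dist x (e x (t • (v : T x))) := h1.symm ▸ ht.1
  have h3 : dist x (e x (t • (v : T x))) < D := h1.symm ▸ ht.2
  rw [if_pos ⟨h2, h3⟩]
  exact ENNReal.div_mul_cancel (ENNReal.ofReal_pos.mpr (h.dens_pos m h2 h3)).ne'
    ENNReal.ofReal_ne_top

theorem pair_D (h : Bl e r D) {m : ℕ} {x : M} (hm : Module.finrank ℝ (T x) = m + 1)
    {c : (M × M) × ℝ → M} (hc₀ : Measurable c)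
    (hc : ∀ x y s, 0 < dist x y → dist x y < D → c ((x, y), s) = ln e x y (s / dist x y))
    {F : M × M → ℝ≥0∞} (hF : Measurable F) (a b : ℝ) :
    ∫⁻ y, (if 0 < dist x y ∧ dist x y < D then F (c ((x, y), a), c ((x, y), b)) /
      ENNReal.ofReal (dens e m D x y) else 0) ∂μHE[m + 1] =
      ENNReal.ofReal D * Hs e F a b x := by
  have h1 : Measurable fun y => F (c ((x, y), a), c ((x, y), b)) := by fun_prop
  rw [h.polar_div hm h1, Hs, ← lintegral_const_mul' _ _ ENNReal.ofReal_ne_top]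
  refine lintegral_congr fun v => ?_
  rw [setLIntegral_congr_fun (g := fun _ => F (e x (a • (v : T x)), e x (b • (v : T x))))
    measurableSet_Ioo fun t ht => by simp only [pair_geo h hc v ht], setLIntegral_const,
    Real.volume_Ioo, sub_zero, mul_comm]

/-- `D * Hs F a b x` is the integral over `y` of `F (c ((x, y), a), c ((x, y), b)) / dens x y`
(`polar_div`); `Measurable.lintegral_prod_right'`. -/
theorem Bl.measurable_Hs (h : Bl e r D) {m : ℕ} (hm : ∀ x, Module.finrank ℝ (T x) = m + 1)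
    {F : M × M → ℝ≥0∞} (hF : Measurable F) :
    Measurable fun w : (ℝ × ℝ) × M => Hs e F w.1.1 w.1.2 w.2 := by
  obtain ⟨c, hc₀, hc⟩ := h.exists_geo_meas
  have := pair_fin h hm
  have h1 : Measurable fun z : ((ℝ × ℝ) × M) × M =>
      F (c ((z.1.2, z.2), z.1.1.1), c ((z.1.2, z.2), z.1.1.2)) := by fun_prop
  have h2 := (pair_meas h m (f := fun z : ((ℝ × ℝ) × M) × M => z.1.2) (g := fun z => z.2)
    (by fun_prop) (by fun_prop) h1).lintegral_prod_right' (ν := μHE[m + 1])
  have h3 := h2.const_mul (ENNReal.ofReal D)⁻¹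
  have h4 : ∀ w : (ℝ × ℝ) × M, Hs e F w.1.1 w.1.2 w.2 =
      (ENNReal.ofReal D)⁻¹ * (ENNReal.ofReal D * Hs e F w.1.1 w.1.2 w.2) := fun w => by
    rw [← mul_assoc, ENNReal.inv_mul_cancel (ENNReal.ofReal_pos.mpr h.dpos).ne'
      ENNReal.ofReal_ne_top, one_mul]
  simp only [pair_D h (hm _) hc₀ hc hF] at h3
  exact (funext h4).symm ▸ h3

theorem Hs_neg (h : Geo e r) {F : M × M → ℝ≥0∞} (hF : Measurable F) (a b : ℝ) (x : M) :
    Hs e F (-a) (-b) x = Hs e F a b x := by
  have h1 := h.continuous_exp x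
  have h2 : Continuous fun v : T x => (e x (a • v), e x (b • v)) := by fun_prop
  have h3 := lintegral_sphere_neg (f := fun v : T x => F (e x (a • v), e x (b • v)))
    (hF.comp h2.measurable)
  simp only [smul_neg, ← neg_smul] at h3
  exact h3

/-- The left side is the integral over pairs of `F (y, c ((x, y), dist x y + u)) / dens x y`;
swap `x` and `y` (`lintegral_lintegral_swap`, `dens_symm`, `ln_swap`): it becomes the integral of
`F (y, c ((y, x), -u)) / dens y x`, which is `D * ∫ Hs F 0 (-u)`; `Hs_neg`. -/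
theorem Bl.liouville_half (h : Bl e r D) {m : ℕ} (hm : ∀ x, Module.finrank ℝ (T x) = m + 1)
    {F : M × M → ℝ≥0∞} (hF : Measurable F) (u : ℝ) :
    ∫⁻ x, (∫⁻ s in Ioo 0 D, Hs e F s (s + u) x) ∂μHE[m + 1] =
      ENNReal.ofReal D * ∫⁻ x, Hs e F 0 u x ∂μHE[m + 1] := by
  obtain ⟨c, hc₀, hc⟩ := h.exists_geo_meas
  have := pair_fin h hm
  have h1 : ∀ x : M, ∫⁻ s in Ioo 0 D, Hs e F s (s + u) x =
      ∫⁻ y, (if 0 < dist x y ∧ dist x y < D then F (y, c ((x, y), dist x y + u)) /
        ENNReal.ofReal (dens e m D x y) else 0) ∂μHE[m + 1] := fun x => by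
    have h2 : Measurable fun y => F (y, c ((x, y), dist x y + u)) := by fun_prop
    rw [h.polar_div (hm x) h2, ← pair_swap h.toGeo hF (a := fun s => s) (b := fun s => s + u)
      (by fun_prop) (by fun_prop)]
    refine lintegral_congr fun v => setLIntegral_congr_fun measurableSet_Ioo fun t ht => ?_
    simp only [pair_geo h hc v ht, pair_dist h v ht]
  have h2 : Measurable fun z : M × M => F (z.2, c ((z.1, z.2), dist z.1 z.2 + u)) := by fun_prop
  simp only [h1]
  rw [lintegral_lintegral_swap (pair_meas h m measurable_fst measurable_snd h2).aemeasurable,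
    ← lintegral_const_mul' _ _ ENNReal.ofReal_ne_top]
  refine lintegral_congr fun y => ?_
  rw [← Hs_neg h.toGeo hF, neg_zero, ← pair_D h (hm y) hc₀ hc hF]
  refine lintegral_congr fun x => ?_
  rw [dist_comm y x, h.dens_symm m y x]
  refine if_ctx_congr Iff.rfl (fun h3 => ?_) fun _ => rfl
  have h4 : 0 < dist y x := dist_comm x y ▸ h3.1
  have h5 : dist y x < D := dist_comm x y ▸ h3.2
  have h6 : (dist x y + u) / dist x y = 1 - -u / dist y x := by
    have h7 := h3.1.ne'
    rw [dist_comm y x]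
    field_simp
    ring
  rw [hc x y _ h3.1 h3.2, hc y x _ h4 h5, hc y x _ h4 h5, h.ln_swap h3.2 (-u / dist y x), h6,
    zero_div, ln, ln, zero_smul, h.zero]

/-- Split `(-D, D)` at `0`; on `(-D, 0)` use `Hs_neg` and `liouville_half` for `-u`; exchange the
integrals over the sphere and over `s`. -/
theorem Bl.liouville (h : Bl e r D) {m : ℕ} (hm : ∀ x, Module.finrank ℝ (T x) = m + 1)
    {F : M × M → ℝ≥0∞} (hF : Measurable F) (u : ℝ) :
    ∫⁻ x, (∫⁻ v : sphere (0 : T x) 1, (∫⁻ s in Ioo (-D) D,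
        F (e x (s • (v : T x)), e x ((s + u) • (v : T x)))) ∂(volume : Measure (T x)).toSphere)
        ∂μHE[m + 1] =
      ENNReal.ofReal (2 * D) * ∫⁻ x, Hs e F 0 u x ∂μHE[m + 1] := by
  have hD := h.dpos
  have h1 : ∀ x : M, ∫⁻ v : sphere (0 : T x) 1, (∫⁻ s in Ioo (-D) D,
        F (e x (s • (v : T x)), e x ((s + u) • (v : T x)))) ∂(volume : Measure (T x)).toSphere =
      (∫⁻ s in Ioo 0 D, Hs e F s (s + -u) x) + ∫⁻ s in Ioo 0 D, Hs e F s (s + u) x := fun x => by
    have h2 := (Measure.measurePreserving_neg (volume : Measure ℝ)).setLIntegral_comp_preimage_emb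
      measurableEmbedding_neg (fun s => Hs e F s (s + u) x) (Ioo (-D) 0)
    have h3 : Neg.neg ⁻¹' Ioo (-D) 0 = Ioo 0 D := by
      ext s
      simp [and_comm]
    rw [pair_swap h.toGeo hF (a := fun s => s) (b := fun s => s + u) (by fun_prop) (by fun_prop),
      ← Ioo_union_Ico_eq_Ioo (neg_lt_zero.mpr hD) hD.le, lintegral_union measurableSet_Ico
        (disjoint_left.mpr fun s h4 h5 => absurd h4.2 (not_lt.mpr h5.1)),
      ← setLIntegral_congr Ioo_ae_eq_Ico, ← h2, h3]
    congr 1
    refine lintegral_congr fun s => ?_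
    rw [← Hs_neg h.toGeo hF s, neg_add, neg_neg]
  have h2 : Measurable fun z : M × ℝ => Hs e F z.2 (z.2 + u) z.1 :=
    (h.measurable_Hs hm hF).comp (f := fun z : M × ℝ => ((z.2, z.2 + u), z.1)) (by fun_prop)
  simp only [h1]
  rw [lintegral_add_right _ h2.lintegral_prod_right', h.liouville_half hm hF,
    h.liouville_half hm hF, two_mul, ENNReal.ofReal_add hD.le hD.le, add_mul]
  congr 2
  refine lintegral_congr fun x => ?_
  rw [← Hs_neg h.toGeo hF, neg_zero, neg_neg]

/-- `polar` and two exchanges of integrals. -/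
theorem Bl.lintegral_pair (h : Bl e r D) {m : ℕ} (hm : ∀ x, Module.finrank ℝ (T x) = m + 1)
    {F : M × M → ℝ≥0∞} (hF : Measurable F) :
    ∫⁻ x, (∫⁻ y, F (x, y) ∂μHE[m + 1]) ∂μHE[m + 1] = ∫⁻ u in Ioo 0 D,
      ∫⁻ x, Hs e (fun z => F z * ENNReal.ofReal (dens e m D z.1 z.2)) 0 u x ∂μHE[m + 1] := by
  have := pair_fin h hm
  have h1 : Measurable fun z : M × M => F z * ENNReal.ofReal (dens e m D z.1 z.2) :=
    hF.mul (h.measurable_dens m).ennreal_ofReal
  have h2 : ∀ x : M, ∫⁻ y, F (x, y) ∂μHE[m + 1] = ∫⁻ u in Ioo 0 D,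
      Hs e (fun z => F z * ENNReal.ofReal (dens e m D z.1 z.2)) 0 u x := fun x => by
    rw [h.polar (hm x) (f := fun y => F (x, y)) (by fun_prop),
      ← pair_swap h.toGeo h1 (a := fun _ => 0) (b := fun s => s) (by fun_prop) (by fun_prop)]
    simp only [zero_smul, h.zero]
  have h3 : Measurable fun z : M × ℝ =>
      Hs e (fun z => F z * ENNReal.ofReal (dens e m D z.1 z.2)) 0 z.2 z.1 :=
    (h.measurable_Hs hm h1).comp (f := fun z : M × ℝ => ((0, z.2), z.1)) (by fun_prop)
  simp only [h2]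
  exact lintegral_lintegral_swap h3.aemeasurable

end Vale.Agent.P231
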