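import Vale.Agent.P231.ClB
import Vale.Agent.P231.Bi
import Vale.Agent.P231.Line
import Vale.Agent.P231.AbsB

/-! The subspaces are the links of the cut points. -/

open scoped ContDiff Topology Matrix
open Filter Set

noncomputable section

namespace Vale.Agent.P231

open Vale.Agent.P234

variable {M : Type*} [MetricSpace M] [CompactSpace M] {T : M → Type*}
  [∀ x, NormedAddCommGroup (T x)] [∀ x, InnerProductSpace ℝ (T x)]
  [∀ x, FiniteDimensional ℝ (T x)] {e : ∀ x, T x → M} {r D : ℝ}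

variable {x : M} {P : T x →L[ℝ] T x →L[ℝ] T x →L[ℝ] T x}

/-- Let `t → D` in `RigP` (continuity from `exists_metric`):
`D² ‖Lmap ξ‖² = D² ⟪ξ, v⟫² + κ⁻² (‖ξ‖² - ⟪π ξ, ξ⟫)` and `‖ξ‖² - ⟪π ξ, ξ⟫ = ‖ξ - π ξ‖²`. -/
theorem Bl.ker_rig (h : Bl e r D) (hP : Pre P) (hR : RigP e D x P) {v : T x} (hv : ‖v‖ = 1)
    (ξ : T x) : Lmap e x (D • v) (e x (D • v)) ξ = 0 ↔ P v v ξ = ξ ∧ inner ℝ ξ v = 0 := by
  have hD := h.dpos
  obtain ⟨G, hG, hGe⟩ := exists_metric h.toGeo x
  obtain ⟨κ, hκ⟩ : ∃ κ : ℝ, κ = Real.pi / (2 * D) := ⟨_, rfl⟩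
  have hκ0 : 0 < κ := hκ ▸ div_pos Real.pi_pos (by linarith)
  have hκD : κ * D = Real.pi / 2 := by
    rw [hκ]
    field_simp
  have c0 : Continuous fun t : ℝ => G (t • v) := hG.continuous.comp (by fun_prop)
  have c1 : Continuous fun t : ℝ => t ^ 2 * G (t • v) ξ ξ :=
    (continuous_pow 2).mul ((c0.clm_apply continuous_const).clm_apply continuous_const)
  have c2 : Continuous fun t : ℝ => Gq κ t v ξ (inner ℝ (P v v ξ) ξ) := by
    unfold Gq
    fun_prop
  have h1 : EqOn (fun t : ℝ => t ^ 2 * G (t • v) ξ ξ)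
      (fun t : ℝ => Gq κ t v ξ (inner ℝ (P v v ξ) ξ)) (Ioo 0 D) := by
    intro t ht
    have := hR v hv t ht ξ
    rw [← hκ, ← real_inner_self_eq_norm_sq, ← hGe] at this
    exact this
  have h2 := h1.closure c1 c2 (by
    rw [closure_Ioo hD.ne]
    exact ⟨hD.le, le_rfl⟩ : D ∈ closure (Ioo 0 D))
  have h3 : ‖ξ‖ ^ 2 - inner ℝ (P v v ξ) ξ = ‖ξ - P v v ξ‖ ^ 2 := by
    have a1 : inner ℝ (P v v ξ) (P v v ξ) = inner ℝ ξ (P v v ξ) := by
      rw [hP.adj, hP.idem, hv, one_pow, one_smul]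
    rw [norm_sub_sq_real, ← real_inner_self_eq_norm_sq (P v v ξ), a1, real_inner_comm ξ]
    ring
  have h4 : D ^ 2 * ‖Lmap e x (D • v) (e x (D • v)) ξ‖ ^ 2 =
      D ^ 2 * inner ℝ ξ v ^ 2 + (1 / κ) ^ 2 * ‖ξ - P v v ξ‖ ^ 2 := by
    have a1 : D ^ 2 * G (D • v) ξ ξ = Gq κ D v ξ (inner ℝ (P v v ξ) ξ) := h2
    rw [hGe, real_inner_self_eq_norm_sq, Gq, hκD, Real.sin_pi_div_two, Real.cos_pi_div_two,
      h3] at a1
    rw [a1]
    ring
  have p1 : 0 < D ^ 2 := by positivity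
  have p2 : 0 < (1 / κ) ^ 2 := by positivity
  constructor
  · intro h5
    rw [h5, norm_zero] at h4
    have q1 : 0 ≤ D ^ 2 * inner ℝ ξ v ^ 2 := by positivity
    have q2 : 0 ≤ (1 / κ) ^ 2 * ‖ξ - P v v ξ‖ ^ 2 := by positivity
    have q3 : D ^ 2 * inner ℝ ξ v ^ 2 = 0 := by linarith
    have q4 : (1 / κ) ^ 2 * ‖ξ - P v v ξ‖ ^ 2 = 0 := by linarith
    have q5 := pow_eq_zero_iff two_ne_zero |>.1 ((mul_eq_zero.1 q3).resolve_left p1.ne')
    have q6 := pow_eq_zero_iff two_ne_zero |>.1 ((mul_eq_zero.1 q4).resolve_left p2.ne')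
    exact ⟨(sub_eq_zero.1 (norm_eq_zero.1 q6)).symm, q5⟩
  · rintro ⟨h5, h6⟩
    rw [h5, h6, sub_self, norm_zero] at h4
    have q3 : D ^ 2 * ‖Lmap e x (D • v) (e x (D • v)) ξ‖ ^ 2 = 0 := by
      rw [h4]
      ring
    exact norm_eq_zero.1
      (pow_eq_zero_iff two_ne_zero |>.1 ((mul_eq_zero.1 q3).resolve_left p1.ne'))

theorem parta_ode {φ : ℝ → ℝ} {a b : ℝ} (hφ : ∀ s ∈ Ioo a b, HasDerivAt φ 0 s) {s t : ℝ}
    (hs : s ∈ Ioo a b) (ht : t ∈ Ioo a b) : φ s = φ t :=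
  isOpen_Ioo.is_const_of_deriv_eq_zero isPreconnected_Ioo
    (fun u hu => (hφ u hu).differentiableAt.differentiableWithinAt)
    (fun u hu => (hφ u hu).deriv) hs ht

/-- By `bi`, the function `s ↦ dist (e x (c s)) (e x (c a))` has derivative zero. -/
theorem parta_const (h : Geo e r) {c c' : ℝ → T x} {a b : ℝ}
    (hc : ∀ s ∈ Ioo a b, HasDerivAt c (c' s) s)
    (h0 : ∀ s ∈ Ioo a b, Lmap e x (c s) (e x (c s)) (c' s) = 0) {s t : ℝ} (hs : s ∈ Ioo a b)
    (ht : t ∈ Ioo a b) : e x (c s) = e x (c t) := by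
  have key : ∀ s ∈ Ioo a b, HasDerivAt (fun u => dist (e x (c u)) (e x (c t))) 0 s := by
    intro s hs
    have hL := h0 s hs
    have hb := fun η (hη : 0 < η) => bi h x (c s) hη
    generalize Lmap e x (c s) (e x (c s)) = L at hL hb
    have a1 : HasDerivAt (fun u => L (c u)) 0 s :=
      hL ▸ L.hasFDerivAt.comp_hasDerivAt s (hc s hs)
    have a2 : (fun u => ‖L (c u - c s)‖) =o[𝓝 s] fun u => u - s := by
      have := hasDerivAt_iff_isLittleO.1 a1
      simp only [smul_zero, sub_zero, ← map_sub] at this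
      exact this.norm_left
    have a3 : (fun u => c u - c s) =O[𝓝 s] fun u => u - s := (hc s hs).isBigO_sub
    have a4 : Tendsto (fun u => (c u, c s)) (𝓝 s) (𝓝 (c s, c s)) :=
      (hc s hs).continuousAt.tendsto.prodMk_nhds tendsto_const_nhds
    have a5 : (fun u => dist (e x (c u)) (e x (c s)) - ‖L (c u - c s)‖) =o[𝓝 s]
        fun u => c u - c s :=
      Asymptotics.IsLittleO.of_bound fun η hη => a4.eventually (hb η hη)
    have a6 : (fun u => dist (e x (c u)) (e x (c s))) =o[𝓝 s] fun u => u - s := by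
      have := (a5.trans_isBigO a3).add a2
      simpa only [sub_add_cancel] using this
    rw [hasDerivAt_iff_isLittleO]
    refine Asymptotics.IsBigO.trans_isLittleO (Asymptotics.IsBigO.of_bound' ?_) a6
    refine Eventually.of_forall fun u => ?_
    rw [smul_zero, sub_zero, Real.norm_eq_abs, Real.norm_of_nonneg dist_nonneg]
    exact abs_dist_sub_le _ _ _
  have h1 := parta_ode key hs ht
  rw [dist_self] at h1
  exact dist_eq_zero.1 h1

theorem parta_unit (h : Bl e r D) (hP : Pre P) (hR : RigP e D x P) {u : T x} (hu : ‖u‖ = 1)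
    {W : Submodule ℝ (T x)} (hW : ∀ y : T x, ‖y‖ = 1 → (e x (D • y) = e x (D • u) ↔ y ∈ W))
    {ξ : T x} (hξ : ξ ∈ W) (h1 : ‖ξ‖ = 1) (h2 : inner ℝ u ξ = 0) : P u u ξ = ξ := by
  have hD := h.dpos
  have huW : u ∈ W := (hW u hu).1 rfl
  have a1 : ∀ s : ℝ, ‖Real.cos s • u + Real.sin s • ξ‖ = 1 := by
    intro s
    have : ‖Real.cos s • u + Real.sin s • ξ‖ ^ 2 = 1 := by
      rw [norm_add_sq_real, real_inner_smul_left, real_inner_smul_right, h2, norm_smul, norm_smul,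
        hu, h1, mul_one, mul_one, Real.norm_eq_abs, Real.norm_eq_abs, sq_abs, sq_abs]
      linear_combination Real.cos_sq_add_sin_sq s
    exact (pow_eq_one_iff_of_nonneg (norm_nonneg _) two_ne_zero).1 this
  have a2 : ∀ s : ℝ, e x (D • (Real.cos s • u + Real.sin s • ξ)) = e x (D • u) := fun s =>
    (hW _ (a1 s)).2 (W.add_mem (W.smul_mem _ huW) (W.smul_mem _ hξ))
  have a3 : HasDerivAt (fun s : ℝ => D • (Real.cos s • u + Real.sin s • ξ)) (D • ξ) 0 := by
    have := (((Real.hasDerivAt_cos 0).smul_const u).add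
      ((Real.hasDerivAt_sin 0).smul_const ξ)).const_smul D
    simp only [Real.sin_zero, Real.cos_zero, neg_zero, zero_smul, one_smul, zero_add] at this
    exact this
  have a4 : HasFDerivAt (fun a' => lg e (e x (D • u)) (e x a'))
      (Lmap e x (D • u) (e x (D • u))) (D • u) :=
    ((h.toGeo.contDiffAt_lg_self x (D • u)).differentiableAt (by simp)).hasFDerivAt
  have a5 := a4.comp_hasDerivAt_of_eq 0 a3 (by simp)
  have a6 : ((fun a' => lg e (e x (D • u)) (e x a')) ∘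
      fun s : ℝ => D • (Real.cos s • u + Real.sin s • ξ)) =
      fun _ => lg e (e x (D • u)) (e x (D • u)) := by
    funext s
    simp only [Function.comp, a2]
  rw [a6] at a5
  have a7 := a5.unique (hasDerivAt_const _ _)
  rw [map_smul] at a7
  exact ((h.ker_rig hP hR hu ξ).1 ((smul_eq_zero.1 a7).resolve_left hD.ne')).1

theorem parta_fix (h : Bl e r D) (hP : Pre P) (hR : RigP e D x P) {u : T x} (hu : ‖u‖ = 1)
    {W : Submodule ℝ (T x)} (hW : ∀ y : T x, ‖y‖ = 1 → (e x (D • y) = e x (D • u) ↔ y ∈ W))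
    {ξ : T x} (hξ : ξ ∈ W) : P u u ξ = ξ := by
  have huW : u ∈ W := (hW u hu).1 rfl
  have hs : P u u u = u := by rw [hP.self, hu, one_pow, one_smul]
  obtain ⟨y, hy⟩ : ∃ y, y = ξ - inner ℝ u ξ • u := ⟨_, rfl⟩
  have a1 : y ∈ W := hy ▸ W.sub_mem hξ (W.smul_mem _ huW)
  have a2 : inner ℝ u y = 0 := by
    rw [hy, inner_sub_right, real_inner_smul_right, real_inner_self_eq_norm_sq, hu]
    ring
  have a3 : P u u y = y := by
    rcases eq_or_ne y 0 with h0 | h0
    · rw [h0, map_zero]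
    have hy0 : ‖y‖⁻¹ ≠ 0 := inv_ne_zero (norm_ne_zero_iff.2 h0)
    have b1 : ‖‖y‖⁻¹ • y‖ = 1 := by
      rw [norm_smul, norm_inv, norm_norm, inv_mul_cancel₀ (norm_ne_zero_iff.2 h0)]
    have b2 := parta_unit h hP hR hu hW (W.smul_mem ‖y‖⁻¹ a1) b1
      (by rw [real_inner_smul_right, a2, mul_zero])
    rw [map_smul] at b2
    exact smul_right_injective _ hy0 b2
  rw [hy, map_sub, map_smul, hs] at a3
  exact sub_left_injective a3

theorem parta_mem (h : Bl e r D) (hP : Pre P) (hR : RigP e D x P) {u : T x} (hu : ‖u‖ = 1)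
    {W : Submodule ℝ (T x)} (hW : ∀ y : T x, ‖y‖ = 1 → (e x (D • y) = e x (D • u) ↔ y ∈ W))
    {η : T x} (hη : P u u η = η) : η ∈ W := by
  have huW : u ∈ W := (hW u hu).1 rfl
  have hf : ContDiffAt ℝ 1 (fun y : T x => P y y η - inner ℝ y η • y) u :=
    (((P.contDiff.clm_apply contDiff_id).clm_apply contDiff_const).sub
      ((contDiff_id.inner ℝ contDiff_const).smul contDiff_id)).contDiffAt
  obtain ⟨w, hw0, ε, hε, hw⟩ :=
    hf.exists_forall_mem_closedBall_exists_eq_forall_mem_Ioo_hasDerivAt₀ 0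
  have h0 : (0 : ℝ) ∈ Ioo (0 - ε) (0 + ε) := ⟨by linarith, by linarith⟩
  have a1 : ∀ y : T x, inner ℝ (P y y η - inner ℝ y η • y) y = 0 := by
    intro y
    rw [inner_sub_left, hP.adj, hP.self, real_inner_smul_left, real_inner_smul_right,
      real_inner_self_eq_norm_sq, real_inner_comm y η]
    ring
  have a2 : ∀ s ∈ Ioo (0 - ε) (0 + ε), ‖w s‖ = 1 := by
    intro s hs
    have b1 : ∀ s ∈ Ioo (0 - ε) (0 + ε), HasDerivAt (fun t => inner ℝ (w t) (w t)) 0 s := by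
      intro s hs
      have := (hw s hs).inner ℝ (hw s hs)
      rwa [real_inner_comm _ (w s), a1, add_zero] at this
    have b2 := parta_ode b1 hs h0
    rw [real_inner_self_eq_norm_sq, real_inner_self_eq_norm_sq, hw0, hu, one_pow] at b2
    exact (pow_eq_one_iff_of_nonneg (norm_nonneg _) two_ne_zero).1 b2
  have a3 : ∀ s ∈ Ioo (0 - ε) (0 + ε), w s ∈ W := by
    intro s hs
    refine (hW _ (a2 s hs)).1 ?_
    rw [← hw0]
    refine parta_const h.toGeo (c := fun t => D • w t)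
      (c' := fun t => D • (P (w t) (w t) η - inner ℝ (w t) η • w t))
      (fun t ht => (hw t ht).const_smul D) (fun t ht => ?_) hs h0
    rw [map_smul, (h.ker_rig hP hR (a2 t ht) _).2 ⟨?_, a1 _⟩, smul_zero]
    rw [map_sub, map_smul, hP.idem, hP.self, a2 t ht, one_pow, one_smul, one_smul]
  have a4 := (hw 0 h0).tendsto_slope_zero
  rw [hw0, hη] at a4
  have a5 : η - inner ℝ u η • u ∈ (W : Set (T x)) := by
    refine W.closed_of_finiteDimensional.mem_of_tendsto a4 ?_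
    filter_upwards [mem_nhdsWithin_of_mem_nhds (isOpen_Ioo.mem_nhds h0)] with t ht
    rw [zero_add]
    exact W.smul_mem _ (W.sub_mem (a3 t ht) huW)
  have a6 := W.add_mem a5 (W.smul_mem (inner ℝ u η) huW)
  rwa [sub_add_cancel] at a6

/-- `Bl.link` for the points `e x (D • u)` and `x` gives `W`; claim: `W` is the set of fixed
points of `P u u`. If `ξ ∈ W` is a unit vector orthogonal to `u`, `e x` is constant on the curve
`D • (cos s • u + sin s • ξ)`, so `Lmap ξ = 0` (chain rule) and `ker_rig` applies. Conversely let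
`P u u η = η`, and solve `w' = P w w η - ⟪w, η⟫ • w`, `w 0 = u` near `0`
(`ContDiffAt.exists_forall_mem_closedBall_exists_eq_forall_mem_Ioo_hasDerivAt₀`). Then `‖w‖ = 1`,
`w'` is in the kernel, `parta_const` gives `w s ∈ W`, so `w' 0 = η - ⟪u, η⟫ • u ∈ W`. -/
theorem Bl.same_iff (h : Bl e r D) (hP : Pre P) (hR : RigP e D x P) {u w : T x} (hu : ‖u‖ = 1)
    (hw : ‖w‖ = 1) : e x (D • w) = e x (D • u) ↔ P u u w = w := by
  have hD := h.dpos
  have hn : ∀ y : T x, ‖y‖ = 1 → ‖D • y‖ = D := fun y hy => by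
    rw [norm_smul, hy, mul_one, Real.norm_of_nonneg hD.le]
  have hd : dist (e x (D • u)) x = D := by
    rw [dist_comm, h.min x _ (hn u hu).le, hn u hu]
  obtain ⟨W, hW⟩ := h.link hd
  have h1 : ∀ y : T x, ‖y‖ = 1 → (e x (D • y) = e x (D • u) ↔ y ∈ W) := by
    intro y hy
    have a1 : D • y ∈ Lk e D (e x (D • u)) x ↔ D • y ∈ W ∧ ‖D • y‖ = D := by
      rw [hW]
      rfl
    rw [← W.smul_mem_iff hD.ne']
    exact ⟨fun a => (a1.1 ⟨hn y hy, a⟩).1, fun a => (a1.2 ⟨a, hn y hy⟩).2⟩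
  rw [h1 w hw]
  exact ⟨parta_fix h hP hR hu h1, parta_mem h hP hR hu h1⟩

/-- By `same_iff` the symmetric idempotents `P v v`, `P w w` have the same fixed points. -/
theorem Bl.spr (h : Bl e r D) (hP : Pre P) (hR : RigP e D x P) : Spr P := by
  refine ⟨hP, fun v w hv hw hvw => ?_⟩
  have h1 := (h.same_iff hP hR hv hw).2 hvw
  have h2 : ∀ y : T x, P w w y = y ↔ P v v y = y := by
    intro y
    rcases eq_or_ne y 0 with rfl | hy
    · simp only [map_zero]
    have hy0 : ‖y‖⁻¹ ≠ 0 := inv_ne_zero (norm_ne_zero_iff.2 hy)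
    have a1 := h.same_iff hP hR hw (norm_smul_inv_norm (𝕜 := ℝ) hy)
    have a2 := h.same_iff hP hR hv (norm_smul_inv_norm (𝕜 := ℝ) hy)
    rw [h1, a2] at a1
    simp only [map_smul, RCLike.ofReal_real_eq_id, id] at a1
    rw [(smul_right_injective _ hy0).eq_iff, (smul_right_injective _ hy0).eq_iff] at a1
    exact a1.symm
  have i1 : ∀ y, P w w (P w w y) = P w w y := fun y => by rw [hP.idem, hw, one_pow, one_smul]
  have i2 : ∀ y, P v v (P v v y) = P v v y := fun y => by rw [hP.idem, hv, one_pow, one_smul]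
  ext y
  refine ext_inner_right ℝ fun z => ?_
  rw [← (h2 _).1 (i1 y), hP.adj v v, hP.adj w w, (h2 _).2 (i2 z), hP.adj v v]

end Vale.Agent.P231
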