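import Vale.Agent.P231.PartA
import Vale.Agent.P231.Sym

/-! The model function is a continuous function on the manifold. -/

open scoped ContDiff Topology Matrix
open Filter Set

noncomputable section

namespace Vale.Agent.P231

open Vale.Agent.P234

variable {M : Type*} [MetricSpace M] [CompactSpace M] {T : M → Type*}
  [∀ x, NormedAddCommGroup (T x)] [∀ x, InnerProductSpace ℝ (T x)]
  [∀ x, FiniteDimensional ℝ (T x)] {e : ∀ x, T x → M} {r D : ℝ}

variable {x : M} {P : T x →L[ℝ] T x →L[ℝ] T x →L[ℝ] T x}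

/-- At `0`: `‖Sv κ a‖ ≤ |sin (κ ‖a‖)|`. -/
theorem continuous_Sv {V : Type*} [NormedAddCommGroup V] [InnerProductSpace ℝ V] (κ : ℝ) :
    Continuous (Sv κ : V → V) := by
  have h : (Sv κ : V → V) = fun a => (κ * Real.sinc (κ * ‖a‖)) • a := by
    funext a
    by_cases ha : a = 0
    · simp [Sv, ha]
    by_cases hκ : κ = 0
    · simp [Sv, hκ]
    have ha' : ‖a‖ ≠ 0 := norm_ne_zero_iff.2 ha
    rw [Sv, Real.sinc_of_ne_zero (mul_ne_zero hκ ha')]
    congr 1
    field_simp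
  rw [h]
  exact (continuous_const.mul (Real.continuous_sinc.comp
    (continuous_const.mul continuous_norm))).smul continuous_id

theorem continuous_Fn {V : Type*} [NormedAddCommGroup V] [InnerProductSpace ℝ V] (κ : ℝ)
    (P : V →L[ℝ] V →L[ℝ] V →L[ℝ] V) : Continuous fun z : V × V => Fn κ P z.1 z.2 := by
  have h1 : Continuous fun z : V × V => Sv κ z.1 := (continuous_Sv κ).comp continuous_fst
  have h2 : Continuous fun z : V × V => Sv κ z.2 := (continuous_Sv κ).comp continuous_snd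
  have h3 : Continuous fun z : V × V => P (Sv κ z.1) (Sv κ z.1) (Sv κ z.2) :=
    ((P.continuous.comp h1).clm_apply h1).clm_apply h2
  have h4 : Continuous fun z : V × V => Real.cos (κ * ‖z.1‖) := by fun_prop
  have h5 : Continuous fun z : V × V => Real.cos (κ * ‖z.2‖) := by fun_prop
  unfold Fn Fq
  exact (((h4.pow 2).mul (h5.pow 2)).add
    (((continuous_const.mul h4).mul h5).mul (h1.inner h2))).add (h3.inner h2)

theorem cos_sq_add_Sv {V : Type*} [NormedAddCommGroup V] [InnerProductSpace ℝ V] (κ : ℝ) (a : V) :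
    Real.cos (κ * ‖a‖) ^ 2 + ‖Sv κ a‖ ^ 2 = 1 := by
  by_cases ha : a = 0
  · simp [Sv, ha]
  have ha' : ‖a‖ ≠ 0 := norm_ne_zero_iff.2 ha
  rw [Sv, norm_smul, mul_pow, Real.norm_eq_abs, sq_abs, div_pow, div_mul_cancel₀ _ (pow_ne_zero 2 ha'),
    Real.cos_sq_add_sin_sq]

theorem Pre.Fn_self {V : Type*} [NormedAddCommGroup V] [InnerProductSpace ℝ V]
    {P : V →L[ℝ] V →L[ℝ] V →L[ℝ] V} (hP : Pre P) (κ : ℝ) (a : V) : Fn κ P a a = 1 := by
  have h := cos_sq_add_Sv κ a
  rw [Fn, Fq, hP.self, inner_smul_left, real_inner_self_eq_norm_sq]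
  simp only [conj_trivial]
  have h2 : (Real.cos (κ * ‖a‖) ^ 2 + ‖Sv κ a‖ ^ 2) ^ 2 = 1 := by rw [h, one_pow]
  linear_combination h2

/-- The norms agree (`min`). Below `D` the vectors agree (`lg_exp'`). At `D` the cosine
vanishes and `P u u = P u' u'` by `same_iff` and `part`. -/
theorem Bl.Fn_eq (h : Bl e r D) (hP : Spr P) (hR : RigP e D x P) {a a' : T x} (ha : ‖a‖ ≤ D)
    (ha' : ‖a'‖ ≤ D) (he : e x a = e x a') (b : T x) :
    Fn (Real.pi / (2 * D)) P a b = Fn (Real.pi / (2 * D)) P a' b := by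
  have hn : ‖a‖ = ‖a'‖ := by rw [← h.min x a ha, ← h.min x a' ha', he]
  rcases ha.lt_or_eq with h1 | h1
  · have h2 : a = a' := by rw [← h.lg_exp' h1, he, h.lg_exp' (hn ▸ h1)]
    rw [h2]
  have hD := h.dpos
  have h2 : ‖a'‖ = D := hn ▸ h1
  have h3 : Real.pi / (2 * D) * D = Real.pi / 2 := by field_simp
  have key : ∀ c : T x, ‖c‖ = D → ‖(D⁻¹ : ℝ) • c‖ = 1 ∧ D • (D⁻¹ : ℝ) • c = c ∧
      Fn (Real.pi / (2 * D)) P c b = inner ℝ (P ((D⁻¹ : ℝ) • c) ((D⁻¹ : ℝ) • c)
        (Sv (Real.pi / (2 * D)) b)) (Sv (Real.pi / (2 * D)) b) := by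
    intro c hc
    refine ⟨?_, smul_inv_smul₀ hD.ne' c, ?_⟩
    · rw [norm_smul, hc, norm_inv, Real.norm_of_nonneg hD.le, inv_mul_cancel₀ hD.ne']
    · have h4 : Sv (Real.pi / (2 * D)) c = (D⁻¹ : ℝ) • c := by
        rw [Sv, hc, h3, Real.sin_pi_div_two, one_div]
      rw [Fn, Fq, h4, hc, h3, Real.cos_pi_div_two]
      ring
  obtain ⟨a1, a2, a3⟩ := key a h1
  obtain ⟨b1, b2, b3⟩ := key a' h2
  have h5 := (h.same_iff hP.toPre hR a1 b1).1 (by rw [a2, b2, he])
  rw [a3, b3, hP.part _ _ a1 b1 h5]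

/-- `e x` restricted to the compact ball of radius `D` is a continuous surjection on a Hausdorff
space, hence a quotient map; the composite is `Fn · b` by `Fn_eq`. -/
theorem Bl.continuous_Fn_lg (h : Bl e r D) (hP : Spr P) (hR : RigP e D x P) (b : T x) :
    Continuous fun y => Fn (Real.pi / (2 * D)) P (lg e x y) b := by
  have hg := h.toGeo
  have : ProperSpace (T x) := FiniteDimensional.proper_real (T x)
  have : CompactSpace (Metric.closedBall (0 : T x) D) :=
    isCompact_iff_compactSpace.1 (isCompact_closedBall 0 D)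
  let f : Metric.closedBall (0 : T x) D → M := fun a => e x a.1
  have hf : Continuous f := (hg.continuous_exp x).comp continuous_subtype_val
  have hl : ∀ y, ‖lg e x y‖ ≤ D := fun y => (hg.norm_lg x y).trans_le (h.le x y)
  have hs : Function.Surjective f := fun y =>
    ⟨⟨lg e x y, mem_closedBall_zero_iff.2 (hl y)⟩, hg.exp_lg x y⟩
  have hq : Topology.IsQuotientMap f := hf.isClosedMap.isQuotientMap hf hs
  rw [hq.continuous_iff]
  have h1 : ((fun y => Fn (Real.pi / (2 * D)) P (lg e x y) b) ∘ f) =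
      fun a => Fn (Real.pi / (2 * D)) P a.1 b := by
    funext a
    exact h.Fn_eq hP hR (hl _) (mem_closedBall_zero_iff.1 a.2) (hg.exp_lg x _) b
  rw [h1]
  have h2 : Continuous fun a : Metric.closedBall (0 : T x) D => (a.1, b) :=
    continuous_subtype_val.prodMk continuous_const
  have h3 := (continuous_Fn (Real.pi / (2 * D)) P).comp h2
  simpa only [Function.comp_def] using h3

/-- `Gq` is even in `v` and `P (-v) (-v) = P v v`; apply `Bl.symmetric`. -/
theorem Bl.sym_rig (h : Bl e r D) (hR : RigP e D x P) :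
    ∃ σ : M ≃ᵢ M, ∀ v : T x, σ (e x v) = e x (-v) := by
  refine h.symmetric fun a ha ξ => ?_
  by_cases h0 : a = 0
  · subst h0
    rw [neg_zero]
  obtain ⟨u, hu, hau⟩ := sym_unit h0
  have hp : 0 < ‖a‖ := norm_pos_iff.2 h0
  have h1 := hR u hu ‖a‖ ⟨hp, ha⟩ ξ
  have h2 := hR (-u) (by rw [norm_neg, hu]) ‖a‖ ⟨hp, ha⟩ ξ
  have h3 : Gq (Real.pi / (2 * D)) ‖a‖ (-u) ξ (inner ℝ (P (-u) (-u) ξ) ξ) =
      Gq (Real.pi / (2 * D)) ‖a‖ u ξ (inner ℝ (P u u ξ) ξ) := by
    simp only [Gq, map_neg, neg_apply, neg_neg, inner_neg_right, neg_sq]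
  rw [h3, ← h1, smul_neg, ← hau] at h2
  exact (pow_left_inj₀ (norm_nonneg _) (norm_nonneg _) two_ne_zero).1
    (mul_left_cancel₀ (pow_ne_zero 2 hp.ne') h2)

/-- Let `σ` be given by `sym_rig`; it fixes the cut locus of `x` (`Bl.closed`). If the geodesic
meets it at two times `s ≠ t`, then `σ` fixes the unique segment between the two points (their
distance is less than `D`), hence the whole geodesic (`exists_line`, `Line.eq`, `Bl.ln_exp`; an
isometry commutes with `ln`, or use `locGeo_ext`), so it fixes `y = e x a`: `e x (-a) = e x a`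
and `a = 0`. -/
theorem Bl.cut_once (h : Bl e r D) (hR : RigP e D x P) {y : M} (h0 : 0 < dist x y)
    (h1 : dist x y < D) {w : T y} (hw : ‖w‖ < D) (hw0 : w ≠ 0) {s t : ℝ} (hs : s ∈ Icc (0 : ℝ) 1)
    (ht : t ∈ Icc (0 : ℝ) 1) (h2 : dist x (e y (s • w)) = D) (h3 : dist x (e y (t • w)) = D) :
    s = t := by
  have hg := h.toGeo
  obtain ⟨σ, hσ⟩ := h.sym_rig hR
  have hfix : ∀ z, dist x z = D → σ z = z := by
    intro z hz
    have h4 := hσ (lg e x z)
    rwa [h.closed x ((hg.norm_lg x z).trans hz), hg.exp_lg] at h4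
  by_contra hst
  have hloc : LocGeo (fun u : ℝ => σ (e y (u • w))) ‖w‖ := by
    intro t₀
    obtain ⟨δ, hδ, h4⟩ := hg.locGeo y w t₀
    exact ⟨δ, hδ, fun a b ha hb => by rw [σ.dist_eq]; exact h4 a b ha hb⟩
  obtain ⟨ρ, r1, r2⟩ := hg.flow (x := y) (v := w) (θ := s) rfl
  obtain ⟨ρ', r3, r4⟩ := hg.exists_eq_of_locGeo hloc (t₀ := s) (hfix _ h2)
  have hn : ∀ c : T (e y (s • w)), ‖c‖ = ‖w‖ → ‖(t - s) • c‖ < D := by
    intro c hc
    rw [norm_smul, hc, Real.norm_eq_abs]
    have h4 : |t - s| ≤ 1 := abs_le.2 ⟨by linarith [hs.2, ht.1], by linarith [hs.1, ht.2]⟩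
    exact (mul_le_of_le_one_left (norm_nonneg w) h4).trans_lt hw
  have h5 : e _ ((t - s) • ρ') = e _ ((t - s) • ρ) := by
    rw [← r2, ← r4, add_sub_cancel]
    exact hfix _ h3
  have h6 : (t - s) • ρ' = (t - s) • ρ := by
    rw [← h.lg_exp' (hn ρ' r3), h5, h.lg_exp' (hn ρ r1)]
  have h7 : ρ' = ρ := smul_right_injective _ (sub_ne_zero.2 (Ne.symm hst)) h6
  have h8 : σ y = y := by
    have h9 := r4 (-s)
    rw [h7, ← r2] at h9
    simpa only [add_neg_cancel, zero_smul, hg.zero] using h9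
  have h10 : ‖lg e x y‖ < D := (hg.norm_lg x y).trans_lt h1
  have h11 := hσ (lg e x y)
  rw [hg.exp_lg, h8] at h11
  have h12 : -lg e x y = lg e x y := by
    rw [← h.lg_exp' (v := -lg e x y) (by rwa [norm_neg]), ← h11]
  have h13 : lg e x y = 0 := by linear_combination (norm := module) (-1 / 2 : ℝ) • h12
  have h14 := hg.norm_lg x y
  rw [h13, norm_zero] at h14
  exact h0.ne h14

end Vale.Agent.P231
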