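import Vale.Agent.P231.AreaB

/-! Polar coordinates. -/

open scoped ContDiff Topology ENNReal
open Filter Set MeasureTheory Metric

noncomputable section

namespace Vale.Agent.P231

open Vale.Agent.P234

variable {M : Type*} [MetricSpace M] [CompactSpace M] {T : M → Type*}
  [∀ x, NormedAddCommGroup (T x)] [∀ x, InnerProductSpace ℝ (T x)]
  [∀ x, FiniteDimensional ℝ (T x)] {e : ∀ x, T x → M} {r D : ℝ}

variable [MeasurableSpace M] [BorelSpace M] [∀ x, MeasurableSpace (T x)] [∀ x, BorelSpace (T x)]

section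

variable {V : Type*} [NormedAddCommGroup V] [InnerProductSpace ℝ V] [FiniteDimensional ℝ V]
  [MeasurableSpace V] [BorelSpace V]

/-- `Measure.measurePreserving_homeomorphUnitSphereProd`, Tonelli. -/
theorem lintegral_ball_polar {m : ℕ} (hm : Module.finrank ℝ V = m + 1) {f : V → ℝ≥0∞}
    (hf : Measurable f) (R : ℝ) : ∫⁻ a in ball (0 : V) R, f a =
      ∫⁻ v : sphere (0 : V) 1, (∫⁻ t in Ioo 0 R, ENNReal.ofReal (t ^ m) * f (t • (v : V)))
        ∂(volume : Measure V).toSphere := by
  have : Nontrivial V := Module.nontrivial_of_finrank_pos (R := ℝ) (hm ▸ m.succ_pos)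
  have hg : Measurable ((ball (0 : V) R).indicator f) := hf.indicator measurableSet_ball
  have hc : Continuous fun z : sphere (0 : V) 1 × Ioi (0 : ℝ) => (z.2 : ℝ) • (z.1 : V) := by
    fun_prop
  have h1 := ((volume : Measure V).measurePreserving_homeomorphUnitSphereProd).lintegral_comp
    (hg.comp hc.measurable)
  have h2 : ∀ a : ({0}ᶜ : Set V), (((homeomorphUnitSphereProd V a).2 : ℝ) •
      ((homeomorphUnitSphereProd V a).1 : V)) = a := fun a => by
    simp [smul_inv_smul₀ (norm_ne_zero_iff.2 a.2)]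
  simp only [Function.comp_def, h2] at h1
  rw [lintegral_subtype_comap (measurableSet_singleton _).compl, restrict_compl_singleton] at h1
  rw [← lintegral_indicator measurableSet_ball, h1]
  refine (lintegral_prod _ (hg.comp hc.measurable).aemeasurable).trans
    (lintegral_congr fun v => ?_)
  have hv : ‖(v : V)‖ = 1 := mem_sphere_zero_iff_norm.1 v.2
  have h3 : Measurable fun t : ℝ => (ball (0 : V) R).indicator f (t • (v : V)) :=
    hg.comp (measurable_id.smul_const _)
  have h4 : Measurable fun t : Ioi (0 : ℝ) => ENNReal.ofReal ((t : ℝ) ^ m) := by fun_prop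
  rw [hm, Nat.add_sub_cancel, Measure.volumeIoiPow]
  refine (lintegral_withDensity_eq_lintegral_mul _ h4 (h3.comp measurable_subtype_coe)).trans
    ((lintegral_subtype_comap measurableSet_Ioi fun t : ℝ => ENNReal.ofReal (t ^ m) *
      (ball (0 : V) R).indicator f (t • (v : V))).trans ?_)
  rw [← Ioi_inter_Iio, inter_comm, ← Measure.restrict_restrict measurableSet_Iio,
    ← lintegral_indicator measurableSet_Iio]
  refine setLIntegral_congr_fun measurableSet_Ioi fun t ht => ?_
  have h5 : t • (v : V) ∈ ball (0 : V) R ↔ t ∈ Iio R := by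
    rw [mem_ball_zero_iff, norm_smul, hv, mul_one, Real.norm_of_nonneg (le_of_lt ht), mem_Iio]
  by_cases h6 : t ∈ Iio R
  · simp only [indicator_of_mem h6, indicator_of_mem (h5.2 h6)]
  · simp only [indicator_of_notMem h6, indicator_of_notMem (mt h5.1 h6), mul_zero]

open scoped Pointwise in
/-- Apply `lintegral_ball_polar` to `a ↦ f (‖a‖⁻¹ • a)` and its reflection, or `toSphere_apply'`. -/
theorem lintegral_sphere_neg {f : V → ℝ≥0∞} (hf : Measurable f) :
    ∫⁻ v : sphere (0 : V) 1, f (-(v : V)) ∂(volume : Measure V).toSphere =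
      ∫⁻ v : sphere (0 : V) 1, f v ∂(volume : Measure V).toSphere := by
  have hn : Measurable fun v : sphere (0 : V) 1 => -v := continuous_neg.measurable
  have h1 : MeasurePreserving (fun v : sphere (0 : V) 1 => -v) (volume : Measure V).toSphere
      (volume : Measure V).toSphere := by
    refine ⟨hn, Measure.ext fun s hs => ?_⟩
    rw [Measure.map_apply hn hs, Measure.toSphere_apply' _ (hn hs), Measure.toSphere_apply' _ hs,
      ← Measure.measure_neg volume (Ioo (0 : ℝ) 1 • ((↑) '' s : Set V)), ← Set.smul_neg]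
    refine congrArg (fun A : Set V => _ * volume (Ioo (0 : ℝ) 1 • A)) (Set.ext fun a => ?_)
    constructor
    · rintro ⟨v, hv, rfl⟩
      exact ⟨-v, hv, rfl⟩
    · rintro ⟨v, hv, h2⟩
      exact ⟨-v, by simpa using hv, by rw [coe_neg_sphere, h2, neg_neg]⟩
  exact h1.lintegral_comp (hf.comp measurable_subtype_coe)

/-- The area of the unit sphere in dimension `n`. -/
def sphA (n : ℕ) : ℝ := n * (√Real.pi ^ n / Real.Gamma (n / 2 + 1))

theorem sphA_pos (m : ℕ) : 0 < sphA (m + 1) :=
  mul_pos (Nat.cast_pos.2 m.succ_pos) (div_pos (pow_pos (Real.sqrt_pos.2 Real.pi_pos) _)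
    (Real.Gamma_pos_of_pos (by positivity)))

/-- `toSphere_apply_univ`, `InnerProductSpace.volume_ball`. -/
theorem toSphere_univ {m : ℕ} (hm : Module.finrank ℝ V = m + 1) :
    (volume : Measure V).toSphere univ = ENNReal.ofReal (sphA (m + 1)) := by
  have : Nontrivial V := Module.nontrivial_of_finrank_pos (R := ℝ) (hm ▸ m.succ_pos)
  rw [Measure.toSphere_apply_univ, InnerProductSpace.volume_ball, hm, ENNReal.ofReal_one, one_pow,
    one_mul, sphA, ENNReal.ofReal_mul (Nat.cast_nonneg _), ENNReal.ofReal_natCast]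

end

theorem Bl.polar (h : Bl e r D) {m : ℕ} {x : M} (hm : Module.finrank ℝ (T x) = m + 1)
    {f : M → ℝ≥0∞} (hf : Measurable f) : ∫⁻ y, f y ∂μHE[m + 1] =
      ∫⁻ v : sphere (0 : T x) 1, (∫⁻ t in Ioo 0 D, f (e x (t • (v : T x))) *
        ENNReal.ofReal (dens e m D x (e x (t • (v : T x))))) ∂(volume : Measure (T x)).toSphere := by
  have h1 : Measurable fun a : T x => f (e x a) * ENNReal.ofReal (jac e x a) :=
    (hf.comp (h.toGeo.continuous_exp x).measurable).mul
      (continuous_jac h.toGeo x).measurable.ennreal_ofReal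
  rw [← hm, h.area x hf, lintegral_ball_polar hm h1 D]
  refine lintegral_congr fun v => setLIntegral_congr_fun measurableSet_Ioo fun t ht => ?_
  have hv : ‖t • (v : T x)‖ = t := by
    rw [norm_smul, mem_sphere_zero_iff_norm.1 v.2, mul_one, Real.norm_of_nonneg ht.1.le]
  rw [h.dens_exp m (hv.trans_lt ht.2), hv, ENNReal.ofReal_mul (pow_nonneg ht.1.le _), mul_left_comm]

end Vale.Agent.P231
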