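import Vale.Agent.P231.AbsM

/-! From a function with simple zeros to a circle map. -/

open scoped ContDiff Topology Matrix
open Filter Set

noncomputable section

namespace Vale.Agent.P231

variable {φ : ℝ → ℝ} {l c₀ c₁ : ℝ}

theorem Good.scalA_cont (h : Good φ l c₀ c₁) : ContinuousOn (fun σ => (φ σ ^ 2)⁻¹) (Ioo 0 l) :=
  (h.cont.pow 2).inv₀ fun t ht => pow_ne_zero 2 (h.pos t ht).ne'

theorem Good.scalA_int (h : Good φ l c₀ c₁) {s t : ℝ} (hs : s ∈ Ioo 0 l) (ht : t ∈ Ioo 0 l) :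
    IntervalIntegrable (fun σ => (φ σ ^ 2)⁻¹) MeasureTheory.volume s t :=
  (h.scalA_cont.mono (ordConnected_Ioo.uIcc_subset hs ht)).intervalIntegrable

theorem Good.scalA_half (h : Good φ l c₀ c₁) : l / 2 ∈ Ioo 0 l :=
  ⟨half_pos h.lpos, half_lt_self h.lpos⟩

theorem Good.scalA_sub (h : Good φ l c₀ c₁) {s t : ℝ} (hs : s ∈ Ioo 0 l) (ht : t ∈ Ioo 0 l) :
    iv φ s t = iv φ (l / 2) t - iv φ (l / 2) s :=
  (intervalIntegral.integral_interval_sub_left (h.scalA_int h.scalA_half ht)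
    (h.scalA_int h.scalA_half hs)).symm

theorem Good.scalA_deriv (h : Good φ l c₀ c₁) {t : ℝ} (ht : t ∈ Ioo 0 l) :
    HasDerivAt (iv φ (l / 2)) (φ t ^ 2)⁻¹ t :=
  intervalIntegral.integral_hasDerivAt_right (h.scalA_int h.scalA_half ht)
    (h.scalA_cont.stronglyMeasurableAtFilter isOpen_Ioo t ht)
    (h.scalA_cont.continuousAt (Ioo_mem_nhds ht.1 ht.2))

theorem Good.iv_pos (h : Good φ l c₀ c₁) {s t : ℝ} (h0 : 0 < s) (hst : s < t) (h1 : t < l) :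
    0 < iv φ s t :=
  intervalIntegral.intervalIntegral_pos_of_pos_on
    (h.scalA_int ⟨h0, hst.trans h1⟩ ⟨h0.trans hst, h1⟩)
    (fun x hx => inv_pos.2 (pow_pos (h.pos x ⟨h0.trans hx.1, hx.2.trans h1⟩) 2)) hst

theorem Good.sth_pos (h : Good φ l c₀ c₁) {s t : ℝ} (h0 : 0 < s) (hst : s < t) (h1 : t < l) :
    0 < sth φ s t :=
  mul_pos (mul_pos (h.pos s ⟨h0, hst.trans h1⟩) (h.pos t ⟨h0.trans hst, h1⟩)) (h.iv_pos h0 hst h1)

theorem Good.continuousOn_iv (h : Good φ l c₀ c₁) :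
    ContinuousOn (fun z : ℝ × ℝ => iv φ z.1 z.2) (Ioo 0 l ×ˢ Ioo 0 l) := by
  have hc : ContinuousOn (iv φ (l / 2)) (Ioo 0 l) := fun t ht =>
    (h.scalA_deriv ht).continuousAt.continuousWithinAt
  exact ((hc.comp continuousOn_snd fun z hz => hz.2).sub
    (hc.comp continuousOn_fst fun z hz => hz.1)).congr fun z hz => h.scalA_sub hz.1 hz.2

theorem scalA_mono {g g' : ℝ → ℝ} {δ : ℝ} (hd : ∀ t ∈ Ioc 0 δ, HasDerivAt g (g' t) t)
    (h : ∀ t ∈ Ioc 0 δ, 0 ≤ g' t) {t : ℝ} (ht : t ∈ Ioc 0 δ) : g t ≤ g δ :=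
  monotoneOn_of_hasDerivWithinAt_nonneg (convex_Ioc 0 δ)
    (fun x hx => (hd x hx).continuousAt.continuousWithinAt)
    (fun x hx => (hd x (interior_subset hx)).hasDerivWithinAt)
    (fun x hx => h x (interior_subset hx)) ht ⟨ht.1.trans_le ht.2, le_rfl⟩ ht.2

theorem scalA_lim {ψ q : ℝ → ℝ} {c : ℝ} (hd : ∀ᶠ t in 𝓝[>] 0, HasDerivAt ψ (q t) t)
    (hq : Tendsto (fun t => t ^ 2 * q t) (𝓝[>] 0) (𝓝 c)) :
    Tendsto (fun t => t * ψ t) (𝓝[>] 0) (𝓝 (-c)) := by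
  rw [Metric.tendsto_nhds] at hq ⊢
  intro ε hε
  obtain ⟨δ, hδ, hδ'⟩ := mem_nhdsGT_iff_exists_Ioc_subset.1 (hd.and (hq (ε / 2) (half_pos hε)))
  have hδ0 : 0 < δ := hδ
  have h1 : ∀ t ∈ Ioc 0 δ, ψ t + (c - ε / 2) * t⁻¹ ≤ ψ δ + (c - ε / 2) * δ⁻¹ := by
    intro t ht
    refine scalA_mono (g := fun t => ψ t + (c - ε / 2) * t⁻¹)
      (fun x hx => (hδ' hx).1.add ((hasDerivAt_inv hx.1.ne').const_mul _)) (fun x hx => ?_) ht
    have h2 := (abs_lt.1 (hδ' hx).2).1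
    have h3 : q x + (c - ε / 2) * -(x ^ 2)⁻¹ = (x ^ 2 * q x - c + ε / 2) * (x ^ 2)⁻¹ := by
      have := hx.1.ne'
      field_simp
      ring
    rw [h3]
    exact mul_nonneg (by linarith) (by positivity)
  have h2 : ∀ t ∈ Ioc 0 δ, -ψ t - (c + ε / 2) * t⁻¹ ≤ -ψ δ - (c + ε / 2) * δ⁻¹ := by
    intro t ht
    refine scalA_mono (g := fun t => -ψ t - (c + ε / 2) * t⁻¹)
      (fun x hx => (hδ' hx).1.neg.sub ((hasDerivAt_inv hx.1.ne').const_mul _)) (fun x hx => ?_) ht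
    have h2 := (abs_lt.1 (hδ' hx).2).2
    have h3 : -q x - (c + ε / 2) * -(x ^ 2)⁻¹ = (ε / 2 - (x ^ 2 * q x - c)) * (x ^ 2)⁻¹ := by
      have := hx.1.ne'
      field_simp
      ring
    rw [h3]
    exact mul_nonneg (by linarith) (by positivity)
  have h3 : ∀ A : ℝ, ∀ᶠ t in 𝓝[>] (0 : ℝ), t * A < ε / 2 := by
    intro A
    have h4 : Tendsto (fun t : ℝ => t * A) (𝓝[>] 0) (𝓝 0) :=
      tendsto_nhdsWithin_of_tendsto_nhds (Continuous.tendsto' (by fun_prop) _ _ (by simp))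
    exact h4.eventually (gt_mem_nhds (half_pos hε))
  filter_upwards [Ioc_mem_nhdsGT hδ0, h3 (ψ δ + (c - ε / 2) * δ⁻¹),
    h3 (-ψ δ - (c + ε / 2) * δ⁻¹)] with t ht h4 h5
  have h6 := mul_le_mul_of_nonneg_left (h1 t ht) ht.1.le
  have h7 := mul_le_mul_of_nonneg_left (h2 t ht) ht.1.le
  have h8 : t * (ψ t + (c - ε / 2) * t⁻¹) = t * ψ t + (c - ε / 2) := by
    have := ht.1.ne'
    field_simp
  have h9 : t * (-ψ t - (c + ε / 2) * t⁻¹) = -(t * ψ t) - (c + ε / 2) := by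
    have := ht.1.ne'
    field_simp
  rw [Real.dist_eq, abs_lt]
  constructor <;> linarith

theorem scalA_refl (l : ℝ) : Tendsto (fun t => l - t) (𝓝[<] l) (𝓝[>] 0) :=
  tendsto_nhdsWithin_iff.2 ⟨tendsto_nhdsWithin_of_tendsto_nhds
    (Continuous.tendsto' (by fun_prop) _ _ (by simp)),
    eventually_nhdsWithin_of_forall fun _ ht => sub_pos.2 (mem_Iio.1 ht)⟩

theorem scalA_refl' (l : ℝ) : Tendsto (fun t => l - t) (𝓝[>] 0) (𝓝[<] l) :=
  tendsto_nhdsWithin_iff.2 ⟨tendsto_nhdsWithin_of_tendsto_nhds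
    (Continuous.tendsto' (by fun_prop) _ _ (by simp)),
    eventually_nhdsWithin_of_forall fun _ ht => sub_lt_self l (mem_Ioi.1 ht)⟩

/-- The behaviour at a simple zero. -/
theorem scalA_end {φ ψ : ℝ → ℝ} {c : ℝ} (hc : 0 < c)
    (hd : ∀ᶠ t in 𝓝[>] 0, HasDerivAt ψ (φ t ^ 2)⁻¹ t)
    (hφ : Tendsto (fun t => φ t / t) (𝓝[>] 0) (𝓝 c)) : Tendsto ψ (𝓝[>] 0) atBot ∧
      Tendsto (fun t => (φ t ^ 2 + (φ t * ψ t) ^ 2)⁻¹) (𝓝[>] 0) (𝓝 (c ^ 2)) := by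
  have h1 : Tendsto (fun t => t ^ 2 * (φ t ^ 2)⁻¹) (𝓝[>] 0) (𝓝 (c ^ 2)⁻¹) := by
    refine ((hφ.pow 2).inv₀ (by positivity)).congr fun t => ?_
    rw [div_pow, inv_div, div_eq_mul_inv]
  have h2 := scalA_lim hd h1
  have hid : Tendsto (fun t : ℝ => t) (𝓝[>] 0) (𝓝 0) :=
    tendsto_nhdsWithin_of_tendsto_nhds tendsto_id
  constructor
  · refine (h2.neg_mul_atTop (neg_lt_zero.2 (by positivity)) tendsto_inv_nhdsGT_zero).congr' ?_
    filter_upwards [self_mem_nhdsWithin] with t ht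
    have : t ≠ 0 := (mem_Ioi.1 ht).ne'
    field_simp
  · have h3 := (((hφ.mul hid).pow 2).add ((hφ.mul h2).pow 2)).inv₀ (by
      rw [mul_neg, neg_sq]
      positivity)
    have h4 : ((c * 0) ^ 2 + (c * -(c ^ 2)⁻¹) ^ 2)⁻¹ = c ^ 2 := by
      field_simp
      ring
    rw [h4] at h3
    refine h3.congr' ?_
    filter_upwards [self_mem_nhdsWithin] with t ht
    have : t ≠ 0 := (mem_Ioi.1 ht).ne'
    congr 1
    field_simp

/-- Periodic extension of a function with positive limits at both ends. -/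
theorem scalA_ext {f : ℝ → ℝ} {a b : ℝ} (hl : 0 < l) (hf : ContinuousOn f (Ioo 0 l))
    (hp : ∀ t ∈ Ioo 0 l, 0 < f t) (ha : 0 < a) (hb : 0 < b) (h0 : Tendsto f (𝓝[>] 0) (𝓝 a))
    (h1 : Tendsto f (𝓝[<] l) (𝓝 b)) : ∃ κ : ℝ → ℝ, Measurable κ ∧ Function.Periodic κ l ∧
      (∃ k₁ k₂ : ℝ, 0 < k₁ ∧ ∀ t, k₁ ≤ κ t ∧ κ t ≤ k₂) ∧ ∀ t ∈ Ioo 0 l, κ t = f t := by
  have hc := continuousOn_Icc_extendFrom_Ioo hf h0 h1
  have he := extendFrom_extends hf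
  have hm : ∀ t, toIcoMod hl 0 t ∈ Icc 0 l := fun t => Ico_subset_Icc_self (toIcoMod_mem_Ico' hl t)
  have hpos : ∀ t ∈ Icc 0 l, 0 < extendFrom (Ioo 0 l) f t := by
    intro t ht
    rcases ht.1.eq_or_lt with rfl | h2
    · rwa [eq_lim_at_left_extendFrom_Ioo hl h0]
    rcases ht.2.eq_or_lt with rfl | h3
    · rwa [eq_lim_at_right_extendFrom_Ioo hl h1]
    · rw [he t ⟨h2, h3⟩]
      exact hp t ⟨h2, h3⟩
  obtain ⟨x, hx, hx'⟩ := isCompact_Icc.exists_isMinOn (nonempty_Icc.2 hl.le) hc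
  obtain ⟨y, -, hy'⟩ := isCompact_Icc.exists_isMaxOn (nonempty_Icc.2 hl.le) hc
  refine ⟨fun t => extendFrom (Ioo 0 l) f (toIcoMod hl 0 t), ?_, fun t => ?_,
    ⟨_, _, hpos x hx, fun t => ⟨hx' (hm t), hy' (hm t)⟩⟩, fun t ht => ?_⟩
  · have h2 : Measurable (toIcoMod hl 0) := by
      rw [show toIcoMod hl 0 = fun t => Int.fract (t / l) * l from
        funext (toIcoMod_eq_fract_mul hl)]
      fun_prop
    generalize extendFrom (Ioo 0 l) f = F at hc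
    generalize toIcoMod hl 0 = m at hm h2
    have h3 : Measurable fun x : Icc 0 l => F x := hc.domRestrict.measurable
    have h4 : Measurable fun t => (⟨m t, hm t⟩ : Icc 0 l) := h2.subtype_mk
    exact h3.comp h4
  · simp only [toIcoMod_add_right]
  · simp only
    rw [(toIcoMod_eq_self hl).2 ⟨ht.1.le, by rw [zero_add]; exact ht.2⟩, he t ht]

/-- Let `ψ t = iv φ (l / 2) t` on `(0, l)`, `ψ' = φ⁻²`. Near `0`, `t ψ t → -1 / c₀²` (compare `φ`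
with `(c₀ ± ε) t`, or L'Hopital `HasDerivAt.lhopital_zero_nhdsGT` for `ψ / t⁻¹` after inversion), so
`φ ψ → -1 / c₀`; near `l`, `φ ψ → 1 / c₁`. Put `κ₀ = 1 / (φ² + (φ ψ)²)` on `(0, l)`, the derivative
of `χ₀ = π / 2 + arctan ψ`; it is continuous, positive, with limits `c₀²`, `c₁²`, hence bounded
above and below. `κ t = κ₀ (toIcoMod _ 0 t)` with value `c₀²` at `0` (measurable: write
`toIcoMod` through `Int.fract`), `χ t = ∫ 0..t κ = χ₀ t` on `(0, l)` and `χ l = π`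
(`intervalIntegral.integral_eq_sub_of_hasDerivAt_of_tendsto`). Finally `sin χ₀ = 1 / √(1 + ψ²)`,
`cos χ₀ = -ψ / √(1 + ψ²)`. -/
theorem Good.exists_circ (h : Good φ l c₀ c₁) : ∃ χ κ : ℝ → ℝ, Circ χ κ l ∧
    Tendsto κ (𝓝[>] 0) (𝓝 (c₀ ^ 2)) ∧ Tendsto κ (𝓝[<] l) (𝓝 (c₁ ^ 2)) ∧
    (∀ t ∈ Ioo 0 l, φ t = Real.sin (χ t) / √(κ t)) ∧
    ∀ s t, 0 < s → s < t → t < l → sth φ s t = Real.sin (χ t - χ s) / √(κ s * κ t) := by
  have hl := h.lpos
  obtain ⟨ψ, hψ⟩ : ∃ ψ, ψ = iv φ (l / 2) := ⟨_, rfl⟩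
  have hd : ∀ t ∈ Ioo 0 l, HasDerivAt ψ (φ t ^ 2)⁻¹ t := fun t ht => hψ ▸ h.scalA_deriv ht
  have hc : ContinuousOn ψ (Ioo 0 l) := fun t ht => (hd t ht).continuousAt.continuousWithinAt
  obtain ⟨a1, a2⟩ := scalA_end h.pos0 (Filter.eventually_of_mem (Ioo_mem_nhdsGT hl) hd) h.left
  obtain ⟨b1, b2⟩ := scalA_end (φ := fun t => φ (l - t)) (ψ := fun t => -ψ (l - t)) h.pos1
    (by
      filter_upwards [Ioo_mem_nhdsGT hl] with t ht
      have h1 := ((hd (l - t) ⟨sub_pos.2 ht.2, sub_lt_self l ht.1⟩).comp_const_sub l t).neg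
      rwa [neg_neg] at h1)
    (by simpa only [Function.comp_def, sub_sub_cancel] using h.right.comp (scalA_refl' l))
  have b3 : Tendsto ψ (𝓝[<] l) atTop := by
    simpa only [Function.comp_def, sub_sub_cancel, neg_neg] using
      tendsto_neg_atBot_atTop.comp (b1.comp (scalA_refl l))
  have b4 : Tendsto (fun t => (φ t ^ 2 + (φ t * ψ t) ^ 2)⁻¹) (𝓝[<] l) (𝓝 (c₁ ^ 2)) := by
    simpa only [Function.comp_def, sub_sub_cancel, mul_neg, neg_sq] using b2.comp (scalA_refl l)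
  have hpos : ∀ t ∈ Ioo 0 l, 0 < φ t ^ 2 + (φ t * ψ t) ^ 2 := fun t ht => by
    have := h.pos t ht
    positivity
  have hcont : ContinuousOn (fun t => (φ t ^ 2 + (φ t * ψ t) ^ 2)⁻¹) (Ioo 0 l) :=
    ((h.cont.pow 2).add ((h.cont.mul hc).pow 2)).inv₀ fun t ht => (hpos t ht).ne'
  obtain ⟨κ, hm, hper, ⟨k₁, k₂, hk, hb⟩, hκ⟩ := scalA_ext hl hcont
    (fun t ht => inv_pos.2 (hpos t ht)) (pow_pos h.pos0 2) (pow_pos h.pos1 2) a2 b4
  have hint : ∀ a b, IntervalIntegrable κ MeasureTheory.volume a b := fun a b =>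
    (intervalIntegrable_const (c := k₂)).mono_fun' hm.aestronglyMeasurable
      (Eventually.of_forall fun t => by
        simp only [Real.norm_eq_abs, abs_of_pos (hk.trans_le (hb t).1), (hb t).2])
  have hda : ∀ t ∈ Ioo 0 l, HasDerivAt (fun t => Real.arctan (ψ t)) (κ t) t := by
    intro t ht
    refine (hd t ht).arctan.congr_deriv ?_
    have := (h.pos t ht).ne'
    rw [hκ t ht]
    field_simp
  have a3 : Tendsto (fun t => Real.arctan (ψ t)) (𝓝[>] 0) (𝓝 (-(Real.pi / 2))) :=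
    (tendsto_nhds_of_tendsto_nhdsWithin Real.tendsto_arctan_atBot).comp a1
  have b5 : Tendsto (fun t => Real.arctan (ψ t)) (𝓝[<] l) (𝓝 (Real.pi / 2)) :=
    (tendsto_nhds_of_tendsto_nhdsWithin Real.tendsto_arctan_atTop).comp b3
  have hχ : ∀ t ∈ Ioo 0 l, ∫ s in (0 : ℝ)..t, κ s = Real.arctan (ψ t) + Real.pi / 2 := by
    intro t ht
    rw [intervalIntegral.integral_eq_sub_of_hasDerivAt_of_tendsto ht.1
      (fun x hx => hda x ⟨hx.1, hx.2.trans ht.2⟩) (hint 0 t) a3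
      (tendsto_nhdsWithin_of_tendsto_nhds (hda t ht).continuousAt), sub_neg_eq_add]
  have hr : ∀ x : ℝ, 0 < √(1 + x ^ 2) := fun x => Real.sqrt_pos.2 (by positivity)
  have hsq : ∀ t ∈ Ioo 0 l, √(κ t) = (φ t * √(1 + ψ t ^ 2))⁻¹ := by
    intro t ht
    rw [hκ t ht, Real.sqrt_inv, show φ t ^ 2 + (φ t * ψ t) ^ 2 = φ t ^ 2 * (1 + ψ t ^ 2) by ring,
      Real.sqrt_mul (sq_nonneg _), Real.sqrt_sq (h.pos t ht).le]
  refine ⟨fun t => ∫ s in (0 : ℝ)..t, κ s, κ, ⟨hl, hm, hper, ⟨k₁, k₂, hk, hb⟩, hcont.congr hκ,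
    fun _ => rfl, ?_⟩, ?_, ?_, fun t ht => ?_, fun s t h0 hst h1 => ?_⟩
  · rw [intervalIntegral.integral_eq_sub_of_hasDerivAt_of_tendsto hl hda (hint 0 l) a3 b5]
    ring
  · exact a2.congr' (Filter.eventually_of_mem (Ioo_mem_nhdsGT hl) fun t ht => (hκ t ht).symm)
  · exact b4.congr' (Filter.eventually_of_mem (Ioo_mem_nhdsLT hl) fun t ht => (hκ t ht).symm)
  · simp only
    rw [hχ t ht, hsq t ht, Real.sin_add_pi_div_two, Real.cos_arctan]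
    have := (hr (ψ t)).ne'
    field_simp
  · have hs : s ∈ Ioo 0 l := ⟨h0, hst.trans h1⟩
    have ht : t ∈ Ioo 0 l := ⟨h0.trans hst, h1⟩
    simp only
    rw [hχ t ht, hχ s hs, add_sub_add_right_eq_sub, Real.sqrt_mul (hk.trans_le (hb s).1).le,
      hsq s hs, hsq t ht, Real.sin_sub, Real.sin_arctan, Real.sin_arctan, Real.cos_arctan,
      Real.cos_arctan, sth, h.scalA_sub hs ht, ← hψ]
    have := (hr (ψ t)).ne'
    have := (hr (ψ s)).ne'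
    field_simp

end Vale.Agent.P231
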