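import Vale.Agent.P231.AbsM

/-! Two derivatives of the logarithmic integral. -/

open scoped ContDiff Topology Matrix
open Filter Set

noncomputable section

namespace Vale.Agent.P231

variable {χ κ : ℝ → ℝ} {l : ℝ}

theorem scalB_int {f : ℝ → ℝ} (hm : Measurable f) {M : ℝ} (hb : ∀ s, |f s| ≤ M) (a b : ℝ) :
    IntervalIntegrable f MeasureTheory.volume a b :=
  (intervalIntegrable_const (c := M)).mono_fun' hm.aestronglyMeasurable
    (Eventually.of_forall hb)

theorem Circ.scalB_abs (h : Circ χ κ l) : ∃ M : ℝ, 0 < M ∧ ∀ s, |κ s| ≤ M := by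
  obtain ⟨k₁, k₂, hk, hb⟩ := h.bdd
  refine ⟨k₂, hk.trans_le ((hb 0).1.trans (hb 0).2), fun s => ?_⟩
  rw [abs_of_pos (hk.trans_le (hb s).1)]
  exact (hb s).2

theorem Circ.integrable (h : Circ χ κ l) (a b : ℝ) :
    IntervalIntegrable κ MeasureTheory.volume a b := by
  obtain ⟨M, -, hM⟩ := h.scalB_abs
  exact scalB_int h.meas hM a b

theorem Circ.sub (h : Circ χ κ l) (s t : ℝ) : χ t - χ s = ∫ σ in s..t, κ σ := by
  rw [h.eq, h.eq]
  exact intervalIntegral.integral_interval_sub_left (h.integrable _ _) (h.integrable _ _)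

theorem Circ.add_period (h : Circ χ κ l) (t : ℝ) : χ (t + l) = χ t + Real.pi := by
  have h1 := h.sub t (t + l)
  rw [h.per.intervalIntegral_add_eq t 0, zero_add, ← h.eq, h.total] at h1
  linarith

theorem Circ.continuous (h : Circ χ κ l) : Continuous χ := by
  rw [show χ = fun t => ∫ s in (0 : ℝ)..t, κ s from funext h.eq]
  exact intervalIntegral.continuous_primitive h.integrable 0

theorem Circ.scalB_mono (h : Circ χ κ l) {k₁ k₂ : ℝ} (hb : ∀ t, k₁ ≤ κ t ∧ κ t ≤ k₂) {s t : ℝ}
    (hst : s ≤ t) : k₁ * (t - s) ≤ χ t - χ s ∧ χ t - χ s ≤ k₂ * (t - s) := by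
  rw [h.sub]
  have h1 := intervalIntegral.integral_mono_on hst (intervalIntegrable_const (c := k₁))
    (h.integrable s t) fun x _ => (hb x).1
  have h2 := intervalIntegral.integral_mono_on hst (h.integrable s t)
    (intervalIntegrable_const (c := k₂)) fun x _ => (hb x).2
  rw [intervalIntegral.integral_const, smul_eq_mul, mul_comm] at h1 h2
  exact ⟨h1, h2⟩

theorem Circ.scalB_lip (h : Circ χ κ l) {M : ℝ} (hM : ∀ s, |κ s| ≤ M) (s t : ℝ) :
    |χ t - χ s| ≤ M * |t - s| := by
  rw [h.sub]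
  exact intervalIntegral.norm_integral_le_of_norm_le_const (f := κ) fun x _ => hM x

/-- The increments stay in a compact part of `(0, π)`. -/
theorem Circ.incr (h : Circ χ κ l) : ∃ k : ℝ, 0 < k ∧ ∀ s, ∀ u ∈ Icc 0 l,
    k * u ≤ χ (s + u) - χ s ∧ χ (s + u) - χ s ≤ Real.pi - k * (l - u) := by
  obtain ⟨k₁, k₂, hk, hb⟩ := h.bdd
  refine ⟨k₁, hk, fun s u hu => ⟨?_, ?_⟩⟩
  · have h1 := (h.scalB_mono hb (s := s) (t := s + u) (by linarith [hu.1])).1
    rwa [add_sub_cancel_left] at h1
  · have h1 := (h.scalB_mono hb (s := s + u) (t := s + l) (by linarith [hu.2])).1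
    rw [h.add_period, add_sub_add_left_eq_sub] at h1
    linarith

theorem Circ.scalB_mem (h : Circ χ κ l) (s : ℝ) {u : ℝ} (hu : u ∈ Ioo 0 l) :
    χ (s + u) - χ s ∈ Ioo 0 Real.pi := by
  obtain ⟨k, hk, hi⟩ := h.incr
  obtain ⟨h1, h2⟩ := hi s u (Ioo_subset_Icc_self hu)
  have h3 := mul_pos hk hu.1
  have h4 := mul_pos hk (sub_pos.2 hu.2)
  exact ⟨by linarith, by linarith⟩

theorem Circ.scalB_cont (h : Circ χ κ l) {g : ℝ → ℝ} (hg : ContinuousOn g (Ioo 0 Real.pi))
    {u : ℝ} (hu : u ∈ Ioo 0 l) : Continuous fun s => g (χ (s + u) - χ s) := by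
  have hc := h.continuous
  exact hg.comp_continuous (by fun_prop) fun s => h.scalB_mem s hu

/-- `κ` is continuous off `l ℤ`. -/
theorem Circ.ae_hasDerivAt (h : Circ χ κ l) : ∀ᵐ t, HasDerivAt χ (κ t) t := by
  obtain ⟨M, -, hM⟩ := h.scalB_abs
  have h1 : MeasureTheory.LocallyIntegrable κ MeasureTheory.volume :=
    (MeasureTheory.locallyIntegrable_const M).mono h.meas.aestronglyMeasurable
      (Eventually.of_forall fun s => (hM s).trans (le_abs_self M))
  rw [show χ = fun t => ∫ s in (0 : ℝ)..t, κ s from funext h.eq]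
  filter_upwards [LocallyIntegrable.ae_hasDerivAt_integral h1] with t ht using ht 0

/-- Differentiation under the integral sign. -/
theorem Circ.scalB_deriv (h : Circ χ κ l) {g g' w : ℝ → ℝ}
    (hg : ∀ x ∈ Ioo 0 Real.pi, HasDerivAt g (g' x) x) (hg' : ContinuousOn g' (Ioo 0 Real.pi))
    (hw : Measurable w) {W : ℝ} (hW : ∀ s, |w s| ≤ W) {u : ℝ} (hu : u ∈ Ioo 0 l) :
    HasDerivAt (fun v => ∫ s in (0 : ℝ)..l, w s * g (χ (s + v) - χ s))
      (∫ s in (0 : ℝ)..l, w s * (g' (χ (s + u) - χ s) * κ (s + u))) u := by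
  obtain ⟨k, hk, hi⟩ := h.incr
  obtain ⟨M, hM0, hM⟩ := h.scalB_abs
  have hgc : ContinuousOn g (Ioo 0 Real.pi) := fun x hx => (hg x hx).continuousAt.continuousWithinAt
  have ha : 0 < k * (u / 2) := mul_pos hk (half_pos hu.1)
  have hb : 0 < k * ((l - u) / 2) := mul_pos hk (half_pos (sub_pos.2 hu.2))
  have hsub : Icc (k * (u / 2)) (Real.pi - k * ((l - u) / 2)) ⊆ Ioo 0 Real.pi :=
    Icc_subset_Ioo ha (by linarith)
  obtain ⟨L, hL⟩ := isCompact_Icc.exists_bound_of_continuousOn (hg'.mono hsub)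
  have hN : Icc (u / 2) ((u + l) / 2) ∈ 𝓝 u := Icc_mem_nhds (by linarith [hu.1]) (by linarith [hu.2])
  have hmem : ∀ s, ∀ v ∈ Icc (u / 2) ((u + l) / 2),
      χ (s + v) - χ s ∈ Icc (k * (u / 2)) (Real.pi - k * ((l - u) / 2)) := by
    intro s v hv
    obtain ⟨h1, h2⟩ := hi s v ⟨by linarith [hu.1, hv.1], by linarith [hu.2, hv.2]⟩
    have h3 := mul_le_mul_of_nonneg_left hv.1 hk.le
    have h4 : k * ((l - u) / 2) ≤ k * (l - v) :=
      mul_le_mul_of_nonneg_left (by linarith [hv.2]) hk.le
    exact ⟨by linarith, by linarith⟩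
  have hL0 : 0 ≤ L := (norm_nonneg _).trans (hL _ (hmem 0 u (mem_of_mem_nhds hN)))
  have hW0 : 0 ≤ W := (abs_nonneg _).trans (hW 0)
  refine (intervalIntegral.hasDerivAt_integral_of_dominated_loc_of_lip
    (F := fun v s => w s * g (χ (s + v) - χ s)) (bound := fun _ => W * (L * M)) hN ?_ ?_ ?_ ?_
    intervalIntegrable_const ?_).2
  · filter_upwards [Ioo_mem_nhds hu.1 hu.2] with v hv
    exact (hw.mul (h.scalB_cont hgc hv).measurable).aestronglyMeasurable
  · exact (scalB_int hw hW 0 l).mul_continuousOn (h.scalB_cont hgc hu).continuousOn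
  · exact (hw.mul ((h.scalB_cont hg' hu).measurable.mul
      (h.meas.comp (measurable_add_const u)))).aestronglyMeasurable
  · refine Eventually.of_forall fun s _ => LipschitzOnWith.of_dist_le_mul fun x hx y hy => ?_
    have h1 := (convex_Icc _ _).norm_image_sub_le_of_norm_hasDerivWithin_le
      (fun z hz => (hg z (hsub hz)).hasDerivWithinAt) hL (hmem s y hy) (hmem s x hx)
    have h2 := h.scalB_lip hM (s + y) (s + x)
    rw [sub_sub_sub_cancel_right, Real.norm_eq_abs, Real.norm_eq_abs] at h1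
    rw [add_sub_add_left_eq_sub] at h2
    rw [Real.dist_eq, Real.dist_eq, ← mul_sub, abs_mul, Real.coe_nnabs,
      abs_of_nonneg (by positivity : 0 ≤ W * (L * M)), mul_assoc, mul_assoc]
    exact mul_le_mul (hW s) (h1.trans (mul_le_mul_of_nonneg_left h2 hL0)) (abs_nonneg _) hW0
  · have h1 : ∀ᵐ s, HasDerivAt χ (κ (s + u)) (s + u) :=
      (MeasureTheory.measurePreserving_add_right MeasureTheory.volume u).quasiMeasurePreserving.ae
        h.ae_hasDerivAt
    filter_upwards [h1] with s hs _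
    have h2 : HasDerivAt (fun v => χ (s + v) - χ s) (κ (s + u)) u :=
      (hs.comp_const_add s u).sub_const _
    exact ((hg _ (h.scalB_mem s hu)).comp u h2).const_mul (w s)

/-- The shift of the base point. -/
theorem Circ.scalB_shift (h : Circ χ κ l) (Q : ℝ → ℝ → ℝ → ℝ) (u : ℝ) :
    ∫ s in (0 : ℝ)..l, Q (κ s) (κ (s + (l - u))) (χ (s + (l - u)) - χ s) =
      ∫ s in (0 : ℝ)..l, Q (κ (s + u)) (κ s) (Real.pi - (χ (s + u) - χ s)) := by
  have hp : Function.Periodic
      (fun s => Q (κ s) (κ (s + (l - u))) (χ (s + (l - u)) - χ s)) l := by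
    intro s
    simp only
    rw [add_right_comm s l, h.per, h.per, h.add_period, h.add_period, add_sub_add_right_eq_sub]
  have h1 := hp.intervalIntegral_add_eq 0 u
  have h2 := intervalIntegral.integral_comp_add_right (a := 0) (b := l)
    (fun s => Q (κ s) (κ (s + (l - u))) (χ (s + (l - u)) - χ s)) u
  rw [zero_add] at h1 h2
  rw [h1, add_comm u l, ← h2]
  refine intervalIntegral.integral_congr fun s _ => ?_
  rw [show s + u + (l - u) = s + l by ring, h.per, h.add_period]
  congr 1
  ring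

/-- Use `intervalIntegral.hasDerivAt_integral_of_dominated_loc_of_lip` twice (differentiability
in `u` is needed only at the given point, for almost every `s`; Lipschitz bounds come from
`incr` and the bound for `κ`). First `Ψ₁ u = ∫ κ (s + u) cot (χ (s + u) - χ s)`; by periodicity in
`s` (`Function.Periodic.intervalIntegral_add_eq`, `intervalIntegral.integral_comp_add_right`) this
is `∫ κ s cot (χ s - χ (s - u))`; differentiate again and shift back. -/
theorem Circ.deriv2 (h : Circ χ κ l) : ∃ Ψ₁ : ℝ → ℝ, ∀ u ∈ Ioo 0 l,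
    HasDerivAt (Psi χ l) (Ψ₁ u) u ∧ HasDerivAt Ψ₁
      (-∫ s in (0 : ℝ)..l, κ s * κ (s + u) / Real.sin (χ (s + u) - χ s) ^ 2) u := by
  obtain ⟨M, -, hM⟩ := h.scalB_abs
  have hs : ∀ x ∈ Ioo 0 Real.pi, Real.sin x ≠ 0 := fun x hx =>
    (Real.sin_pos_of_pos_of_lt_pi hx.1 hx.2).ne'
  refine ⟨fun v => -∫ s in (0 : ℝ)..l, κ s * (Real.cos (χ (s + (l - v)) - χ s) /
    Real.sin (χ (s + (l - v)) - χ s)), fun u hu => ⟨?_, ?_⟩⟩
  · have h1 := h.scalB_deriv (g := fun x => Real.log (Real.sin x))
      (g' := fun x => Real.cos x / Real.sin x) (w := fun _ => 1) (W := 1)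
      (fun x hx => (Real.hasDerivAt_sin x).log (hs x hx))
      (Real.continuous_cos.continuousOn.div Real.continuous_sin.continuousOn hs)
      measurable_const (fun _ => by simp) hu
    simp only [one_mul] at h1
    beta_reduce
    rw [h.scalB_shift (fun a _ x => a * (Real.cos x / Real.sin x)) u,
      ← intervalIntegral.integral_neg]
    refine h1.congr_deriv (intervalIntegral.integral_congr fun s _ => ?_)
    simp only [Real.cos_pi_sub, Real.sin_pi_sub]
    ring
  · have h1 := h.scalB_deriv (g := fun x => Real.cos x / Real.sin x)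
      (g' := fun x => -1 / Real.sin x ^ 2) (w := κ) (u := l - u)
      (fun x hx => ((Real.hasDerivAt_cos x).div (Real.hasDerivAt_sin x) (hs x hx)).congr_deriv
        (by rw [← Real.sin_sq_add_cos_sq x]; ring))
      (continuousOn_const.div (Real.continuous_sin.continuousOn.pow 2)
        fun x hx => pow_ne_zero 2 (hs x hx))
      h.meas hM ⟨sub_pos.2 hu.2, by linarith [hu.1]⟩
    rw [h.scalB_shift (fun a b x => a * (-1 / Real.sin x ^ 2 * b)) u] at h1
    have h2 := (h1.comp_const_sub l u).neg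
    refine h2.congr_deriv ?_
    rw [neg_neg, ← intervalIntegral.integral_neg]
    refine intervalIntegral.integral_congr fun s _ => ?_
    simp only [Real.sin_pi_sub]
    ring

/-- Shift `s` by `u`, `sin (π - x) = sin x`. -/
theorem Circ.Psi_symm (h : Circ χ κ l) (u : ℝ) : Psi χ l (l - u) = Psi χ l u := by
  have h1 := h.scalB_shift (fun _ _ x => Real.log (Real.sin x)) u
  simpa only [Real.sin_pi_sub, Psi] using h1

/-- Dominated convergence for `log (sin Δ / u)`, `Δ / u → κ s`, `Δ / u ∈ [k₁, k₂]`. -/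
theorem Circ.tendsto_Psi (h : Circ χ κ l) : Tendsto (fun u => Psi χ l u - l * Real.log u)
    (𝓝[>] 0) (𝓝 (∫ s in (0 : ℝ)..l, Real.log (κ s))) := by
  obtain ⟨k₁, k₂, hk, hb⟩ := h.bdd
  have hk2 : 0 < k₂ := hk.trans_le ((hb 0).1.trans (hb 0).2)
  have hπ := Real.pi_pos
  have hs : ∀ x ∈ Ioo 0 Real.pi, Real.sin x ≠ 0 := fun x hx =>
    (Real.sin_pos_of_pos_of_lt_pi hx.1 hx.2).ne'
  have hc : ∀ u ∈ Ioo 0 l, Continuous fun s => Real.log (Real.sin (χ (s + u) - χ s)) :=
    fun u hu => h.scalB_cont (g := fun x => Real.log (Real.sin x))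
      (Real.continuous_sin.continuousOn.log hs) hu
  have hl : Ioo 0 l ∈ 𝓝[>] (0 : ℝ) := Ioo_mem_nhdsGT h.lpos
  have key : Tendsto (fun u => ∫ s in (0 : ℝ)..l, Real.log (Real.sin (χ (s + u) - χ s) / u))
      (𝓝[>] 0) (𝓝 (∫ s in (0 : ℝ)..l, Real.log (κ s))) := by
    refine intervalIntegral.tendsto_integral_filter_of_dominated_convergence
      (fun _ => |Real.log (2 / Real.pi * k₁)| + |Real.log k₂|) ?_ ?_ intervalIntegrable_const ?_
    · have hm := h.continuous.measurable
      exact Eventually.of_forall fun u => Measurable.aestronglyMeasurable (by fun_prop)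
    · filter_upwards [Ioo_mem_nhdsGT (show 0 < Real.pi / 2 / k₂ by positivity)] with u hu
      refine Eventually.of_forall fun s _ => ?_
      obtain ⟨h1, h2⟩ := h.scalB_mono hb (s := s) (t := s + u) (by linarith [hu.1])
      rw [add_sub_cancel_left] at h1 h2
      have h0 := mul_pos hk hu.1
      have h3 : k₂ * u ≤ Real.pi / 2 := by
        have := (lt_div_iff₀ hk2).1 hu.2
        linarith
      have h4 := Real.mul_le_sin (x := χ (s + u) - χ s) (by linarith) (by linarith)
      have h5 := Real.sin_le (x := χ (s + u) - χ s) (by linarith)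
      have h6 : 2 / Real.pi * k₁ ≤ Real.sin (χ (s + u) - χ s) / u := by
        rw [le_div_iff₀ hu.1, mul_assoc]
        exact (mul_le_mul_of_nonneg_left h1 (by positivity)).trans h4
      have h7 : Real.sin (χ (s + u) - χ s) / u ≤ k₂ := by
        rw [div_le_iff₀ hu.1]
        linarith
      have h8 : 0 < 2 / Real.pi * k₁ := by positivity
      have h9 := Real.log_le_log h8 h6
      have h10 := Real.log_le_log (h8.trans_le h6) h7
      rw [Real.norm_eq_abs, abs_le]
      constructor
      · linarith [neg_abs_le (Real.log (2 / Real.pi * k₁)), abs_nonneg (Real.log k₂)]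
      · linarith [le_abs_self (Real.log k₂), abs_nonneg (Real.log (2 / Real.pi * k₁))]
    · filter_upwards [h.ae_hasDerivAt] with s hs _
      have h1 : HasDerivAt (fun v => χ (s + v) - χ s) (κ s) 0 := by
        have h2 : HasDerivAt χ (κ s) (s + 0) := by rwa [add_zero]
        exact (h2.comp_const_add s 0).sub_const _
      have h3 := h1.sin.tendsto_slope_zero_right
      simp only [zero_add, add_zero, sub_self, Real.sin_zero, Real.cos_zero, one_mul, sub_zero,
        smul_eq_mul] at h3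
      have h4 := (Real.continuousAt_log (hk.trans_le (hb s).1).ne').tendsto.comp h3
      refine h4.congr fun u => ?_
      simp only [Function.comp_apply, div_eq_inv_mul]
  refine key.congr' ?_
  filter_upwards [hl] with u hu
  have h1 : ∀ s, Real.log (Real.sin (χ (s + u) - χ s) / u) =
      Real.log (Real.sin (χ (s + u) - χ s)) - Real.log u := fun s =>
    Real.log_div (hs _ (h.scalB_mem s hu)) hu.1.ne'
  simp only [h1]
  rw [intervalIntegral.integral_sub ((hc u hu).intervalIntegrable _ _) intervalIntegrable_const,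
    intervalIntegral.integral_const, sub_zero, smul_eq_mul, Psi]

end Vale.Agent.P231
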