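import Vale.Agent.P231.Bi

/-! The Jacobian of the exponential map. -/

open scoped ContDiff Topology Matrix
open Filter Set

noncomputable section

namespace Vale.Agent.P231

open Vale.Agent.P234

variable {M : Type*} [MetricSpace M] [CompactSpace M] {T : M → Type*}
  [∀ x, NormedAddCommGroup (T x)] [∀ x, InnerProductSpace ℝ (T x)]
  [∀ x, FiniteDimensional ℝ (T x)] {e : ∀ x, T x → M} {r D : ℝ}

section lin

variable {U V W W' : Type*} [NormedAddCommGroup U] [InnerProductSpace ℝ U] [FiniteDimensional ℝ U]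
  [NormedAddCommGroup V] [InnerProductSpace ℝ V] [FiniteDimensional ℝ V]
  [NormedAddCommGroup W] [InnerProductSpace ℝ W] [FiniteDimensional ℝ W]
  [NormedAddCommGroup W'] [InnerProductSpace ℝ W'] [FiniteDimensional ℝ W']

omit [FiniteDimensional ℝ V] in
theorem th_det {ι : Type} [Fintype ι] [DecidableEq ι] (f : U →ₗ[ℝ] V)
    (bu : OrthonormalBasis ι ℝ U) (bv : OrthonormalBasis ι ℝ V) :
    f.normDet = |(Matrix.of fun i j => inner ℝ (bv i) (f (bu j))).det| := by
  rw [f.normDet_eq_norm_det_toMatrix bu bv, Real.norm_eq_abs]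
  congr 2
  ext i j
  rw [LinearMap.toMatrix_apply, Matrix.of_apply, ← bv.repr_apply_apply]
  rfl

theorem th_adj (hr : Module.finrank ℝ U = Module.finrank ℝ V) (f : U →ₗ[ℝ] V) (g : V →ₗ[ℝ] U)
    (h : ∀ u v, inner ℝ v (f u) = inner ℝ u (g v)) : f.normDet = g.normDet := by
  let bu := stdOrthonormalBasis ℝ U
  let bv := (stdOrthonormalBasis ℝ V).reindex (finCongr hr.symm)
  rw [th_det f bu bv, th_det g bv bu, ← Matrix.det_transpose]
  congr 2
  ext i j
  exact h _ _

theorem th_pair {ι : Type} [Fintype ι] [DecidableEq ι] (bu : OrthonormalBasis ι ℝ U)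
    (bv : OrthonormalBasis ι ℝ V) (h1 : Module.finrank ℝ U = Module.finrank ℝ W)
    (h2 : Module.finrank ℝ V = Module.finrank ℝ W') (h3 : Module.finrank ℝ W' = Module.finrank ℝ W)
    (f : U →ₗ[ℝ] W) (L : W' →ₗ[ℝ] W) (g : V →ₗ[ℝ] W') :
    |(Matrix.of fun i j => -inner ℝ (f (bu i)) (L (g (bv j)))).det| =
      f.normDet * L.normDet * g.normDet := by
  have e1 : f.normDet = (-LinearMap.adjoint f).normDet := by
    rw [LinearMap.normDet_neg]
    exact th_adj h1 _ _ fun u v => by rw [LinearMap.adjoint_inner_right, real_inner_comm]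
  rw [e1, ← LinearMap.normDet_comp_of_finrank_eq _ _ h3,
    ← LinearMap.normDet_comp_of_finrank_eq _ _ h2, th_det _ bv bu]
  congr 2
  ext i j
  simp [LinearMap.adjoint_inner_right]

end lin

/-- `normDet_sq_eq_det_gram`, `exists_metric`. -/
theorem continuous_jac (h : Geo e r) (x : M) : Continuous (jac e x) := by
  obtain ⟨G, hG, hG'⟩ := exists_metric h x
  let b := stdOrthonormalBasis ℝ (T x)
  have e1 : jac e x = fun a => √((Matrix.of fun i j => G a (b i) (b j)).det) := by
    funext a
    have := (Lmap e x a (e x a)).toLinearMap.normDet_sq_eq_det_gram b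
    have e2 : (Matrix.of fun i j => G a (b i) (b j)).det = jac e x a ^ 2 := by
      refine Eq.trans ?_ this.symm
      congr 1
      ext i j
      exact hG' a _ _
    rw [e2]
    exact (Real.sqrt_sq (LinearMap.normDet_nonneg _)).symm
  rw [e1]
  refine Continuous.sqrt (Continuous.matrix_det (continuous_matrix fun i j => ?_))
  exact (hG.continuous.clm_apply continuous_const).clm_apply continuous_const

theorem jac_zero (h : Geo e r) (x : M) : jac e x 0 = 1 := by
  rw [jac_eq (h.zero x), h.Lmap_zero]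
  exact LinearMap.normDet_id

theorem jac_pos (h : Geo e r) {x : M} {a : T x} (ha : a ∈ Inj e x) : 0 < jac e x a := by
  refine (LinearMap.normDet_nonneg _).lt_of_ne' fun h0 => ?_
  exact LinearMap.normDet_eq_zero_iff_ker_ne_bot.1 h0
    (LinearMap.ker_eq_bot.2 (Lmap_bij h ha).1)

theorem Bl.th_pos (h : Bl e r D) {x y : M} (hd : dist x y < D) : 0 < th e x y :=
  jac_pos h.toGeo (h.lg_mem_inj hd)

theorem th_mul_aux (h : Geo e r) {x y : M} {a : T x} (ha : a ∈ Inj e x) (he : e x a = y) :
    jac e x a * (Lmap e y 0 x).toLinearMap.normDet = 1 := by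
  subst he
  rw [jac, mul_comm, ← LinearMap.normDet_comp_of_finrank_eq _ _ (h.rank _ _),
    ← LinearMap.normDet_id (𝕜 := ℝ) (U := T x)]
  congr 1
  ext ξ
  exact Lmap_inv h ha ξ

/-- `th x y * normDet (Lmap e y 0 x) = 1` by `Lmap_inv` and `normDet_comp_of_finrank_eq`. -/
theorem Bl.th_mul (h : Bl e r D) {x y : M} (hd : dist x y < D) :
    th e x y * (Lmap e y 0 x).toLinearMap.normDet = 1 :=
  th_mul_aux h.toGeo (h.lg_mem_inj hd) (h.toGeo.exp_lg x y)

/-- `Lmap e y 0 x` and `Lmap e x 0 y` are adjoint (`D2_mixed`, `D2_symm`, `cost_comm`); compute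
`normDet` in orthonormal bases, the matrices are transposed. -/
theorem Bl.th_symm (h : Bl e r D) {x y : M} (hd : dist x y < D) : th e x y = th e y x := by
  have hd' : dist y x < D := by rwa [dist_comm]
  have a1 := h.th_mul hd
  have a2 := h.th_mul hd'
  have hs := h.sp hd
  have hs2 : ContDiffAt ℝ 2 (fun z : T x × T y => cost (e x z.1) (e y z.2)) (0, 0) :=
    hs.of_le hess_two
  have a3 : (Lmap e y 0 x).toLinearMap.normDet = (Lmap e x 0 y).toLinearMap.normDet := by
    refine th_adj (h.rank _ _) _ _ fun η ξ => ?_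
    have b1 := D2_mixed h.toGeo hs ξ η
    have b2 := D2_mixed h.toGeo hs.symm η ξ
    have b3 := D2_comp_clm (f := fun z : T x × T y => cost (e x z.1) (e y z.2))
      (ContinuousLinearEquiv.prodComm ℝ (T y) (T x) : T y × T x →L[ℝ] T x × T y) 0
      (b := (0, 0)) (by simpa using hs2) (η, 0) (0, ξ)
    have b4 : (fun z : T y × T x => cost (e y z.1) (e x z.2)) = fun z : T y × T x =>
        (fun z : T x × T y => cost (e x z.1) (e y z.2))
          ((ContinuousLinearEquiv.prodComm ℝ (T y) (T x) : T y × T x →L[ℝ] T x × T y) z + 0) := by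
      funext z
      simp [cost_comm]
    rw [b4, b3] at b2
    simp only [ContinuousLinearEquiv.coe_coe, ContinuousLinearEquiv.prodComm_apply, add_zero,
      Prod.swap_prod_mk] at b2
    rw [D2_symm hs2, b1] at b2
    exact neg_injective b2
  have a4 : (Lmap e x 0 y).toLinearMap.normDet ≠ 0 := right_ne_zero_of_mul_eq_one a2
  rw [a3] at a1
  exact mul_right_cancel₀ a4 (a1.trans a2.symm)

theorem Bl.th_key (h : Bl e r D) {ι : Type} [Fintype ι] [DecidableEq ι] {p q : M}
    (u : OrthonormalBasis ι ℝ (T p)) (w : OrthonormalBasis ι ℝ (T q)) {a : T p} {b : T q}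
    (hd : dist (e p a) (e q b) < D) :
    th e (e p a) (e q b) * |(Matrix.of fun i j => D2 (fun z : T p × T q =>
      cost (e p z.1) (e q z.2)) (a, b) (u i, 0) (0, w j)).det| = jac e p a * jac e q b := by
  have a1 := h.th_mul hd
  have a2 := th_pair u w (h.rank _ _) (h.rank _ _) (h.rank _ _)
    (Lmap e p a (e p a)).toLinearMap (Lmap e (e q b) 0 (e p a)).toLinearMap
    (Lmap e q b (e q b)).toLinearMap
  have a3 : (Matrix.of fun i j => D2 (fun z : T p × T q =>
      cost (e p z.1) (e q z.2)) (a, b) (u i, 0) (0, w j)) = Matrix.of fun i j =>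
      -inner ℝ ((Lmap e p a (e p a)).toLinearMap (u i)) ((Lmap e (e q b) 0 (e p a)).toLinearMap
        ((Lmap e q b (e q b)).toLinearMap (w j))) := by
    ext i j
    exact D2_mixed_comp h.toGeo (f := e p) (g := e q) (h.toGeo.contDiffAt_lg_self p a)
      (h.toGeo.contDiffAt_lg_self q b) (h.sp hd) (u i) (w j)
  rw [a3, a2, jac, jac]
  linear_combination ((Lmap e p a (e p a)).toLinearMap.normDet *
    (Lmap e q b (e q b)).toLinearMap.normDet) * a1

/-- At `(x₀, y₀)` use the coordinates `a = lg x₀ x`, `b = lg y₀ y`. By `D2_mixed_comp` the matrix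
`H (a, b) i j = D2 F (a, b) (u i, 0) (0, w j)`, `F z = cost (e x₀ z.1) (e y₀ z.2)`, satisfies
`|det H| * th x y = jac x₀ a * jac y₀ b`, and `H` is continuous with `det H (0, 0) ≠ 0`. -/
theorem Bl.continuousOn_th (h : Bl e r D) :
    ContinuousOn (fun z : M × M => th e z.1 z.2) {z | dist z.1 z.2 < D} := by
  rintro ⟨p, q⟩ hd
  have hd' : dist p q < D := hd
  refine ContinuousAt.continuousWithinAt ?_
  let u := stdOrthonormalBasis ℝ (T p)
  let w := (stdOrthonormalBasis ℝ (T q)).reindex (finCongr (h.rank q p))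
  let H : T p × T q → ℝ := fun c => |(Matrix.of fun i j => D2 (fun z : T p × T q =>
      cost (e p z.1) (e q z.2)) c (u i, 0) (0, w j)).det|
  have key : ∀ x y : M, dist x y < D → th e x y * H (lg e p x, lg e q y) =
      jac e p (lg e p x) * jac e q (lg e q y) := fun x y hxy => by
    have := h.th_key u w (a := lg e p x) (b := lg e q y)
      (by rwa [h.toGeo.exp_lg, h.toGeo.exp_lg])
    rwa [h.toGeo.exp_lg, h.toGeo.exp_lg] at this
  have c0 : ∀ x : M, ContinuousAt (lg e x) x := fun x => by
    have := h.toGeo.continuousAt_lg (x := x) (v := 0)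
      (h.toGeo.short_mem_inj (by simpa using h.pos))
    rwa [h.zero] at this
  have c1 : ContinuousAt (fun z : M × M => lg e p z.1) (p, q) :=
    ContinuousAt.comp (g := lg e p) (f := Prod.fst) (c0 p) continuousAt_fst
  have c2 : ContinuousAt (fun z : M × M => lg e q z.2) (p, q) :=
    ContinuousAt.comp (g := lg e q) (f := Prod.snd) (c0 q) continuousAt_snd
  have c3 : ContinuousAt (D2 fun z : T p × T q => cost (e p z.1) (e q z.2)) (0, 0) :=
    (((h.sp hd').fderiv_right (m := ∞) (by simp)).fderiv_right (m := ∞) (by simp)).continuousAt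
  have c4 : ContinuousAt H (0, 0) := by
    refine ContinuousAt.abs (ContinuousAt.comp (g := Matrix.det)
      (Continuous.matrix_det continuous_id).continuousAt ?_)
    refine continuousAt_pi.2 fun i => continuousAt_pi.2 fun j => ?_
    exact (c3.clm_apply continuousAt_const).clm_apply continuousAt_const
  have c5 : ContinuousAt (fun z : M × M => H (lg e p z.1, lg e q z.2)) (p, q) :=
    ContinuousAt.comp_of_eq (g := H) c4 (c1.prodMk c2) (by simp [h.toGeo.lg_self])
  have c6 : H (lg e p p, lg e q q) ≠ 0 := by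
    have := key p q hd'
    rw [h.toGeo.lg_self, h.toGeo.lg_self, jac_zero h.toGeo, jac_zero h.toGeo, mul_one] at this
    rw [h.toGeo.lg_self, h.toGeo.lg_self]
    exact right_ne_zero_of_mul_eq_one this
  have c7 : ContinuousAt (fun z : M × M =>
      jac e p (lg e p z.1) * jac e q (lg e q z.2) / H (lg e p z.1, lg e q z.2)) (p, q) :=
    (((continuous_jac h.toGeo p).continuousAt.comp c1).mul
      ((continuous_jac h.toGeo q).continuousAt.comp c2)).div c5 c6
  refine c7.congr ?_
  filter_upwards [c5.eventually_ne c6,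
    (isOpen_lt continuous_dist continuous_const).mem_nhds hd] with z h1 h2
  rw [div_eq_iff h1, key z.1 z.2 h2]

theorem Bl.continuousOn_dens (h : Bl e r D) (m : ℕ) :
    ContinuousOn (fun z : M × M => dens e m D z.1 z.2) {z | dist z.1 z.2 < D} :=
  ((continuous_dist.pow m).continuousOn.mul h.continuousOn_th).congr fun _ hz => if_pos hz

theorem Bl.dens_pos (h : Bl e r D) (m : ℕ) {x y : M} (h0 : 0 < dist x y) (hd : dist x y < D) :
    0 < dens e m D x y := by
  rw [dens, if_pos hd]
  exact mul_pos (pow_pos h0 m) (h.th_pos hd)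

theorem Bl.dens_symm (h : Bl e r D) (m : ℕ) (x y : M) : dens e m D x y = dens e m D y x := by
  rw [dens, dens, dist_comm y x]
  split_ifs with hd
  · rw [h.th_symm hd]
  · rfl

theorem Bl.dens_exp (h : Bl e r D) (m : ℕ) {x : M} {a : T x} (ha : ‖a‖ < D) :
    dens e m D x (e x a) = ‖a‖ ^ m * jac e x a := by
  rw [dens, h.min x a ha.le, if_pos ha, th, h.lg_exp' ha]

theorem Bl.measurable_dens [MeasurableSpace M] [BorelSpace M] (h : Bl e r D) (m : ℕ) :
    Measurable fun z : M × M => dens e m D z.1 z.2 := by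
  classical
  have := (h.continuousOn_dens m).measurable_piecewise (g := fun _ => 0) continuousOn_const
    (isOpen_lt continuous_dist continuous_const).measurableSet
  refine (congrArg Measurable (funext fun z => ?_)).mp this
  by_cases hz : dist z.1 z.2 < D
  · exact piecewise_eq_of_mem _ _ _ hz
  · exact (piecewise_eq_of_notMem {z : M × M | dist z.1 z.2 < D} _ _ hz).trans (if_neg hz).symm

end Vale.Agent.P231
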